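import Vale.Agent.P067X.CobPair

/-!
# P067, module COBINDEP: acyclicity of `X^V`; the kernels `N_v` do not depend on `v`; transvections act trivially

PROOF.
`colV`: `trans_V` (transport to `V = F^κ`), `avg_acyc` with `fibV`, `relV` and `Acyc (XX (Fin b) r) q`.
`cobdy_pair`: `trans_pair` transports to `v = e`, `ξ = xi0`: `Cobdy (X^e) k f ↔ Cobdy (section) k f` by `avg_section` (`fibV`, `relV`, and
restriction to the subcomplex), `↔ Cobdy (X^ξ) k f` by `avg_section` (`fibF`, `relF`); the sections agree (`lift_zero`).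
`cobdy_indep`: `v, v'` with independent constant coefficients have a common `ξ` (`exists_xi`); otherwise use a third vector
(`|ι| ≥ 2`, so there is one independent of both when `v_0, v'_0` are proportional).
`triv_XV`: for a transvection `x ↦ x + φ(x) v`, `φ(v) = 0`: transport by `trans_pair` (any `ξ` with `ξ v = 1`) to `v = e`, then it is
`liftV q S ↦ liftV (q + q₀) S`: `avg_translate`.
-/

namespace P067X

open Classical Module

theorem cobdy_indep (k : ℕ) : ∃ p₀ : ℕ, ∀ (p : ℕ) [Fact p.Prime], p₀ ≤ p → ∀ (m : ℕ), 3 ≤ m →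
    ∀ (R : Type) [CommRing R] [Algebra (ZMod p) R] (A : TR p m R)
      (ι : Type) [Fintype ι] [DecidableEq ι] (r : ℕ), 2 * k + 2 ≤ r →
      r + k + 3 ≤ Fintype.card ι →
      ∀ v v' : ι → R, A.vco 0 v ≠ 0 → A.vco 0 v' ≠ 0 →
        ∀ f, Cocyc (A.XX ι r) k f →
          Cobdy (A.XV ι r (Submodule.span (ZMod p) {v})) k f →
          Cobdy (A.XV ι r (Submodule.span (ZMod p) {v'})) k f := by
  obtain ⟨p₀, h₀⟩ := cobdy_pair k
  refine ⟨p₀, ?_⟩
  intro p _ hp m hm R _ _ A ι _ _ r hr hrι
  have key : ∀ v v' : ι → R, LinearIndependent (ZMod p) ![A.vco 0 v, A.vco 0 v'] →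
      ∀ f, Cocyc (A.XX ι r) k f →
        Cobdy (A.XV ι r (Submodule.span (ZMod p) {v})) k f →
        Cobdy (A.XV ι r (Submodule.span (ZMod p) {v'})) k f := by
    intro v v' hvv f hf h
    obtain ⟨ξ, hξ, hξ'⟩ := exists_xi A v v' hvv
    exact (h₀ p hp m hm R A ι r hr hrι v' ξ hξ' f hf).2
      ((h₀ p hp m hm R A ι r hr hrι v ξ hξ f hf).1 h)
  intro v v' hv hv' f hf h
  by_cases hind : LinearIndependent (ZMod p) ![A.vco 0 v, A.vco 0 v']
  · exact key v v' hind f hf h
  · -- a vector independent of both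
    have h1 : ∃ y : ι → ZMod p, y ∉ Submodule.span (ZMod p) {A.vco 0 v} := by
      by_contra hcon
      push Not at hcon
      have h2 : Submodule.span (ZMod p) {A.vco 0 v} = ⊤ := eq_top_iff.2 fun y _ => hcon y
      have h3 : finrank (ZMod p) (Submodule.span (ZMod p) {A.vco 0 v}) = 1 :=
        finrank_span_singleton hv
      rw [h2, finrank_top, Module.finrank_fintype_fun_eq_card] at h3
      omega
    obtain ⟨y, hy⟩ := h1
    have hvy : ∀ a : ZMod p, a • A.vco 0 v ≠ y := fun a ha =>
      hy (Submodule.mem_span_singleton.2 ⟨a, ha⟩)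
    have hw : A.vco 0 (cst R ι y) = y := by
      rw [A.vco_cst]
      simp
    have hi1 : LinearIndependent (ZMod p) ![A.vco 0 v, A.vco 0 (cst R ι y)] := by
      rw [hw]
      exact (LinearIndependent.pair_iff' hv).2 hvy
    -- `v'_0` is a multiple of `v_0`
    obtain ⟨c, hc⟩ : ∃ c : ZMod p, c • A.vco 0 v = A.vco 0 v' := by
      by_contra hcon
      push Not at hcon
      exact hind ((LinearIndependent.pair_iff' hv).2 hcon)
    have hc0 : c ≠ 0 := by
      rintro rfl
      rw [zero_smul] at hc
      exact hv' hc.symm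
    have hi2 : LinearIndependent (ZMod p) ![A.vco 0 (cst R ι y), A.vco 0 v'] := by
      rw [hw]
      have h3 : LinearIndependent (ZMod p) ![A.vco 0 v', y] := by
        refine (LinearIndependent.pair_iff' hv').2 ?_
        intro a ha
        rw [← hc, smul_smul] at ha
        exact hvy _ ha
      exact LinearIndependent.pair_symm_iff.1 h3
    exact key _ _ hi2 f hf (key _ _ hi1 f hf h)

end P067X
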