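import Vale.Agent.P067X.ChainLib

/-!
# P067, module GEN: the double complex argument

PROOF.  Pairs `(c, σ)`: `c` a chain (finset) of `P`, `σ ∈ X a` for all `a ∈ c` and `σ ∈ K`.  Functions `g : Finset α → Finset V → ZMod 2`,
`δ` (in `σ`), `∂` (in `c`), `δ δ = 0`, `∂ ∂ = 0`, `δ ∂ = ∂ δ`.  Columns: for a nonempty chain `c` with largest element `a`,
`{σ | (c, σ) is a pair} = X a`.  Rows: for `σ`, `{c | (c, σ) is a pair} = OC {a ∈ P | σ ∈ X a}`.
`gen_step` (induction on `j`, `i + j = k`): if `∂ g (c, ·)` is a coboundary on `X (max c)` for the chains with `i + 1` elements, then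
`g = ∂ h + δ h'` on the pairs with `|c| = i`, `|σ| = j`.  The case `i = 0`, `g c σ = f σ` is the statement.
-/

namespace P067X

open Classical

section genaux

variable {V α : Type*}

private noncomputable def dS (g : Finset α → Finset V → ZMod 2) :
    Finset α → Finset V → ZMod 2 := fun c σ => cob (g c) σ

private noncomputable def dC (g : Finset α → Finset V → ZMod 2) :
    Finset α → Finset V → ZMod 2 := fun c σ => cob (fun c' => g c' σ) c

private theorem gen_comm (g : Finset α → Finset V → ZMod 2) (c : Finset α) (σ : Finset V) :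
    dS (dC g) c σ = dC (dS g) c σ := by
  unfold dS dC cob
  exact Finset.sum_comm

private theorem gen_SS (g : Finset α → Finset V → ZMod 2) (c : Finset α) (σ : Finset V) :
    dS (dS g) c σ = 0 := cob_cob (g c) σ

private theorem gen_CC (g : Finset α → Finset V → ZMod 2) (c : Finset α) (σ : Finset V) :
    dC (dC g) c σ = 0 := cob_cob (fun c' => g c' σ) c

private theorem gen_S_congr {g g' : Finset α → Finset V → ZMod 2} {c : Finset α} {σ : Finset V}
    (h : ∀ x ∈ σ, g c (σ.erase x) = g' c (σ.erase x)) : dS g c σ = dS g' c σ :=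
  Finset.sum_congr rfl h

private theorem gen_C_congr {g g' : Finset α → Finset V → ZMod 2} {c : Finset α} {σ : Finset V}
    (h : ∀ a ∈ c, g (c.erase a) σ = g' (c.erase a) σ) : dC g c σ = dC g' c σ :=
  Finset.sum_congr rfl h

private theorem gen_S_add (g g' : Finset α → Finset V → ZMod 2) (c : Finset α) (σ : Finset V) :
    dS (fun c σ => g c σ + g' c σ) c σ = dS g c σ + dS g' c σ := Finset.sum_add_distrib

private theorem gen_C_add (g g' : Finset α → Finset V → ZMod 2) (c : Finset α) (σ : Finset V) :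
    dC (fun c σ => g c σ + g' c σ) c σ = dC g c σ + dC g' c σ := Finset.sum_add_distrib

private theorem gen_max [PartialOrder α] {P : Set α} {c : Finset α} (hc : c ∈ OC P)
    (hne : c.Nonempty) : ∃ a ∈ c, ∀ b ∈ c, b ≤ a := by
  obtain ⟨a, ha⟩ := Finset.exists_maximal hne
  refine ⟨a, ha.1, fun b hb => ?_⟩
  rcases eq_or_ne b a with h | h
  · exact h.le
  · rcases hc.2 (Finset.mem_coe.2 hb) (Finset.mem_coe.2 ha.1) h with h1 | h1
    · exact h1
    · exact ha.2 hb h1

private theorem gen_step [PartialOrder α] (K : Set (Finset V)) (hK : IsCx K) (P : Set α)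
    (X : α → Set (Finset V)) (hX : ∀ a ∈ P, IsCx (X a) ∧ X a ⊆ K)
    (hanti : ∀ a ∈ P, ∀ b ∈ P, a ≤ b → X b ⊆ X a) (k : ℕ)
    (hcol : ∀ a ∈ P, ∀ q < k, Acyc (X a) q)
    (hrow : ∀ σ ∈ K, σ.card ≤ k → Acyc (OC {a | a ∈ P ∧ σ ∈ X a}) (k - σ.card)) :
    ∀ j i : ℕ, i + j = k → ∀ g : Finset α → Finset V → ZMod 2,
      (∀ c ∈ OC P, c.card = i + 1 → ∀ a ∈ c, (∀ b ∈ c, b ≤ a) → Cobdy (X a) j (dC g c)) →
      ∃ h h' : Finset α → Finset V → ZMod 2, ∀ c ∈ OC P, ∀ σ ∈ K, (∀ a ∈ c, σ ∈ X a) →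
        c.card = i → σ.card = j → g c σ = dC h c σ + dS h' c σ := by
  intro j
  induction j with
  | zero =>
    intro i hij g hg
    have hi : i = k := by omega
    subst hi
    -- `∂ g = 0` on the chains with `k + 1` elements
    have h1 : ∀ c ∈ OC P, c.card = i + 1 → (∀ a ∈ c, (∅ : Finset V) ∈ X a) → dC g c ∅ = 0 := by
      intro c hc hcc hp
      obtain ⟨a, ha, hmax⟩ := gen_max hc (Finset.card_pos.1 (by omega))
      obtain ⟨w, hw⟩ := hg c hc hcc a ha hmax
      rw [hw ∅ (hp a ha) rfl]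
      simp [cob]
    have hrow0 := hrow ∅ hK.1 (Nat.zero_le _)
    rw [Finset.card_empty, Nat.sub_zero] at hrow0
    obtain ⟨w, hw⟩ := hrow0 (fun c => g c ∅) (by
      intro c hc hcc
      refine h1 c ⟨fun x hx => (hc.1 x hx).1, hc.2⟩ hcc fun a ha => (hc.1 a ha).2)
    refine ⟨fun c _ => w c, fun _ _ => 0, fun c hc σ hσ hp hcc hσc => ?_⟩
    have hσ0 : σ = ∅ := Finset.card_eq_zero.1 hσc
    subst hσ0
    have h2 : g c ∅ = cob w c := hw c ⟨fun x hx => ⟨hc.1 x hx, hp x hx⟩, hc.2⟩ hcc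
    rw [h2]
    simp [dS, dC, cob]
  | succ j ih =>
    intro i hij g hg
    -- choose `g'`
    have hex : ∀ c : Finset α, ∃ w : Finset V → ZMod 2, c ∈ OC P → c.card = i + 1 →
        ∀ σ : Finset V, (∀ a ∈ c, σ ∈ X a) → σ.card = j + 1 → dC g c σ = cob w σ := by
      intro c
      by_cases hc : c ∈ OC P ∧ c.card = i + 1
      · obtain ⟨a, ha, hmax⟩ := gen_max hc.1 (Finset.card_pos.1 (by omega))
        obtain ⟨w, hw⟩ := hg c hc.1 hc.2 a ha hmax
        exact ⟨w, fun _ _ σ hσ hσc => hw σ (hσ a ha) hσc⟩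
      · exact ⟨0, fun h1 h2 => absurd ⟨h1, h2⟩ hc⟩
    choose g' hg' using hex
    have hcx := isCx_OC P
    have hcard : ∀ (c : Finset α) (a : α) (m : ℕ), a ∈ c → c.card = m + 1 → (c.erase a).card = m := by
      intro c a m ha hc
      rw [Finset.card_erase_of_mem ha, hc]
      rfl
    have hcardV : ∀ (c : Finset V) (a : V) (m : ℕ), a ∈ c → c.card = m + 1 → (c.erase a).card = m := by
      intro c a m ha hc
      rw [Finset.card_erase_of_mem ha, hc]
      rfl
    -- the induction hypothesis applies to `g'`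
    obtain ⟨h₁, h₁', hh⟩ := ih (i + 1) (by omega) g' (by
      intro c hc hcc a ha hmax
      have haP := hc.1 a ha
      apply hcol a haP j (by omega)
      intro ρ hρ hρc
      have hpair : ∀ b ∈ c, ρ ∈ X b := fun b hb => hanti b (hc.1 b hb) a haP (hmax b hb) hρ
      have e1 : cob (dC g' c) ρ = dS (dC g') c ρ := rfl
      rw [e1, gen_comm]
      have e2 : dC (dS g') c ρ = dC (dC g) c ρ := by
        apply gen_C_congr
        intro b hb
        exact (hg' (c.erase b) (hcx.2 c hc _ (Finset.erase_subset _ _)) (hcard c b _ hb hcc) ρ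
          (fun a' ha' => hpair a' (Finset.mem_of_mem_erase ha')) hρc).symm
      rw [e2, gen_CC])
    -- the corrected cochain is a cocycle in the direction of chains
    have hrow' : ∀ σ : Finset V, ∃ w : Finset α → ZMod 2, σ ∈ K → σ.card = j + 1 →
        ∀ c ∈ OC P, (∀ a ∈ c, σ ∈ X a) → c.card = i →
          g c σ + dS h₁ c σ = cob w c := by
      intro σ
      by_cases hσ : σ ∈ K ∧ σ.card = j + 1
      · have hr := hrow σ hσ.1 (by omega)
        have hki : k - σ.card = i := by omega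
        rw [hki] at hr
        obtain ⟨w, hw⟩ := hr (fun c => g c σ + dS h₁ c σ) (by
          intro c hc hcc
          have hcP : c ∈ OC P := ⟨fun x hx => (hc.1 x hx).1, hc.2⟩
          have hpair : ∀ b ∈ c, σ ∈ X b := fun b hb => (hc.1 b hb).2
          have e1 : cob (fun c => g c σ + dS h₁ c σ) c = dC g c σ + dC (dS h₁) c σ :=
            gen_C_add g (dS h₁) c σ
          rw [e1, ← gen_comm]
          have e2 : dC g c σ = dS g' c σ := hg' c hcP hcc σ hpair hσ.2
          rw [e2, ← gen_S_add]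
          have e3 : dS (fun c σ => g' c σ + dC h₁ c σ) c σ = dS (dS h₁') c σ := by
            apply gen_S_congr
            intro x hx
            have h5 := hh c hcP (σ.erase x) (hK.2 σ hσ.1 _ (Finset.erase_subset _ _))
              (fun a ha => (hX a (hcP.1 a ha)).1.2 σ (hpair a ha) _ (Finset.erase_subset _ _))
              hcc (hcardV σ x _ hx hσ.2)
            rw [h5]
            have h6 : ∀ a b : ZMod 2, a + b + a = b := by decide
            exact h6 _ _
          rw [e3, gen_SS])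
        refine ⟨w, fun _ _ c hc hp hcc => ?_⟩
        exact hw c ⟨fun x hx => ⟨hc.1 x hx, hp x hx⟩, hc.2⟩ hcc
      · exact ⟨0, fun h1 h2 => absurd ⟨h1, h2⟩ hσ⟩
    choose w hw using hrow'
    refine ⟨fun c σ => w σ c, h₁, fun c hc σ hσ hp hcc hσc => ?_⟩
    have h7 := hw σ hσ hσc c hc hp hcc
    have h8 : dC (fun c σ => w σ c) c σ = cob (w σ) c := rfl
    rw [h8, ← h7]
    have h9 : ∀ a b : ZMod 2, a = a + b + b := by decide
    exact h9 _ _

end genaux

theorem gen_lemma {V α : Type*} [PartialOrder α] (K : Set (Finset V)) (hK : IsCx K) (P : Set α)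
    (X : α → Set (Finset V)) (hX : ∀ a ∈ P, IsCx (X a) ∧ X a ⊆ K)
    (hanti : ∀ a ∈ P, ∀ b ∈ P, a ≤ b → X b ⊆ X a) (k : ℕ)
    (hcol : ∀ a ∈ P, ∀ q < k, Acyc (X a) q)
    (hrow : ∀ σ ∈ K, σ.card ≤ k → Acyc (OC {a | a ∈ P ∧ σ ∈ X a}) (k - σ.card))
    (f : Finset V → ZMod 2) (hf : Cocyc K k f) (hr : ∀ a ∈ P, Cobdy (X a) k f) :
    Cobdy K k f := by
  obtain ⟨h, h', hh⟩ := gen_step K hK P X hX hanti k hcol hrow k 0 (by omega) (fun _ σ => f σ) (by
    intro c hc hcc a ha _
    obtain ⟨b, rfl⟩ := Finset.card_eq_one.1 hcc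
    rw [Finset.mem_singleton] at ha
    subst ha
    obtain ⟨w, hw⟩ := hr a (hc.1 a (Finset.mem_singleton_self a))
    refine ⟨w, fun σ hσ hσc => ?_⟩
    rw [← hw σ hσ hσc]
    simp [dC, cob])
  refine ⟨h' ∅, fun σ hσ hσc => ?_⟩
  have h1 := hh ∅ (isCx_OC P).1 σ hσ (by simp) rfl hσc
  rw [h1]
  simp [dC, dS, cob]

end P067X
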