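import Vale.Agent.P067X.Row
import Vale.Agent.P067X.Gen

/-!
# P067, module GENXX: the poset of the subspaces `V` with `σ ∈ X^V` is acyclic; the double complex for `XX`

PROOF.  `row_acyc`: `σ = ∅`: `E = R^ι`, `J = t R^ι`, `s = k + 2`, `b = False`, `Γ = ⊤`, `H₀ = ⊥`: `acyc_QF`, `Good k` by the first case
(`dim E = n m`, `dim J = n (m-1)`).  `σ` nonempty, with smallest vertex `S₁` and largest vertex `S_l`: `V ≤ S₁`, `V ⊓ KK S_l = ⊥` (`KK_adj`),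
and `V ⊓ t R^ι = ⊥` follows (`S₁ ⊓ t R^ι ≤ KK S_l`): the poset is isomorphic to `QF (comap (KK S_l)) (k+2) False ⊤ ⊥` in `E = ↥S₁`,
`dim S₁ ≥ n`, codimension of `KK S_l ⊓ S₁` in `S₁` at least `n - r` (`S₁ = g(F^n + t U₁)`, `KK S_l = g(U_l + t U_l)`).
`gen_XX`: `gen_lemma` with `X V = XV V`.
-/

namespace P067X

open Classical Module

theorem gen_XX (k : ℕ) : ∃ p₀ : ℕ, ∀ (p : ℕ) [Fact p.Prime], p₀ ≤ p → ∀ (m : ℕ), 3 ≤ m →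
    ∀ (R : Type) [CommRing R] [Algebra (ZMod p) R] (A : TR p m R)
      (ι : Type) [Fintype ι] [DecidableEq ι] (r : ℕ), r + 2 * k + 4 ≤ Fintype.card ι →
      (∀ V ∈ PP A ι k, ∀ q < k, Acyc (A.XV ι r V) q) →
      ∀ f, Cocyc (A.XX ι r) k f → (∀ V ∈ PP A ι k, Cobdy (A.XV ι r V) k f) →
        Cobdy (A.XX ι r) k f := by
  obtain ⟨p₀, hp₀⟩ := row_acyc k
  refine ⟨p₀, fun p _ hp m hm R _ _ A ι _ _ r hr hcol f hf hc => ?_⟩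
  have hcx := isCx_XX (ι := ι) A r
  refine gen_lemma (A.XX ι r) hcx (PP A ι k) (A.XV ι r) ?_ ?_ k hcol ?_ f hf hc
  · intro V _
    refine ⟨⟨⟨hcx.1, fun x hx => absurd hx (Finset.notMem_empty x)⟩, ?_⟩, fun σ hσ => hσ.1⟩
    intro σ hσ τ hτ
    exact ⟨hcx.2 σ hσ.1 τ hτ, fun x hx => hσ.2 x (hτ hx)⟩
  · intro V _ V' _ hle σ hσ
    refine ⟨hσ.1, fun S hS => ?_⟩
    obtain ⟨h1, h2⟩ := hσ.2 S hS
    exact ⟨hle.trans h1, le_bot_iff.1 (h2 ▸ inf_le_inf_right _ hle)⟩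
  · intro σ hσ _
    have h1 : {V | V ∈ PP A ι k ∧ σ ∈ A.XV ι r V} =
        {V | V ∈ PP A ι k ∧ ∀ S ∈ σ, V ≤ S ∧ V ⊓ A.KK S = ⊥} := by
      ext V
      exact ⟨fun h => ⟨h.1, h.2.2⟩, fun h => ⟨h.1, hσ, h.2⟩⟩
    rw [h1]
    exact hp₀ p hp m hm R A ι r hr σ hσ (k - σ.card) (by omega)

end P067X
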