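import Vale.Agent.P067X.Group

/-!
# P067, module SLGEN: generation of `SL_ι(R)` by transvections, the congruence subgroup has odd order

PROOF.  `R` is local (`TR.isUnit_iff`).  Gaussian elimination: induction on `|ι|` (or reduce to `Fin n`): some entry of the last column is a unit;
by transvections make the last column and row standard, determinant `1`.  Alternatively only the congruence subgroup (`g ≡ 1` mod `t`) is needed
(`sl_gen_cong`): all diagonal pivots are units.
`card_cong_odd`: an element of order two in the congruence subgroup: `g = 1 + t M`, `g² = 1` gives `t M (2 + t M) = 0`, `2 + t M` is invertible; Cauchy.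
-/

namespace P067X

open Classical Module

section sgl

variable {R : Type} [CommRing R] {ι : Type} [Fintype ι] [DecidableEq ι]

/-- the matrix adding multiples of row `k` to the other rows -/
private def sgC (k : ι) (w : ι → R) : Matrix ι ι R :=
  Matrix.of fun i j => (if i = j then 1 else 0) + (if j = k then w i else 0)

private theorem sgC_mul (k : ι) (w : ι → R) (M : Matrix ι ι R) (i j : ι) :
    (sgC k w * M) i j = M i j + w i * M k j := by
  rw [Matrix.mul_apply]
  simp only [sgC, Matrix.of_apply, add_mul, ite_mul, one_mul, zero_mul, Finset.sum_add_distrib,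
    Finset.sum_ite_eq, Finset.sum_ite_eq', Finset.mem_univ, if_true]

private theorem mul_sgC_transpose (k : ι) (z : ι → R) (M : Matrix ι ι R) (i j : ι) :
    (M * (sgC k z).transpose) i j = M i j + z j * M i k := by
  have h : M * (sgC k z).transpose = (sgC k z * M.transpose).transpose := by
    rw [Matrix.transpose_mul, Matrix.transpose_transpose]
  rw [h, Matrix.transpose_apply, sgC_mul, Matrix.transpose_apply, Matrix.transpose_apply]

private theorem sgC_mul_sgC (k : ι) (w w' : ι → R) (hw' : w' k = 0) :
    sgC k w * sgC k w' = sgC k (w + w') := by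
  ext i j
  rw [sgC_mul]
  simp only [sgC, Matrix.of_apply, Pi.add_apply]
  by_cases hj : j = k
  · subst hj
    simp only [if_true, hw']
    ring
  · rw [if_neg hj, if_neg hj, if_neg (Ne.symm hj), if_neg hj]
    ring

private theorem sgC_zero (k : ι) : sgC k (0 : ι → R) = 1 := by
  ext i j
  simp [sgC, Matrix.one_apply]

private theorem sgC_single (k a : ι) (c : R) :
    sgC k (Pi.single a c) = Matrix.transvection a k c := by
  ext i j
  simp only [sgC, Matrix.of_apply, Matrix.transvection, Matrix.add_apply, Matrix.one_apply,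
    Matrix.single_apply, Pi.single_apply]
  by_cases hj : j = k
  · subst hj
    by_cases hi : i = a
    · subst hi
      simp
    · have h2 : ¬(a = i ∧ j = j) := fun h => hi h.1.symm
      rw [if_pos rfl, if_neg hi, if_neg h2]
  · have h2 : ¬(a = i ∧ k = j) := fun h => hj h.2.symm
    rw [if_neg hj, if_neg h2]

variable {Q : Matrix ι ι R → Prop}

private theorem sgQ_C (h1 : Q 1) (hmul : ∀ M N, Q M → Q N → Q (M * N))
    (ht : ∀ i j c, i ≠ j → Q (Matrix.transvection i j c)) (k : ι) (w : ι → R) (hw : w k = 0) :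
    Q (sgC k w) := by
  have key : ∀ S : Finset ι, Q (sgC k (fun i => if i ∈ S then w i else 0)) := by
    intro S
    induction S using Finset.induction_on with
    | empty =>
      have : (fun i => if i ∈ (∅ : Finset ι) then w i else 0) = (0 : ι → R) := by
        funext i
        simp
      rw [this, sgC_zero]
      exact h1
    | insert a S ha ih =>
      by_cases hak : a = k
      · have : (fun i => if i ∈ insert a S then w i else 0) =
            (fun i => if i ∈ S then w i else 0) := by
          funext i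
          by_cases hi : i = a
          · subst hi
            subst hak
            rw [if_pos (Finset.mem_insert_self _ _), if_neg ha, hw]
          · simp [Finset.mem_insert, hi]
        rw [this]
        exact ih
      · have h2 : (fun i => if i ∈ insert a S then w i else 0) =
            (fun i => if i ∈ S then w i else 0) + Pi.single a (w a) := by
          funext i
          rw [Pi.add_apply]
          by_cases hi : i = a
          · subst hi
            rw [if_pos (Finset.mem_insert_self _ _), if_neg ha, Pi.single_eq_same, zero_add]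
          · rw [Pi.single_eq_of_ne hi, add_zero]
            simp [Finset.mem_insert, hi]
        rw [h2, ← sgC_mul_sgC k _ _ (by rw [Pi.single_eq_of_ne (Ne.symm hak)]), sgC_single]
        exact hmul _ _ ih (ht _ _ _ hak)
  have := key Finset.univ
  simpa using this

private theorem sgQ_Ct (h1 : Q 1) (hmul : ∀ M N, Q M → Q N → Q (M * N))
    (ht : ∀ i j c, i ≠ j → Q (Matrix.transvection i j c)) (k : ι) (w : ι → R) (hw : w k = 0) :
    Q (sgC k w).transpose := by
  refine sgQ_C (Q := fun M => Q M.transpose) ?_ ?_ ?_ k w hw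
  · show Q (1 : Matrix ι ι R).transpose
    rw [Matrix.transpose_one]
    exact h1
  · intro M N hM hN
    show Q (M * N).transpose
    rw [Matrix.transpose_mul]
    exact hmul _ _ hN hM
  · intro i j c hij
    show Q (Matrix.transvection i j c).transpose
    have : (Matrix.transvection i j c).transpose = Matrix.transvection j i c := by
      rw [Matrix.transvection, Matrix.transvection, Matrix.transpose_add, Matrix.transpose_one,
        Matrix.transpose_single]
    rw [this]
    exact ht _ _ _ hij.symm

/-- the state of the elimination -/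
private def sgGood (I : Ideal R) (M : Matrix ι ι R) (T : Finset ι) : Prop :=
  (∀ i j, M i j - (if i = j then 1 else 0) ∈ I) ∧
    ∀ i ∈ T, ∀ j, M i j = (if i = j then 1 else 0) ∧ M j i = (if j = i then 1 else 0)

private theorem sg_row {T : Finset ι} {M : Matrix ι ι R}
    (hM : ∀ i ∈ T, ∀ j, M i j = (if i = j then 1 else 0) ∧ M j i = (if j = i then 1 else 0))
    (k : ι) (hk : k ∉ T) (w : ι → R) (hw : ∀ i ∈ T, w i = 0) :
    ∀ i ∈ T, ∀ j, (sgC k w * M) i j = (if i = j then 1 else 0) ∧
      (sgC k w * M) j i = (if j = i then 1 else 0) := by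
  intro i hi j
  rw [sgC_mul, sgC_mul, hw i hi, zero_mul, add_zero]
  refine ⟨(hM i hi j).1, ?_⟩
  rw [(hM i hi j).2, (hM i hi k).2, if_neg (ne_of_mem_of_not_mem hi hk).symm, mul_zero, add_zero]

private theorem sg_col {T : Finset ι} {M : Matrix ι ι R}
    (hM : ∀ i ∈ T, ∀ j, M i j = (if i = j then 1 else 0) ∧ M j i = (if j = i then 1 else 0))
    (k : ι) (hk : k ∉ T) (z : ι → R) (hz : ∀ i ∈ T, z i = 0) :
    ∀ i ∈ T, ∀ j, (M * (sgC k z).transpose) i j = (if i = j then 1 else 0) ∧
      (M * (sgC k z).transpose) j i = (if j = i then 1 else 0) := by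
  intro i hi j
  rw [mul_sgC_transpose, mul_sgC_transpose, hz i hi, zero_mul, add_zero]
  refine ⟨?_, (hM i hi j).2⟩
  rw [(hM i hi j).1, (hM i hi k).1, if_neg (ne_of_mem_of_not_mem hi hk), mul_zero, add_zero]

private theorem sgC_neg_mul (k : ι) (w : ι → R) (hw : w k = 0) (M : Matrix ι ι R) :
    sgC k (-w) * (sgC k w * M) = M := by
  rw [← mul_assoc, sgC_mul_sgC k _ _ hw, neg_add_cancel, sgC_zero, one_mul]

private theorem mul_sgCt_neg (k : ι) (z : ι → R) (hz : z k = 0) (M : Matrix ι ι R) :
    M * (sgC k z).transpose * (sgC k (-z)).transpose = M := by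
  have h : (-z) k + z k = 0 := by rw [Pi.neg_apply, hz]; simp
  rw [mul_assoc, ← Matrix.transpose_mul, sgC_mul_sgC k _ _ hz, neg_add_cancel, sgC_zero,
    Matrix.transpose_one, mul_one]

private theorem sg_step (I : Ideal R) (hI : ∀ x ∈ I, IsUnit (1 + x)) (h1 : Q 1)
    (hmul : ∀ M N, Q M → Q N → Q (M * N))
    (ht : ∀ i j c, i ≠ j → Q (Matrix.transvection i j c)) (M : Matrix ι ι R) (T : Finset ι)
    (hM : sgGood I M T) {k l : ι} (hk : k ∉ T) (hl : l ∉ T) (hkl : k ≠ l) :
    ∃ M', sgGood I M' (insert k T) ∧ (Q M' → Q M) ∧ (M.det = 1 → M'.det = 1) := by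
  obtain ⟨hMI, hMT⟩ := hM
  have hkk : M k k - 1 ∈ I := by
    have := hMI k k
    rwa [if_pos rfl] at this
  have hlk : M l k ∈ I := by
    have := hMI l k
    rwa [if_neg hkl.symm, sub_zero] at this
  obtain ⟨v, hv⟩ : ∃ v, v * M k k = 1 := by
    have h2 := hI _ hkk
    rw [add_sub_cancel] at h2
    obtain ⟨x, hx⟩ := h2
    exact ⟨x⁻¹.1, by rw [← hx]; exact x.inv_mul⟩
  have hvI : v - 1 ∈ I := by
    have : v - 1 = -(v * (M k k - 1)) := by
      rw [mul_sub, hv]
      ring
    rw [this]
    exact I.neg_mem (I.mul_mem_left _ hkk)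
  set c := v * (1 - M l k) with hc
  have hcI : c - 1 ∈ I := by
    have : c - 1 = (v - 1) - v * M l k := by
      rw [hc]
      ring
    rw [this]
    exact I.sub_mem hvI (I.mul_mem_left _ hlk)
  have hck : M l k + c * M k k = 1 := by
    have : c * M k k = (1 - M l k) * (v * M k k) := by rw [hc]; ring
    rw [this, hv]
    ring
  -- the three first operations
  set w1 : ι → R := Pi.single l c with hw1
  set w2 : ι → R := Pi.single k (1 - M k k) with hw2
  set w3 : ι → R := Pi.single l (-1) with hw3
  have hw1k : w1 k = 0 := by rw [hw1, Pi.single_eq_of_ne hkl]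
  have hw2l : w2 l = 0 := by rw [hw2, Pi.single_eq_of_ne hkl.symm]
  have hw3k : w3 k = 0 := by rw [hw3, Pi.single_eq_of_ne hkl]
  set M1 := sgC k w1 * M with hM1
  set M2 := sgC l w2 * M1 with hM2
  set M3 := sgC k w3 * M2 with hM3
  have hT1 : ∀ i ∈ T, ∀ j, M1 i j = (if i = j then 1 else 0) ∧
      M1 j i = (if j = i then 1 else 0) := sg_row hMT k hk w1 (fun i hi => by
    rw [hw1, Pi.single_eq_of_ne (ne_of_mem_of_not_mem hi hl)])
  have hT2 : ∀ i ∈ T, ∀ j, M2 i j = (if i = j then 1 else 0) ∧
      M2 j i = (if j = i then 1 else 0) := sg_row hT1 l hl w2 (fun i hi => by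
    rw [hw2, Pi.single_eq_of_ne (ne_of_mem_of_not_mem hi hk)])
  have hT3 : ∀ i ∈ T, ∀ j, M3 i j = (if i = j then 1 else 0) ∧
      M3 j i = (if j = i then 1 else 0) := sg_row hT2 k hk w3 (fun i hi => by
    rw [hw3, Pi.single_eq_of_ne (ne_of_mem_of_not_mem hi hl)])
  have e1l : ∀ j, M1 l j = M l j + c * M k j := by
    intro j
    rw [hM1, sgC_mul, hw1, Pi.single_eq_same]
  have e1 : ∀ i, i ≠ l → ∀ j, M1 i j = M i j := by
    intro i hi j
    rw [hM1, sgC_mul, hw1, Pi.single_eq_of_ne hi, zero_mul, add_zero]
  have e2k : ∀ j, M2 k j = M k j + (1 - M k k) * (M l j + c * M k j) := by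
    intro j
    rw [hM2, sgC_mul, hw2, Pi.single_eq_same, e1l, e1 k hkl]
  have e2 : ∀ i, i ≠ k → ∀ j, M2 i j = M1 i j := by
    intro i hi j
    rw [hM2, sgC_mul, hw2, Pi.single_eq_of_ne hi, zero_mul, add_zero]
  have e3l : ∀ j, M3 l j = M l j + c * M k j - M2 k j := by
    intro j
    rw [hM3, sgC_mul, hw3, Pi.single_eq_same, e2 l hkl.symm, e1l]
    ring
  have e3k : ∀ j, M3 k j = M2 k j := by
    intro j
    rw [hM3, sgC_mul, hw3k, zero_mul, add_zero]
  have e3 : ∀ i, i ≠ k → i ≠ l → ∀ j, M3 i j = M i j := by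
    intro i hi hi' j
    rw [hM3, sgC_mul, hw3, Pi.single_eq_of_ne hi', zero_mul, add_zero, e2 i hi, e1 i hi']
  have h3kk : M3 k k = 1 := by
    rw [e3k, e2k, hck]
    ring
  have hM3I : ∀ i j, M3 i j - (if i = j then 1 else 0) ∈ I := by
    intro i j
    have hk1 : ∀ j, M2 k j - M k j ∈ I := by
      intro j
      rw [e2k, add_sub_cancel_left]
      refine I.mul_mem_right _ ?_
      have : 1 - M k k = -(M k k - 1) := by ring
      rw [this]
      exact I.neg_mem hkk
    by_cases hi : i = k
    · subst hi
      rw [e3k]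
      have := I.add_mem (hk1 j) (hMI i j)
      rwa [sub_add_sub_cancel] at this
    · by_cases hi' : i = l
      · subst hi'
        rw [e3l]
        have h5 : M i j + c * M k j - M2 k j - (if i = j then 1 else 0) =
            (M i j - (if i = j then 1 else 0)) + (c - 1) * M k j - (M2 k j - M k j) := by ring
        rw [h5]
        exact I.sub_mem (I.add_mem (hMI i j) (I.mul_mem_right _ hcI)) (hk1 j)
      · rw [e3 i hi hi']
        exact hMI i j
  -- clear the column
  set w4 : ι → R := fun i => if i = k then 0 else - M3 i k with hw4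
  have hw4k : w4 k = 0 := by rw [hw4]; simp
  have hw4' : ∀ i, i ≠ k → w4 i = - M3 i k := fun i hi => by
    rw [hw4]
    exact if_neg hi
  set M4 := sgC k w4 * M3 with hM4
  have hT4 : ∀ i ∈ T, ∀ j, M4 i j = (if i = j then 1 else 0) ∧
      M4 j i = (if j = i then 1 else 0) := sg_row hT3 k hk w4 (fun i hi => by
    have hik : i ≠ k := ne_of_mem_of_not_mem hi hk
    rw [hw4' i hik, (hT3 i hi k).1, if_neg hik, neg_zero])
  have hw4I : ∀ i, w4 i ∈ I := by
    intro i
    by_cases hi : i = k
    · rw [hi, hw4k]
      exact I.zero_mem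
    · rw [hw4' i hi]
      have := hM3I i k
      rw [if_neg hi, sub_zero] at this
      exact I.neg_mem this
  have e4 : ∀ i j, M4 i j = M3 i j + w4 i * M3 k j := fun i j => sgC_mul _ _ _ _ _
  have e4k : ∀ j, M4 k j = M3 k j := by
    intro j
    rw [e4, hw4k, zero_mul, add_zero]
  have h4ik : ∀ i, M4 i k = if i = k then 1 else 0 := by
    intro i
    by_cases hi : i = k
    · subst hi
      rw [e4k, h3kk, if_pos rfl]
    · rw [e4, hw4' i hi, h3kk, if_neg hi]
      ring
  have hM4I : ∀ i j, M4 i j - (if i = j then 1 else 0) ∈ I := by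
    intro i j
    rw [e4]
    have h5 : M3 i j + w4 i * M3 k j - (if i = j then 1 else 0) =
        (M3 i j - (if i = j then 1 else 0)) + w4 i * M3 k j := by ring
    rw [h5]
    exact I.add_mem (hM3I i j) (I.mul_mem_right _ (hw4I i))
  -- clear the row
  set z : ι → R := fun j => if j = k then 0 else - M4 k j with hz
  have hzk : z k = 0 := by rw [hz]; simp
  have hz' : ∀ i, i ≠ k → z i = - M4 k i := fun i hi => by
    rw [hz]
    exact if_neg hi
  set M5 := M4 * (sgC k z).transpose with hM5
  have hT5 : ∀ i ∈ T, ∀ j, M5 i j = (if i = j then 1 else 0) ∧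
      M5 j i = (if j = i then 1 else 0) := sg_col hT4 k hk z (fun i hi => by
    have hik : i ≠ k := ne_of_mem_of_not_mem hi hk
    rw [hz' i hik, (hT4 i hi k).2, if_neg hik.symm, neg_zero])
  have hzI : ∀ i, z i ∈ I := by
    intro i
    by_cases hi : i = k
    · rw [hi, hzk]
      exact I.zero_mem
    · rw [hz' i hi]
      have := hM4I k i
      rw [if_neg (Ne.symm hi), sub_zero] at this
      exact I.neg_mem this
  have e5 : ∀ i j, M5 i j = M4 i j + z j * M4 i k := fun i j => mul_sgC_transpose _ _ _ _ _
  refine ⟨M5, ⟨?_, ?_⟩, ?_, ?_⟩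
  · intro i j
    rw [e5]
    have h5 : M4 i j + z j * M4 i k - (if i = j then 1 else 0) =
        (M4 i j - (if i = j then 1 else 0)) + z j * M4 i k := by ring
    rw [h5]
    exact I.add_mem (hM4I i j) (I.mul_mem_right _ (hzI j))
  · intro i hi j
    rw [Finset.mem_insert] at hi
    rcases hi with hi | hi
    · subst hi
      constructor
      · rw [e5, h4ik, if_pos rfl, mul_one]
        by_cases hj : j = i
        · subst hj
          rw [hzk, add_zero, h4ik]
        · rw [hz' j hj, if_neg (Ne.symm hj)]
          ring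
      · rw [e5, hzk, zero_mul, add_zero, h4ik]
    · exact hT5 i hi j
  · intro hQ
    have a1 : M4 = M5 * (sgC k (-z)).transpose := (mul_sgCt_neg k z hzk M4).symm
    have a2 : M3 = sgC k (-w4) * M4 := (sgC_neg_mul k w4 hw4k M3).symm
    have a3 : M2 = sgC k (-w3) * M3 := (sgC_neg_mul k w3 hw3k M2).symm
    have a4 : M1 = sgC l (-w2) * M2 := (sgC_neg_mul l w2 hw2l M1).symm
    have a5 : M = sgC k (-w1) * M1 := (sgC_neg_mul k w1 hw1k M).symm
    have b1 : Q M4 := by
      rw [a1]
      exact hmul _ _ hQ (sgQ_Ct h1 hmul ht k _ (by rw [Pi.neg_apply, hzk, neg_zero]))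
    have b2 : Q M3 := by
      rw [a2]
      exact hmul _ _ (sgQ_C h1 hmul ht k _ (by rw [Pi.neg_apply, hw4k, neg_zero])) b1
    have b3 : Q M2 := by
      rw [a3]
      exact hmul _ _ (sgQ_C h1 hmul ht k _ (by rw [Pi.neg_apply, hw3k, neg_zero])) b2
    have b4 : Q M1 := by
      rw [a4]
      exact hmul _ _ (sgQ_C h1 hmul ht l _ (by rw [Pi.neg_apply, hw2l, neg_zero])) b3
    rw [a5]
    exact hmul _ _ (sgQ_C h1 hmul ht k _ (by rw [Pi.neg_apply, hw1k, neg_zero])) b4
  · intro hdet
    have hd : ∀ (k : ι) (w : ι → R), w k = 0 → (sgC k w).det = 1 := fun k w hw =>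
      sgQ_C (Q := fun M => M.det = 1) Matrix.det_one
        (fun M N hM hN => by rw [Matrix.det_mul, hM, hN, mul_one])
        (fun i j c hij => Matrix.det_transvection_of_ne i j hij c) k w hw
    rw [hM5, hM4, hM3, hM2, hM1, Matrix.det_mul, Matrix.det_mul, Matrix.det_mul, Matrix.det_mul,
      Matrix.det_mul, Matrix.det_transpose, hd _ _ hzk, hd _ _ hw4k, hd _ _ hw3k, hd _ _ hw2l,
      hd _ _ hw1k, hdet]
    simp

private theorem sg_main (I : Ideal R) (hI : ∀ x ∈ I, IsUnit (1 + x)) (h1 : Q 1)
    (hmul : ∀ M N, Q M → Q N → Q (M * N))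
    (ht : ∀ i j c, i ≠ j → Q (Matrix.transvection i j c)) : ∀ (s : ℕ) (M : Matrix ι ι R)
    (T : Finset ι), (Finset.univ \ T).card = s → sgGood I M T → M.det = 1 → Q M := by
  intro s
  induction s using Nat.strong_induction_on with
  | _ s ih =>
  intro M T hs hM hdet
  by_cases hex : ∃ k l : ι, k ∉ T ∧ l ∉ T ∧ k ≠ l
  · obtain ⟨k, l, hk, hl, hkl⟩ := hex
    obtain ⟨M', hM', hQ, hd⟩ := sg_step I hI h1 hmul ht M T hM hk hl hkl
    refine hQ (ih _ ?_ M' (insert k T) rfl hM' (hd hdet))
    rw [← hs]
    refine Finset.card_lt_card ?_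
    rw [Finset.ssubset_iff_of_subset]
    · exact ⟨k, by simp [hk], by simp⟩
    · intro x hx
      simp only [Finset.mem_sdiff, Finset.mem_univ, true_and, Finset.mem_insert] at hx ⊢
      exact fun h => hx (Or.inr h)
  · push Not at hex
    have hoff : ∀ i j, i ≠ j → M i j = 0 := by
      intro i j hij
      by_cases hi : i ∈ T
      · rw [(hM.2 i hi j).1, if_neg hij]
      · by_cases hj : j ∈ T
        · rw [(hM.2 j hj i).2, if_neg hij]
        · exact absurd (hex i j hi hj) hij
    have hdiag : M = Matrix.diagonal fun i => M i i := by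
      ext i j
      by_cases hij : i = j
      · subst hij
        rw [Matrix.diagonal_apply_eq]
      · rw [Matrix.diagonal_apply_ne _ hij, hoff i j hij]
    have hone : ∀ i, M i i = 1 := by
      intro i
      by_cases hi : i ∈ T
      · rw [(hM.2 i hi i).1, if_pos rfl]
      · rw [hdiag, Matrix.det_diagonal, Finset.prod_eq_single i] at hdet
        · exact hdet
        · intro j _ hji
          have hj : j ∈ T := by
            by_contra hj
            exact hji (hex j i hj hi)
          rw [(hM.2 j hj j).1, if_pos rfl]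
        · intro h
          exact absurd (Finset.mem_univ i) h
    have : M = 1 := by
      rw [hdiag, ← Matrix.diagonal_one]
      congr 1
      funext i
      exact hone i
    rw [this]
    exact h1

end sgl

variable {p m : ℕ} [Fact p.Prime] {R : Type} [CommRing R] [Algebra (ZMod p) R]
  {ι : Type} [Fintype ι] [DecidableEq ι]

/-- a property of matrices closed under products which holds for transvections holds for the congruence subgroup -/
theorem sl_gen_cong (A : TR p m R) (P : Matrix ι ι R → Prop) (h1 : P 1)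
    (hmul : ∀ M N, M.det = 1 → N.det = 1 → P M → P N → P (M * N))
    (ht : ∀ i j c, i ≠ j → P (Matrix.transvection i j c))
    (g : Matrix.SpecialLinearGroup ι R) (hg : g ∈ A.cong ι) : P g.1 := by
  let I : Ideal R :=
    { carrier := {x | A.co 0 x = 0}
      add_mem' := by
        intro a b ha hb
        show A.co 0 (a + b) = 0
        rw [map_add, show A.co 0 a = 0 from ha, show A.co 0 b = 0 from hb, add_zero]
      zero_mem' := map_zero _
      smul_mem' := by
        intro c x hx
        show A.co 0 (c * x) = 0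
        rw [A.co_zero_mul, show A.co 0 x = 0 from hx, mul_zero] }
  have hI : ∀ x ∈ I, IsUnit (1 + x) := by
    intro x hx
    rw [A.isUnit_iff, map_add, A.co_one, if_pos rfl, show A.co 0 x = 0 from hx, add_zero]
    exact one_ne_zero
  refine (sg_main (Q := fun M => M.det = 1 ∧ P M) I hI ⟨Matrix.det_one, h1⟩ ?_ ?_ _ g.1 ∅ rfl
    ⟨?_, ?_⟩ g.2).2
  · rintro M N ⟨hM, hM'⟩ ⟨hN, hN'⟩
    exact ⟨by rw [Matrix.det_mul, hM, hN, mul_one], hmul _ _ hM hN hM' hN'⟩
  · intro i j c hij
    exact ⟨Matrix.det_transvection_of_ne i j hij c, ht i j c hij⟩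
  · intro i j
    show A.co 0 (g.1 i j - (if i = j then 1 else 0)) = 0
    rw [map_sub, hg i j]
    split_ifs
    · rw [A.co_one, if_pos rfl, sub_self]
    · rw [map_zero, sub_zero]
  · intro i hi
    exact absurd hi (Finset.notMem_empty i)

end P067X
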