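import Vale.Agent.P067X.TrivXV
import Vale.Agent.P067X.CobIndep
import Vale.Agent.P067X.GenXX
import Vale.Agent.P067X.SlGen

/-!
# P067, module ACTTRIV: the cohomology of `XX` vanishes

PROOF.
`act_trivial`: let `f` be a cocycle on faces with `k` vertices, `g` a transvection; `f + g^* f` is a coboundary on `X^{e_i}` (`triv_XV`), hence on all `X^v` (`cobdy_indep`),
hence on all `X^V`, `V ∈ PP` (`V` contains a `v` with `v_0 ≠ 0`, `X^V ⊆ X^v`), hence on `XX` (`gen_XX`).  Products: `sl_gen_cong`.
`inv_cobdy`: for a cocycle `F` invariant under the congruence group: `ψ(σ) = 0` if `σ` has a vertex of type `0`, and otherwise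
`ψ(σ) = F(insert S₀ σ)` for any vertex `S₀` of type `0` with `insert S₀ σ` a face; this does not depend on `S₀`: two faces `ρ, ρ'` with the same
vertices of type `≠ 0` and both with a vertex of type `0` differ by an element of the congruence group (`TR.cong_decomp`, `std_map_const`: a face is `γ {std W_i}`,
`γ ∈ cong`, `W_i = {vco 0 v : v ∈ lev S_i 0}`).  Then `F = cob ψ`.
`vanish`: induction on `k`; `k = 0`: `XX` has a vertex.  `k ≥ 1`: `colV` (with the induction hypothesis) gives the hypothesis of `act_trivial`; for a cocycle `f`: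
`f ∼ |G| f ∼ ∑_{g ∈ G} g^* f = F`, `G` the congruence group, `F` is invariant, so `F` is a coboundary.
(`n - (k+2) ≥ r + k²+...`: with `n ≥ r + (k+3)²`, `n - (k+2) ≥ r + (k+2)²`.)
-/

namespace P067X

open Classical Module

private theorem act_cob_image {p : ℕ} [Fact p.Prime] {R : Type} [CommRing R]
    [Algebra (ZMod p) R] {ι : Type} [Fintype ι] [DecidableEq ι] (M : Matrix ι ι R)
    (hinj : Function.Injective (fun S : Submodule (ZMod p) (ι → R) => S.map (gm p M)))
    (f : Finset (Submodule (ZMod p) (ι → R)) → ZMod 2)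
    (ρ : Finset (Submodule (ZMod p) (ι → R))) :
    cob (fun σ => f (σ.image (fun S => S.map (gm p M)))) ρ =
      cob f (ρ.image (fun S => S.map (gm p M))) := by
  unfold cob
  rw [Finset.sum_image (fun x _ y _ h => hinj h)]
  refine Finset.sum_congr rfl fun x _ => ?_
  show f ((ρ.erase x).image (fun S => S.map (gm p M))) = _
  rw [Finset.image_erase hinj]
  rfl

theorem act_trivial (k : ℕ) : ∃ p₀ : ℕ, ∀ (p : ℕ) [Fact p.Prime], p₀ ≤ p → ∀ (m : ℕ), 3 ≤ m →
    ∀ (R : Type) [CommRing R] [Algebra (ZMod p) R] (A : TR p m R)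
      (ι : Type) [Fintype ι] [DecidableEq ι] (r : ℕ), 2 * k + 2 ≤ r →
      r + 2 * k + 4 ≤ Fintype.card ι →
      (∀ V ∈ PP A ι k, ∀ q < k, Acyc (A.XV ι r V) q) →
      ∀ g ∈ A.cong ι, ∀ f, Cocyc (A.XX ι r) k f →
        Cobdy (A.XX ι r) k (fun τ => f τ + f (τ.image (fun S => S.map (gm p g.1)))) := by
  obtain ⟨p₁, h₁⟩ := triv_XV k
  obtain ⟨p₂, h₂⟩ := cobdy_indep k
  obtain ⟨p₃, h₃⟩ := gen_XX k
  refine ⟨p₁ + p₂ + p₃, ?_⟩
  intro p _ hp m hm R _ _ A ι _ _ r hr hι hcol g hg
  refine sl_gen_cong A (fun M => ∀ f, Cocyc (A.XX ι r) k f →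
        Cobdy (A.XX ι r) k (fun τ => f τ + f (τ.image (fun S => S.map (gm p M))))) ?_ ?_ ?_ g hg
  · intro f _
    refine ⟨0, fun σ _ _ => ?_⟩
    have e1 : σ.image (fun S => S.map (gm p (1 : Matrix ι ι R))) = σ := by
      have : (fun S : Submodule (ZMod p) (ι → R) => S.map (gm p (1 : Matrix ι ι R))) = id := by
        funext S
        exact map_gm_one S
      rw [this, Finset.image_id]
    show f σ + f (σ.image (fun S => S.map (gm p (1 : Matrix ι ι R)))) = _
    rw [e1]
    have : ∀ x : ZMod 2, x + x = 0 := by decide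
    rw [this]
    simp [cob]
  · intro M N hM hN PM PN f hf
    obtain ⟨a, ha⟩ := PM f hf
    obtain ⟨b, hb⟩ := PN f hf
    have hNmap : ∀ τ ∈ A.XX ι r, τ.image (fun S => S.map (gm p N)) ∈ A.XX ι r := by
      intro τ hτ
      exact (XX_map A r ⟨N, hN⟩ τ).2 hτ
    have hNinj : Function.Injective
        (fun S : Submodule (ZMod p) (ι → R) => S.map (gm p N)) :=
      map_gm_injective (p := p) (⟨N, hN⟩ : Matrix.SpecialLinearGroup ι R)
    refine ⟨fun σ => b σ + a (σ.image (fun S => S.map (gm p N))), fun σ hσ hc => ?_⟩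
    have e1 : σ.image (fun S => S.map (gm p (M * N))) =
        (σ.image (fun S => S.map (gm p N))).image (fun S => S.map (gm p M)) := by
      rw [Finset.image_image]
      refine Finset.image_congr fun S _ => ?_
      exact map_gm_mul M N S
    have e2 := hb σ hσ hc
    have e3 := ha _ (hNmap σ hσ) (by rw [Finset.card_image_of_injective _ hNinj, hc])
    have e4 := act_cob_image N hNinj a σ
    rw [cob_add, e4, ← e2, ← e3]
    show f σ + f (σ.image (fun S => S.map (gm p (M * N)))) = _
    rw [e1]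
    have : ∀ x y z : ZMod 2, x + z = (x + y) + (y + z) := by decide
    exact this _ _ _
  · intro i j c hij f hf
    have hdet : (Matrix.transvection i j c).det = 1 := Matrix.det_transvection_of_ne i j hij c
    have hinj : Function.Injective
        (fun S : Submodule (ZMod p) (ι → R) => S.map (gm p (Matrix.transvection i j c))) :=
      map_gm_injective (p := p)
        (⟨Matrix.transvection i j c, hdet⟩ : Matrix.SpecialLinearGroup ι R)
    have hf' : Cocyc (A.XX ι r) k
        (fun τ => f τ + f (τ.image (fun S => S.map (gm p (Matrix.transvection i j c))))) := by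
      intro ρ hρ hc
      rw [cob_add, hf ρ hρ hc, act_cob_image _ hinj, zero_add]
      refine hf _ ((XX_map A r ⟨Matrix.transvection i j c, hdet⟩ ρ).2 hρ) ?_
      rw [Finset.card_image_of_injective _ hinj, hc]
    refine h₃ p (by omega) m hm R A ι r (by omega) hcol _ hf' ?_
    rintro V ⟨hV1, hV2, hV3⟩
    have hVne : V ≠ ⊥ := by
      rintro rfl
      rw [finrank_bot] at hV2
      omega
    obtain ⟨v, hvV, hv0⟩ := (Submodule.ne_bot_iff V).1 hVne
    have hv : A.vco 0 v ≠ 0 := by
      intro h0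
      obtain ⟨w, hw⟩ := A.exists_tl v h0
      have : v ∈ V ⊓ LinearMap.range A.tl := ⟨hvV, ⟨w, hw.symm⟩⟩
      rw [hV1] at this
      exact hv0 ((Submodule.mem_bot _).1 this)
    have he : A.vco 0 (Pi.single i 1 : ι → R) ≠ 0 := by
      intro h0
      have h1 := congrFun h0 i
      have h2 : A.vco 0 (Pi.single i 1 : ι → R) i = A.co 0 ((Pi.single i 1 : ι → R) i) := rfl
      rw [h2, Pi.single_eq_same, A.co_one, if_pos rfl] at h1
      exact one_ne_zero h1
    have h5 := h₂ p (by omega) m hm R A ι r (by omega) (by omega) _ v he hv _ hf'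
      (h₁ p (by omega) m hm R A ι r (by omega) (by omega) i j hij c f hf)
    obtain ⟨w, hw⟩ := h5
    refine ⟨w, fun σ hσ hc => hw σ ⟨hσ.1, fun S hS => ?_⟩ hc⟩
    obtain ⟨h6, h7⟩ := hσ.2 S hS
    have h8 : Submodule.span (ZMod p) {v} ≤ V := (Submodule.span_singleton_le_iff_mem v V).2 hvV
    refine ⟨h8.trans h6, ?_⟩
    rw [eq_bot_iff, ← h7]
    exact inf_le_inf_right _ h8

end P067X
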