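import Vale.Agent.P067X.ChainLib

/-!
# P067, module JOIN: fillings in a join

`K` is the join of `Full K A` and `Full K (¬ A)`.  PROOF.  Write `z = ∑_b z_b * b` over the faces `b` with no
vertex in `A`.  Take `b` with the largest number of vertices among those with `z_b ≠ 0`: `z_b` is a cycle (every
other `b'` containing `b` has `z_{b'} = 0`), so `z_b = bd c_b` in `Full K A`, and `z + bd (c_b * b)` has no
`b`-part and new parts only at faces `b.erase x`.  Iterate over `b` by decreasing size; the number of `b`'s is at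
most `2^k M` and all sizes stay bounded in terms of `B`, `k`, `M`.
-/

namespace P067X

open Classical

section aux

variable {V : Type*}

theorem join_add_self (c : Ch V) : c + c = 0 := by
  ext σ
  simp only [Finsupp.add_apply, Finsupp.zero_apply]
  exact CharTwo.add_self_eq_zero _

theorem join_sup_add {P : Finset V → Prop} {c c' : Ch V} (h : ∀ σ ∈ c.support, P σ)
    (h' : ∀ σ ∈ c'.support, P σ) : ∀ σ ∈ (c + c').support, P σ := by
  intro σ hσ
  rcases Finset.mem_union.mp (Finsupp.support_add hσ) with h1 | h1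
  exacts [h σ h1, h' σ h1]

theorem join_sup_sum {ι : Type*} {P : Finset V → Prop} (s : Finset ι) (c : ι → Ch V)
    (h : ∀ i ∈ s, ∀ σ ∈ (c i).support, P σ) : ∀ σ ∈ (∑ i ∈ s, c i).support, P σ := by
  induction s using Finset.induction_on with
  | empty => simp
  | insert a s ha ih =>
    rw [Finset.sum_insert ha]
    exact join_sup_add (h a (Finset.mem_insert_self a s))
      (ih fun i hi => h i (Finset.mem_insert_of_mem hi))

theorem join_card_add (c c' : Ch V) :
    (c + c').support.card ≤ c.support.card + c'.support.card :=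
  le_trans (Finset.card_le_card Finsupp.support_add) (Finset.card_union_le _ _)

theorem join_card_sum {ι : Type*} (s : Finset ι) (c : ι → Ch V) (N : ℕ)
    (h : ∀ i ∈ s, (c i).support.card ≤ N) : (∑ i ∈ s, c i).support.card ≤ s.card * N := by
  induction s using Finset.induction_on with
  | empty => simp
  | insert a s ha ih =>
    rw [Finset.sum_insert ha, Finset.card_insert_of_notMem ha]
    have h1 := join_card_add (c a) (∑ i ∈ s, c i)
    have h2 := h a (Finset.mem_insert_self a s)
    have h3 := ih fun i hi => h i (Finset.mem_insert_of_mem hi)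
    calc _ ≤ _ := h1
      _ ≤ N + s.card * N := by omega
      _ = (s.card + 1) * N := by ring

theorem join_eq_sum (z : Ch V) : z = ∑ σ ∈ z.support, z σ • Finsupp.single σ (1 : ZMod 2) := by
  conv_lhs => rw [← Finsupp.sum_single z]
  rw [Finsupp.sum]
  refine Finset.sum_congr rfl fun σ _ => ?_
  rw [Finsupp.smul_single, smul_eq_mul, mul_one]

theorem join_lin_congr {f g : Ch V →ₗ[ZMod 2] Ch V} (z : Ch V)
    (h : ∀ σ ∈ z.support, f (Finsupp.single σ 1) = g (Finsupp.single σ 1)) : f z = g z := by
  rw [join_eq_sum z, map_sum, map_sum]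
  refine Finset.sum_congr rfl fun σ hσ => ?_
  rw [map_smul, map_smul, h σ hσ]

theorem join_sup_lin {P : Finset V → Prop} (f : Ch V →ₗ[ZMod 2] Ch V) (z : Ch V)
    (h : ∀ σ ∈ z.support, ∀ τ ∈ (f (Finsupp.single σ 1)).support, P τ) :
    ∀ τ ∈ (f z).support, P τ := by
  rw [join_eq_sum z, map_sum]
  refine join_sup_sum _ _ fun σ hσ τ hτ => ?_
  rw [map_smul] at hτ
  exact h σ hσ τ (Finsupp.support_smul hτ)

theorem join_card_lin (f : Ch V →ₗ[ZMod 2] Ch V) (z : Ch V) (N : ℕ)
    (h : ∀ σ ∈ z.support, (f (Finsupp.single σ 1)).support.card ≤ N) :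
    (f z).support.card ≤ z.support.card * N := by
  conv_lhs => rw [join_eq_sum z, map_sum]
  refine join_card_sum _ _ N fun σ hσ => ?_
  rw [map_smul]
  exact le_trans (Finset.card_le_card Finsupp.support_smul) (h σ hσ)

theorem join_supp_single {σ τ : Finset V} (h : τ ∈ (Finsupp.single σ (1 : ZMod 2)).support) :
    τ = σ := by
  have := Finsupp.support_single_subset h
  rwa [Finset.mem_singleton] at this

theorem join_card_single (σ : Finset V) :
    (Finsupp.single σ (1 : ZMod 2)).support.card ≤ 1 := by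
  refine le_trans (Finset.card_le_card Finsupp.support_single_subset) ?_
  simp

theorem join_bd_sup {σ τ : Finset V} (h : τ ∈ (bd (Finsupp.single σ (1 : ZMod 2))).support) :
    ∃ x ∈ σ, τ = σ.erase x := by
  rw [bd_single, bdf] at h
  have h1 := join_sup_sum (P := fun τ => ∃ x ∈ σ, τ = σ.erase x) σ
    (fun x => Finsupp.single (σ.erase x) (1 : ZMod 2))
    (fun x hx τ hτ => ⟨x, hx, join_supp_single hτ⟩)
  exact h1 τ h

theorem join_bd_card (σ : Finset V) :
    (bd (Finsupp.single σ (1 : ZMod 2))).support.card ≤ σ.card := by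
  rw [bd_single, bdf]
  have := join_card_sum σ (fun x => Finsupp.single (σ.erase x) (1 : ZMod 2)) 1
    (fun x _ => join_card_single _)
  simpa using this

variable (A : V → Prop)

/-- part with `¬ A`-part equal to `b` -/
noncomputable def jP (b : Finset V) : Ch V →ₗ[ZMod 2] Ch V :=
  Finsupp.linearCombination (ZMod 2) fun σ =>
    if σ.filter (fun x => ¬ A x) = b then Finsupp.single (σ.filter A) (1 : ZMod 2) else 0

/-- join with `b` -/
noncomputable def jJ (b : Finset V) : Ch V →ₗ[ZMod 2] Ch V :=
  Finsupp.linearCombination (ZMod 2) fun a => Finsupp.single (a ∪ b) (1 : ZMod 2)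

/-- top part -/
noncomputable def jTop (t : ℕ) : Ch V →ₗ[ZMod 2] Ch V :=
  Finsupp.linearCombination (ZMod 2) fun σ =>
    if (σ.filter (fun x => ¬ A x)).card = t then Finsupp.single σ (1 : ZMod 2) else 0

/-- low part -/
noncomputable def jLow (t : ℕ) : Ch V →ₗ[ZMod 2] Ch V :=
  Finsupp.linearCombination (ZMod 2) fun σ =>
    if (σ.filter (fun x => ¬ A x)).card < t then Finsupp.single σ (1 : ZMod 2) else 0

theorem jP_single (b σ : Finset V) : jP A b (Finsupp.single σ 1) =
    if σ.filter (fun x => ¬ A x) = b then Finsupp.single (σ.filter A) (1 : ZMod 2) else 0 := by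
  rw [jP, Finsupp.linearCombination_single, one_smul]

theorem jJ_single (b a : Finset V) :
    jJ b (Finsupp.single a 1) = Finsupp.single (a ∪ b) (1 : ZMod 2) := by
  rw [jJ, Finsupp.linearCombination_single, one_smul]

theorem jTop_single (t : ℕ) (σ : Finset V) : jTop A t (Finsupp.single σ 1) =
    if (σ.filter (fun x => ¬ A x)).card = t then Finsupp.single σ (1 : ZMod 2) else 0 := by
  rw [jTop, Finsupp.linearCombination_single, one_smul]

theorem jLow_single (t : ℕ) (σ : Finset V) : jLow A t (Finsupp.single σ 1) =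
    if (σ.filter (fun x => ¬ A x)).card < t then Finsupp.single σ (1 : ZMod 2) else 0 := by
  rw [jLow, Finsupp.linearCombination_single, one_smul]

theorem join_bd_P {b σ : Finset V} (h : (σ.filter (fun x => ¬ A x)).card ≤ b.card) :
    bd (jP A b (Finsupp.single σ 1)) = jP A b (bd (Finsupp.single σ 1)) := by
  have h1 : jP A b (bd (Finsupp.single σ 1)) =
      ∑ x ∈ σ, jP A b (Finsupp.single (σ.erase x) 1) := by
    rw [bd_single, bdf, map_sum]
  have h2 : ∀ x ∈ σ, jP A b (Finsupp.single (σ.erase x) 1) =
      if A x then (if σ.filter (fun x => ¬ A x) = b then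
        Finsupp.single ((σ.filter A).erase x) (1 : ZMod 2) else 0) else 0 := by
    intro x hx
    rw [jP_single]
    by_cases hA : A x
    · rw [if_pos hA]
      have e1 : (σ.erase x).filter (fun x => ¬ A x) = σ.filter (fun x => ¬ A x) := by
        ext y
        simp only [Finset.mem_filter, Finset.mem_erase]
        constructor
        · rintro ⟨⟨-, h3⟩, h4⟩
          exact ⟨h3, h4⟩
        · rintro ⟨h3, h4⟩
          refine ⟨⟨?_, h3⟩, h4⟩
          rintro rfl
          exact h4 hA
      have e2 : (σ.erase x).filter A = (σ.filter A).erase x := by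
        ext y
        simp only [Finset.mem_filter, Finset.mem_erase]
        tauto
      rw [e1, e2]
    · rw [if_neg hA, if_neg]
      intro h3
      have e1 : (σ.erase x).filter (fun x => ¬ A x) =
          (σ.filter (fun x => ¬ A x)).erase x := by
        ext y
        simp only [Finset.mem_filter, Finset.mem_erase]
        tauto
      have e2 : x ∈ σ.filter (fun x => ¬ A x) := Finset.mem_filter.mpr ⟨hx, hA⟩
      have e3 := Finset.card_erase_of_mem e2
      have e4 : 0 < (σ.filter (fun x => ¬ A x)).card := Finset.card_pos.mpr ⟨x, e2⟩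
      rw [← e1, h3] at e3
      omega
  rw [h1, Finset.sum_congr rfl h2, jP_single, ← Finset.sum_filter]
  split_ifs with h3
  · rw [bd_single, bdf]
  · rw [map_zero, Finset.sum_const_zero]

theorem join_bd_J {b a : Finset V} (h : Disjoint a b) :
    bd (jJ b (Finsupp.single a 1)) = jJ b (bd (Finsupp.single a 1)) +
      ∑ y ∈ b, jJ (b.erase y) (Finsupp.single a 1) := by
  rw [jJ_single, bd_single, bd_single, bdf, bdf, map_sum, Finset.sum_union h]
  congr 1
  · refine Finset.sum_congr rfl fun x hx => ?_
    rw [jJ_single]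
    congr 1
    ext y
    simp only [Finset.mem_erase, Finset.mem_union]
    constructor
    · rintro ⟨h1, h2 | h2⟩
      · exact Or.inl ⟨h1, h2⟩
      · exact Or.inr h2
    · rintro (⟨h1, h2⟩ | h2)
      · exact ⟨h1, Or.inl h2⟩
      · refine ⟨?_, Or.inr h2⟩
        rintro rfl
        exact Finset.disjoint_left.mp h hx h2
  · refine Finset.sum_congr rfl fun x hx => ?_
    rw [jJ_single]
    congr 1
    ext y
    simp only [Finset.mem_erase, Finset.mem_union]
    constructor
    · rintro ⟨h1, h2 | h2⟩
      · exact Or.inl h2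
      · exact Or.inr ⟨h1, h2⟩
    · rintro (h2 | ⟨h1, h2⟩)
      · refine ⟨?_, Or.inl h2⟩
        rintro rfl
        exact Finset.disjoint_left.mp h h2 hx
      · exact ⟨h1, Or.inr h2⟩

end aux

theorem fill_join_aux (B : ℕ → ℕ → ℕ) (k t : ℕ) : ∀ M : ℕ, ∃ L M' : ℕ, ∀ (V : Type)
    (K : Set (Finset V)) (A : V → Prop), IsCx K →
    (∀ a ∈ Full K A, ∀ b ∈ Full K (fun x => ¬ A x), a ∪ b ∈ K) →
    (∀ q ≤ k, ∀ N ≤ L, Fill (Full K A) q N (B q N)) →
    ∀ z : Ch V, InK K k z → bd z = 0 → z.support.card ≤ M →
      (∀ σ ∈ z.support, (σ.filter (fun x => ¬ A x)).card < t) →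
      ∃ c : Ch V, InK K (k + 1) c ∧ bd c = z ∧ c.support.card ≤ M' ∧
        ∀ σ ∈ c.support, ∃ τ ∈ z.support, σ.filter (fun x => ¬ A x) ⊆ τ := by
  induction t with
  | zero =>
    intro M
    refine ⟨0, 0, ?_⟩
    intro V K A _ _ _ z _ _ _ hz
    have h0 : z = 0 := by
      rw [← Finsupp.support_eq_empty]
      exact Finset.eq_empty_of_forall_notMem fun σ hσ => absurd (hz σ hσ) (Nat.not_lt_zero _)
    refine ⟨0, InK.zero, ?_, ?_, ?_⟩
    · rw [map_zero, h0]
    · simp
    · simp
  | succ t ih =>
    intro M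
    obtain ⟨L₁, M₁', hL₁⟩ := ih (M + (M * B (k - t) M) * (k + 1))
    refine ⟨max M L₁, M₁' + M * B (k - t) M, ?_⟩
    intro V K A hK hjoin hfill z hz hbz hzM hzt
    set T : Finset (Finset V) := (z.support.filter
      (fun σ => (σ.filter (fun x => ¬ A x)).card = t)).image
        (fun σ => σ.filter (fun x => ¬ A x)) with hT
    have hTmem : ∀ b ∈ T, b.card = t ∧ ∃ τ ∈ z.support, τ.filter (fun x => ¬ A x) = b := by
      intro b hb
      rw [hT, Finset.mem_image] at hb
      obtain ⟨τ, h1, h2⟩ := hb
      rw [Finset.mem_filter] at h1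
      exact ⟨h2 ▸ h1.2, τ, h1.1, h2⟩
    have hTcard : T.card ≤ M := by
      refine le_trans Finset.card_image_le (le_trans (Finset.card_filter_le _ _) hzM)
    have hbA : ∀ b ∈ T, ∀ x ∈ b, ¬ A x := by
      intro b hb x hx
      obtain ⟨-, τ, -, h2⟩ := hTmem b hb
      rw [← h2, Finset.mem_filter] at hx
      exact hx.2
    have hbK : ∀ b ∈ T, b ∈ Full K (fun x => ¬ A x) := by
      intro b hb
      obtain ⟨-, τ, h1, h2⟩ := hTmem b hb
      refine ⟨hK.2 τ (hz τ h1).1 b (h2 ▸ Finset.filter_subset _ _), hbA b hb⟩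
    have htk : ∀ b ∈ T, t ≤ k := by
      intro b hb
      obtain ⟨h0, τ, h1, h2⟩ := hTmem b hb
      rw [← h0, ← h2, ← (hz τ h1).2]
      exact Finset.card_filter_le _ _
    -- fillings
    have key : ∀ b ∈ T, ∃ c : Ch V, InK (Full K A) (k - t + 1) c ∧ bd c = jP A b z ∧
        c.support.card ≤ B (k - t) M := by
      intro b hb
      obtain ⟨h0, -⟩ := hTmem b hb
      refine hfill (k - t) (Nat.sub_le _ _) M (le_max_left _ _) (jP A b z) ?_ ?_ ?_
      · refine join_sup_lin (P := fun σ => σ ∈ Full K A ∧ σ.card = k - t) _ _ ?_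
        intro σ hσ τ hτ
        rw [jP_single] at hτ
        split_ifs at hτ with h1
        · have h2 := join_supp_single hτ
          subst h2
          refine ⟨⟨hK.2 σ (hz σ hσ).1 _ (Finset.filter_subset _ _), ?_⟩, ?_⟩
          · intro x hx
            exact (Finset.mem_filter.mp hx).2
          · have h3 := Finset.card_filter_add_card_filter_not (s := σ) A
            rw [h1, h0, (hz σ hσ).2] at h3
            omega
        · simp at hτ
      · have h1 : (bd ∘ₗ jP A b) z = (jP A b ∘ₗ bd) z := by
          refine join_lin_congr z fun σ hσ => ?_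
          simp only [LinearMap.comp_apply]
          exact join_bd_P A (by have := hzt σ hσ; omega)
        simp only [LinearMap.comp_apply] at h1
        rw [h1, hbz, map_zero]
      · refine le_trans (join_card_lin _ z 1 ?_) (by simpa using hzM)
        intro σ _
        rw [jP_single]
        split_ifs
        · exact join_card_single _
        · simp
    choose! c hc using key
    set e : Ch V := ∑ b ∈ T, jJ b (c b) with he
    set z' : Ch V := jLow A t z + ∑ b ∈ T, ∑ y ∈ b, jJ (b.erase y) (c b) with hz'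
    -- faces of `c b`
    have hcf : ∀ b ∈ T, ∀ a ∈ (c b).support, a ∈ K ∧ (∀ x ∈ a, A x) ∧ a.card = k - t + 1 ∧
        Disjoint a b := by
      intro b hb a ha
      obtain ⟨h1, h2⟩ := (hc b hb).1 a ha
      refine ⟨h1.1, h1.2, h2, ?_⟩
      rw [Finset.disjoint_left]
      intro x hxa hxb
      exact hbA b hb x hxb (h1.2 x hxa)
    have hfilt : ∀ b ∈ T, ∀ b' ⊆ b, ∀ a ∈ (c b).support,
        (a ∪ b').filter (fun x => ¬ A x) = b' := by
      intro b hb b' hb' a ha
      obtain ⟨-, h2, -, -⟩ := hcf b hb a ha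
      ext x
      simp only [Finset.mem_filter, Finset.mem_union]
      constructor
      · rintro ⟨h3 | h3, h4⟩
        · exact absurd (h2 x h3) h4
        · exact h3
      · intro h3
        exact ⟨Or.inr h3, hbA b hb x (hb' h3)⟩
    have hJsup : ∀ b ∈ T, ∀ b' ⊆ b, ∀ σ ∈ (jJ b' (c b)).support,
        ∃ a ∈ (c b).support, σ = a ∪ b' := by
      intro b hb b' hb'
      refine join_sup_lin (P := fun σ => ∃ a ∈ (c b).support, σ = a ∪ b') _ _ ?_
      intro a ha σ hσ
      rw [jJ_single] at hσ
      exact ⟨a, ha, join_supp_single hσ⟩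
    have heK : InK K (k + 1) e := by
      refine join_sup_sum (P := fun σ => σ ∈ K ∧ σ.card = k + 1) _ _ ?_
      intro b hb σ hσ
      obtain ⟨a, ha, rfl⟩ := hJsup b hb b (Finset.Subset.refl b) σ hσ
      obtain ⟨h1, h2, h3, h4⟩ := hcf b hb a ha
      refine ⟨hjoin a ⟨h1, h2⟩ b (hbK b hb), ?_⟩
      rw [Finset.card_union_of_disjoint h4, h3, (hTmem b hb).1]
      have := htk b hb
      omega
    have hecard : e.support.card ≤ M * B (k - t) M := by
      refine le_trans (join_card_sum T _ (B (k - t) M) ?_) (Nat.mul_le_mul_right _ hTcard)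
      intro b hb
      refine le_trans (join_card_lin _ (c b) 1 ?_) (by simpa using (hc b hb).2.2)
      intro a _
      rw [jJ_single]
      exact join_card_single _
    -- the identity
    have hzz : z = z' + bd e := by
      have h1 : z = jLow A t z + jTop A t z := by
        have : (LinearMap.id : Ch V →ₗ[ZMod 2] Ch V) z = (jLow A t + jTop A t) z := by
          refine join_lin_congr z fun σ hσ => ?_
          rw [LinearMap.id_apply, LinearMap.add_apply, jLow_single, jTop_single]
          have h2 := hzt σ hσ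
          by_cases h3 : (σ.filter (fun x => ¬ A x)).card = t
          · rw [if_neg (by omega), if_pos h3, zero_add]
          · rw [if_pos (by omega), if_neg h3, add_zero]
        simpa using this
      have h2 : jTop A t z = ∑ b ∈ T, jJ b (jP A b z) := by
        have : jTop A t z = (∑ b ∈ T, ((jJ b ∘ₗ jP A b : Ch V →ₗ[ZMod 2] Ch V))) z := by
          refine join_lin_congr z fun σ hσ => ?_
          rw [LinearMap.sum_apply]
          simp only [LinearMap.comp_apply, jP_single, jTop_single]
          have h3 : ∀ b ∈ T, jJ b (if σ.filter (fun x => ¬ A x) = b then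
              Finsupp.single (σ.filter A) (1 : ZMod 2) else 0) =
              if σ.filter (fun x => ¬ A x) = b then Finsupp.single σ (1 : ZMod 2) else 0 := by
            intro b hb
            split_ifs with h4
            · rw [jJ_single, ← h4, Finset.filter_union_filter_not_eq]
            · rw [map_zero]
          rw [Finset.sum_congr rfl h3, Finset.sum_ite_eq]
          by_cases h5 : (σ.filter (fun x => ¬ A x)).card = t
          · rw [if_pos h5, if_pos]
            rw [hT, Finset.mem_image]
            exact ⟨σ, Finset.mem_filter.mpr ⟨hσ, h5⟩, rfl⟩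
          · rw [if_neg h5, if_neg]
            intro h6
            exact h5 (hTmem _ h6).1
        rw [this, LinearMap.sum_apply]
        rfl
      have h3 : bd e = ∑ b ∈ T, jJ b (jP A b z) +
          ∑ b ∈ T, ∑ y ∈ b, jJ (b.erase y) (c b) := by
        rw [he, map_sum, ← Finset.sum_add_distrib]
        refine Finset.sum_congr rfl fun b hb => ?_
        have h4 : (bd ∘ₗ jJ b) (c b) = (jJ b ∘ₗ bd + ∑ y ∈ b, jJ (b.erase y)) (c b) := by
          refine join_lin_congr (c b) fun a ha => ?_
          rw [LinearMap.add_apply, LinearMap.sum_apply]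
          simp only [LinearMap.comp_apply]
          exact join_bd_J (hcf b hb a ha).2.2.2
        rw [LinearMap.add_apply, LinearMap.sum_apply] at h4
        simp only [LinearMap.comp_apply] at h4
        rw [h4, (hc b hb).2.1]
      rw [h3, hz']
      conv_lhs => rw [h1, h2]
      rw [add_comm (∑ b ∈ T, jJ b (jP A b z)), ← add_assoc,
        add_assoc (jLow A t z), join_add_self, add_zero]
    have hz'e : z' = z + bd e := by
      rw [hzz, add_assoc, join_add_self, add_zero]
    have hz'K : InK K k z' := by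
      rw [hz'e]
      exact hz.add (InK.bd hK heK)
    have hz'b : bd z' = 0 := by
      rw [hz'e, map_add, hbz, bd_bd, add_zero]
    have hz'c : z'.support.card ≤ M + (M * B (k - t) M) * (k + 1) := by
      rw [hz'e]
      refine le_trans (join_card_add _ _) (Nat.add_le_add hzM ?_)
      refine le_trans (join_card_lin bd e (k + 1) ?_) (Nat.mul_le_mul_right _ hecard)
      intro σ hσ
      rw [← (heK σ hσ).2]
      exact join_bd_card σ
    have hz't : ∀ σ ∈ z'.support, (σ.filter (fun x => ¬ A x)).card < t := by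
      refine join_sup_add ?_ ?_
      · refine join_sup_lin (P := fun σ => (σ.filter (fun x => ¬ A x)).card < t) _ _ ?_
        intro σ _ τ hτ
        rw [jLow_single] at hτ
        split_ifs at hτ with h1
        · rw [join_supp_single hτ]
          exact h1
        · simp at hτ
      · refine join_sup_sum (P := fun σ => (σ.filter (fun x => ¬ A x)).card < t) _ _ ?_
        intro b hb
        refine join_sup_sum (P := fun σ => (σ.filter (fun x => ¬ A x)).card < t) _ _ ?_
        intro y hy σ hσ
        obtain ⟨a, ha, rfl⟩ := hJsup b hb _ (Finset.erase_subset y b) σ hσ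
        rw [hfilt b hb _ (Finset.erase_subset y b) a ha, Finset.card_erase_of_mem hy,
          (hTmem b hb).1]
        have : 0 < b.card := Finset.card_pos.mpr ⟨y, hy⟩
        rw [(hTmem b hb).1] at this
        omega
    obtain ⟨c', hc'1, hc'2, hc'3, hc'4⟩ := hL₁ V K A hK hjoin
      (fun q hq N hN => hfill q hq N (le_trans hN (le_max_right _ _))) z' hz'K hz'b hz'c hz't
    have hesup : ∀ σ ∈ e.support, ∃ τ ∈ z.support, σ.filter (fun x => ¬ A x) ⊆ τ := by
      refine join_sup_sum
        (P := fun σ => ∃ τ ∈ z.support, σ.filter (fun x => ¬ A x) ⊆ τ) _ _ ?_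
      intro b hb σ hσ
      obtain ⟨a, ha, rfl⟩ := hJsup b hb b (Finset.Subset.refl b) σ hσ
      rw [hfilt b hb b (Finset.Subset.refl b) a ha]
      obtain ⟨-, τ, h1, h2⟩ := hTmem b hb
      exact ⟨τ, h1, h2 ▸ Finset.filter_subset _ _⟩
    refine ⟨c' + e, hc'1.add heK, ?_, ?_, ?_⟩
    · rw [map_add, hc'2]
      exact hzz.symm
    · exact le_trans (join_card_add _ _) (Nat.add_le_add hc'3 hecard)
    · refine join_sup_add ?_ hesup
      intro σ hσ
      obtain ⟨τ', h1, h2⟩ := hc'4 σ hσ
      have h3 : ∀ τ ∈ (z + bd e).support, ∃ τ₁ ∈ z.support, τ.filter (fun x => ¬ A x) ⊆ τ₁ := by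
        refine join_sup_add ?_ ?_
        · intro τ hτ
          exact ⟨τ, hτ, Finset.filter_subset _ _⟩
        · refine join_sup_lin
            (P := fun τ => ∃ τ₁ ∈ z.support, τ.filter (fun x => ¬ A x) ⊆ τ₁) _ _ ?_
          intro ρ hρ τ hτ
          obtain ⟨x, -, rfl⟩ := join_bd_sup hτ
          obtain ⟨τ₁, h4, h5⟩ := hesup ρ hρ
          exact ⟨τ₁, h4, fun y hy => h5 (Finset.filter_subset_filter _
            (Finset.erase_subset x ρ) hy)⟩
      rw [hz'e] at h1
      obtain ⟨τ₁, h4, h5⟩ := h3 τ' h1
      refine ⟨τ₁, h4, ?_⟩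
      intro y hy
      exact h5 (Finset.mem_filter.mpr ⟨h2 hy, (Finset.mem_filter.mp hy).2⟩)

theorem fill_join (B : ℕ → ℕ → ℕ) (k M : ℕ) : ∃ L M' : ℕ, ∀ (V : Type) (K : Set (Finset V))
    (A : V → Prop), IsCx K →
    (∀ a ∈ Full K A, ∀ b ∈ Full K (fun x => ¬ A x), a ∪ b ∈ K) →
    (∀ q ≤ k, ∀ N ≤ L, Fill (Full K A) q N (B q N)) →
    ∀ z : Ch V, InK K k z → bd z = 0 → z.support.card ≤ M →
      ∃ c : Ch V, InK K (k + 1) c ∧ bd c = z ∧ c.support.card ≤ M' ∧
        ∀ σ ∈ c.support, ∃ τ ∈ z.support, σ.filter (fun x => ¬ A x) ⊆ τ := by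
  obtain ⟨L, M', h⟩ := fill_join_aux B k (k + 1) M
  refine ⟨L, M', fun V K A hK hjoin hfill z hz hbz hzM => ?_⟩
  refine h V K A hK hjoin hfill z hz hbz hzM fun σ hσ => ?_
  have h1 := Finset.card_filter_le σ (fun x => ¬ A x)
  have h2 := (hz σ hσ).2
  omega

end P067X
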