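import Vale.Agent.P067X.TB
import Vale.Agent.P067X.Join

/-!
# P067, module CASE2

PROOF.  Induction on `k`.  `k = 0`: the hyperplane `ker η`, `η` nonzero on an element of `J`, on an element of `Γ`, and (if
`H₀ ≠ ⊥`) on an element of `H₀`.  Step (`k → k+1`, so `finrank J ≥ k+2`):
1. remove the `T` of dimension `1` (`remove_all`, `A = True`).  Such `T` has `T ⊓ J = ⊥`, `1 ≤ s`; nothing is below `T`
   (`¬ ⊥ ≤ H₀` is false); the part above is `QF ((J ⊔ T)/T) (s-1) True ((Γ ⊔ T)/T) ⊥` in `E ⧸ T` (`fill_above`): induction.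
2. remove the `T` with `T ⊔ J = ⊤`, `finrank T + finrank J = finrank E` (`remove_all`, `A = ` not of dimension `1`).  The link is
   the join of `{T'' > T}` (`fill_above_top`, `fill_TB`, dimension of `E ⧸ T` is `finrank J ≥ q+2` for `q ≤ k`) and `{T' < T}`:
   `fill_join` with the predicate `T < ·`; no new vertices below `T`, so no line appears.
3. `T ≥ T ⊓ H ≤ H` (`homotopy_down`), `H = ker η`, `η` generic (`exists_generic_dual`): `η y ≠ 0` for finitely many
   `y ≠ 0`: `y ∈ J`, `y ∈ Γ`, `y ∈ H₀` (if `H₀ ≠ ⊥`), `y_T ∈ T ⊓ H₀` (if `≠ ⊥`), `z_T ∈ T ⊓ J` (if `≠ ⊥`).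
   (First part: `(T ⊓ H) ⊓ J = ⊥`.  Second part: `T ⊓ J ≠ ⊥`, `T = (T ⊓ H) ⊔ F z_T`, so `(T ⊓ H) ⊔ J = T ⊔ J = ⊤`.  `¬ T ⊓ H ≤ H₀`:
   if `T ⊓ H₀ = ⊥` since `T ⊓ H ≠ ⊥` (`finrank T ≥ 2`); otherwise `T ⊓ H ≤ T ⊓ H₀ < T` gives `T ⊓ H = T ⊓ H₀ ∋ y_T`.)
-/

namespace P067X

open Classical Module

section LA

variable {F E : Type*} [Field F] [AddCommGroup E] [Module F E]

theorem c2_decomp (T : Submodule F E) (η : E →ₗ[F] F) {z : E} (hz : z ∈ T) (h : η z ≠ 0) :
    T ≤ (T ⊓ LinearMap.ker η) ⊔ Submodule.span F {z} := by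
  intro t ht
  rw [Submodule.mem_sup]
  refine ⟨t - (η t / η z) • z, ⟨T.sub_mem ht (T.smul_mem _ hz), ?_⟩, (η t / η z) • z, ?_, by simp⟩
  · simp [h]
  · exact Submodule.smul_mem _ _ (Submodule.mem_span_singleton_self z)

theorem c2_sup_ker (J : Submodule F E) (η : E →ₗ[F] F) {z : E} (hz : z ∈ J) (h : η z ≠ 0) :
    LinearMap.ker η ⊔ J = ⊤ := by
  rw [eq_top_iff]
  refine (c2_decomp ⊤ η Submodule.mem_top h).trans ?_
  refine sup_le (inf_le_right.trans le_sup_left) ?_
  refine le_trans ?_ le_sup_right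
  simpa using hz

theorem c2_sup_ker' (T J : Submodule F E) (η : E →ₗ[F] F) {z : E} (hz : z ∈ T) (hzJ : z ∈ J)
    (h : η z ≠ 0) (hTJ : T ⊔ J = ⊤) : (T ⊓ LinearMap.ker η) ⊔ J = ⊤ := by
  rw [eq_top_iff, ← hTJ]
  refine sup_le ((c2_decomp T η hz h).trans (sup_le le_sup_left ?_)) le_sup_right
  refine le_trans ?_ le_sup_right
  simpa using hzJ

theorem c2_finrank [FiniteDimensional F E] (T : Submodule F E) (η : E →ₗ[F] F) :
    finrank F T ≤ finrank F (T ⊓ LinearMap.ker η : Submodule F E) + 1 := by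
  by_cases h : T ≤ LinearMap.ker η
  · rw [inf_eq_left.2 h]; omega
  · obtain ⟨z, hz, hzη⟩ := SetLike.not_le_iff_exists.1 h
    have hzη' : η z ≠ 0 := fun h0 => hzη (LinearMap.mem_ker.2 h0)
    calc finrank F T
        ≤ finrank F ((T ⊓ LinearMap.ker η) ⊔ Submodule.span F {z} : Submodule F E) :=
          Submodule.finrank_mono (c2_decomp T η hz hzη')
      _ ≤ finrank F (T ⊓ LinearMap.ker η : Submodule F E)
          + finrank F (Submodule.span F {z}) := Submodule.finrank_add_le_finrank_add_finrank _ _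
      _ ≤ _ := by
        have hz0 : z ≠ 0 := by
          rintro rfl
          exact hzη' (map_zero η)
        rw [finrank_span_singleton hz0]

theorem c2_vertex [FiniteDimensional F E] (J Γ H₀ : Submodule F E) (s : ℕ) (η : E →ₗ[F] F)
    (hJ : ∃ y ∈ J, η y ≠ 0) (hΓ : ∃ y ∈ Γ, η y ≠ 0) (hH : H₀ ≠ ⊥ → ∃ y ∈ H₀, η y ≠ 0)
    (hH0 : H₀ ≠ ⊤) (hE : 2 ≤ finrank F E) : LinearMap.ker η ∈ QF J s True Γ H₀ := by
  refine ⟨Or.inr ⟨trivial, ?_⟩, ?_, ?_⟩
  · obtain ⟨y, hy, h⟩ := hJ
    exact c2_sup_ker J η hy h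
  · intro h
    obtain ⟨y, hy, h'⟩ := hΓ
    exact h' (LinearMap.mem_ker.1 (h hy))
  · intro h
    by_cases h0 : H₀ = ⊥
    · have h1 := c2_finrank (⊤ : Submodule F E) η
      have h2 : LinearMap.ker η = ⊥ := by
        rw [eq_bot_iff, ← h0]
        exact h
      rw [top_inf_eq, finrank_top, h2, finrank_bot] at h1
      omega
    · obtain ⟨y, hy, h'⟩ := hH h0
      apply hH0
      rw [eq_top_iff, ← c2_sup_ker H₀ η hy h']
      exact sup_le h le_rfl

theorem c2_push [FiniteDimensional F E] (J Γ H₀ : Submodule F E) (s : ℕ) (η : E →ₗ[F] F)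
    (T : Submodule F E) (hT : T ∈ QF J s True Γ H₀) (h1 : finrank F T ≠ 1)
    (h2 : ¬ (T ⊔ J = ⊤ ∧ finrank F T + finrank F J = finrank F E))
    (hy : T ⊓ H₀ ≠ ⊥ → ∃ y ∈ T ⊓ H₀, η y ≠ 0) (hz : T ⊓ J ≠ ⊥ → ∃ z ∈ T ⊓ J, η z ≠ 0) :
    T ⊓ LinearMap.ker η ∈ QF J s True Γ H₀ := by
  obtain ⟨hA, hB, hC⟩ := hT
  refine ⟨?_, fun h => hB (h.trans inf_le_left), ?_⟩
  · rcases hA with ⟨hA, hA'⟩ | ⟨-, hA⟩
    · left
      refine ⟨?_, le_trans (Submodule.finrank_mono inf_le_left) hA'⟩
      rw [eq_bot_iff, ← hA]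
      exact inf_le_inf_right _ inf_le_left
    · right
      refine ⟨trivial, ?_⟩
      have hne : T ⊓ J ≠ ⊥ := by
        intro h0
        apply h2
        refine ⟨hA, ?_⟩
        have := Submodule.finrank_sup_add_finrank_inf_eq T J
        rw [hA, h0, finrank_top, finrank_bot] at this
        omega
      obtain ⟨z, hz, hz'⟩ := hz hne
      exact c2_sup_ker' T J η hz.1 hz.2 hz' hA
  · intro h
    have hTne : T ≠ ⊥ := by
      rintro rfl
      exact hC bot_le
    have hT0 : finrank F T ≠ 0 := fun h0 => hTne (Submodule.finrank_eq_zero.1 h0)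
    have h3 := c2_finrank T η
    by_cases h0 : T ⊓ H₀ = ⊥
    · have h4 : T ⊓ LinearMap.ker η ≤ T ⊓ H₀ := le_inf inf_le_left h
      rw [h0, le_bot_iff] at h4
      rw [h4, finrank_bot] at h3
      omega
    · obtain ⟨y, hy, hy'⟩ := hy h0
      have h4 : T ⊓ LinearMap.ker η ≤ T ⊓ H₀ := le_inf inf_le_left h
      have h5 : T ⊓ H₀ < T := by
        refine lt_of_le_of_ne inf_le_left ?_
        intro h6
        exact hC (inf_eq_left.1 h6)
      have h6 := Submodule.finrank_lt_finrank_of_lt h5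
      have h7 := Submodule.finrank_mono h4
      have h8 : T ⊓ LinearMap.ker η = T ⊓ H₀ :=
        Submodule.eq_of_le_of_finrank_le h4 (by omega)
      rw [← h8] at hy
      exact hy' (LinearMap.mem_ker.1 hy.2)

theorem c2_finrank_map (J T : Submodule F E) (h : T ⊓ J = ⊥) :
    finrank F (J.map T.mkQ) = finrank F J := by
  rw [← LinearMap.range_domRestrict]
  apply LinearMap.finrank_range_of_inj
  rw [← LinearMap.ker_eq_bot, LinearMap.ker_domRestrict, Submodule.ker_mkQ]
  rw [eq_bot_iff]
  rintro ⟨x, hx⟩ hx'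
  have : x ∈ T ⊓ J := ⟨by simpa using hx', hx⟩
  rw [h] at this
  simpa using this

theorem c2_map_ne_bot (Γ T : Submodule F E) (h : ¬ Γ ≤ T) : Γ.map T.mkQ ≠ ⊥ := by
  intro h0
  apply h
  have := LinearMap.le_ker_iff_map.2 h0
  rwa [Submodule.ker_mkQ] at this

theorem c2_bot_ne_top (h : 1 ≤ finrank F E) : (⊥ : Submodule F E) ≠ ⊤ := by
  intro h0
  have := congrArg (fun U : Submodule F E => finrank F U) h0
  simp only [finrank_bot, finrank_top] at this
  omega

end LA

theorem c2_generic (p : ℕ) [Fact p.Prime] (E : Type) [AddCommGroup E] [Module (ZMod p) E]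
    [FiniteDimensional (ZMod p) E] (U : Finset (Submodule (ZMod p) E)) (hU : U.card ≤ p) :
    ∃ η : E →ₗ[ZMod p] ZMod p, ∀ T ∈ U, T ≠ ⊥ → ∃ y ∈ T, η y ≠ 0 := by
  have hpick : ∀ T : Submodule (ZMod p) E, ∃ y : E, T ≠ ⊥ → y ∈ T ∧ y ≠ 0 := by
    intro T
    by_cases h : T = ⊥
    · exact ⟨0, fun h' => absurd h h'⟩
    · obtain ⟨y, hy, hy'⟩ := Submodule.exists_mem_ne_zero_of_ne_bot h
      exact ⟨y, fun _ => ⟨hy, hy'⟩⟩
  choose pick hp using hpick
  obtain ⟨η, hη⟩ := exists_generic_dual p E ((U.filter (· ≠ ⊥)).image pick)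
    (Finset.card_image_le.trans ((Finset.card_filter_le _ _).trans hU)) (by
      intro y hy
      obtain ⟨T, hT, rfl⟩ := Finset.mem_image.1 hy
      exact (hp T (Finset.mem_filter.1 hT).2).2)
  refine ⟨η, fun T hT hne => ⟨pick T, (hp T hne).1, hη _ ?_⟩⟩
  exact Finset.mem_image.2 ⟨T, Finset.mem_filter.2 ⟨hT, hne⟩, rfl⟩

theorem c2_card_add {V : Type*} (a b : Ch V) :
    (a + b).support.card ≤ a.support.card + b.support.card :=
  (Finset.card_le_card Finsupp.support_add).trans (Finset.card_union_le _ _)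

theorem c2_OC_single {α : Type*} [PartialOrder α] {P : Set α} {x : α}
    (h : ({x} : Finset α) ∈ OC P) : x ∈ P := h.1 x (by simp)

theorem c2_single_OC {α : Type*} [PartialOrder α] {P : Set α} {x : α}
    (h : x ∈ P) : ({x} : Finset α) ∈ OC P := by
  refine ⟨?_, ?_⟩
  · intro y hy
    rw [Finset.mem_singleton.1 hy]; exact h
  · simp

/-- equal dimensions in a chain -/
theorem c2_chain_eq {F E : Type*} [Field F] [AddCommGroup E] [Module F E]
    [FiniteDimensional F E] {P : Set (Submodule F E)} {σ : Finset (Submodule F E)}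
    (hσ : σ ∈ OC P) {x y : Submodule F E} (hx : x ∈ σ) (hy : y ∈ σ)
    (h : finrank F x = finrank F y) : x = y := by
  by_contra hne
  rcases hσ.2 hx hy hne with h1 | h1
  · exact hne (Submodule.eq_of_le_of_finrank_le h1 h.ge)
  · exact hne (Submodule.eq_of_le_of_finrank_le h1 h.le).symm

theorem fill_caseII (k M : ℕ) : ∃ p₀ M' : ℕ, ∀ (p : ℕ) [Fact p.Prime], p₀ ≤ p →
    ∀ (E : Type) [AddCommGroup E] [Module (ZMod p) E] [FiniteDimensional (ZMod p) E]
      (J Γ H₀ : Submodule (ZMod p) E) (s : ℕ), Γ ≠ ⊥ → H₀ ≠ ⊤ →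
      k + 1 ≤ finrank (ZMod p) J → J ≠ ⊤ →
      s + finrank (ZMod p) J + 2 ≤ finrank (ZMod p) E →
      Fill (OC (QF J s True Γ H₀)) k M M' := by
  induction k generalizing M with
  | zero =>
    refine ⟨3, 1, ?_⟩
    intro p _ hp E _ _ _ J Γ H₀ s hΓ hH₀ hJ hJt hs
    have hJ0 : J ≠ ⊥ := by
      rintro rfl
      rw [finrank_bot] at hJ
      omega
    obtain ⟨η, hη⟩ := c2_generic p E {J, Γ, H₀} (Finset.card_le_three.trans hp)
    refine fill_zero (LinearMap.ker η) (c2_single_OC ?_) M
    exact c2_vertex J Γ H₀ s η (hη J (by simp) hJ0) (hη Γ (by simp) hΓ)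
      (hη H₀ (by simp)) hH₀ (by omega)
  | succ k ih =>
    obtain ⟨p1, M1, h1⟩ := ih M
    have hTB := fill_TB
    choose P B hPB using hTB
    obtain ⟨M2, hM2⟩ : ∃ M2, M2 = M + (k + 1) * M * M1 := ⟨_, rfl⟩
    obtain ⟨L, M3, h3⟩ := fill_join B k M2
    obtain ⟨M4, hM4⟩ : ∃ M4, M4 = M2 + (k + 1) * M2 * M3 := ⟨_, rfl⟩
    obtain ⟨p2, hp2⟩ : ∃ p2, p2 = (Finset.range (k + 1)).sup
      (fun q => (Finset.range (L + 1)).sup (fun N => P q N)) := ⟨_, rfl⟩
    refine ⟨p1 + p2 + (3 + 2 * ((k + 1) * M4)), ((2 * (k + 1) + 2) * M4 + 1)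
      + (k + 1) * M2 * M3 + (k + 1) * M * M1, ?_⟩
    intro p _ hp E _ _ _ J Γ H₀ s hΓ hH₀ hJ hJt hs z hz hbz hMz
    -- step 1: remove the lines
    obtain ⟨z', e1, hz', he1, hzz', hbz', hMz', hMe1, hA1⟩ := remove_all (OC (QF J s True Γ H₀))
      (isCx_OC _) (fun T => finrank (ZMod p) T = 1) (fun _ => True) k M M1
      (by
        intro σ hσ x hx y hy h1 h2
        exact c2_chain_eq hσ hx hy (h1.trans h2.symm))
      (by
        intro x hx hxP _ y hy hby _ hMy
        have hxQ : x ∈ QF J s True Γ H₀ := c2_OC_single hx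
        have hset : {y | y ∈ QF J s True Γ H₀ ∧ (y < x ∨ x < y)}
            = {T' | T' ∈ QF J s True Γ H₀ ∧ x < T'} := by
          ext y
          constructor
          · rintro ⟨h1, h2 | h2⟩
            · exfalso
              have h3 := Submodule.finrank_lt_finrank_of_lt h2
              have h4 : y = ⊥ := Submodule.finrank_eq_zero.1 (by omega)
              exact h1.2.2 (h4 ▸ bot_le)
            · exact ⟨h1, h2⟩
          · rintro ⟨h1, h2⟩
            exact ⟨h1, Or.inr h2⟩
        have hLk : Lk (OC (QF J s True Γ H₀)) {x}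
            = OC {T' | T' ∈ QF J s True Γ H₀ ∧ x < T'} := by
          rw [Lk_OC _ x hxQ, hset]
        have hxJ : x ⊓ J = ⊥ ∧ finrank (ZMod p) x ≤ s := by
          rcases hxQ.1 with h | ⟨-, h⟩
          · exact h
          · exfalso
            have := Submodule.finrank_add_le_finrank_add_finrank x J
            rw [h, finrank_top] at this
            omega
        have hq := Submodule.finrank_quotient_add_finrank x
        have hm := c2_finrank_map J x hxJ.1
        have hfill : Fill (OC {T' | T' ∈ QF J s True Γ H₀ ∧ x < T'}) k M M1 := by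
          refine fill_above J x Γ H₀ s True hxJ.1 hxJ.2 hxQ.2.2 ?_
          refine h1 p (by omega) (E ⧸ x) _ _ _ _ (c2_map_ne_bot Γ x hxQ.2.1)
            (c2_bot_ne_top (by omega)) (by omega) ?_ (by omega)
          intro h0
          rw [h0, finrank_top] at hm
          omega
        rw [hLk] at hy ⊢
        obtain ⟨c, hc1, hc2, hc3⟩ := hfill y hy hby hMy
        refine ⟨c, hc1, hc2, hc3, ?_⟩
        intro σ hσ v hv
        refine ⟨trivial, ?_⟩
        have := (hc1 σ hσ).1.1 v hv
        have := Submodule.finrank_lt_finrank_of_lt this.2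
        intro h
        omega)
      z hz hbz hMz (fun _ _ _ _ => trivial)
    -- step 2: remove the minimal complements
    obtain ⟨z'', e2, hz'', he2, hzz'', hbz'', hMz'', hMe2, hA2⟩ :=
      remove_all (OC (QF J s True Γ H₀)) (isCx_OC _)
      (fun T => T ⊔ J = ⊤ ∧ finrank (ZMod p) T + finrank (ZMod p) J = finrank (ZMod p) E)
      (fun T => finrank (ZMod p) T ≠ 1) k M2 M3
      (by
        intro σ hσ x hx y hy h1 h2
        exact c2_chain_eq hσ hx hy (by omega))
      (by
        intro x hx hxP hxA y hy hby hyA hMy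
        have hxQ : x ∈ QF J s True Γ H₀ := c2_OC_single hx
        have hLk := Lk_OC (QF J s True Γ H₀) x hxQ
        have hq := Submodule.finrank_quotient_add_finrank x
        have hx0 : finrank (ZMod p) x ≠ 0 := by
          intro h0
          have : x = ⊥ := Submodule.finrank_eq_zero.1 h0
          exact hxQ.2.2 (this ▸ bot_le)
        obtain ⟨c, hc1, hc2, hc3, hc4⟩ := h3 (Submodule (ZMod p) E)
          (Lk (OC (QF J s True Γ H₀)) {x}) (fun v => x < v) (isCx_Lk (isCx_OC _) hx)
          (by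
            rw [hLk]
            rintro a ⟨ha, ha'⟩ b ⟨hb, hb'⟩
            refine ⟨?_, ?_⟩
            · intro v hv
              rcases Finset.mem_union.1 hv with h | h
              · exact ha.1 v h
              · exact hb.1 v h
            · intro u hu v hv huv
              have hlt : ∀ v ∈ b, v < x := by
                intro v hv
                rcases (hb.1 v hv).2 with h | h
                · exact h
                · exact absurd h (hb' v hv)
              rcases Finset.mem_union.1 (Finset.mem_coe.1 hu) with h | h <;>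
                rcases Finset.mem_union.1 (Finset.mem_coe.1 hv) with h' | h'
              · exact ha.2 h h' huv
              · exact Or.inr ((hlt v h').trans (ha' u h)).le
              · exact Or.inl ((hlt u h).trans (ha' v h')).le
              · exact hb.2 h h' huv)
          (by
            intro q hq' N hN
            rw [hLk, Full_OC]
            have hset : {y | y ∈ {y | y ∈ QF J s True Γ H₀ ∧ (y < x ∨ x < y)} ∧ x < y}
                = {T' | T' ∈ QF J s True Γ H₀ ∧ x < T'} := by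
              ext y
              constructor
              · rintro ⟨h1, h2⟩
                exact ⟨h1.1, h2⟩
              · rintro ⟨h1, h2⟩
                exact ⟨⟨h1, Or.inr h2⟩, h2⟩
            rw [hset]
            refine fill_above_top J x Γ H₀ s hxP.1 hxQ.2.2 ?_
            refine hPB q N p ?_ (E ⧸ x) _ _ (c2_map_ne_bot Γ x hxQ.2.1)
              (c2_bot_ne_top (by omega)) (by omega)
            have h5 : P q N ≤ p2 := by
              rw [hp2]
              refine le_trans ?_ (Finset.le_sup (f := fun q => (Finset.range (L + 1)).sup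
                (fun N => P q N)) (Finset.mem_range.2 (by omega) : q ∈ _))
              exact Finset.le_sup (f := fun N => P q N)
                (Finset.mem_range.2 (by omega) : N ∈ _)
            omega)
          y hy hby hMy
        refine ⟨c, hc1, hc2, hc3, ?_⟩
        intro σ hσ v hv
        by_cases hxv : x < v
        · have := Submodule.finrank_lt_finrank_of_lt hxv
          refine ⟨by omega, ?_⟩
          rintro ⟨-, h⟩
          omega
        · obtain ⟨τ, hτ, hτ'⟩ := hc4 σ hσ
          exact hyA τ hτ v (hτ' (Finset.mem_filter.2 ⟨hv, hxv⟩)))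
      z' hz' hbz' (by rw [hM2]; exact hMz') (fun σ hσ v hv => (hA1 σ hσ v hv).2)
    -- step 3: push down into a generic hyperplane
    have hMz4 : z''.support.card ≤ M4 := by rw [hM4]; exact hMz''
    have hScard : (z''.support.biUnion id).card ≤ (k + 1) * M4 := by
      refine (Finset.card_biUnion_le_card_mul _ _ (k + 1) ?_).trans ?_
      · intro σ hσ
        exact (hz'' σ hσ).2.le
      · rw [mul_comm]
        exact Nat.mul_le_mul_left _ hMz4
    obtain ⟨η, hη⟩ := c2_generic p E
      ({J, Γ, H₀} ∪ ((z''.support.biUnion id).image (· ⊓ H₀)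
        ∪ (z''.support.biUnion id).image (· ⊓ J))) (by
        refine (Finset.card_union_le _ _).trans ?_
        have h5 := Finset.card_union_le ((z''.support.biUnion id).image (· ⊓ H₀))
          ((z''.support.biUnion id).image (· ⊓ J))
        have h6 := Finset.card_image_le (s := z''.support.biUnion id) (f := (· ⊓ H₀))
        have h7 := Finset.card_image_le (s := z''.support.biUnion id) (f := (· ⊓ J))
        have h8 : ({J, Γ, H₀} : Finset (Submodule (ZMod p) E)).card ≤ 3 := Finset.card_le_three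
        omega)
    have hJ0 : J ≠ ⊥ := by
      rintro rfl
      rw [finrank_bot] at hJ
      omega
    have hker : LinearMap.ker η ∈ QF J s True Γ H₀ :=
      c2_vertex J Γ H₀ s η (hη J (by simp) hJ0) (hη Γ (by simp) hΓ)
        (hη H₀ (by simp)) hH₀ (by omega)
    obtain ⟨c, hc1, hc2, hc3⟩ := homotopy_down (QF J s True Γ H₀) (fun T => T ⊓ LinearMap.ker η)
      (LinearMap.ker η) hker (k + 1) z'' hz'' hbz''
      (by
        intro σ _ x _ τ _ y _ hxy
        exact inf_le_inf_right _ hxy)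
      (by
        intro σ hσ x hx
        have hxS : x ∈ z''.support.biUnion id := Finset.mem_biUnion.2 ⟨σ, hσ, hx⟩
        refine ⟨inf_le_left, ?_, inf_le_right⟩
        refine c2_push J Γ H₀ s η x ((hz'' σ hσ).1.1 x hx) (hA2 σ hσ x hx).1
          (hA2 σ hσ x hx).2 ?_ ?_
        · intro hne
          refine hη _ ?_ hne
          refine Finset.mem_union_right _ (Finset.mem_union_left _ ?_)
          exact Finset.mem_image.2 ⟨x, hxS, rfl⟩
        · intro hne
          refine hη _ ?_ hne
          refine Finset.mem_union_right _ (Finset.mem_union_right _ ?_)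
          exact Finset.mem_image.2 ⟨x, hxS, rfl⟩)
    refine ⟨c + e2 + e1, (hc1.add he2).add he1, ?_, ?_⟩
    · rw [map_add, map_add, hc2, hzz', hzz'']
    · refine (c2_card_add _ _).trans ?_
      have h5 := c2_card_add c e2
      have h6 : (2 * (k + 1) + 2) * z''.support.card ≤ (2 * (k + 1) + 2) * M4 :=
        Nat.mul_le_mul_left _ hMz4
      omega

end P067X
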