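import Vale.Agent.P067X.ChainLib

/-!
# P067, module CONE: fillings give a chain contraction, and acyclicity

PROOF.  Induction on the number `j` of vertices: `κ ∅ = ` a vertex (fill of the empty face); for a face `σ`
with `j + 1 ≤ k₀` vertices the chain `σ + κ (bd σ)` is a cycle of at most `1 + (j+1) B j` faces, choose a
filling `κ σ`.  Acyclicity: `f σ = f (bd (κ σ)) + f (κ (bd σ))`, the first term is `0` for a cocycle, the
second is the coboundary of `τ ↦ f (κ τ)`.
-/

namespace P067X

open Classical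

variable {V : Type*}

/-- the sizes needed -/
def coneA (B : ℕ → ℕ → ℕ) : ℕ → ℕ
  | 0 => 1
  | j + 1 => 1 + (j + 1) * B j (coneA B j)

/-- the size of the contraction on faces with `j` vertices -/
def coneB (B : ℕ → ℕ → ℕ) (j : ℕ) : ℕ := B j (coneA B j)

theorem cone_add_self (c : Ch V) : c + c = 0 := by
  ext σ
  simp only [Finsupp.add_apply, Finsupp.zero_apply]
  exact CharTwo.add_self_eq_zero _

theorem cone_lin_bdf (g : Finset V → Ch V) (σ : Finset V) :
    Finsupp.linearCombination (ZMod 2) g (bdf σ) = ∑ x ∈ σ, g (σ.erase x) := by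
  rw [bdf, map_sum]
  refine Finset.sum_congr rfl fun x _ => ?_
  rw [Finsupp.linearCombination_single, one_smul]

theorem cone_inK_sum {ι : Type*} {K : Set (Finset V)} {k : ℕ} (s : Finset ι) (c : ι → Ch V)
    (h : ∀ i ∈ s, InK K k (c i)) : InK K k (∑ i ∈ s, c i) := by
  induction s using Finset.induction_on with
  | empty => simpa using InK.zero
  | insert a s ha ih =>
    rw [Finset.sum_insert ha]
    exact (h a (Finset.mem_insert_self a s)).add
      (ih fun i hi => h i (Finset.mem_insert_of_mem hi))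

theorem cone_card_add (c c' : Ch V) :
    (c + c').support.card ≤ c.support.card + c'.support.card :=
  le_trans (Finset.card_le_card Finsupp.support_add) (Finset.card_union_le _ _)

theorem cone_card_sum {ι : Type*} (s : Finset ι) (c : ι → Ch V) (N : ℕ)
    (h : ∀ i ∈ s, (c i).support.card ≤ N) : (∑ i ∈ s, c i).support.card ≤ s.card * N := by
  induction s using Finset.induction_on with
  | empty => simp
  | insert a s ha ih =>
    rw [Finset.sum_insert ha, Finset.card_insert_of_notMem ha]
    have h1 := cone_card_add (c a) (∑ i ∈ s, c i)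
    have h2 := h a (Finset.mem_insert_self a s)
    have h3 := ih fun i hi => h i (Finset.mem_insert_of_mem hi)
    calc _ ≤ _ := h1
      _ ≤ N + s.card * N := by omega
      _ = (s.card + 1) * N := by ring

theorem cone_card_single (σ : Finset V) :
    (Finsupp.single σ (1 : ZMod 2)).support.card ≤ 1 := by
  refine le_trans (Finset.card_le_card Finsupp.support_single_subset) ?_
  simp

theorem cone_inK_single {K : Set (Finset V)} {σ : Finset V} (hσ : σ ∈ K) :
    InK K σ.card (Finsupp.single σ (1 : ZMod 2)) := by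
  intro τ hτ
  have := Finsupp.support_single_subset hτ
  rw [Finset.mem_singleton] at this
  subst this
  exact ⟨hσ, rfl⟩

theorem exists_cone_aux {K : Set (Finset V)} (hK : IsCx K) (B : ℕ → ℕ → ℕ) (k₀ : ℕ)
    (h : ∀ j ≤ k₀, Fill K j (coneA B j) (coneB B j)) (n : ℕ) (hn : n ≤ k₀ + 1) :
    ∃ g : Finset V → Ch V, ∀ σ ∈ K, σ.card < n →
      InK K (σ.card + 1) (g σ) ∧
      bd (g σ) + ∑ x ∈ σ, g (σ.erase x) = Finsupp.single σ 1 ∧
      (g σ).support.card ≤ coneB B σ.card := by
  induction n with
  | zero => exact ⟨fun _ => 0, fun σ _ hσ => absurd hσ (Nat.not_lt_zero _)⟩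
  | succ n ih =>
    obtain ⟨g, hg⟩ := ih (by omega)
    have key : ∀ σ ∈ K, σ.card = n → ∃ c : Ch V, InK K (n + 1) c ∧
        bd c + ∑ x ∈ σ, g (σ.erase x) = Finsupp.single σ 1 ∧ c.support.card ≤ coneB B n := by
      intro σ hσ hcard
      have hface : ∀ x ∈ σ, σ.erase x ∈ K ∧ (σ.erase x).card = n - 1 ∧ (σ.erase x).card < n := by
        intro x hx
        have h1 : 0 < σ.card := Finset.card_pos.mpr ⟨x, hx⟩
        refine ⟨hK.2 σ hσ _ (Finset.erase_subset x σ), ?_, ?_⟩
        · rw [Finset.card_erase_of_mem hx, hcard]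
        · rw [Finset.card_erase_of_mem hx]; omega
      set z : Ch V := Finsupp.single σ 1 + ∑ x ∈ σ, g (σ.erase x) with hz
      have hz1 : InK K n z := by
        refine InK.add (hcard ▸ cone_inK_single hσ) (cone_inK_sum _ _ fun x hx => ?_)
        obtain ⟨h1, h2, h3⟩ := hface x hx
        have h4 := (hg _ h1 h3).1
        rw [h2] at h4
        have h5 : 0 < n := by omega
        rwa [Nat.sub_add_cancel h5] at h4
      have hz2 : bd z = 0 := by
        rw [hz, map_add, map_sum, bd_single]
        have h1 : ∀ x ∈ σ, bd (g (σ.erase x)) =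
            Finsupp.single (σ.erase x) 1 + Finsupp.linearCombination (ZMod 2) g
              (bdf (σ.erase x)) := by
          intro x hx
          obtain ⟨h1, h2, h3⟩ := hface x hx
          have h4 := (hg _ h1 h3).2.1
          rw [cone_lin_bdf, ← h4, add_assoc, cone_add_self, add_zero]
        rw [Finset.sum_congr rfl h1, Finset.sum_add_distrib, ← map_sum]
        have h2 : ∑ x ∈ σ, bdf (σ.erase x) = bd (bd (Finsupp.single σ 1)) := by
          rw [bd_single, bdf, map_sum]
          exact Finset.sum_congr rfl fun x _ => (bd_single _).symm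
        rw [h2, bd_bd, map_zero, add_zero, bdf, cone_add_self]
      have hz3 : z.support.card ≤ coneA B n := by
        rcases Nat.eq_zero_or_pos n with h0 | h0
        · subst h0
          have h1 : σ = ∅ := Finset.card_eq_zero.mp hcard
          rw [hz, h1, Finset.sum_empty, add_zero]
          exact cone_card_single _
        · have h1 := cone_card_sum σ (fun x => g (σ.erase x)) (coneB B (n - 1)) (by
            intro x hx
            obtain ⟨h1, h2, h3⟩ := hface x hx
            have h4 := (hg _ h1 h3).2.2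
            rwa [h2] at h4)
          have h2 := cone_card_add (Finsupp.single σ (1 : ZMod 2)) (∑ x ∈ σ, g (σ.erase x))
          have h3 := cone_card_single (V := V) σ
          obtain ⟨m, rfl⟩ : ∃ m, n = m + 1 := ⟨n - 1, by omega⟩
          rw [hcard] at h1
          simp only [Nat.add_sub_cancel] at h1
          have h4 : coneA B (m + 1) = 1 + (m + 1) * coneB B m := rfl
          rw [h4]
          exact le_trans h2 (by omega)
      obtain ⟨c, hc1, hc2, hc3⟩ := h n (by omega) z hz1 hz2 hz3
      refine ⟨c, hc1, ?_, hc3⟩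
      rw [hc2, hz, add_assoc, cone_add_self, add_zero]
    choose! c hc using key
    refine ⟨fun σ => if σ.card = n then c σ else g σ, ?_⟩
    intro σ hσ hcard
    have hsum : ∑ x ∈ σ, (if (σ.erase x).card = n then c (σ.erase x) else g (σ.erase x)) =
        ∑ x ∈ σ, g (σ.erase x) := by
      refine Finset.sum_congr rfl fun x hx => ?_
      rw [if_neg]
      have h1 : 0 < σ.card := Finset.card_pos.mpr ⟨x, hx⟩
      rw [Finset.card_erase_of_mem hx]
      omega
    simp only [hsum]
    by_cases hn' : σ.card = n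
    · rw [if_pos hn']
      obtain ⟨h1, h2, h3⟩ := hc σ hσ hn'
      rw [hn']
      exact ⟨h1, h2, h3⟩
    · rw [if_neg hn']
      exact hg σ hσ (by omega)

theorem exists_cone {K : Set (Finset V)} (hK : IsCx K) (B : ℕ → ℕ → ℕ) (k₀ : ℕ)
    (h : ∀ j ≤ k₀, Fill K j (coneA B j) (coneB B j)) :
    ∃ κ : Ch V →ₗ[ZMod 2] Ch V, ∀ σ ∈ K, σ.card ≤ k₀ →
      InK K (σ.card + 1) (κ (Finsupp.single σ 1)) ∧
      bd (κ (Finsupp.single σ 1)) + κ (bdf σ) = Finsupp.single σ 1 ∧
      (κ (Finsupp.single σ 1)).support.card ≤ coneB B σ.card := by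
  obtain ⟨g, hg⟩ := exists_cone_aux hK B k₀ h (k₀ + 1) le_rfl
  refine ⟨Finsupp.linearCombination (ZMod 2) g, fun σ hσ hcard => ?_⟩
  rw [Finsupp.linearCombination_single, one_smul, cone_lin_bdf]
  exact hg σ hσ (by omega)

theorem cone_lin_bdf_cob (f : Finset V → ZMod 2) (σ : Finset V) :
    Finsupp.linearCombination (ZMod 2) f (bdf σ) = cob f σ := by
  rw [bdf, map_sum, cob]
  refine Finset.sum_congr rfl fun x _ => ?_
  rw [Finsupp.linearCombination_single, smul_eq_mul, one_mul]

theorem cone_lin_bd {K : Set (Finset V)} {j : ℕ} (f : Finset V → ZMod 2)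
    (hf : Cocyc K j f) {c : Ch V} (hc : InK K (j + 1) c) :
    Finsupp.linearCombination (ZMod 2) f (bd c) = 0 := by
  have h1 : bd c = ∑ ρ ∈ c.support, c ρ • bdf ρ := by
    conv_lhs => rw [← Finsupp.sum_single c]
    rw [Finsupp.sum, map_sum]
    refine Finset.sum_congr rfl fun ρ _ => ?_
    rw [← bd_single, ← map_smul, Finsupp.smul_single, smul_eq_mul, mul_one]
  rw [h1, map_sum]
  refine Finset.sum_eq_zero fun ρ hρ => ?_
  rw [map_smul, cone_lin_bdf_cob, hf ρ (hc ρ hρ).1 (hc ρ hρ).2, smul_zero]

theorem acyc_of_fill {K : Set (Finset V)} (hK : IsCx K) (B : ℕ → ℕ → ℕ) (k₀ : ℕ)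
    (h : ∀ j ≤ k₀, Fill K j (coneA B j) (coneB B j)) (j : ℕ) (hj : j ≤ k₀) : Acyc K j := by
  obtain ⟨κ, hκ⟩ := exists_cone hK B k₀ h
  intro f hf
  refine ⟨fun τ => Finsupp.linearCombination (ZMod 2) f (κ (Finsupp.single τ 1)), ?_⟩
  intro σ hσ hcard
  obtain ⟨h1, h2, -⟩ := hκ σ hσ (by omega)
  rw [hcard] at h1
  have h3 : cob (fun τ => Finsupp.linearCombination (ZMod 2) f (κ (Finsupp.single τ 1))) σ =
      Finsupp.linearCombination (ZMod 2) f (κ (bdf σ)) := by
    rw [cob, bdf, map_sum, map_sum]
  have h4 := congrArg (Finsupp.linearCombination (ZMod 2) f) h2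
  rw [map_add, cone_lin_bd f hf h1, zero_add, Finsupp.linearCombination_single, smul_eq_mul,
    one_mul] at h4
  rw [h3, h4]

end P067X
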