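import Vale.Agent.P067X.CaseOne
import Vale.Agent.P067X.CaseTwo
import Vale.Agent.P067X.Cone

/-!
# P067, module ACYCQF: uniform fillings for the family `QF`

PROOF.  `B j M =` the maximum of the constants `M'` of `fill_caseI j M`, `fill_caseII j M`, `fill_TB j M`; `p₀ =` the maximum of the
`p₀`'s of `(j, coneA B j)` over `j ≤ k`.  Note `Good k` implies `Good j` for `j ≤ k`.  `Acyc` from `acyc_of_fill`.
-/

namespace P067X

open Classical Module

/-- the dimension conditions of the two cases -/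
def Good (k : ℕ) {F E : Type} [Field F] [AddCommGroup E] [Module F E] (J : Submodule F E) (s : ℕ)
    (b : Prop) : Prop :=
  (k + 1 ≤ s ∧ s + finrank F J ≤ finrank F E ∧ s + k + 2 ≤ finrank F E) ∨
    (b ∧ k + 1 ≤ finrank F J ∧ J ≠ ⊤ ∧ s + finrank F J + 2 ≤ finrank F E)

private theorem qf_top {F E : Type} [Field F] [AddCommGroup E] [Module F E] (s : ℕ) (b : Prop)
    (hb : b) (Γ H₀ : Submodule F E) :
    QF (⊤ : Submodule F E) s b Γ H₀ = QF (⊤ : Submodule F E) 0 True Γ H₀ := by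
  ext T
  simp [QF, hb]

theorem uniform_QF (k : ℕ) : ∃ (p₀ : ℕ) (B : ℕ → ℕ → ℕ), ∀ (p : ℕ) [Fact p.Prime], p₀ ≤ p →
    ∀ (E : Type) [AddCommGroup E] [Module (ZMod p) E] [FiniteDimensional (ZMod p) E]
      (J Γ H₀ : Submodule (ZMod p) E) (s : ℕ) (b : Prop), Γ ≠ ⊥ → H₀ ≠ ⊤ →
      (Good k J s b ∨ (J = ⊤ ∧ b ∧ k + 2 ≤ finrank (ZMod p) E)) →
      ∀ j ≤ k, Fill (OC (QF J s b Γ H₀)) j (coneA B j) (coneB B j) := by
  choose p1 m1 h1 using fill_caseI
  choose p2 m2 h2 using fill_caseII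
  choose p3 m3 h3 using fill_TB
  let B : ℕ → ℕ → ℕ := fun j M => max (m1 j M) (max (m2 j M) (m3 j M))
  let P : ℕ → ℕ := fun j => max (p1 j (coneA B j)) (max (p2 j (coneA B j)) (p3 j (coneA B j)))
  refine ⟨(Finset.range (k + 1)).sup P, B, ?_⟩
  intro p _ hp E _ _ _ J Γ H₀ s b hΓ hH hgood j hj
  have hP : P j ≤ p := (Finset.le_sup (f := P) (Finset.mem_range.2 (by omega))).trans hp
  have hP1 : p1 j (coneA B j) ≤ p := (le_max_left _ _).trans hP
  have hP2 : p2 j (coneA B j) ≤ p := ((le_max_left _ _).trans (le_max_right _ _)).trans hP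
  have hP3 : p3 j (coneA B j) ≤ p := ((le_max_right _ _).trans (le_max_right _ _)).trans hP
  have hB1 : m1 j (coneA B j) ≤ coneB B j := le_max_left _ _
  have hB2 : m2 j (coneA B j) ≤ coneB B j := (le_max_left _ _).trans (le_max_right _ _)
  have hB3 : m3 j (coneA B j) ≤ coneB B j := (le_max_right _ _).trans (le_max_right _ _)
  rcases hgood with (⟨ha, hb, hc⟩ | ⟨hb, ha, hc, hd⟩) | ⟨hJ, hb, hd⟩
  · exact (h1 j (coneA B j) p hP1 E J Γ H₀ s b hΓ hH (by omega) hb (by omega)).mono le_rfl hB1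
  · have hb' : b = True := propext ⟨fun _ => trivial, fun _ => hb⟩
    subst hb'
    exact (h2 j (coneA B j) p hP2 E J Γ H₀ s hΓ hH (by omega) hc hd).mono le_rfl hB2
  · subst hJ
    rw [qf_top s b hb]
    exact (h3 j (coneA B j) p hP3 E Γ H₀ hΓ hH (by omega)).mono le_rfl hB3

theorem acyc_QF (k : ℕ) : ∃ p₀ : ℕ, ∀ (p : ℕ) [Fact p.Prime], p₀ ≤ p →
    ∀ (E : Type) [AddCommGroup E] [Module (ZMod p) E] [FiniteDimensional (ZMod p) E]
      (J Γ H₀ : Submodule (ZMod p) E) (s : ℕ) (b : Prop), Γ ≠ ⊥ → H₀ ≠ ⊤ →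
      (Good k J s b ∨ (J = ⊤ ∧ b ∧ k + 2 ≤ finrank (ZMod p) E)) →
      ∀ j ≤ k, Acyc (OC (QF J s b Γ H₀)) j := by
  obtain ⟨p₀, B, h⟩ := uniform_QF k
  refine ⟨p₀, ?_⟩
  intro p _ hp E _ _ _ J Γ H₀ s b hΓ hH hgood j hj
  exact acyc_of_fill (isCx_OC _) B k (h p hp E J Γ H₀ s b hΓ hH hgood) j hj

end P067X
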