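import Vale.Agent.P067X.Chain

/-!
# P067: the family of posets of subspaces
-/

namespace P067X

open Classical Module

variable {F E : Type*} [Field F] [AddCommGroup E] [Module F E]

/-- the family `Q(E,J,s,b,Γ,H₀)` of sets of subspaces -/
def QF (J : Submodule F E) (s : ℕ) (b : Prop) (Γ H₀ : Submodule F E) : Set (Submodule F E) :=
  {T | ((T ⊓ J = ⊥ ∧ finrank F T ≤ s) ∨ (b ∧ T ⊔ J = ⊤)) ∧ ¬ Γ ≤ T ∧ ¬ T ≤ H₀}

end P067X
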