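import Vale.Agent.P067X.Morse
import Vale.Agent.P067X.Family

/-!
# P067, module AVG: averaging over hyperplanes

`Y` is fibred over `Z`: faces `σ.image (lift q)`, `σ ∈ Z`, `q ∈ Q`, and `lift q x = lift q' x'` iff `x = x'` and `q - q' ∈ QS x`.
Put `Q_σ = ⨅ x ∈ σ, QS x`; write `f(σ,q) = f (σ.image (lift q))`, it depends only on `q` mod `Q_σ`.
PROOF.  For a hyperplane `H = ker η` and `c : ZMod p` put `Phi η c σ = ∑ y with η y ≠ c, f(σ,y)`.  Then (mod 2)
`∑_H Phi η_H (η_H q) σ = ∑ y ≠ q, f(σ,y)`: the number of hyperplanes not containing a given `w ≠ 0` is odd (`hyp_odd`).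
`Phi η c` is a cocycle on `Z`, and vanishes on `σ` if `¬ Q_σ ≤ ker η` (involution `y ↦ y - (2 (η y - c)/η q) q`).
So `Phi η c = cob g_{η,c}` with `g_{η,c} = 0` on the faces with `¬ Q_σ ≤ ker η`, and `g(σ,x) = ∑_H g_{η_H, η_H x}(σ)` is a
cochain on `Y`.  (If `Q = 0` the statement is trivial.)
-/

namespace P067X

open Classical Module

/-- `Y` is the complex fibred over `Z` -/
structure Fib (p : ℕ) [Fact p.Prime] {V W Q : Type} [AddCommGroup Q] [Module (ZMod p) Q]
    (Z : Set (Finset V)) (Y : Set (Finset W)) (QS : V → Submodule (ZMod p) Q)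
    (lift : Q → V → W) : Prop where
  cx : IsCx Z
  inj : ∀ q q' x x', {x} ∈ Z → {x'} ∈ Z → (lift q x = lift q' x' ↔ x = x' ∧ q - q' ∈ QS x)
  eq : Y = {τ | ∃ q : Q, ∃ σ ∈ Z, τ = σ.image (lift q)}

/-- the faces `σ` of `Z` with `Q_σ` not contained in `H` -/
def ZH {p : ℕ} [Fact p.Prime] {V Q : Type} [AddCommGroup Q] [Module (ZMod p) Q]
    (Z : Set (Finset V)) (QS : V → Submodule (ZMod p) Q) (η : Q →ₗ[ZMod p] ZMod p) :
    Set (Finset V) :=
  {σ | σ ∈ Z ∧ ∃ q : Q, (∀ x ∈ σ, q ∈ QS x) ∧ η q ≠ 0}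

section avgaux

variable {p : ℕ} [Fact p.Prime]

private theorem av_two (a : ZMod 2) : a + a = 0 := CharTwo.add_self_eq_zero a

private theorem av_mem {V : Type} {Z : Set (Finset V)} (hZ : IsCx Z) {σ : Finset V} (hσ : σ ∈ Z)
    {x : V} (hx : x ∈ σ) : {x} ∈ Z := hZ.2 σ hσ {x} (by simpa using hx)

private theorem av_injOn {V W Q : Type} [AddCommGroup Q] [Module (ZMod p) Q] {Z : Set (Finset V)}
    {Y : Set (Finset W)} {QS : V → Submodule (ZMod p) Q} {lift : Q → V → W}
    (hF : Fib p Z Y QS lift) {σ : Finset V} (hσ : σ ∈ Z) (q : Q) :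
    Set.InjOn (lift q) (σ : Set V) := by
  intro x hx y hy h
  exact ((hF.inj q q x y (av_mem hF.cx hσ hx) (av_mem hF.cx hσ hy)).1 h).1

/-- uniqueness of the base face, and the fibre coordinate is determined modulo `Q_σ` -/
private theorem av_uniq {V W Q : Type} [AddCommGroup Q] [Module (ZMod p) Q] {Z : Set (Finset V)}
    {Y : Set (Finset W)} {QS : V → Submodule (ZMod p) Q} {lift : Q → V → W}
    (hF : Fib p Z Y QS lift) {σ σ' : Finset V} (hσ : σ ∈ Z) (hσ' : σ' ∈ Z) (q q' : Q)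
    (h : σ.image (lift q) = σ'.image (lift q')) : σ = σ' ∧ ∀ x ∈ σ, q - q' ∈ QS x := by
  have key : ∀ x ∈ σ, x ∈ σ' ∧ q - q' ∈ QS x := by
    intro x hx
    have h1 : lift q x ∈ σ'.image (lift q') := by
      rw [← h]; exact Finset.mem_image_of_mem _ hx
    obtain ⟨y, hy, hxy⟩ := Finset.mem_image.1 h1
    obtain ⟨h2, h3⟩ := (hF.inj q q' x y (av_mem hF.cx hσ hx) (av_mem hF.cx hσ' hy)).1 hxy.symm
    exact ⟨h2 ▸ hy, h3⟩
  have key2 : ∀ x ∈ σ', x ∈ σ := by
    intro x hx
    have h1 : lift q' x ∈ σ.image (lift q) := by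
      rw [h]; exact Finset.mem_image_of_mem _ hx
    obtain ⟨y, hy, hxy⟩ := Finset.mem_image.1 h1
    obtain ⟨h2, h3⟩ := (hF.inj q q' y x (av_mem hF.cx hσ hy) (av_mem hF.cx hσ' hx)).1 hxy
    exact h2 ▸ hy
  exact ⟨Finset.Subset.antisymm (fun x hx => (key x hx).1) key2, fun x hx => (key x hx).2⟩

private theorem av_image_eq {V W Q : Type} [AddCommGroup Q] [Module (ZMod p) Q]
    {Z : Set (Finset V)} {Y : Set (Finset W)} {QS : V → Submodule (ZMod p) Q}
    {lift : Q → V → W} (hF : Fib p Z Y QS lift) {σ : Finset V} (hσ : σ ∈ Z) (q q' : Q)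
    (h : ∀ x ∈ σ, q - q' ∈ QS x) : σ.image (lift q) = σ.image (lift q') := by
  apply Finset.image_congr
  intro x hx
  exact (hF.inj q q' x x (av_mem hF.cx hσ hx) (av_mem hF.cx hσ hx)).2 ⟨rfl, h x hx⟩

/-- coboundary of a lifted face -/
private theorem av_cob {V W Q : Type} [AddCommGroup Q] [Module (ZMod p) Q]
    {Z : Set (Finset V)} {Y : Set (Finset W)} {QS : V → Submodule (ZMod p) Q}
    {lift : Q → V → W} (hF : Fib p Z Y QS lift) {σ : Finset V} (hσ : σ ∈ Z) (q : Q)
    (f : Finset W → ZMod 2) :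
    cob f (σ.image (lift q)) = ∑ x ∈ σ, f ((σ.erase x).image (lift q)) := by
  unfold cob
  have hinj := av_injOn hF hσ q
  rw [Finset.sum_image hinj]
  apply Finset.sum_congr rfl
  intro x hx
  congr 1
  ext w
  simp only [Finset.mem_erase, Finset.mem_image]
  constructor
  · rintro ⟨h1, y, hy, rfl⟩
    exact ⟨y, ⟨fun h => h1 (by rw [h]), hy⟩, rfl⟩
  · rintro ⟨y, ⟨h1, hy⟩, rfl⟩
    exact ⟨fun h => h1 (hinj hy hx h), y, hy, rfl⟩

/-- the hyperplanes -/
private noncomputable def hyp (p : ℕ) [Fact p.Prime] (Q : Type) [AddCommGroup Q]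
    [Module (ZMod p) Q] [Fintype Q] : Finset (Submodule (ZMod p) Q) :=
  Finset.univ.filter fun H => ∃ η : Q →ₗ[ZMod p] ZMod p, η ≠ 0 ∧ LinearMap.ker η = H

private theorem mem_hyp {Q : Type} [AddCommGroup Q] [Module (ZMod p) Q] [Fintype Q]
    {H : Submodule (ZMod p) Q} :
    H ∈ hyp p Q ↔ ∃ η : Q →ₗ[ZMod p] ZMod p, η ≠ 0 ∧ LinearMap.ker η = H := by
  simp [hyp]

/-- a functional with given hyperplane -/
private noncomputable def et {Q : Type} [AddCommGroup Q]
    [Module (ZMod p) Q] (H : Submodule (ZMod p) Q) : Q →ₗ[ZMod p] ZMod p :=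
  if h : ∃ η : Q →ₗ[ZMod p] ZMod p, η ≠ 0 ∧ LinearMap.ker η = H then h.choose else 0

private theorem et_spec {Q : Type} [AddCommGroup Q]
    [Module (ZMod p) Q] [Fintype Q] {H : Submodule (ZMod p) Q} (hH : H ∈ hyp p Q) :
    et H ≠ 0 ∧ LinearMap.ker (et H) = H := by
  have h := mem_hyp.1 hH
  unfold et
  rw [dif_pos h]
  exact h.choose_spec

/-- the number of hyperplanes not containing `w ≠ 0` is odd -/
private theorem hyp_odd (hp : p ≠ 2) {Q : Type} [AddCommGroup Q]
    [Module (ZMod p) Q] [Fintype Q] (w : Q) (hw : w ≠ 0) :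
    Odd ((hyp p Q).filter fun H => w ∉ H).card := by
  have _ : FiniteDimensional (ZMod p) Q := Module.Finite.of_finite
  have _ : Finite (Q →ₗ[ZMod p] ZMod p) := Finite.of_injective _ DFunLike.coe_injective
  have _ : Fintype (Q →ₗ[ZMod p] ZMod p) := Fintype.ofFinite _
  -- a functional with value one
  obtain ⟨η₁, hη₁⟩ : ∃ η : Q →ₗ[ZMod p] ZMod p, η w = 1 := by
    have h1 : ∃ η : Module.Dual (ZMod p) Q, η w ≠ 0 := by
      by_contra hcon
      push Not at hcon
      exact hw ((Module.forall_dual_apply_eq_zero_iff (ZMod p) w).1 hcon)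
    obtain ⟨η, hη⟩ := h1
    exact ⟨(η w)⁻¹ • η, by simp [inv_mul_cancel₀ hη]⟩
  -- the set of functionals with value one
  have hcard : ((hyp p Q).filter fun H => w ∉ H).card
      = (Finset.univ.filter fun η : Q →ₗ[ZMod p] ZMod p => η w = 1).card := by
    symm
    apply Finset.card_bij (fun η _ => LinearMap.ker η)
    · intro η hη
      have h1 := (Finset.mem_filter.1 hη).2
      rw [Finset.mem_filter]
      refine ⟨mem_hyp.2 ⟨η, ?_, rfl⟩, ?_⟩
      · intro h0
        rw [h0] at h1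
        simp at h1
      · intro h0
        rw [LinearMap.mem_ker, h1] at h0
        exact one_ne_zero h0
    · intro η hη η' hη' hk
      have h1 := (Finset.mem_filter.1 hη).2
      have h2 := (Finset.mem_filter.1 hη').2
      apply LinearMap.ext
      intro v
      have h3 : v - η v • w ∈ LinearMap.ker η := by
        rw [LinearMap.mem_ker, map_sub, map_smul, h1]
        simp
      have hk' : LinearMap.ker η = LinearMap.ker η' := hk
      rw [hk', LinearMap.mem_ker, map_sub, map_smul, h2, smul_eq_mul, mul_one] at h3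
      exact (sub_eq_zero.1 h3).symm
    · intro H hH
      obtain ⟨h1, h2⟩ := Finset.mem_filter.1 hH
      obtain ⟨η, hη, hk⟩ := mem_hyp.1 h1
      have h3 : η w ≠ 0 := fun h0 => h2 (hk ▸ (LinearMap.mem_ker.2 h0))
      refine ⟨(η w)⁻¹ • η, Finset.mem_filter.2 ⟨Finset.mem_univ _, by simp [inv_mul_cancel₀ h3]⟩, ?_⟩
      rw [← hk]
      exact LinearMap.ker_smul _ _ (inv_ne_zero h3)
  rw [hcard]
  -- translate to the annihilator
  have hcard2 : (Finset.univ.filter fun η : Q →ₗ[ZMod p] ZMod p => η w = 1).card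
      = (Finset.univ.filter fun η : Q →ₗ[ZMod p] ZMod p => η w = 0).card := by
    apply Finset.card_bij (fun η _ => η - η₁)
    · intro η hη
      have h1 := (Finset.mem_filter.1 hη).2
      rw [Finset.mem_filter]
      refine ⟨Finset.mem_univ _, ?_⟩
      rw [LinearMap.sub_apply, h1, hη₁, sub_self]
    · intro η _ η' _ h
      exact sub_left_injective h
    · intro η hη
      have h1 := (Finset.mem_filter.1 hη).2
      refine ⟨η + η₁, Finset.mem_filter.2 ⟨Finset.mem_univ _, ?_⟩, by simp⟩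
      rw [LinearMap.add_apply, h1, hη₁, zero_add]
  rw [hcard2]
  let N : Submodule (ZMod p) (Q →ₗ[ZMod p] ZMod p) := LinearMap.ker (LinearMap.applyₗ w)
  have hN : (Finset.univ.filter fun η : Q →ₗ[ZMod p] ZMod p => η w = 0).card = Nat.card N := by
    rw [Nat.card_eq_fintype_card, Fintype.card_subtype]
    congr 1
    ext η
    simp [N]
  rw [hN]
  have _ : Fintype N := Fintype.ofFinite _
  rw [Nat.card_eq_fintype_card, Module.card_eq_pow_finrank (K := ZMod p) (V := N), ZMod.card]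
  exact ((Fact.out : p.Prime).odd_of_ne_two hp).pow


/-- the part of the sum over the translates `y` with `η y ≠ c` -/
private noncomputable def Phi {V W Q : Type} [AddCommGroup Q] [Module (ZMod p) Q] [Fintype Q]
    (lift : Q → V → W) (f : Finset W → ZMod 2) (η : Q →ₗ[ZMod p] ZMod p) (c : ZMod p)
    (σ : Finset V) : ZMod 2 :=
  ∑ y : Q with η y ≠ c, f (σ.image (lift y))

private theorem Phi_cocyc {V W Q : Type} [AddCommGroup Q] [Module (ZMod p) Q] [Fintype Q]
    {Z : Set (Finset V)} {Y : Set (Finset W)} {QS : V → Submodule (ZMod p) Q}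
    {lift : Q → V → W} (hF : Fib p Z Y QS lift) (k : ℕ) (f : Finset W → ZMod 2)
    (hf : Cocyc Y k f) (η : Q →ₗ[ZMod p] ZMod p) (c : ZMod p) :
    Cocyc Z k (Phi lift f η c) := by
  intro ρ hρ hc
  unfold cob Phi
  rw [Finset.sum_comm]
  apply Finset.sum_eq_zero
  intro y _
  rw [← av_cob hF hρ y f]
  apply hf
  · rw [hF.eq]
    exact ⟨y, ρ, hρ, rfl⟩
  · rw [Finset.card_image_of_injOn (av_injOn hF hρ y), hc]

private theorem Phi_vanish (hp : p ≠ 2) {V W Q : Type} [AddCommGroup Q] [Module (ZMod p) Q]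
    [Fintype Q] {Z : Set (Finset V)} {Y : Set (Finset W)} {QS : V → Submodule (ZMod p) Q}
    {lift : Q → V → W} (hF : Fib p Z Y QS lift) (f : Finset W → ZMod 2)
    (η : Q →ₗ[ZMod p] ZMod p) (c : ZMod p) {σ : Finset V} (hσ : σ ∈ ZH Z QS η) :
    Phi lift f η c σ = 0 := by
  obtain ⟨hσZ, q, hq, hηq⟩ := hσ
  have h2 : (2 : ZMod p) ≠ 0 := by
    intro h
    have h' : ((2 : ℕ) : ZMod p) = 0 := by exact_mod_cast h
    rw [ZMod.natCast_eq_zero_iff] at h'
    exact hp ((Nat.prime_dvd_prime_iff_eq Fact.out Nat.prime_two).1 h')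
  unfold Phi
  have hη : ∀ y : Q, η (y - ((2 * (η y - c) / η q) • q)) = 2 * c - η y := by
    intro y
    rw [map_sub, map_smul, smul_eq_mul, div_mul_cancel₀ _ hηq]
    ring
  apply Finset.sum_involution (fun y _ => y - ((2 * (η y - c) / η q) • q))
  · intro y _
    have h1 : σ.image (lift (y - ((2 * (η y - c) / η q) • q))) = σ.image (lift y) := by
      apply av_image_eq hF hσZ
      intro x hx
      have h3 : y - ((2 * (η y - c) / η q) • q) - y = -((2 * (η y - c) / η q) • q) := by abel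
      rw [h3]
      exact (QS x).neg_mem ((QS x).smul_mem _ (hq x hx))
    rw [h1]
    exact av_two _
  · intro y hy _ h
    have h1 := (Finset.mem_filter.1 hy).2
    have h3 := hη y
    rw [h] at h3
    apply h1
    have h4 : 2 * (η y - c) = 0 := by linear_combination h3
    rcases mul_eq_zero.1 h4 with h5 | h5
    · exact absurd h5 h2
    · exact sub_eq_zero.1 h5
  · intro y hy
    have h1 := (Finset.mem_filter.1 hy).2
    rw [Finset.mem_filter]
    refine ⟨Finset.mem_univ _, ?_⟩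
    rw [hη y]
    intro h3
    apply h1
    linear_combination -h3
  · intro y _
    rw [hη y]
    have h3 : 2 * (2 * c - η y - c) / η q = -(2 * (η y - c) / η q) := by
      rw [← neg_div]
      congr 1
      ring
    rw [h3, neg_smul]
    abel

end avgaux

theorem avg_main (p : ℕ) [Fact p.Prime] (hp : p ≠ 2) {V W Q : Type} [AddCommGroup Q]
    [Module (ZMod p) Q] [Fintype Q] {Z : Set (Finset V)} {Y : Set (Finset W)}
    {QS : V → Submodule (ZMod p) Q} {lift : Q → V → W} (hF : Fib p Z Y QS lift) (k : ℕ)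
    (hrel : ∀ η : Q →ₗ[ZMod p] ZMod p, η ≠ 0 → RelAcyc Z (ZH Z QS η) k)
    (f : Finset W → ZMod 2) (hf : Cocyc Y k f) :
    ∃ g : Finset W → ZMod 2, ∀ q : Q, ∀ σ ∈ Z, σ.card = k →
      f (σ.image (lift q)) = (∑ q' : Q, f (σ.image (lift q'))) + cob g (σ.image (lift q)) := by
  -- primitives on the base
  have hex : ∀ (η : Q →ₗ[ZMod p] ZMod p) (c : ZMod p), ∃ g : Finset V → ZMod 2, η ≠ 0 →
      (∀ σ ∈ Z, σ.card = k → Phi lift f η c σ = cob g σ) ∧
        ∀ σ ∈ ZH Z QS η, σ.card + 1 = k → g σ = 0 := by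
    intro η c
    by_cases hη : η = 0
    · exact ⟨0, fun h => absurd hη h⟩
    · obtain ⟨g, hg⟩ := hrel η hη (Phi lift f η c) (Phi_cocyc hF k f hf η c)
        (fun σ hσ _ => Phi_vanish hp hF f η c hσ)
      exact ⟨g, fun _ => hg⟩
  choose G hG using hex
  -- the cochain upstairs
  let P : Finset W → Prop := fun τ => ∃ (x : Q) (σ : Finset V), σ ∈ Z ∧ τ = σ.image (lift x)
  let g : Finset W → ZMod 2 := fun τ =>
    if h : P τ then ∑ H ∈ hyp p Q, G (et H) (et H h.choose) h.choose_spec.choose else 0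
  have hg : ∀ (x : Q) (σ : Finset V), σ ∈ Z → σ.card + 1 = k →
      g (σ.image (lift x)) = ∑ H ∈ hyp p Q, G (et H) (et H x) σ := by
    intro x σ hσ hc
    have hP : P (σ.image (lift x)) := ⟨x, σ, hσ, rfl⟩
    have e1 : g (σ.image (lift x))
        = ∑ H ∈ hyp p Q, G (et H) (et H hP.choose) hP.choose_spec.choose := dif_pos hP
    rw [e1]
    obtain ⟨h1, h2⟩ := hP.choose_spec.choose_spec
    obtain ⟨h3, h4⟩ := av_uniq hF hσ h1 x hP.choose h2
    rw [← h3]
    apply Finset.sum_congr rfl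
    intro H hH
    by_cases h5 : et H hP.choose = et H x
    · rw [h5]
    · obtain ⟨hη, -⟩ := et_spec hH
      have h6 : σ ∈ ZH Z QS (et H) := by
        refine ⟨hσ, x - hP.choose, h4, ?_⟩
        rw [map_sub]
        exact sub_ne_zero.2 (Ne.symm h5)
      rw [(hG (et H) _ hη).2 σ h6 hc, (hG (et H) _ hη).2 σ h6 hc]
  refine ⟨g, fun q σ hσ hc => ?_⟩
  have h1 : cob g (σ.image (lift q)) = ∑ H ∈ hyp p Q, Phi lift f (et H) (et H q) σ := by
    rw [av_cob hF hσ q g]
    have h2 : ∀ x ∈ σ, g ((σ.erase x).image (lift q))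
        = ∑ H ∈ hyp p Q, G (et H) (et H q) (σ.erase x) := by
      intro x hx
      apply hg
      · exact hF.cx.2 σ hσ _ (Finset.erase_subset _ _)
      · rw [Finset.card_erase_add_one hx, hc]
    rw [Finset.sum_congr rfl h2, Finset.sum_comm]
    apply Finset.sum_congr rfl
    intro H hH
    exact ((hG (et H) (et H q) (et_spec hH).1).1 σ hσ hc).symm
  have h3 : ∑ H ∈ hyp p Q, Phi lift f (et H) (et H q) σ
      = ∑ y : Q, if y = q then 0 else f (σ.image (lift y)) := by
    have h4 : ∀ H ∈ hyp p Q, Phi lift f (et H) (et H q) σ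
        = ∑ y : Q, if y - q ∉ H then f (σ.image (lift y)) else 0 := by
      intro H hH
      unfold Phi
      rw [Finset.sum_filter]
      apply Finset.sum_congr rfl
      intro y _
      have h5 : et H y ≠ et H q ↔ y - q ∉ H := by
        obtain ⟨-, hk⟩ := et_spec hH
        conv_rhs => rw [← hk]
        rw [LinearMap.mem_ker, map_sub, sub_eq_zero]
      simp only [h5]
    rw [Finset.sum_congr rfl h4, Finset.sum_comm]
    apply Finset.sum_congr rfl
    intro y _
    by_cases hy : y = q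
    · subst hy
      simp
    · rw [if_neg hy, ← Finset.sum_filter, Finset.sum_const]
      have h6 := hyp_odd hp (y - q) (sub_ne_zero.2 hy)
      obtain ⟨m, hm⟩ := h6
      rw [hm, nsmul_eq_mul]
      push_cast
      have h7 : (2 : ZMod 2) = 0 := by decide
      rw [h7]
      ring
  rw [h1, h3]
  have h8 : ∑ y : Q, (if y = q then f (σ.image (lift y)) else 0) = f (σ.image (lift q)) := by
    simp
  have h9 : (∑ q' : Q, f (σ.image (lift q')))
      = (∑ y : Q, (if y = q then f (σ.image (lift y)) else 0))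
        + ∑ y : Q, if y = q then 0 else f (σ.image (lift y)) := by
    rw [← Finset.sum_add_distrib]
    apply Finset.sum_congr rfl
    intro y _
    by_cases hy : y = q
    · simp [hy]
    · simp [hy]
  rw [h9, h8, add_assoc, av_two, add_zero]



private theorem av_sum_cocyc {p : ℕ} [Fact p.Prime] {V W Q : Type} [AddCommGroup Q]
    [Module (ZMod p) Q] [Fintype Q] {Z : Set (Finset V)} {Y : Set (Finset W)}
    {QS : V → Submodule (ZMod p) Q} {lift : Q → V → W} (hF : Fib p Z Y QS lift) (k : ℕ)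
    (f : Finset W → ZMod 2) (hf : Cocyc Y k f) :
    Cocyc Z k (fun σ => ∑ q : Q, f (σ.image (lift q))) := by
  intro ρ hρ hc
  unfold cob
  rw [Finset.sum_comm]
  apply Finset.sum_eq_zero
  intro y _
  rw [← av_cob hF hρ y f]
  apply hf
  · rw [hF.eq]
    exact ⟨y, ρ, hρ, rfl⟩
  · rw [Finset.card_image_of_injOn (av_injOn hF hρ y), hc]

/-- if the average is a coboundary on the base, `f` is a coboundary -/
private theorem av_of_sum {p : ℕ} [Fact p.Prime] {V W Q : Type} [AddCommGroup Q]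
    [Module (ZMod p) Q] [Fintype Q] {Z : Set (Finset V)} {Y : Set (Finset W)}
    {QS : V → Submodule (ZMod p) Q} {lift : Q → V → W} (hF : Fib p Z Y QS lift) (k : ℕ)
    (f g : Finset W → ZMod 2)
    (hfg : ∀ q : Q, ∀ σ ∈ Z, σ.card = k →
      f (σ.image (lift q)) = (∑ q' : Q, f (σ.image (lift q'))) + cob g (σ.image (lift q)))
    (h : Finset V → ZMod 2)
    (hh : ∀ σ ∈ Z, σ.card = k → (∑ q' : Q, f (σ.image (lift q'))) = cob h σ) : Cobdy Y k f := by
  let P : Finset W → Prop := fun τ => ∃ (σ : Finset V) (x : Q), σ ∈ Z ∧ τ = σ.image (lift x)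
  let h' : Finset W → ZMod 2 := fun τ => if hp : P τ then h hp.choose else 0
  have hh' : ∀ (x : Q) (σ : Finset V), σ ∈ Z → h' (σ.image (lift x)) = h σ := by
    intro x σ hσ
    have hP : P (σ.image (lift x)) := ⟨σ, x, hσ, rfl⟩
    have e1 : h' (σ.image (lift x)) = h hP.choose := dif_pos hP
    rw [e1]
    obtain ⟨x', h1, h2⟩ := hP.choose_spec
    rw [← (av_uniq hF hσ h1 x x' h2).1]
  refine ⟨fun τ => h' τ + g τ, fun τ hτ hc => ?_⟩
  rw [hF.eq] at hτ
  obtain ⟨q, σ, hσ, rfl⟩ := hτ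
  rw [Finset.card_image_of_injOn (av_injOn hF hσ q)] at hc
  rw [hfg q σ hσ hc, hh σ hσ hc, av_cob hF hσ, av_cob hF hσ, Finset.sum_add_distrib]
  congr 1
  unfold cob
  apply Finset.sum_congr rfl
  intro x _
  exact (hh' q _ (hF.cx.2 σ hσ _ (Finset.erase_subset _ _))).symm

/-- acyclic base and `hrel` imply acyclic total space -/
theorem avg_acyc (p : ℕ) [Fact p.Prime] (hp : p ≠ 2) {V W Q : Type} [AddCommGroup Q]
    [Module (ZMod p) Q] [Fintype Q] {Z : Set (Finset V)} {Y : Set (Finset W)}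
    {QS : V → Submodule (ZMod p) Q} {lift : Q → V → W} (hF : Fib p Z Y QS lift) (k : ℕ)
    (hrel : ∀ η : Q →ₗ[ZMod p] ZMod p, η ≠ 0 → RelAcyc Z (ZH Z QS η) k) (hZ : Acyc Z k) :
    Acyc Y k := by
  intro f hf
  obtain ⟨g, hg⟩ := avg_main p hp hF k hrel f hf
  obtain ⟨h, hh⟩ := hZ _ (av_sum_cocyc hF k f hf)
  exact av_of_sum hF k f g hg h hh

/-- a cocycle which is a coboundary on the section `q = 0` is a coboundary -/
theorem avg_section (p : ℕ) [Fact p.Prime] (hp : p ≠ 2) {V W Q : Type} [AddCommGroup Q]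
    [Module (ZMod p) Q] [Fintype Q] {Z : Set (Finset V)} {Y : Set (Finset W)}
    {QS : V → Submodule (ZMod p) Q} {lift : Q → V → W} (hF : Fib p Z Y QS lift) (k : ℕ)
    (hrel : ∀ η : Q →ₗ[ZMod p] ZMod p, η ≠ 0 → RelAcyc Z (ZH Z QS η) k)
    (f : Finset W → ZMod 2) (hf : Cocyc Y k f)
    (hs : Cobdy {τ | ∃ σ ∈ Z, τ = σ.image (lift 0)} k f) : Cobdy Y k f := by
  obtain ⟨g, hg⟩ := avg_main p hp hF k hrel f hf
  obtain ⟨g₀, hg₀⟩ := hs
  refine av_of_sum hF k f g hg (fun σ => g₀ (σ.image (lift 0)) + g (σ.image (lift 0))) ?_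
  intro σ hσ hc
  have h1 := hg 0 σ hσ hc
  have h2 := hg₀ (σ.image (lift 0)) ⟨σ, hσ, rfl⟩
    (by rw [Finset.card_image_of_injOn (av_injOn hF hσ 0), hc])
  have h3 : (∑ q' : Q, f (σ.image (lift q')))
      = f (σ.image (lift 0)) + cob g (σ.image (lift 0)) := by
    rw [h1, add_assoc, av_two, add_zero]
  rw [h3, h2, av_cob hF hσ, av_cob hF hσ, ← Finset.sum_add_distrib]
  rfl

/-- translations act trivially: `T` is a map of vertices with `T (lift q x) = lift (q + q₀) x` -/
theorem avg_translate (p : ℕ) [Fact p.Prime] (hp : p ≠ 2) {V W Q : Type} [AddCommGroup Q]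
    [Module (ZMod p) Q] [Fintype Q] {Z : Set (Finset V)} {Y : Set (Finset W)}
    {QS : V → Submodule (ZMod p) Q} {lift : Q → V → W} (hF : Fib p Z Y QS lift) (k : ℕ)
    (hrel : ∀ η : Q →ₗ[ZMod p] ZMod p, η ≠ 0 → RelAcyc Z (ZH Z QS η) k)
    (q₀ : Q) (T : W → W) (hT : ∀ q x, {x} ∈ Z → T (lift q x) = lift (q + q₀) x)
    (f : Finset W → ZMod 2) (hf : Cocyc Y k f) :
    Cobdy Y k (fun τ => f τ + f (τ.image T)) := by
  obtain ⟨g, hg⟩ := avg_main p hp hF k hrel f hf
  have hTi : ∀ σ ∈ Z, ∀ q : Q, (σ.image (lift q)).image T = σ.image (lift (q + q₀)) := by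
    intro σ hσ q
    rw [Finset.image_image]
    apply Finset.image_congr
    intro x hx
    exact hT q x (av_mem hF.cx hσ hx)
  refine ⟨fun τ => g τ + g (τ.image T), fun τ hτ hc => ?_⟩
  rw [hF.eq] at hτ
  obtain ⟨q, σ, hσ, rfl⟩ := hτ
  rw [Finset.card_image_of_injOn (av_injOn hF hσ q)] at hc
  beta_reduce
  rw [hTi σ hσ q, hg q σ hσ hc, hg (q + q₀) σ hσ hc]
  have h1 : cob (fun τ => g τ + g (τ.image T)) (σ.image (lift q))
      = cob g (σ.image (lift q)) + cob g (σ.image (lift (q + q₀))) := by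
    rw [av_cob hF hσ, av_cob hF hσ, av_cob hF hσ, ← Finset.sum_add_distrib]
    apply Finset.sum_congr rfl
    intro x _
    rw [hTi _ (hF.cx.2 σ hσ _ (Finset.erase_subset _ _)) q]
  rw [h1]
  have h2 : ∀ a b c : ZMod 2, (a + b) + (a + c) = b + c := by decide
  exact h2 _ _ _

end P067X
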