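import Mathlib

/-!
# P067, module BIP: spectral gap of a biregular bipartite graph

Hypotheses: every `a : A` has `ρ` neighbours, every `b : B` has `ρ'` neighbours; `r` is an equivalence relation on `A`; two
elements of `A` which are not equivalent have exactly `μ` common neighbours, two distinct equivalent elements have none.
PROOF.  For `∑ F = 0`: `∑_b (∑_{a ~ b} F a)² = ∑_{a,a'} F a F a' N(a,a') = ρ ∑ F² + μ ((∑ F)² - ∑_classes (∑_{class} F)²) ≤ ρ ∑ F²`; then Cauchy-Schwarz;
the norms over edges are `∑_edges F² = ρ ∑ F²`, `∑_edges G² = ρ' ∑ G²`.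
-/

namespace P067X

open Classical Finset

private theorem bip_classes {A : Type} [Fintype A] (r : Setoid A) (F : A → ℝ) :
    0 ≤ ∑ a, ∑ a', if r a a' then F a * F a' else 0 := by
  have h : ∑ a, ∑ a', (if r a a' then F a * F a' else 0)
      = ∑ c : Quotient r, (∑ a, if (Quotient.mk r a) = c then F a else 0) ^ 2 := by
    have e1 : ∀ c : Quotient r, (∑ a, if (Quotient.mk r a) = c then F a else 0) ^ 2
        = ∑ a, ∑ a', if (Quotient.mk r a) = c ∧ (Quotient.mk r a') = c then F a * F a' else 0 := by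
      intro c
      rw [sq, sum_mul_sum]
      refine sum_congr rfl fun a _ => sum_congr rfl fun a' _ => ?_
      by_cases h1 : (Quotient.mk r a) = c <;> by_cases h2 : (Quotient.mk r a') = c <;>
        simp [h1, h2]
    simp_rw [e1]
    symm
    rw [sum_comm]
    refine sum_congr rfl fun a _ => ?_
    rw [sum_comm]
    refine sum_congr rfl fun a' _ => ?_
    by_cases h1 : r a a'
    · have h2 : Quotient.mk r a = Quotient.mk r a' := Quotient.sound h1
      rw [if_pos h1, h2]
      simp
    · have h2 : ¬ Quotient.mk r a = Quotient.mk r a' := fun h => h1 (Quotient.exact h)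
      rw [if_neg h1]
      apply sum_eq_zero
      intro c _
      rw [if_neg]
      rintro ⟨h3, h4⟩
      exact h2 (h3.trans h4.symm)
  rw [h]
  exact sum_nonneg fun c _ => sq_nonneg _

theorem bip_gap {A B : Type} [Fintype A] [Fintype B] (adj : A → B → Prop) (ρ ρ' μ : ℕ)
    (hρ : 0 < ρ) (hρ' : 0 < ρ')
    (hA : ∀ a, (univ.filter fun b => adj a b).card = ρ)
    (hB : ∀ b, (univ.filter fun a => adj a b).card = ρ') (r : Setoid A)
    (h1 : ∀ a a', a ≠ a' → r a a' → ∀ b, ¬ (adj a b ∧ adj a' b))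
    (h2 : ∀ a a', ¬ r a a' → (univ.filter fun b => adj a b ∧ adj a' b).card = μ)
    (F : A → ℝ) (G : B → ℝ) (hF : ∑ a, F a = 0) :
    ∑ a, ∑ b, (if adj a b then F a * G b else 0) ≤
      (1 / Real.sqrt ρ') * (Real.sqrt (∑ a, ∑ b, if adj a b then F a ^ 2 else 0) *
        Real.sqrt (∑ a, ∑ b, if adj a b then G b ^ 2 else 0)) := by
  have eF : ∑ a, ∑ b, (if adj a b then F a ^ 2 else 0) = ρ * ∑ a, F a ^ 2 := by
    rw [mul_sum]
    refine sum_congr rfl fun a _ => ?_
    rw [← sum_filter, sum_const, hA, nsmul_eq_mul]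
  have eG : ∑ a, ∑ b, (if adj a b then G b ^ 2 else 0) = ρ' * ∑ b, G b ^ 2 := by
    rw [sum_comm, mul_sum]
    refine sum_congr rfl fun b _ => ?_
    rw [← sum_filter, sum_const, hB, nsmul_eq_mul]
  have hρ'0 : (0:ℝ) < ρ' := by exact_mod_cast hρ'
  have hs : Real.sqrt ρ' ≠ 0 := (Real.sqrt_pos.2 hρ'0).ne'
  have eR : (1 / Real.sqrt ρ') * (Real.sqrt (∑ a, ∑ b, if adj a b then F a ^ 2 else 0) *
        Real.sqrt (∑ a, ∑ b, if adj a b then G b ^ 2 else 0))
      = Real.sqrt (ρ * ∑ a, F a ^ 2) * Real.sqrt (∑ b, G b ^ 2) := by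
    rw [eF, eG, Real.sqrt_mul hρ'0.le]
    field_simp
  rw [eR]
  have hN : ∀ a a' : A, (∑ b, if adj a b ∧ adj a' b then (1:ℝ) else 0)
      = (if a = a' then (ρ:ℝ) else 0) + μ * (1 - if r a a' then (1:ℝ) else 0) := by
    intro a a'
    rw [← sum_filter, sum_const, nsmul_eq_mul, mul_one]
    by_cases ha : a = a'
    · subst ha
      have hr : r a a := r.refl' a
      simp only [and_self, if_true, if_pos hr, sub_self, mul_zero, add_zero]
      exact_mod_cast hA a
    · rw [if_neg ha]
      by_cases hr : r a a'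
      · rw [if_pos hr, sub_self, mul_zero, add_zero]
        have h3 : (univ.filter fun b => adj a b ∧ adj a' b) = ∅ := by
          rw [filter_eq_empty_iff]
          intro b _
          exact h1 a a' ha hr b
        rw [h3]
        simp
      · rw [if_neg hr, h2 a a' hr]
        ring
  have hS : ∑ b, (∑ a, if adj a b then F a else 0) ^ 2 ≤ ρ * ∑ a, F a ^ 2 := by
    have e1 : ∑ b, (∑ a, if adj a b then F a else 0) ^ 2
        = ∑ a, ∑ a', F a * F a' * ∑ b, if adj a b ∧ adj a' b then (1:ℝ) else 0 := by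
      have e2 : ∀ b, (∑ a, if adj a b then F a else 0) ^ 2
          = ∑ a, ∑ a', F a * F a' * if adj a b ∧ adj a' b then (1:ℝ) else 0 := by
        intro b
        rw [sq, sum_mul_sum]
        refine sum_congr rfl fun a _ => sum_congr rfl fun a' _ => ?_
        by_cases h3 : adj a b <;> by_cases h4 : adj a' b <;> simp [h3, h4]
      simp_rw [e2]
      rw [sum_comm]
      refine sum_congr rfl fun a _ => ?_
      rw [sum_comm]
      refine sum_congr rfl fun a' _ => ?_
      rw [mul_sum]
    rw [e1]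
    have e3 : ∑ a, ∑ a', F a * F a' * ∑ b, (if adj a b ∧ adj a' b then (1:ℝ) else 0)
        = ρ * ∑ a, F a ^ 2 + μ * ((∑ a, F a) * (∑ a, F a))
          - μ * ∑ a, ∑ a', if r a a' then F a * F a' else 0 := by
      rw [sum_mul_sum, mul_sum, mul_sum, mul_sum, ← sum_add_distrib, ← sum_sub_distrib]
      refine sum_congr rfl fun a _ => ?_
      have e4 : (ρ:ℝ) * F a ^ 2 = ∑ a', if a = a' then (ρ:ℝ) * (F a * F a') else 0 := by
        rw [sum_ite_eq univ a (fun a' => (ρ:ℝ) * (F a * F a'))]
        simp [sq]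
      rw [e4, mul_sum, mul_sum, ← sum_add_distrib, ← sum_sub_distrib]
      refine sum_congr rfl fun a' _ => ?_
      rw [hN a a']
      by_cases h3 : a = a' <;> by_cases h4 : r a a' <;> simp [h3, h4] <;> ring
    rw [e3, hF]
    have h5 := bip_classes r F
    have h6 : (0:ℝ) ≤ μ := Nat.cast_nonneg μ
    nlinarith [mul_nonneg h6 h5]
  have hL : ∑ a, ∑ b, (if adj a b then F a * G b else 0)
      = ∑ b, (∑ a, if adj a b then F a else 0) * G b := by
    rw [sum_comm]
    refine sum_congr rfl fun b _ => ?_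
    rw [sum_mul]
    refine sum_congr rfl fun a _ => ?_
    by_cases h3 : adj a b <;> simp [h3]
  rw [hL]
  refine (Real.sum_mul_le_sqrt_mul_sqrt _ _ _).trans ?_
  exact mul_le_mul_of_nonneg_right (Real.sqrt_le_sqrt hS) (Real.sqrt_nonneg _)

end P067X
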