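import Vale.Agent.P067X.TB
import Vale.Agent.P067X.Join

/-!
# P067, module CASE1

PROOF.  Induction on `k`.  `k = 0`: the line `F x`, `x ∉ J`, `x ∉ H₀`, `x ∉ F γ₀` (`0 ≠ γ₀ ∈ Γ`).
Step (`k → k+1`, so `s ≥ k+2`, `finrank E ≥ s+k+3`):
1. remove the hyperplanes `H` (`remove_all`, `A = True`).  `finrank H > s`, so `b` and `H ⊔ J = ⊤`; nothing is above `H`;
   the part below `H` is `QF (J ⊓ H) s b ⊤ (H₀ ⊓ H)` in `H` (`fill_below`), `finrank (J ⊓ H) = finrank J - 1`: induction.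
2. remove the `T` with `T ⊓ J = ⊥`, `finrank T = s` (`remove_all`, `A =` not a hyperplane).  The link of `T` is the join of
   `{T' < T} = {T' < T, T' ∈ QF ⊤ 0 True Γ H₀}` (`fill_below` with `J = ⊤` and `fill_TB`, `finrank T = s ≥ q+2` for `q ≤ k`)
   and `{T'' > T}`: `fill_join` with the predicate `· < T`; the fillings have no new vertices above `T`, so no
   hyperplane and no `T'` of dimension `s` (meeting `J` in `⊥`) is used.
3. `T ≤ T ⊔ l ≥ l` (`homotopy_up`), `l = F x`, `x` generic: `x ∉ J`, `x ∉ H₀`, `x ∉ F γ₀`, `x ∉ T ⊔ J` if `T ⊓ J = ⊥`,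
   `finrank T ≤ s - 1`, and `x ∉ T ⊔ F γ_T` (`γ_T ∈ Γ`, `γ_T ∉ T`).
-/

namespace P067X

open Classical Module

namespace CaseOne

section general

set_option linter.unusedSectionVars false

variable {F E : Type} [Field F] [AddCommGroup E] [Module F E] [FiniteDimensional F E]

theorem single_mem {α : Type*} [PartialOrder α] {P : Set α} {x : α} :
    ({x} : Finset α) ∈ OC P ↔ x ∈ P := by
  constructor
  · intro h
    exact h.1 x (Finset.mem_singleton_self x)
  · intro h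
    refine ⟨fun y hy => ?_, ?_⟩
    · rw [Finset.mem_singleton.1 hy]; exact h
    · rw [Finset.coe_singleton]
      exact IsChain.singleton

theorem eq_of_chain {S T : Submodule F E} (h : S ≤ T ∨ T ≤ S) (hf : finrank F S = finrank F T) :
    S = T := by
  rcases h with h | h
  · exact Submodule.eq_of_le_of_finrank_eq h hf
  · exact (Submodule.eq_of_le_of_finrank_eq h hf.symm).symm

theorem chain_le {P : Set (Submodule F E)} {σ : Finset (Submodule F E)} (hσ : σ ∈ OC P)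
    {S T : Submodule F E} (hS : S ∈ σ) (hT : T ∈ σ) : S ≤ T ∨ T ≤ S := by
  by_cases h : S = T
  · left; exact h.le
  · exact hσ.2 (Finset.mem_coe.2 hS) (Finset.mem_coe.2 hT) h

theorem ne_top_of_QF {J Γ H₀ T : Submodule F E} {s : ℕ} {b : Prop} (hT : T ∈ QF J s b Γ H₀) :
    T ≠ ⊤ := by
  rintro rfl
  exact hT.2.1 le_top

/-- the link of a hyperplane is the part below -/
theorem link_hyp {J Γ H₀ H : Submodule F E} {s : ℕ} {b : Prop}
    (hd : finrank F H + 1 = finrank F E) :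
    {y | y ∈ QF J s b Γ H₀ ∧ (y < H ∨ H < y)} = {T | T ∈ QF J s b Γ H₀ ∧ T < H} := by
  ext y
  constructor
  · rintro ⟨h1, h2 | h2⟩
    · exact ⟨h1, h2⟩
    · exfalso
      have h3 := Submodule.finrank_lt_finrank_of_lt h2
      have h4 := Submodule.finrank_le y
      exact ne_top_of_QF h1 (Submodule.eq_top_of_finrank_eq (by omega))
  · rintro ⟨h1, h2⟩
    exact ⟨h1, Or.inl h2⟩

/-- the part of `QF` below a `T` with `T ⊓ J = ⊥`, `finrank T = s` -/
theorem below_first {J Γ H₀ T : Submodule F E} {s : ℕ} {b : Prop} (h1 : T ⊓ J = ⊥)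
    (h2 : finrank F T = s) :
    {T' | T' ∈ QF J s b Γ H₀ ∧ T' < T} = {T' | T' ∈ QF (⊤ : Submodule F E) 0 True Γ H₀ ∧ T' < T} := by
  ext T'
  constructor
  · rintro ⟨h3, h4⟩
    exact ⟨⟨Or.inr ⟨trivial, by simp⟩, h3.2⟩, h4⟩
  · rintro ⟨h3, h4⟩
    refine ⟨⟨Or.inl ⟨?_, ?_⟩, h3.2⟩, h4⟩
    · rw [eq_bot_iff, ← h1]
      exact inf_le_inf_right J h4.le
    · have := Submodule.finrank_lt_finrank_of_lt h4
      omega

theorem finrank_comap_subtype (J H : Submodule F E) :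
    finrank F (J.comap H.subtype) = finrank F (J ⊓ H : Submodule F E) := by
  have h1 : (J.comap H.subtype).map H.subtype = J ⊓ H := by
    rw [Submodule.map_comap_subtype, inf_comm]
  rw [← h1]
  exact (LinearEquiv.finrank_eq (Submodule.equivMapOfInjective H.subtype
    H.subtype_injective (J.comap H.subtype)))

theorem comap_ne_top {H₀ H : Submodule F E} (h : ¬ H ≤ H₀) : H₀.comap H.subtype ≠ ⊤ := by
  intro h1
  exact h (Submodule.comap_subtype_eq_top.1 h1)

theorem top_ne_bot {H : Submodule F E} (h : H ≠ ⊥) : (⊤ : Submodule F H) ≠ ⊥ := by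
  have : Nontrivial H := (Submodule.nontrivial_iff_ne_bot).2 h
  exact _root_.top_ne_bot

theorem not_le_sup_span {Γ T : Submodule F E} {γ x : E} (hγ : γ ∈ Γ) (hγT : γ ∉ T)
    (hx : x ∉ T ⊔ Submodule.span F {γ}) : ¬ Γ ≤ T ⊔ Submodule.span F {x} := by
  intro h
  have h1 := h hγ
  rw [Submodule.mem_sup] at h1
  obtain ⟨t, ht, y, hy, hty⟩ := h1
  obtain ⟨a, rfl⟩ := Submodule.mem_span_singleton.1 hy
  by_cases ha : a = 0
  · subst ha
    apply hγT
    rw [← hty, zero_smul, add_zero]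
    exact ht
  · apply hx
    have h2 : x = a⁻¹ • (γ - t) := by
      rw [← hty, add_sub_cancel_left, smul_smul, inv_mul_cancel₀ ha, one_smul]
    rw [h2]
    refine Submodule.smul_mem _ _ (Submodule.sub_mem _ ?_ ?_)
    · exact Submodule.mem_sup_right (Submodule.mem_span_singleton_self γ)
    · exact Submodule.mem_sup_left ht

theorem sup_span_inf {T J : Submodule F E} {x : E} (h : T ⊓ J = ⊥) (hx : x ∉ T ⊔ J) :
    (T ⊔ Submodule.span F {x}) ⊓ J = ⊥ := by
  rw [Submodule.eq_bot_iff]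
  rintro y ⟨hy1, hy2⟩
  obtain ⟨t, ht, w, hw, rfl⟩ := Submodule.mem_sup.1 hy1
  obtain ⟨a, rfl⟩ := Submodule.mem_span_singleton.1 hw
  by_cases ha : a = 0
  · subst ha
    rw [zero_smul, add_zero] at hy2 ⊢
    have : t ∈ T ⊓ J := ⟨ht, hy2⟩
    rw [h] at this
    exact (Submodule.mem_bot F).1 this
  · exfalso
    apply hx
    have h2 : x = a⁻¹ • ((t + a • x) - t) := by
      rw [add_sub_cancel_left, smul_smul, inv_mul_cancel₀ ha, one_smul]
    rw [h2]
    exact Submodule.smul_mem _ _ (Submodule.sub_mem _ (Submodule.mem_sup_right hy2)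
      (Submodule.mem_sup_left ht))

theorem span_one_le (x : E) : finrank F (Submodule.span F {x}) ≤ 1 := by
  have h := finrank_span_le_card (R := F) ({x} : Set E)
  simpa using h

theorem finrank_sup_span_le (T : Submodule F E) (x : E) :
    finrank F (T ⊔ Submodule.span F {x} : Submodule F E) ≤ finrank F T + 1 := by
  have h1 := Submodule.finrank_add_le_finrank_add_finrank T (Submodule.span F {x})
  have h2 := span_one_le (F := F) x
  omega

theorem sup_span_ne_top {T : Submodule F E} (γ : E) (h : finrank F T + 2 ≤ finrank F E) :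
    T ⊔ Submodule.span F {γ} ≠ ⊤ := by
  intro h1
  have h2 := finrank_sup_span_le T γ
  rw [h1, finrank_top] at h2
  omega

theorem span_ne_top (γ : E) (h : 2 ≤ finrank F E) : Submodule.span F {γ} ≠ ⊤ := by
  intro h1
  have h2 := span_one_le (F := F) γ
  rw [h1, finrank_top] at h2
  omega

/-- the generic line is a vertex -/
theorem line_mem {J Γ H₀ : Submodule F E} {s : ℕ} {b : Prop} (hs : 1 ≤ s) {γ x : E} (hγ : γ ∈ Γ)
    (hγ0 : γ ≠ 0) (hxJ : x ∉ J) (hxH : x ∉ H₀) (hxγ : x ∉ Submodule.span F {γ}) :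
    Submodule.span F {x} ∈ QF J s b Γ H₀ := by
  refine ⟨Or.inl ⟨?_, ?_⟩, ?_, ?_⟩
  · have := sup_span_inf (T := ⊥) (J := J) (x := x) (bot_inf_eq J) (by rwa [bot_sup_eq])
    rwa [bot_sup_eq] at this
  · have h2 := span_one_le (F := F) x
    omega
  · have := not_le_sup_span (T := ⊥) (Γ := Γ) (γ := γ) (x := x) hγ
      (fun h => hγ0 ((Submodule.mem_bot F).1 h)) (by rwa [bot_sup_eq])
    rwa [bot_sup_eq] at this
  · intro h
    exact hxH (h (Submodule.mem_span_singleton_self x))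

/-- `φ T = T ⊔ F x` stays in the family -/
theorem phi_mem {J Γ H₀ T : Submodule F E} {s : ℕ} {b : Prop} (hT : T ∈ QF J s b Γ H₀) {γ x : E}
    (hns : ¬ (T ⊓ J = ⊥ ∧ finrank F T = s)) (hγ : γ ∈ Γ) (hγT : γ ∉ T)
    (hx : x ∉ T ⊔ Submodule.span F {γ}) (hxJ : T ⊓ J = ⊥ → finrank F T + 1 ≤ s → x ∉ T ⊔ J) :
    T ⊔ Submodule.span F {x} ∈ QF J s b Γ H₀ := by
  refine ⟨?_, not_le_sup_span hγ hγT hx, fun h => hT.2.2 (le_sup_left.trans h)⟩
  rcases hT.1 with ⟨h1, h2⟩ | ⟨h1, h2⟩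
  · left
    have h3 : finrank F T + 1 ≤ s := by
      have : finrank F T ≠ s := fun h => hns ⟨h1, h⟩
      omega
    exact ⟨sup_span_inf h1 (hxJ h1 h3), (finrank_sup_span_le T x).trans h3⟩
  · right
    refine ⟨h1, ?_⟩
    rw [eq_top_iff, ← h2]
    exact sup_le_sup_right le_sup_left J

end general

end CaseOne

open CaseOne

/-- the type of the induction statement -/
def CaseOne.Stmt (k M p₀ M' : ℕ) : Prop := ∀ (p : ℕ) [Fact p.Prime], p₀ ≤ p →
    ∀ (E : Type) [AddCommGroup E] [Module (ZMod p) E] [FiniteDimensional (ZMod p) E]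
      (J Γ H₀ : Submodule (ZMod p) E) (s : ℕ) (b : Prop), Γ ≠ ⊥ → H₀ ≠ ⊤ → k + 1 ≤ s →
      s + finrank (ZMod p) J ≤ finrank (ZMod p) E → s + k + 2 ≤ finrank (ZMod p) E →
      Fill (OC (QF J s b Γ H₀)) k M M'

theorem CaseOne.base (M : ℕ) : CaseOne.Stmt 0 M 3 1 := by
  intro p _ hp E _ _ _ J Γ H₀ s b hΓ hH₀ hs hJ hE
  obtain ⟨γ, hγ, hγ0⟩ := (Submodule.ne_bot_iff Γ).1 hΓ
  obtain ⟨x, hx0, hx⟩ := exists_generic p E ({J, H₀, Submodule.span (ZMod p) {γ}}) (by
      refine (Finset.card_le_three).trans hp) (by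
      intro T hT
      simp only [Finset.mem_insert, Finset.mem_singleton] at hT
      rcases hT with rfl | rfl | rfl
      · intro h
        rw [h, finrank_top] at hJ
        omega
      · exact hH₀
      · exact span_ne_top γ (by omega))
  exact fill_zero (Submodule.span (ZMod p) {x})
    (single_mem.2 (line_mem (by omega) hγ hγ0 (hx J (by simp)) (hx H₀ (by simp))
      (hx _ (by simp)))) M

section steps

variable {p : ℕ} [Fact p.Prime] {E : Type} [AddCommGroup E] [Module (ZMod p) E]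
  [FiniteDimensional (ZMod p) E]

/-- filling in the link of a hyperplane -/
theorem CaseOne.fill_hyp {k M N : ℕ}
    (ih : ∀ (E : Type) [AddCommGroup E] [Module (ZMod p) E] [FiniteDimensional (ZMod p) E]
      (J Γ H₀ : Submodule (ZMod p) E) (s : ℕ) (b : Prop), Γ ≠ ⊥ → H₀ ≠ ⊤ → k + 1 ≤ s →
      s + finrank (ZMod p) J ≤ finrank (ZMod p) E → s + k + 2 ≤ finrank (ZMod p) E →
      Fill (OC (QF J s b Γ H₀)) k M N)
    {J Γ H₀ H : Submodule (ZMod p) E} {s : ℕ} {b : Prop} (hs : k + 2 ≤ s)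
    (hJ : s + finrank (ZMod p) J ≤ finrank (ZMod p) E)
    (hE : s + k + 3 ≤ finrank (ZMod p) E) (hH : H ∈ QF J s b Γ H₀)
    (hd : finrank (ZMod p) H + 1 = finrank (ZMod p) E) :
    Fill (Lk (OC (QF J s b Γ H₀)) {H}) k M N := by
  rw [Lk_OC _ H hH, link_hyp hd]
  have h1 : b ∧ H ⊔ J = ⊤ := by
    rcases hH.1 with h | h
    · omega
    · exact h
  refine fill_below J H Γ H₀ s b (fun _ => h1.2) hH.2.1 ?_
  have hHb : H ≠ ⊥ := by
    rintro rfl
    exact hH.2.2 bot_le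
  refine ih H _ _ _ s b (top_ne_bot hHb) (comap_ne_top hH.2.2) (by omega) ?_ (by omega)
  rw [finrank_comap_subtype, inf_comm]
  have h2 := Submodule.finrank_sup_add_finrank_inf_eq H J
  rw [h1.2, finrank_top] at h2
  omega

/-- step 1: remove the hyperplanes -/
theorem CaseOne.step1 {k M N : ℕ}
    (ih : ∀ (E : Type) [AddCommGroup E] [Module (ZMod p) E] [FiniteDimensional (ZMod p) E]
      (J Γ H₀ : Submodule (ZMod p) E) (s : ℕ) (b : Prop), Γ ≠ ⊥ → H₀ ≠ ⊤ → k + 1 ≤ s →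
      s + finrank (ZMod p) J ≤ finrank (ZMod p) E → s + k + 2 ≤ finrank (ZMod p) E →
      Fill (OC (QF J s b Γ H₀)) k M N)
    {J Γ H₀ : Submodule (ZMod p) E} {s : ℕ} {b : Prop} (hs : k + 2 ≤ s)
    (hJ : s + finrank (ZMod p) J ≤ finrank (ZMod p) E)
    (hE : s + k + 3 ≤ finrank (ZMod p) E) (z : Ch (Submodule (ZMod p) E))
    (hz : InK (OC (QF J s b Γ H₀)) (k + 1) z) (hb : bd z = 0) (hM : z.support.card ≤ M) :
    ∃ z' e : Ch (Submodule (ZMod p) E), InK (OC (QF J s b Γ H₀)) (k + 1) z' ∧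
      InK (OC (QF J s b Γ H₀)) (k + 2) e ∧ z = z' + bd e ∧ bd z' = 0 ∧
      z'.support.card ≤ M + (k + 1) * M * N ∧ e.support.card ≤ (k + 1) * M * N ∧
      ∀ σ ∈ z'.support, ∀ v ∈ σ, ¬ (finrank (ZMod p) v + 1 = finrank (ZMod p) E) := by
  obtain ⟨z', e, h1, h2, h3, h4, h5, h6, h7⟩ := remove_all (OC (QF J s b Γ H₀)) (isCx_OC _)
    (fun v => finrank (ZMod p) v + 1 = finrank (ZMod p) E) (fun _ => True) k M N
    (by
      intro σ hσ x hx y hy hPx hPy
      exact eq_of_chain (chain_le hσ hx hy) (by omega))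
    (by
      intro H hH hPH _ y hy hby _ hMy
      have hHm := single_mem.1 hH
      have hf := fill_hyp ih hs hJ hE hHm hPH
      obtain ⟨c, hc1, hc2, hc3⟩ := hf y hy hby hMy
      refine ⟨c, hc1, hc2, hc3, ?_⟩
      intro σ hσ v hv
      refine ⟨trivial, ?_⟩
      have hσ2 := (hc1 σ hσ).1
      rw [Lk_OC _ H hHm, link_hyp hPH] at hσ2
      have hlt : v < H := (hσ2.1 v hv).2
      have := Submodule.finrank_lt_finrank_of_lt hlt
      omega)
    z hz hb hM (fun _ _ _ _ => trivial)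
  exact ⟨z', e, h1, h2, h3, h4, h5, h6, fun σ hσ v hv => (h7 σ hσ v hv).2⟩

/-- the fillings in the lower part of the link of a `T` with `T ⊓ J = ⊥`, `finrank T = s` -/
theorem CaseOne.fill_first {q M N : ℕ}
    (hTB : ∀ (E : Type) [AddCommGroup E] [Module (ZMod p) E] [FiniteDimensional (ZMod p) E]
      (Γ H₀ : Submodule (ZMod p) E), Γ ≠ ⊥ → H₀ ≠ ⊤ → q + 2 ≤ finrank (ZMod p) E →
      Fill (OC (QF (⊤ : Submodule (ZMod p) E) 0 True Γ H₀)) q M N)
    {J Γ H₀ T : Submodule (ZMod p) E} {s : ℕ} {b : Prop} (hs : q + 2 ≤ s)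
    (hT : T ∈ QF J s b Γ H₀) (h1 : T ⊓ J = ⊥) (h2 : finrank (ZMod p) T = s) :
    Fill (OC {T' | T' ∈ QF J s b Γ H₀ ∧ T' < T}) q M N := by
  rw [below_first h1 h2]
  refine fill_below ⊤ T Γ H₀ 0 True (fun _ => by simp) hT.2.1 ?_
  rw [Submodule.comap_top]
  have hTb : T ≠ ⊥ := by
    rintro rfl
    exact hT.2.2 bot_le
  exact hTB T ⊤ _ (top_ne_bot hTb) (comap_ne_top hT.2.2) (by omega)

/-- step 2: remove the `T` with `T ⊓ J = ⊥`, `finrank T = s` -/
theorem CaseOne.step2 {k M N L : ℕ} (B : ℕ → ℕ → ℕ)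
    (hjoin : ∀ (V : Type) (K : Set (Finset V)) (A : V → Prop), IsCx K →
      (∀ a ∈ Full K A, ∀ b ∈ Full K (fun x => ¬ A x), a ∪ b ∈ K) →
      (∀ q ≤ k, ∀ N ≤ L, Fill (Full K A) q N (B q N)) →
      ∀ z : Ch V, InK K k z → bd z = 0 → z.support.card ≤ M →
        ∃ c : Ch V, InK K (k + 1) c ∧ bd c = z ∧ c.support.card ≤ N ∧
          ∀ σ ∈ c.support, ∃ τ ∈ z.support, σ.filter (fun x => ¬ A x) ⊆ τ)
    (hTB : ∀ q ≤ k, ∀ N ≤ L, ∀ (E : Type) [AddCommGroup E] [Module (ZMod p) E]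
      [FiniteDimensional (ZMod p) E] (Γ H₀ : Submodule (ZMod p) E), Γ ≠ ⊥ → H₀ ≠ ⊤ →
      q + 2 ≤ finrank (ZMod p) E →
      Fill (OC (QF (⊤ : Submodule (ZMod p) E) 0 True Γ H₀)) q N (B q N))
    {J Γ H₀ : Submodule (ZMod p) E} {s : ℕ} {b : Prop} (hs : k + 2 ≤ s)
    (hE : s + k + 3 ≤ finrank (ZMod p) E) (z : Ch (Submodule (ZMod p) E))
    (hz : InK (OC (QF J s b Γ H₀)) (k + 1) z) (hb : bd z = 0) (hM : z.support.card ≤ M)
    (hA : ∀ σ ∈ z.support, ∀ v ∈ σ, ¬ (finrank (ZMod p) v + 1 = finrank (ZMod p) E)) :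
    ∃ z' e : Ch (Submodule (ZMod p) E), InK (OC (QF J s b Γ H₀)) (k + 1) z' ∧
      InK (OC (QF J s b Γ H₀)) (k + 2) e ∧ z = z' + bd e ∧ bd z' = 0 ∧
      z'.support.card ≤ M + (k + 1) * M * N ∧ e.support.card ≤ (k + 1) * M * N ∧
      ∀ σ ∈ z'.support, ∀ v ∈ σ, ¬ (finrank (ZMod p) v + 1 = finrank (ZMod p) E) ∧
        ¬ (v ⊓ J = ⊥ ∧ finrank (ZMod p) v = s) := by
  refine remove_all (OC (QF J s b Γ H₀)) (isCx_OC _)
    (fun v => v ⊓ J = ⊥ ∧ finrank (ZMod p) v = s)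
    (fun v => ¬ (finrank (ZMod p) v + 1 = finrank (ZMod p) E)) k M N ?_ ?_ z hz hb hM hA
  · intro σ hσ x hx y hy hPx hPy
    exact eq_of_chain (chain_le hσ hx hy) (by rw [hPx.2, hPy.2])
  · intro T hT hPT hAT y hy hby hAy hMy
    have hTm := single_mem.1 hT
    have hLk := Lk_OC (QF J s b Γ H₀) T hTm
    rw [hLk] at hy ⊢
    obtain ⟨c, hc1, hc2, hc3, hc4⟩ := hjoin (Submodule (ZMod p) E)
      (OC {y | y ∈ QF J s b Γ H₀ ∧ (y < T ∨ T < y)}) (fun v => v < T) (isCx_OC _)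
      (by
        intro a ha c hc
        refine ⟨?_, ?_⟩
        · intro x hx
          rcases Finset.mem_union.1 hx with h | h
          · exact ha.1.1 x h
          · exact hc.1.1 x h
        · intro x hx x' hx' hne
          have hup : ∀ v ∈ c, T < v := by
            intro v hv
            rcases (hc.1.1 v hv).2 with h | h
            · exact absurd h (hc.2 v hv)
            · exact h
          rw [Finset.mem_coe, Finset.mem_union] at hx hx'
          rcases hx with h | h <;> rcases hx' with h' | h'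
          · exact ha.1.2 (Finset.mem_coe.2 h) (Finset.mem_coe.2 h') hne
          · exact Or.inl ((ha.2 x h).trans (hup x' h')).le
          · exact Or.inr ((ha.2 x' h').trans (hup x h)).le
          · exact hc.1.2 (Finset.mem_coe.2 h) (Finset.mem_coe.2 h') hne)
      (by
        intro q hq N' hN'
        rw [Full_OC]
        have he : {y | y ∈ {y | y ∈ QF J s b Γ H₀ ∧ (y < T ∨ T < y)} ∧ y < T}
            = {T' | T' ∈ QF J s b Γ H₀ ∧ T' < T} := by
          ext v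
          constructor
          · rintro ⟨⟨g1, _⟩, g2⟩
            exact ⟨g1, g2⟩
          · rintro ⟨g1, g2⟩
            exact ⟨⟨g1, Or.inl g2⟩, g2⟩
        rw [he]
        exact fill_first (hTB q hq N' hN') (by omega) hTm hPT.1 hPT.2)
      y hy hby hMy
    refine ⟨c, hc1, hc2, hc3, ?_⟩
    intro σ hσ v hv
    by_cases hvT : v < T
    · have := Submodule.finrank_lt_finrank_of_lt hvT
      refine ⟨?_, fun h => ?_⟩
      · have := hPT.2
        omega
      · have := hPT.2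
        omega
    · obtain ⟨τ, hτ, hsub⟩ := hc4 σ hσ
      exact hAy τ hτ v (hsub (Finset.mem_filter.2 ⟨hv, hvT⟩))

/-- the number of vertices of a cycle -/
theorem CaseOne.card_verts {V : Type*} {K : Set (Finset V)} {k : ℕ} {z : Ch V} (hz : InK K k z) :
    (z.support.biUnion id).card ≤ k * z.support.card := by
  refine (Finset.card_biUnion_le_card_mul z.support id k ?_).trans (by rw [mul_comm])
  intro σ hσ
  exact (hz σ hσ).2.le

/-- step 3: contract the rest -/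
theorem CaseOne.step3 {k M : ℕ} {J Γ H₀ : Submodule (ZMod p) E} {s : ℕ} {b : Prop}
    (hp : 3 + 2 * ((k + 1) * M) ≤ p) (hΓ : Γ ≠ ⊥) (hH₀ : H₀ ≠ ⊤) (hs : 1 ≤ s)
    (hJ : s + finrank (ZMod p) J ≤ finrank (ZMod p) E) (hE : 2 ≤ finrank (ZMod p) E)
    (z : Ch (Submodule (ZMod p) E))
    (hz : InK (OC (QF J s b Γ H₀)) (k + 1) z) (hb : bd z = 0) (hM : z.support.card ≤ M)
    (hA : ∀ σ ∈ z.support, ∀ v ∈ σ, ¬ (finrank (ZMod p) v + 1 = finrank (ZMod p) E) ∧
        ¬ (v ⊓ J = ⊥ ∧ finrank (ZMod p) v = s)) :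
    ∃ c : Ch (Submodule (ZMod p) E), InK (OC (QF J s b Γ H₀)) (k + 2) c ∧ bd c = z ∧
      c.support.card ≤ (2 * (k + 1) + 2) * M + 1 := by
  obtain ⟨γ₀, hγ₀, hγ₀0⟩ := (Submodule.ne_bot_iff Γ).1 hΓ
  have hex : ∀ v : Submodule (ZMod p) E, ∃ γ : E, ¬ Γ ≤ v → γ ∈ Γ ∧ γ ∉ v := by
    intro v
    by_cases h : Γ ≤ v
    · exact ⟨0, fun h' => absurd h h'⟩
    · obtain ⟨γ, h1, h2⟩ := SetLike.not_le_iff_exists.1 h
      exact ⟨γ, fun _ => ⟨h1, h2⟩⟩
  choose γ hγ using hex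
  set vs := z.support.biUnion id with hvs
  have hcard : vs.card ≤ (k + 1) * M :=
    (card_verts hz).trans (Nat.mul_le_mul_left _ hM)
  have hmem : ∀ v ∈ vs, v ∈ QF J s b Γ H₀ ∧ finrank (ZMod p) v + 2 ≤ finrank (ZMod p) E ∧
      ¬ (v ⊓ J = ⊥ ∧ finrank (ZMod p) v = s) := by
    intro v hv
    obtain ⟨σ, hσ, hvσ⟩ := Finset.mem_biUnion.1 hv
    have h1 : v ∈ QF J s b Γ H₀ := (hz σ hσ).1.1 v hvσ
    have h2 := hA σ hσ v hvσ
    refine ⟨h1, ?_, h2.2⟩
    have h3 : finrank (ZMod p) v < finrank (ZMod p) E :=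
      Submodule.finrank_lt (ne_top_of_QF h1)
    omega
  let S : Finset (Submodule (ZMod p) E) := ({J, H₀, Submodule.span (ZMod p) {γ₀}} : Finset _)
    ∪ ((vs.filter (fun v : Submodule (ZMod p) E => finrank (ZMod p) v + 1 ≤ s)).image (fun v => v ⊔ J)
    ∪ vs.image (fun v => v ⊔ Submodule.span (ZMod p) {γ v}))
  have hS : S.card ≤ p := by
    have c1 : ({J, H₀, Submodule.span (ZMod p) {γ₀}} : Finset (Submodule (ZMod p) E)).card ≤ 3 :=
      Finset.card_le_three
    have c2 : ((vs.filter (fun v : Submodule (ZMod p) E => finrank (ZMod p) v + 1 ≤ s)).image (fun v => v ⊔ J)).card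
        ≤ vs.card := Finset.card_image_le.trans (Finset.card_filter_le _ _)
    have c3 : (vs.image (fun v => v ⊔ Submodule.span (ZMod p) {γ v})).card ≤ vs.card :=
      Finset.card_image_le
    have c4 := Finset.card_union_le ({J, H₀, Submodule.span (ZMod p) {γ₀}} : Finset _)
      ((vs.filter (fun v : Submodule (ZMod p) E => finrank (ZMod p) v + 1 ≤ s)).image (fun v => v ⊔ J)
      ∪ vs.image (fun v => v ⊔ Submodule.span (ZMod p) {γ v}))
    have c5 := Finset.card_union_le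
      ((vs.filter (fun v : Submodule (ZMod p) E => finrank (ZMod p) v + 1 ≤ s)).image (fun v => v ⊔ J))
      (vs.image (fun v => v ⊔ Submodule.span (ZMod p) {γ v}))
    show S.card ≤ p
    have c6 : S.card ≤ 3 + (vs.card + vs.card) := c4.trans (by omega)
    omega
  obtain ⟨x, hx0, hx⟩ := exists_generic p E S hS (by
    intro T hT
    rcases Finset.mem_union.1 hT with h | h
    · simp only [Finset.mem_insert, Finset.mem_singleton] at h
      rcases h with rfl | rfl | rfl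
      · intro h'
        rw [h', finrank_top] at hJ
        omega
      · exact hH₀
      · exact span_ne_top γ₀ hE
    · rcases Finset.mem_union.1 h with h | h
      · obtain ⟨v, hv, rfl⟩ := Finset.mem_image.1 h
        have hv2 := (Finset.mem_filter.1 hv).2
        intro h'
        have h3 := Submodule.finrank_add_le_finrank_add_finrank v J
        rw [h', finrank_top] at h3
        omega
      · obtain ⟨v, hv, rfl⟩ := Finset.mem_image.1 h
        exact sup_span_ne_top _ (hmem v hv).2.1)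
  have hxJ : x ∉ J := hx J (Finset.mem_union_left _ (by simp))
  have hxH : x ∉ H₀ := hx H₀ (Finset.mem_union_left _ (by simp))
  have hxγ : x ∉ Submodule.span (ZMod p) {γ₀} := hx _ (Finset.mem_union_left _ (by simp))
  have hl : Submodule.span (ZMod p) {x} ∈ QF J s b Γ H₀ :=
    line_mem hs hγ₀ hγ₀0 hxJ hxH hxγ
  obtain ⟨c, hc1, hc2, hc3⟩ := homotopy_up (QF J s b Γ H₀)
    (fun T => T ⊔ Submodule.span (ZMod p) {x}) (Submodule.span (ZMod p) {x}) hl (k + 1) z hz hb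
    (fun _ _ _ _ _ _ _ _ h => sup_le_sup_right h _)
    (by
      intro σ hσ v hv
      refine ⟨le_sup_left, ?_, le_sup_right⟩
      have hvs' : v ∈ vs := Finset.mem_biUnion.2 ⟨σ, hσ, hv⟩
      obtain ⟨g1, g2, g3⟩ := hmem v hvs'
      obtain ⟨g4, g5⟩ := hγ v g1.2.1
      refine phi_mem g1 g3 g4 g5 ?_ ?_
      · exact hx _ (Finset.mem_union_right _ (Finset.mem_union_right _
          (Finset.mem_image.2 ⟨v, hvs', rfl⟩)))
      · intro _ h7
        exact hx _ (Finset.mem_union_right _ (Finset.mem_union_left _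
          (Finset.mem_image.2 ⟨v, Finset.mem_filter.2 ⟨hvs', h7⟩, rfl⟩))))
  refine ⟨c, hc1, hc2, hc3.trans ?_⟩
  exact Nat.add_le_add_right (Nat.mul_le_mul_left _ hM) 1

end steps

theorem CaseOne.step (k : ℕ) (ih : ∀ M : ℕ, ∃ p₀ M' : ℕ, CaseOne.Stmt k M p₀ M') (M : ℕ) :
    ∃ p₀ M' : ℕ, CaseOne.Stmt (k + 1) M p₀ M' := by
  obtain ⟨p₁, N₁, h₁⟩ := ih M
  have hTB := fill_TB
  choose P B hPB using hTB
  obtain ⟨L, N₂, h₂⟩ := fill_join B k (M + (k + 1) * M * N₁)
  set M₁ := M + (k + 1) * M * N₁ with hM₁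
  set M₂ := M₁ + (k + 1) * M₁ * N₂ with hM₂
  refine ⟨p₁ + ∑ q ∈ Finset.range (k + 1), ∑ N ∈ Finset.range (L + 1), P q N
    + (3 + 2 * ((k + 1) * M₂)),
    (2 * (k + 1) + 2) * M₂ + 1 + (k + 1) * M₁ * N₂ + (k + 1) * M * N₁, ?_⟩
  intro p _ hp E _ _ _ J Γ H₀ s b hΓ hH₀ hs hJ hE z hz hb hM
  have hpq : ∀ q ≤ k, ∀ N ≤ L, P q N ≤ p := by
    intro q hq N hN
    have a1 : P q N ≤ ∑ N ∈ Finset.range (L + 1), P q N :=
      Finset.single_le_sum (f := fun N => P q N) (fun _ _ => Nat.zero_le _)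
        (Finset.mem_range.2 (by omega))
    have a2 : ∑ N ∈ Finset.range (L + 1), P q N
        ≤ ∑ q ∈ Finset.range (k + 1), ∑ N ∈ Finset.range (L + 1), P q N :=
      Finset.single_le_sum (f := fun q => ∑ N ∈ Finset.range (L + 1), P q N)
        (fun _ _ => Nat.zero_le _) (Finset.mem_range.2 (by omega))
    omega
  obtain ⟨z₁, e₁, i1, i2, i3, i4, i5, i6, i7⟩ := CaseOne.step1 (M := M) (N := N₁) (k := k)
    (fun E _ _ _ J Γ H₀ s b => h₁ p (by omega) E J Γ H₀ s b) (by omega) hJ (by omega) z hz hb hM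
  obtain ⟨z₂, e₂, j1, j2, j3, j4, j5, j6, j7⟩ := CaseOne.step2 (M := M₁) (N := N₂) (L := L) (k := k)
    B h₂ (fun q hq N hN E _ _ _ Γ H₀ => hPB q N p (hpq q hq N hN) E Γ H₀) (by omega) (by omega)
    z₁ i1 i4 i5 i7
  obtain ⟨c, c1, c2, c3⟩ := CaseOne.step3 (M := M₂) (k := k) (by omega) hΓ hH₀ (by omega) hJ
    (by omega) z₂ j1 j4 j5 j7
  refine ⟨c + e₂ + e₁, (c1.add j2).add i2, ?_, ?_⟩
  · rw [map_add, map_add, c2, ← j3, ← i3]
  · have d1 : (c + e₂ + e₁).support.card ≤ (c + e₂).support.card + e₁.support.card :=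
      (Finset.card_le_card Finsupp.support_add).trans (Finset.card_union_le _ _)
    have d2 : (c + e₂).support.card ≤ c.support.card + e₂.support.card :=
      (Finset.card_le_card Finsupp.support_add).trans (Finset.card_union_le _ _)
    omega

theorem fill_caseI (k M : ℕ) : ∃ p₀ M' : ℕ, ∀ (p : ℕ) [Fact p.Prime], p₀ ≤ p →
    ∀ (E : Type) [AddCommGroup E] [Module (ZMod p) E] [FiniteDimensional (ZMod p) E]
      (J Γ H₀ : Submodule (ZMod p) E) (s : ℕ) (b : Prop), Γ ≠ ⊥ → H₀ ≠ ⊤ → k + 1 ≤ s →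
      s + finrank (ZMod p) J ≤ finrank (ZMod p) E → s + k + 2 ≤ finrank (ZMod p) E →
      Fill (OC (QF J s b Γ H₀)) k M M' := by
  have main : ∀ k M : ℕ, ∃ p₀ M' : ℕ, CaseOne.Stmt k M p₀ M' := by
    intro k
    induction k with
    | zero => exact fun M => ⟨3, 1, CaseOne.base M⟩
    | succ k ih => exact CaseOne.step k ih
  exact main k M

end P067X
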