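import Mathlib

/-!
# P067: chains, complexes, fillings, acyclicity (coefficients `ZMod 2`, faces are finsets,
everything is indexed by the number `k` of vertices of a face; the empty face is included, so
all (co)homology is reduced)
-/

namespace P067X

open Classical

variable {V : Type*}

/-- chains -/
abbrev Ch (V : Type*) := Finset V →₀ ZMod 2

/-- the boundary of a face: `∑ x ∈ σ, σ.erase x` -/
noncomputable def bdf (σ : Finset V) : Ch V := ∑ x ∈ σ, Finsupp.single (σ.erase x) 1

/-- the boundary of a chain -/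
noncomputable def bd : Ch V →ₗ[ZMod 2] Ch V :=
  Finsupp.lsum (ZMod 2) (fun σ => (LinearMap.id : ZMod 2 →ₗ[ZMod 2] ZMod 2).smulRight (bdf σ))

/-- a simplicial complex (with the empty face) -/
def IsCx (K : Set (Finset V)) : Prop := ∅ ∈ K ∧ ∀ σ ∈ K, ∀ τ, τ ⊆ σ → τ ∈ K

/-- `c` is a chain of faces of `K` with `k` vertices -/
def InK (K : Set (Finset V)) (k : ℕ) (c : Ch V) : Prop := ∀ σ ∈ c.support, σ ∈ K ∧ σ.card = k

/-- every cycle of at most `M` faces with `k` vertices bounds a chain of at most `M'` faces -/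
def Fill (K : Set (Finset V)) (k M M' : ℕ) : Prop :=
  ∀ z : Ch V, InK K k z → bd z = 0 → z.support.card ≤ M →
    ∃ c : Ch V, InK K (k + 1) c ∧ bd c = z ∧ c.support.card ≤ M'

/-- coboundary of a cochain: `(δ f) ρ = ∑ x ∈ ρ, f (ρ.erase x)` -/
noncomputable def cob (f : Finset V → ZMod 2) (ρ : Finset V) : ZMod 2 := ∑ x ∈ ρ, f (ρ.erase x)

/-- `f` is a cocycle on the faces of `K` with `k` vertices -/
def Cocyc (K : Set (Finset V)) (k : ℕ) (f : Finset V → ZMod 2) : Prop :=
  ∀ ρ ∈ K, ρ.card = k + 1 → cob f ρ = 0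

/-- `f` is a coboundary on the faces of `K` with `k` vertices -/
def Cobdy (K : Set (Finset V)) (k : ℕ) (f : Finset V → ZMod 2) : Prop :=
  ∃ g : Finset V → ZMod 2, ∀ σ ∈ K, σ.card = k → f σ = cob g σ

/-- reduced cohomology vanishes on faces with `k` vertices (degree `k - 1`) -/
def Acyc (K : Set (Finset V)) (k : ℕ) : Prop := ∀ f, Cocyc K k f → Cobdy K k f

/-- the link of a finset `s` -/
def Lk (K : Set (Finset V)) (s : Finset V) : Set (Finset V) :=
  {t | Disjoint s t ∧ s ∪ t ∈ K}

/-- the order complex of a set of elements of a partial order -/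
def OC {α : Type*} [PartialOrder α] (P : Set α) : Set (Finset α) :=
  {σ | (∀ x ∈ σ, x ∈ P) ∧ IsChain (· ≤ ·) (σ : Set α)}

/-- full subcomplex on the vertices with property `P` -/
def Full (K : Set (Finset V)) (P : V → Prop) : Set (Finset V) := {σ | σ ∈ K ∧ ∀ x ∈ σ, P x}

theorem bd_single (σ : Finset V) : bd (Finsupp.single σ 1) = bdf σ := by
  simp [bd]

end P067X
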