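import Vale.Agent.P067X.Family

/-!
# P067, module CHAINLIB: basic facts on chains and cochains
-/

namespace P067X

open Classical

variable {V : Type*}

section aux

theorem cl_sup_add {P : Finset V → Prop} {c c' : Ch V} (h : ∀ σ ∈ c.support, P σ)
    (h' : ∀ σ ∈ c'.support, P σ) : ∀ σ ∈ (c + c').support, P σ := by
  intro σ hσ
  rcases Finset.mem_union.mp (Finsupp.support_add hσ) with h1 | h1
  exacts [h σ h1, h' σ h1]

theorem cl_sup_sum {ι : Type*} {P : Finset V → Prop} (s : Finset ι) (c : ι → Ch V)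
    (h : ∀ i ∈ s, ∀ σ ∈ (c i).support, P σ) : ∀ σ ∈ (∑ i ∈ s, c i).support, P σ := by
  induction s using Finset.induction_on with
  | empty => simp
  | insert a s ha ih =>
    rw [Finset.sum_insert ha]
    exact cl_sup_add (h a (Finset.mem_insert_self a s))
      (ih fun i hi => h i (Finset.mem_insert_of_mem hi))

theorem cl_card_add (c c' : Ch V) :
    (c + c').support.card ≤ c.support.card + c'.support.card :=
  le_trans (Finset.card_le_card Finsupp.support_add) (Finset.card_union_le _ _)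

theorem cl_card_sum {ι : Type*} (s : Finset ι) (c : ι → Ch V) (N : ℕ)
    (h : ∀ i ∈ s, (c i).support.card ≤ N) : (∑ i ∈ s, c i).support.card ≤ s.card * N := by
  induction s using Finset.induction_on with
  | empty => simp
  | insert a s ha ih =>
    rw [Finset.sum_insert ha, Finset.card_insert_of_notMem ha]
    have h1 := cl_card_add (c a) (∑ i ∈ s, c i)
    have h2 := h a (Finset.mem_insert_self a s)
    have h3 := ih fun i hi => h i (Finset.mem_insert_of_mem hi)
    calc _ ≤ _ := h1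
      _ ≤ N + s.card * N := by omega
      _ = (s.card + 1) * N := by ring

theorem cl_eq_sum (z : Ch V) : z = ∑ σ ∈ z.support, z σ • Finsupp.single σ (1 : ZMod 2) := by
  conv_lhs => rw [← Finsupp.sum_single z]
  rw [Finsupp.sum]
  refine Finset.sum_congr rfl fun σ _ => ?_
  rw [Finsupp.smul_single, smul_eq_mul, mul_one]

theorem cl_lin_congr {M : Type*} [AddCommMonoid M] [Module (ZMod 2) M]
    {f g : Ch V →ₗ[ZMod 2] M} (z : Ch V)
    (h : ∀ σ ∈ z.support, f (Finsupp.single σ 1) = g (Finsupp.single σ 1)) : f z = g z := by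
  rw [cl_eq_sum z, map_sum, map_sum]
  refine Finset.sum_congr rfl fun σ hσ => ?_
  rw [map_smul, map_smul, h σ hσ]

theorem cl_sup_lin {W : Type*} {P : Finset W → Prop} (f : Ch V →ₗ[ZMod 2] Ch W) (z : Ch V)
    (h : ∀ σ ∈ z.support, ∀ τ ∈ (f (Finsupp.single σ 1)).support, P τ) :
    ∀ τ ∈ (f z).support, P τ := by
  rw [cl_eq_sum z, map_sum]
  refine cl_sup_sum _ _ fun σ hσ τ hτ => ?_
  rw [map_smul] at hτ
  exact h σ hσ τ (Finsupp.support_smul hτ)

theorem cl_card_lin {W : Type*} (f : Ch V →ₗ[ZMod 2] Ch W) (z : Ch V) (N : ℕ)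
    (h : ∀ σ ∈ z.support, (f (Finsupp.single σ 1)).support.card ≤ N) :
    (f z).support.card ≤ z.support.card * N := by
  conv_lhs => rw [cl_eq_sum z, map_sum]
  refine cl_card_sum _ _ N fun σ hσ => ?_
  rw [map_smul]
  exact le_trans (Finset.card_le_card Finsupp.support_smul) (h σ hσ)

theorem cl_supp_single {σ τ : Finset V} (h : τ ∈ (Finsupp.single σ (1 : ZMod 2)).support) :
    τ = σ := by
  have := Finsupp.support_single_subset h
  rwa [Finset.mem_singleton] at this

theorem cl_card_single (σ : Finset V) :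
    (Finsupp.single σ (1 : ZMod 2)).support.card ≤ 1 := by
  refine le_trans (Finset.card_le_card Finsupp.support_single_subset) ?_
  simp

theorem cl_bd_sup {σ τ : Finset V} (h : τ ∈ (bd (Finsupp.single σ (1 : ZMod 2))).support) :
    ∃ x ∈ σ, τ = σ.erase x := by
  rw [bd_single, bdf] at h
  have h1 := cl_sup_sum (P := fun τ => ∃ x ∈ σ, τ = σ.erase x) σ
    (fun x => Finsupp.single (σ.erase x) (1 : ZMod 2))
    (fun x hx τ hτ => ⟨x, hx, cl_supp_single hτ⟩)
  exact h1 τ h

theorem cl_double {M : Type*} [AddCommMonoid M] (h2 : ∀ m : M, m + m = 0)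
    (g : Finset V → M) (ρ : Finset V) :
    ∑ x ∈ ρ, ∑ y ∈ ρ.erase x, g ((ρ.erase x).erase y) = 0 := by
  rw [Finset.sum_sigma']
  refine Finset.sum_involution (fun p _ => ⟨p.2, p.1⟩) ?_ ?_ ?_ ?_
  · rintro ⟨x, y⟩ h
    simp only
    rw [Finset.erase_right_comm]
    exact h2 _
  · rintro ⟨x, y⟩ h _ he
    simp only [Finset.mem_sigma, Finset.mem_erase] at h
    simp only [Sigma.mk.injEq, heq_eq_eq] at he
    exact h.2.1 he.1
  · rintro ⟨x, y⟩ h
    simp only [Finset.mem_sigma, Finset.mem_erase] at h ⊢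
    exact ⟨h.2.2, fun e => h.2.1 e.symm, h.1⟩
  · rintro ⟨x, y⟩ h
    rfl

end aux

theorem bd_bd (c : Ch V) : bd (bd c) = 0 := by
  have h := cl_lin_congr (f := bd ∘ₗ bd) (g := (0 : Ch V →ₗ[ZMod 2] Ch V)) c ?_
  · simpa using h
  · intro σ _
    rw [LinearMap.comp_apply, bd_single, bdf, map_sum, LinearMap.zero_apply]
    simp_rw [bd_single, bdf]
    refine cl_double (fun m => ?_) (fun τ => Finsupp.single τ (1 : ZMod 2)) σ
    ext τ
    simp only [Finsupp.add_apply, Finsupp.zero_apply]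
    exact CharTwo.add_self_eq_zero _

theorem cob_cob (f : Finset V → ZMod 2) (ρ : Finset V) : cob (cob f) ρ = 0 := by
  simp only [cob]
  exact cl_double (fun m => CharTwo.add_self_eq_zero m) f ρ

theorem cob_add (f g : Finset V → ZMod 2) (ρ : Finset V) :
    cob (fun σ => f σ + g σ) ρ = cob f ρ + cob g ρ := by
  simp only [cob]
  rw [Finset.sum_add_distrib]

theorem InK.zero {K : Set (Finset V)} {k : ℕ} : InK K k (0 : Ch V) := by
  intro σ hσ
  simp at hσ

theorem InK.add {K : Set (Finset V)} {k : ℕ} {c c' : Ch V} (h : InK K k c) (h' : InK K k c') :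
    InK K k (c + c') := cl_sup_add h h'

theorem InK.bd {K : Set (Finset V)} (hK : IsCx K) {k : ℕ} {c : Ch V} (h : InK K (k + 1) c) :
    InK K k (P067X.bd c) := by
  refine cl_sup_lin _ _ fun σ hσ τ hτ => ?_
  obtain ⟨x, hx, rfl⟩ := cl_bd_sup hτ
  obtain ⟨h1, h2⟩ := h σ hσ
  refine ⟨hK.2 σ h1 _ (Finset.erase_subset _ _), ?_⟩
  rw [Finset.card_erase_of_mem hx, h2]
  rfl

theorem InK.mono {K K' : Set (Finset V)} (hK : K ⊆ K') {k : ℕ} {c : Ch V} (h : InK K k c) :
    InK K' k c := fun σ hσ => ⟨hK (h σ hσ).1, (h σ hσ).2⟩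

theorem Fill.mono {K : Set (Finset V)} {k M M' N N' : ℕ} (h : Fill K k M M') (h1 : N ≤ M)
    (h2 : M' ≤ N') : Fill K k N N' := by
  intro z hz hb hN
  obtain ⟨c, hc, hbc, hcM⟩ := h z hz hb (hN.trans h1)
  exact ⟨c, hc, hbc, hcM.trans h2⟩

/-- `Fill K 0 1 1`: the complex has a vertex -/
theorem fill_zero {K : Set (Finset V)} (x : V) (hx : {x} ∈ K) (M : ℕ) : Fill K 0 M 1 := by
  intro z hz hb hM
  refine ⟨Finsupp.single {x} (z ∅), ?_, ?_, ?_⟩
  · intro σ hσ
    have : σ = {x} := by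
      have := Finsupp.support_single_subset hσ
      rwa [Finset.mem_singleton] at this
    subst this
    exact ⟨hx, by simp⟩
  · have h1 : bd (Finsupp.single {x} (z ∅)) = Finsupp.single ∅ (z ∅) := by
      have h2 : (Finsupp.single {x} (z ∅) : Ch V) = z ∅ • Finsupp.single {x} (1 : ZMod 2) := by
        rw [Finsupp.smul_single, smul_eq_mul, mul_one]
      rw [h2, map_smul, bd_single, bdf, Finset.sum_singleton, Finsupp.smul_single, smul_eq_mul,
        mul_one]
      congr 1
      simp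
    rw [h1]
    ext σ
    by_cases hσ : σ = ∅
    · subst hσ; simp
    · rw [Finsupp.single_eq_of_ne hσ]
      by_contra hne
      have hmem : σ ∈ z.support := by
        rw [Finsupp.mem_support_iff]
        exact fun h => hne h.symm
      exact hσ (Finset.card_eq_zero.mp (hz σ hmem).2)
  · refine le_trans (Finset.card_le_card Finsupp.support_single_subset) ?_
    simp

theorem isCx_OC {α : Type*} [PartialOrder α] (P : Set α) : IsCx (OC P) := by
  refine ⟨⟨by simp, by simp⟩, ?_⟩
  rintro σ ⟨h1, h2⟩ τ hτ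
  refine ⟨fun x hx => h1 x (hτ hx), h2.mono ?_⟩
  exact_mod_cast hτ

theorem isCx_Lk {K : Set (Finset V)} (hK : IsCx K) {s : Finset V} (hs : s ∈ K) :
    IsCx (Lk K s) := by
  refine ⟨⟨by simp, by simpa using hs⟩, ?_⟩
  rintro σ ⟨h1, h2⟩ τ hτ
  refine ⟨Finset.disjoint_of_subset_right hτ h1, hK.2 _ h2 _ ?_⟩
  exact Finset.union_subset_union_right hτ

theorem isCx_Full {K : Set (Finset V)} (hK : IsCx K) (P : V → Prop) : IsCx (Full K P) := by
  refine ⟨⟨hK.1, by simp⟩, ?_⟩
  rintro σ ⟨h1, h2⟩ τ hτ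
  exact ⟨hK.2 _ h1 _ hτ, fun x hx => h2 x (hτ hx)⟩

/-- invariance of fillings under injective maps -/
theorem Fill.map {W : Type*} {K : Set (Finset V)} {L : Set (Finset W)} (φ : V → W)
    (hφ : ∀ σ ∈ K, σ.image φ ∈ L) (hinj : ∀ x y : V, {x} ∈ K → {y} ∈ K → φ x = φ y → x = y)
    (hL : ∀ τ ∈ L, ∃ σ ∈ K, τ = σ.image φ) (hK : IsCx K) {k M M' : ℕ} (h : Fill K k M M') :
    Fill L k M M' := by
  -- vertices of faces
  have hv : ∀ σ ∈ K, ∀ x ∈ σ, ({x} : Finset V) ∈ K := fun σ hσ x hx =>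
    hK.2 σ hσ _ (Finset.singleton_subset_iff.mpr hx)
  have hinj' : ∀ σ ∈ K, ∀ σ' ∈ K, σ.image φ = σ'.image φ → σ ⊆ σ' := by
    intro σ hσ σ' hσ' he x hx
    have h1 : φ x ∈ σ'.image φ := by
      rw [← he]; exact Finset.mem_image_of_mem _ hx
    obtain ⟨y, hy, hxy⟩ := Finset.mem_image.mp h1
    have := hinj y x (hv σ' hσ' y hy) (hv σ hσ x hx) hxy
    rwa [this] at hy
  have hinjS : ∀ σ ∈ K, ∀ σ' ∈ K, σ.image φ = σ'.image φ → σ = σ' := fun σ hσ σ' hσ' he =>
    Finset.Subset.antisymm (hinj' σ hσ σ' hσ' he) (hinj' σ' hσ' σ hσ he.symm)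
  have hcard : ∀ σ ∈ K, (σ.image φ).card = σ.card := by
    intro σ hσ
    refine Finset.card_image_of_injOn ?_
    intro x hx y hy hxy
    exact hinj x y (hv σ hσ x hx) (hv σ hσ y hy) hxy
  -- preimages
  have hpre : ∃ pre : Finset W → Finset V, ∀ τ ∈ L, pre τ ∈ K ∧ τ = (pre τ).image φ := by
    refine ⟨fun τ => if hτ : τ ∈ L then (hL τ hτ).choose else ∅, fun τ hτ => ?_⟩
    simp only [dif_pos hτ]
    exact (hL τ hτ).choose_spec
  obtain ⟨pre, hpre⟩ := hpre
  have hpre' : ∀ σ ∈ K, pre (σ.image φ) = σ := by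
    intro σ hσ
    obtain ⟨h1, h2⟩ := hpre _ (hφ σ hσ)
    exact hinjS _ h1 _ hσ h2.symm
  -- the two maps
  obtain ⟨F, hF⟩ : ∃ F : Ch V →ₗ[ZMod 2] Ch W,
      ∀ σ, F (Finsupp.single σ 1) = Finsupp.single (σ.image φ) 1 :=
    ⟨Finsupp.linearCombination (ZMod 2) fun σ => Finsupp.single (σ.image φ) (1 : ZMod 2),
      fun σ => by rw [Finsupp.linearCombination_single, one_smul]⟩
  obtain ⟨G, hG⟩ : ∃ G : Ch W →ₗ[ZMod 2] Ch V,
      ∀ τ, G (Finsupp.single τ 1) = Finsupp.single (pre τ) 1 :=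
    ⟨Finsupp.linearCombination (ZMod 2) fun τ => Finsupp.single (pre τ) (1 : ZMod 2),
      fun σ => by rw [Finsupp.linearCombination_single, one_smul]⟩
  have hFbd : ∀ (m : ℕ) (c : Ch V), InK K m c → bd (F c) = F (bd c) := by
    intro m c hc
    have := cl_lin_congr (f := bd ∘ₗ F) (g := F ∘ₗ bd) c ?_
    · exact this
    · intro σ hσ
      have hσK := (hc σ hσ).1
      rw [LinearMap.comp_apply, LinearMap.comp_apply, hF, bd_single, bd_single, bdf, bdf,
        map_sum, Finset.sum_image]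
      · refine Finset.sum_congr rfl fun x hx => ?_
        rw [hF]
        congr 1
        ext w
        simp only [Finset.mem_erase, Finset.mem_image]
        constructor
        · rintro ⟨hw, y, hy, rfl⟩
          exact ⟨y, ⟨fun e => hw (by rw [e]), hy⟩, rfl⟩
        · rintro ⟨y, ⟨hyx, hy⟩, rfl⟩
          exact ⟨fun e => hyx (hinj y x (hv σ hσK y hy) (hv σ hσK x hx) e), y, hy, rfl⟩
      · intro x hx y hy hxy
        exact hinj x y (hv σ hσK x hx) (hv σ hσK y hy) hxy
  have hGF : ∀ (m : ℕ) (c : Ch V), InK K m c → G (F c) = c := by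
    intro m c hc
    have := cl_lin_congr (f := G ∘ₗ F) (g := LinearMap.id) c ?_
    · exact this
    · intro σ hσ
      rw [LinearMap.comp_apply, hF, hG, hpre' σ (hc σ hσ).1, LinearMap.id_apply]
  have hFG : ∀ (m : ℕ) (c : Ch W), InK L m c → F (G c) = c := by
    intro m c hc
    have := cl_lin_congr (f := F ∘ₗ G) (g := LinearMap.id) c ?_
    · exact this
    · intro τ hτ
      rw [LinearMap.comp_apply, hG, hF, ← (hpre τ (hc τ hτ).1).2, LinearMap.id_apply]
  have hGin : ∀ (m : ℕ) (c : Ch W), InK L m c → InK K m (G c) := by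
    intro m c hc
    refine cl_sup_lin _ _ fun τ hτ ρ hρ => ?_
    rw [hG] at hρ
    rw [cl_supp_single hρ]
    obtain ⟨h1, h2⟩ := hpre τ (hc τ hτ).1
    refine ⟨h1, ?_⟩
    rw [← hcard _ h1, ← h2]
    exact (hc τ hτ).2
  have hFin : ∀ (m : ℕ) (c : Ch V), InK K m c → InK L m (F c) := by
    intro m c hc
    refine cl_sup_lin _ _ fun σ hσ ρ hρ => ?_
    rw [hF] at hρ
    rw [cl_supp_single hρ]
    exact ⟨hφ σ (hc σ hσ).1, by rw [hcard σ (hc σ hσ).1]; exact (hc σ hσ).2⟩
  -- conclusion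
  intro z hz hb hM
  have h1 : InK K k (G z) := hGin k z hz
  have h2 : bd (G z) = 0 := by
    have h3 : F (bd (G z)) = 0 := by
      rw [← hFbd k (G z) h1, hFG k z hz, hb]
    cases k with
    | zero =>
      have h4 : G z = (z ∅) • Finsupp.single ∅ (1 : ZMod 2) := by
        ext σ
        by_cases hσ : σ = ∅
        · subst hσ
          have hz0 : z = (z ∅) • Finsupp.single ∅ (1 : ZMod 2) := by
            ext τ
            by_cases hτ : τ = ∅
            · subst hτ; simp
            · rw [Finsupp.smul_apply, Finsupp.single_eq_of_ne hτ, smul_zero]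
              by_contra hne
              exact hτ (Finset.card_eq_zero.mp (hz τ (Finsupp.mem_support_iff.mpr hne)).2)
          have hpe : G z = (z ∅) • Finsupp.single (pre ∅) (1 : ZMod 2) := by
            conv_lhs => rw [hz0, map_smul, hG]
          have hpe' : pre ∅ = ∅ := by
            have := hpre' ∅ hK.1
            simpa using this
          rw [hpe, hpe']
        · rw [Finsupp.smul_apply, Finsupp.single_eq_of_ne hσ, smul_zero]
          by_contra hne
          exact hσ (Finset.card_eq_zero.mp (h1 σ (Finsupp.mem_support_iff.mpr hne)).2)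
      rw [h4, map_smul, bd_single, bdf]
      simp
    | succ k =>
      have h5 : InK K k (bd (G z)) := InK.bd hK h1
      rw [← hGF k _ h5, h3, map_zero]
  have h3 : (G z).support.card ≤ M := by
    refine le_trans (cl_card_lin G z 1 fun τ _ => ?_) (by simpa using hM)
    rw [hG]; exact cl_card_single _
  obtain ⟨c, hc, hbc, hcM⟩ := h (G z) h1 h2 h3
  refine ⟨F c, hFin _ c hc, ?_, ?_⟩
  · rw [hFbd _ c hc, hbc, hFG k z hz]
  · refine le_trans (cl_card_lin F c 1 fun τ _ => ?_) (by simpa using hcM)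
    rw [hF]; exact cl_card_single _

end P067X
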