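import Vale.Agent.P067X.XDefs

/-!
# P067: isomorphisms of the structures over different index types
-/

namespace P067X

open Classical Module

variable {p m : ℕ} [Fact p.Prime] {R : Type} [CommRing R] [Algebra (ZMod p) R]

/-- `Φ` is an isomorphism of the structures -/
structure Str (A : TR p m R) {ι₁ ι₂ : Type} [Fintype ι₁] [DecidableEq ι₁] [Fintype ι₂]
    [DecidableEq ι₂] (Φ : (ι₁ → R) ≃ₗ[R] (ι₂ → R)) : Prop where
  iso : ∀ r, CxIso (A.XX ι₁ r) (A.XX ι₂ r)
    (fun S => S.map (Φ.restrictScalars (ZMod p)).toLinearMap)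
  kk : ∀ S : Submodule (ZMod p) (ι₁ → R),
    A.KK (S.map (Φ.restrictScalars (ZMod p)).toLinearMap) =
      (A.KK S).map (Φ.restrictScalars (ZMod p)).toLinearMap

/-- the first coordinate -/
def xi0 (R : Type) [CommRing R] (ι : Type) : (Unit ⊕ ι → R) →ₗ[R] R := LinearMap.proj (Sum.inl ())

end P067X
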