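import Vale.Agent.P067X.CxBasic
import Vale.Agent.P067X.Avg
import Vale.Agent.P067X.StrDefs

/-!
# P067, module FIBF: the structure of `X^ξ`, `ξ` = the first coordinate on `R^(1 ⊕ ι)`

PROOF.  `liftF u S = F (e + u) + S`.
`inj`: `{v ∈ liftF u S : v_0 = 0} = S`; and `e + u ∈ liftF u S = liftF u' S` gives `u - u' ∈ S`.
`⊇`: `S = g₁ std U₁`: `liftF u S = [1 0; u g₁] std (0 × U₁)`.
`⊆`: a face `{g std U_i}` with `ξ(S_i) ≤ F`: `η = ξ ∘ g` maps `F^n` to `F` (so its matrix is constant, nonzero mod `t`) and vanishes on `U_l`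
(`t η(U_l) ≤ F`, `m ≥ 2`).  `h ∈ SL(F)` with `η ∘ h = ξ`; replace `g` by `g h`, `U_i` by `h⁻¹ U_i ≤ F^ι = ker ξ`: `g = [1 0; u' g₁]`, `det g₁ = 1`,
`S_i = F (e + u') + g₁ std U_i`.
-/

namespace P067X

open Classical Module

section aux

variable {p m : ℕ} [Fact p.Prime] {R : Type} [CommRing R] [Algebra (ZMod p) R]
  {ι : Type} [Fintype ι]

/-- the subspace `0 × U` -/
def fFz (U : Submodule (ZMod p) (ι → ZMod p)) : Submodule (ZMod p) (Unit ⊕ ι → ZMod p) where
  carrier := {w | w (Sum.inl ()) = 0 ∧ (fun i => w (Sum.inr i)) ∈ U}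
  add_mem' := by
    rintro v w ⟨h1, h2⟩ ⟨h3, h4⟩
    exact ⟨by rw [Pi.add_apply, h1, h3, add_zero], U.add_mem h2 h4⟩
  zero_mem' := ⟨rfl, U.zero_mem⟩
  smul_mem' := by
    rintro c v ⟨h1, h2⟩
    exact ⟨by rw [Pi.smul_apply, h1, smul_zero], U.smul_mem c h2⟩

theorem fF_alg_inj (A : TR p m R) {c c' : ZMod p}
    (h : algebraMap (ZMod p) R c = algebraMap (ZMod p) R c') : c = c' := by
  have h1 := A.co_algebraMap 0 c
  have h2 := A.co_algebraMap 0 c'
  rw [if_pos rfl] at h1 h2
  rw [← h1, ← h2, h]

theorem fF_key (A : TR p m R) (u : ι → R) (g1 : Matrix ι ι R)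
    (G : Matrix (Unit ⊕ ι) (Unit ⊕ ι) R) (h00 : G (Sum.inl ()) (Sum.inl ()) = 1)
    (h0i : ∀ i, G (Sum.inl ()) (Sum.inr i) = 0) (hi0 : ∀ i, G (Sum.inr i) (Sum.inl ()) = u i)
    (hij : ∀ i j, G (Sum.inr i) (Sum.inr j) = g1 i j)
    (U : Submodule (ZMod p) (ι → ZMod p)) :
    liftF u ((A.std U).map (gm p g1)) = (A.std (fFz U)).map (gm p G) := by
  have hG0 : ∀ w : Unit ⊕ ι → R, gm p G w (Sum.inl ()) = w (Sum.inl ()) := by
    intro w
    show G.mulVec w (Sum.inl ()) = _
    rw [Matrix.mulVec, dotProduct, Fintype.sum_sum_type]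
    simp [h00, h0i]
  have hGi : ∀ (w : Unit ⊕ ι → R) (i : ι), gm p G w (Sum.inr i) =
      u i * w (Sum.inl ()) + gm p g1 (fun j => w (Sum.inr j)) i := by
    intro w i
    show G.mulVec w (Sum.inr i) = _
    rw [Matrix.mulVec, dotProduct, Fintype.sum_sum_type]
    simp only [Finset.univ_unique, PUnit.default_eq_unit, Finset.sum_singleton, hi0, hij]
    rfl
  ext v
  constructor
  · rintro ⟨c, h1, w, hw, h2⟩
    refine ⟨Sum.elim (fun _ => algebraMap (ZMod p) R c) w, ⟨⟨?_, ?_⟩, ?_⟩, ?_⟩
    · show A.co 1 (algebraMap (ZMod p) R c) = 0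
      rw [A.co_algebraMap, if_neg one_ne_zero]
    · exact hw.1
    · intro a ha
      funext i
      rcases i with i | i
      · show A.co a (algebraMap (ZMod p) R c) = 0
        rw [A.co_algebraMap, if_neg (by omega)]
      · exact congrFun (hw.2 a ha) i
    · funext i
      rcases i with i | i
      · rw [hG0, h1]
        rfl
      · rw [hGi]
        have h3 := congrFun h2 i
        simp only [Sum.elim_inl, Sum.elim_inr]
        rw [h3, Algebra.smul_def]
        ring
  · rintro ⟨w, ⟨⟨hw1, hw2⟩, hw3⟩, rfl⟩
    have hc : w (Sum.inl ()) = algebraMap (ZMod p) R (A.co 0 (w (Sum.inl ()))) := by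
      refine A.ext _ _ fun a => ?_
      rw [A.co_algebraMap]
      split_ifs with ha
      · rw [ha]
      · by_cases ha1 : a = 1
        · subst ha1
          exact hw1
        · exact congrFun (hw3 a (by omega)) (Sum.inl ())
    refine ⟨A.co 0 (w (Sum.inl ())), ?_, (fun i => w (Sum.inr i)), ⟨hw2, ?_⟩, ?_⟩
    · rw [hG0]; exact hc
    · intro a ha
      funext i
      exact congrFun (hw3 a ha) (Sum.inr i)
    · funext i
      show _ = gm p G w (Sum.inr i) - _
      rw [hGi, Algebra.smul_def, ← hc]
      ring

omit [Fintype ι] in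
theorem fF_fFz_mono {U U' : Submodule (ZMod p) (ι → ZMod p)} (h : U ≤ U') : fFz U ≤ fFz U' :=
  fun _ hw => ⟨hw.1, h hw.2⟩

omit [Fintype ι] in
theorem fF_finrank (U : Submodule (ZMod p) (ι → ZMod p)) :
    finrank (ZMod p) (fFz U) = finrank (ZMod p) U := by
  refine LinearEquiv.finrank_eq ?_
  refine
    { toFun := fun w => ⟨fun i => w.1 (Sum.inr i), w.2.2⟩
      invFun := fun v => ⟨Sum.elim (fun _ => 0) v.1, rfl, v.2⟩
      map_add' := fun _ _ => rfl
      map_smul' := fun _ _ => rfl
      left_inv := ?_
      right_inv := fun _ => rfl }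
  intro w
  apply Subtype.ext
  funext i
  rcases i with i | i
  · exact w.2.1.symm
  · rfl

/-- a nonzero row can be completed to a matrix of determinant one -/
theorem fF_complete [DecidableEq ι] [Nonempty ι] (a : Unit ⊕ ι → ZMod p) (ha : a ≠ 0) :
    ∃ k : Matrix.SpecialLinearGroup (Unit ⊕ ι) (ZMod p), ∀ j, k.1 (Sum.inl ()) j = a j := by
  have main : ∀ a : Unit ⊕ ι → ZMod p, a (Sum.inl ()) ≠ 0 →
      ∃ k : Matrix.SpecialLinearGroup (Unit ⊕ ι) (ZMod p), ∀ j, k.1 (Sum.inl ()) j = a j := by
    intro a ha0
    obtain ⟨j0⟩ := (inferInstance : Nonempty ι)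
    let D : ι → ZMod p := fun i => if i = j0 then (a (Sum.inl ()))⁻¹ else 1
    refine ⟨⟨Matrix.fromBlocks (Matrix.of fun _ _ => a (Sum.inl ()))
      (Matrix.of fun _ j => a (Sum.inr j)) 0 (Matrix.diagonal D), ?_⟩, ?_⟩
    · rw [Matrix.det_fromBlocks_zero₂₁, Matrix.det_diagonal]
      have h1 : ∏ i, D i = (a (Sum.inl ()))⁻¹ := by
        rw [Finset.prod_eq_single j0]
        · simp [D]
        · intro b _ hb; simp [D, hb]
        · intro h; exact absurd (Finset.mem_univ _) h
      rw [h1, Matrix.det_unique]
      simp [ha0]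
    · rintro (j | j)
      · rfl
      · rfl
  by_cases ha0 : a (Sum.inl ()) = 0
  · have h1 : ∃ j1 : ι, a (Sum.inr j1) ≠ 0 := by
      by_contra hcon
      push Not at hcon
      apply ha
      funext j
      rcases j with j | j
      · exact ha0
      · exact hcon j
    obtain ⟨j1, hj1⟩ := h1
    let E : Matrix.SpecialLinearGroup (Unit ⊕ ι) (ZMod p) :=
      ⟨Matrix.transvection (Sum.inr j1) (Sum.inl ()) (1 : ZMod p),
        Matrix.det_transvection_of_ne _ _ (by simp) _⟩
    obtain ⟨k, hk⟩ := main (Matrix.vecMul a E.1) (by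
      simp only [E, Matrix.transvection, Matrix.vecMul_add, Matrix.vecMul_one, Pi.add_apply, ha0,
        zero_add]
      rw [Matrix.vecMul, dotProduct, Finset.sum_eq_single (Sum.inr j1)]
      · simpa using hj1
      · intro b _ hb
        simp [Matrix.single, Ne.symm hb]
      · intro h; exact absurd (Finset.mem_univ _) h)
    refine ⟨k * E⁻¹, fun j => ?_⟩
    have h2 : (k * E⁻¹).1 (Sum.inl ()) = Matrix.vecMul (k.1 (Sum.inl ())) (E⁻¹).1 := by
      rw [Matrix.SpecialLinearGroup.coe_mul]
      funext j
      rfl
    rw [h2]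
    have h3 : k.1 (Sum.inl ()) = Matrix.vecMul a E.1 := funext hk
    rw [h3, Matrix.vecMul_vecMul]
    have h4 : E.1 * (E⁻¹).1 = 1 := by
      rw [← Matrix.SpecialLinearGroup.coe_mul, mul_inv_cancel]
      rfl
    rw [h4, Matrix.vecMul_one]
  · exact main a ha0

end aux

theorem fibF {p m : ℕ} [Fact p.Prime] {R : Type} [CommRing R] [Algebra (ZMod p) R]
    (A : TR p m R) (hm : 3 ≤ m) (ι : Type) [Fintype ι] [DecidableEq ι] [Nonempty ι] (r : ℕ) :
    Fib p (A.XX ι r) (A.XF (Unit ⊕ ι) r (xi0 R ι)) (fun S => S)
      (liftF : (ι → R) → Submodule (ZMod p) (ι → R) → _) := by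
  refine ⟨isCx_XX A r, ?_, ?_⟩
  · -- injectivity
    intro q q' x x' _ _
    constructor
    · intro h
      have key : ∀ (q q' : ι → R) (x x' : Submodule (ZMod p) (ι → R)),
          liftF q x = liftF q' x' → x ≤ x' := by
        intro q q' x x' h v hv
        have h1 : (Sum.elim (fun _ => 0) v : Unit ⊕ ι → R) ∈ liftF q x := by
          refine ⟨0, by simp, ?_⟩
          simpa using hv
        rw [h] at h1
        obtain ⟨c, hc1, hc2⟩ := h1
        have hc : c = 0 := by
          apply fF_alg_inj A
          rw [map_zero, ← hc1]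
          rfl
        subst hc
        simpa using hc2
      have hxx : x = x' := le_antisymm (key q q' x x' h) (key q' q x' x h.symm)
      refine ⟨hxx, ?_⟩
      have h1 : (Sum.elim (fun _ => 1) q : Unit ⊕ ι → R) ∈ liftF q x := by
        refine ⟨1, by simp, ?_⟩
        have : (fun i => (Sum.elim (fun _ => 1) q : Unit ⊕ ι → R) (Sum.inr i) -
            (1 : ZMod p) • q i) = 0 := by
          funext i
          simp
        rw [this]
        exact x.zero_mem
      rw [h] at h1
      obtain ⟨c, hc1, hc2⟩ := h1
      have hc : c = 1 := by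
        apply fF_alg_inj A
        rw [map_one, ← hc1]
        rfl
      subst hc
      have h2 : (fun i => (Sum.elim (fun _ => 1) q : Unit ⊕ ι → R) (Sum.inr i) -
          (1 : ZMod p) • q' i) = q - q' := by
        funext i
        simp
      rw [h2] at hc2
      show q - q' ∈ x
      rw [hxx]
      exact hc2
    · rintro ⟨rfl, h⟩
      have key : ∀ q q' : ι → R, q - q' ∈ x → liftF q x ≤ liftF q' x := by
        rintro q q' h v ⟨c, h1, h2⟩
        refine ⟨c, h1, ?_⟩
        have h3 : (fun i => v (Sum.inr i) - c • q' i) =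
            (fun i => v (Sum.inr i) - c • q i) + c • (q - q') := by
          funext i
          simp only [Pi.add_apply, Pi.smul_apply, Pi.sub_apply, smul_sub]
          ring
        rw [h3]
        exact x.add_mem h2 (x.smul_mem c h)
      refine le_antisymm (key q q' h) (key q' q ?_)
      have : q' - q = -(q - q') := by ring
      rw [this]
      exact x.neg_mem h
  · -- the faces
    ext τ
    constructor
    · rintro ⟨⟨g, c, hc, hcr, rfl⟩, hτ⟩
      rcases c.eq_empty_or_nonempty with rfl | hne
      · refine ⟨0, ∅, (isCx_XX A r).1, by simp⟩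
      -- the first row of `g` is constant
      have hrow : ∀ j, ∃ a : ZMod p, g.1 (Sum.inl ()) j = algebraMap (ZMod p) R a := by
        intro j
        obtain ⟨U, hU⟩ := hne
        obtain ⟨a, ha⟩ := hτ _ (Finset.mem_image_of_mem _ hU)
          (gm p g.1 (Pi.single j 1)) (Submodule.mem_map_of_mem (by
            refine ⟨?_, fun b hb => ?_⟩
            · have : A.vco 1 (Pi.single j 1 : Unit ⊕ ι → R) = 0 := by
                funext i
                show A.co 1 ((Pi.single j 1 : Unit ⊕ ι → R) i) = 0
                by_cases hi : i = j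
                · subst hi
                  rw [Pi.single_eq_same, A.co_one, if_neg one_ne_zero]
                · rw [Pi.single_eq_of_ne hi, map_zero]
              rw [this]
              exact U.zero_mem
            · funext i
              show A.co b ((Pi.single j 1 : Unit ⊕ ι → R) i) = 0
              by_cases hi : i = j
              · subst hi
                rw [Pi.single_eq_same, A.co_one, if_neg (by omega)]
              · rw [Pi.single_eq_of_ne hi, map_zero]))
        refine ⟨a, ?_⟩
        rw [← ha]
        show _ = g.1.mulVec (Pi.single j 1) (Sum.inl ())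
        rw [Matrix.mulVec_single_one]
        rfl
      choose a ha using hrow
      have hane : a ≠ 0 := by
        intro h0
        have h1 : g.1.det = 0 := by
          refine Matrix.det_eq_zero_of_row_eq_zero (Sum.inl ()) fun j => ?_
          rw [ha, h0, Pi.zero_apply, map_zero]
        have h2 := g.2
        rw [h1] at h2
        have h3 := A.co_one 0
        rw [if_pos rfl, ← h2, map_zero] at h3
        exact zero_ne_one h3
      -- the row vanishes on the `U`'s
      have haU : ∀ U ∈ c, ∀ x ∈ U, ∑ j, a j * x j = 0 := by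
        intro U hU x hx
        obtain ⟨b, hb⟩ := hτ _ (Finset.mem_image_of_mem _ hU)
          (gm p g.1 (A.tl (cst R (Unit ⊕ ι) x))) (Submodule.mem_map_of_mem (by
            refine ⟨?_, fun b hb => ?_⟩
            · have h1 := A.vco_tl 0 (cst R (Unit ⊕ ι) x)
              rw [if_pos (by omega), A.vco_cst, if_pos rfl] at h1
              rw [h1]
              exact hx
            · obtain ⟨b, rfl⟩ : ∃ b', b = b' + 1 := ⟨b - 1, by omega⟩
              rw [A.vco_tl]
              split_ifs
              · rw [A.vco_cst, if_neg (by omega)]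
              · rfl))
        have h1 : xi0 R ι (gm p g.1 (A.tl (cst R (Unit ⊕ ι) x))) =
            A.t * algebraMap (ZMod p) R (∑ j, a j * x j) := by
          show g.1.mulVec (A.tl (cst R (Unit ⊕ ι) x)) (Sum.inl ()) = _
          rw [Matrix.mulVec, dotProduct, map_sum, Finset.mul_sum]
          refine Finset.sum_congr rfl fun j _ => ?_
          rw [ha, map_mul]
          show _ * (A.t * algebraMap (ZMod p) R (x j)) = _
          ring
        rw [h1] at hb
        have h2 := congrArg (A.co 1) hb
        have h3 := A.co_t 0 (algebraMap (ZMod p) R (∑ j, a j * x j))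
        rw [if_pos (by omega), A.co_algebraMap, if_pos rfl] at h3
        rw [zero_add] at h3
        rw [h3, A.co_algebraMap, if_neg one_ne_zero] at h2
        exact h2
      obtain ⟨k, hk⟩ := fF_complete a hane
      let kR : Matrix.SpecialLinearGroup (Unit ⊕ ι) R := k.map (algebraMap (ZMod p) R)
      let g' : Matrix.SpecialLinearGroup (Unit ⊕ ι) R := g * kR⁻¹
      have hg' : g = g' * kR := by simp [g']
      -- the first row of `g'`
      have hrow' : ∀ j, g'.1 (Sum.inl ()) j = (1 : Matrix (Unit ⊕ ι) (Unit ⊕ ι) R) (Sum.inl ()) j := by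
        have h1 : g.1 (Sum.inl ()) = kR.1 (Sum.inl ()) := by
          funext j
          rw [ha, ← hk]
          rfl
        intro j
        have h2 : g'.1 (Sum.inl ()) j = Matrix.vecMul (g.1 (Sum.inl ())) (kR⁻¹).1 j := by
          show (g * kR⁻¹).1 (Sum.inl ()) j = _
          rw [Matrix.SpecialLinearGroup.coe_mul]
          rfl
        rw [h2, h1]
        have h3 : kR.1 * (kR⁻¹).1 = 1 := by
          rw [← Matrix.SpecialLinearGroup.coe_mul, mul_inv_cancel]
          rfl
        rw [← h3]
        rfl
      let g1 : Matrix ι ι R := fun i j => g'.1 (Sum.inr i) (Sum.inr j)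
      have hdet : g1.det = 1 := by
        have h1 : g'.1 = Matrix.fromBlocks 1 0
            (Matrix.of fun i _ => g'.1 (Sum.inr i) (Sum.inl ())) g1 := by
          ext i j
          rcases i with i | i <;> rcases j with j | j
          · rw [hrow']; simp
          · rw [hrow']; simp
          · rfl
          · rfl
        have h2 := g'.2
        rw [h1, Matrix.det_fromBlocks_zero₁₂, Matrix.det_one, one_mul] at h2
        exact h2
      let pr : (Unit ⊕ ι → ZMod p) →ₗ[ZMod p] (ι → ZMod p) :=
        { toFun := fun w i => w (Sum.inr i)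
          map_add' := fun _ _ => rfl
          map_smul' := fun _ _ => rfl }
      let W : Submodule (ZMod p) (Unit ⊕ ι → ZMod p) → Submodule (ZMod p) (ι → ZMod p) :=
        fun U => (U.map (Matrix.mulVecLin k.1)).map pr
      have hW : ∀ U ∈ c, U.map (Matrix.mulVecLin k.1) = fFz (W U) := by
        intro U hU
        have h0 : ∀ w ∈ U.map (Matrix.mulVecLin k.1), w (Sum.inl ()) = 0 := by
          rintro w ⟨x, hx, rfl⟩
          rw [← haU U hU x hx]
          show k.1.mulVec x (Sum.inl ()) = _
          rw [Matrix.mulVec, dotProduct]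
          exact Finset.sum_congr rfl fun j _ => by rw [hk]
        ext w
        constructor
        · intro hw
          exact ⟨h0 w hw, w, hw, rfl⟩
        · rintro ⟨hw1, w', hw', hw2⟩
          have : w = w' := by
            funext j
            rcases j with j | j
            · rw [h0 w' hw']; exact hw1
            · exact (congrFun hw2 j).symm
          rw [this]
          exact hw'
      refine ⟨fun i => g'.1 (Sum.inr i) (Sum.inl ()),
        c.image (fun U => (A.std (W U)).map (gm p g1)), ?_, ?_⟩
      · refine ⟨⟨g1, hdet⟩, c.image W, ?_, ?_, ?_⟩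
        · intro x hx y hy hxy
          rw [Finset.mem_coe, Finset.mem_image] at hx hy
          obtain ⟨U, hU, rfl⟩ := hx
          obtain ⟨U', hU', rfl⟩ := hy
          by_cases h : U = U'
          · subst h; exact absurd rfl hxy
          · rcases hc hU hU' h with h | h
            · exact Or.inl (Submodule.map_mono (Submodule.map_mono h))
            · exact Or.inr (Submodule.map_mono (Submodule.map_mono h))
        · intro x hx
          rw [Finset.mem_image] at hx
          obtain ⟨U, hU, rfl⟩ := hx
          refine le_trans (Submodule.finrank_map_le _ _) (le_trans (Submodule.finrank_map_le _ _)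
            (hcr U hU))
        · rw [Finset.image_image]
          rfl
      · rw [Finset.image_image]
        refine Finset.image_congr fun U hU => ?_
        simp only [Function.comp]
        rw [fF_key A _ g1 g'.1 (by rw [hrow']; simp) (fun i => by rw [hrow']; simp)
          (fun _ => rfl) (fun _ _ => rfl), ← hW U hU, ← std_map_const, ← map_gm_mul]
        have : g.1 = g'.1 * kR.1 := by
          have := congrArg Subtype.val hg'
          rwa [Matrix.SpecialLinearGroup.coe_mul] at this
        rw [this]
    · rintro ⟨u, σ, ⟨g1, c, hc, hcr, rfl⟩, rfl⟩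
      let G : Matrix (Unit ⊕ ι) (Unit ⊕ ι) R := Matrix.fromBlocks 1 0 (Matrix.of fun i _ => u i) g1.1
      have hG : G.det = 1 := by
        rw [Matrix.det_fromBlocks_zero₁₂, Matrix.det_one, one_mul, g1.2]
      refine ⟨⟨⟨G, hG⟩, c.image fFz, ?_, ?_, ?_⟩, ?_⟩
      · intro x hx y hy hxy
        rw [Finset.mem_coe, Finset.mem_image] at hx hy
        obtain ⟨U, hU, rfl⟩ := hx
        obtain ⟨U', hU', rfl⟩ := hy
        by_cases h : U = U'
        · subst h; exact absurd rfl hxy
        · rcases hc hU hU' h with h | h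
          · exact Or.inl (fF_fFz_mono h)
          · exact Or.inr (fF_fFz_mono h)
      · intro x hx
        rw [Finset.mem_image] at hx
        obtain ⟨U, hU, rfl⟩ := hx
        rw [fF_finrank]
        exact hcr U hU
      · rw [Finset.image_image, Finset.image_image]
        refine Finset.image_congr fun U hU => ?_
        simp only [Function.comp]
        exact fF_key A u g1.1 G (by simp [G]) (fun i => by simp [G]) (fun i => rfl)
          (fun i j => rfl) U
      · intro S hS v hv
        rw [Finset.mem_image] at hS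
        obtain ⟨S', _, rfl⟩ := hS
        obtain ⟨c', h1, _⟩ := hv
        exact ⟨c', h1⟩

/-- the two sections agree -/
theorem lift_zero {p m : ℕ} [Fact p.Prime] {R : Type} [CommRing R] [Algebra (ZMod p) R]
    (A : TR p m R) (ι : Type) [Fintype ι] (S : Submodule (ZMod p) (ι → R)) :
    liftF (0 : ι → R) S = liftV (0 : Matrix Unit ι R) S := by
  ext v
  constructor
  · rintro ⟨c, h1, h2⟩
    refine ⟨by simpa using h2, fun i => ⟨c, ?_⟩⟩
    rw [Matrix.zero_mulVec, Pi.zero_apply, sub_zero]
    exact h1
  · rintro ⟨h1, h2⟩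
    obtain ⟨c, hc⟩ := h2 ()
    rw [Matrix.zero_mulVec, Pi.zero_apply, sub_zero] at hc
    exact ⟨c, hc, by simpa using h1⟩

end P067X
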