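import Vale.Agent.P067X.CxBasic
import Vale.Agent.P067X.Avg

/-!
# P067, module FIBV: the structure of `X^V` for `V = F^κ` in `R^(κ ⊕ ι)`

PROOF.  `liftV q S = (1+q)(F^κ + S)`.
`inj`: if `liftV q S = liftV q' S'`, project to `ι`: `S = S'`; for `s ∈ S` the vector `(q s, s)` is in both, so `(q - q') s` is constant.
`⊇`: `S = g₁ std U₁` (flag `U₁`'s in `F^ι`, `g₁ ∈ SL_ι(R)`), `liftV q S = [1 q; 0 1][1 0; 0 g₁] (std (0 × U₁))`; `F^κ ≤ liftV q S`;
`F^κ ⊓ KK = ⊥` (`mem_KK_std`, `KK_map`).
`⊆`: a face `{g std U_i}` (`U_1 < .. < U_l`) with `V ≤ S_1`, `V ⊓ KK(S_l) = ⊥`: for `v ∈ V`, `g⁻¹ v = w_v + t u_v`, `w_v ∈ F^n`, `u_v ∈ U_1`, and `w_v ∉ U_l` if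
`v ≠ 0`.  `ν ∈ Hom(F^n/U_l, U_1)` with `ν(w_v) = u_v`; replace `g` by `g (1 + t ν)`: then `g w_v = v` with `w_v` constant.  Choose `h ∈ SL(F)` with `h e_i = w_{e_i}`
(`i ∈ κ`, possible since `ι` is nonempty) and `U_l ≤ h (0 × F^ι)`, and replace `g` by `g h`, `U_i` by `h⁻¹ U_i`: now `g e_i = e_i` (`i ∈ κ`), `U_i ≤ 0 × F^ι`,
`g = [1 b; 0 g₁]`, `det g₁ = 1`, `q = b g₁⁻¹`.  (`n = |κ| + |ι|`.)
-/

namespace P067X

open Classical Module

section linalg

variable {F : Type} [Field F] {κ ι : Type} [Fintype κ] [Fintype ι] [DecidableEq κ] [DecidableEq ι]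

/-- the embedding `0 × F^ι` -/
private def fvE (F κ ι : Type) [Field F] : (ι → F) →ₗ[F] (κ ⊕ ι → F) where
  toFun z := Sum.elim 0 z
  map_add' v w := by
    funext i
    cases i <;> simp
  map_smul' c v := by
    funext i
    cases i <;> simp

/-- the embedding `F^κ × 0` -/
private def fvA (F κ ι : Type) [Field F] : (κ → F) →ₗ[F] (κ ⊕ ι → F) where
  toFun z := Sum.elim z 0
  map_add' v w := by
    funext i
    cases i <;> simp
  map_smul' c v := by
    funext i
    cases i <;> simp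

omit [Fintype κ] [Fintype ι] [DecidableEq κ] [DecidableEq ι] in
private theorem fvE_inj : Function.Injective (fvE F κ ι) := by
  intro x y h
  funext i
  have := congrFun h (Sum.inr i)
  simpa [fvE] using this

omit [Fintype κ] [Fintype ι] [DecidableEq κ] [DecidableEq ι] in
private theorem fv_split (v : κ ⊕ ι → F) :
    v = fvA F κ ι (fun i => v (Sum.inl i)) + fvE F κ ι (fun i => v (Sum.inr i)) := by
  funext i
  cases i <;> simp [fvA, fvE]

/-- completion of `w` to a matrix of determinant one -/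
private theorem fv_complete [Nonempty ι] (w : (κ → F) →ₗ[F] (κ ⊕ ι → F))
    (hw : Function.Injective w) (G : Submodule F (κ ⊕ ι → F))
    (hG : ∀ x, w x ∈ G → x = 0) :
    ∃ h : Matrix.SpecialLinearGroup (κ ⊕ ι) F, (∀ x, h.1.mulVec (fvA F κ ι x) = w x) ∧
      ∀ y ∈ G, ∃ z : ι → F, h.1.mulVec (fvE F κ ι z) = y := by
  have hdis : Disjoint G (LinearMap.range w) := by
    rw [Submodule.disjoint_def]
    rintro y hy ⟨x, rfl⟩
    rw [hG x hy, map_zero]
  obtain ⟨C, hGC, hC⟩ := hdis.exists_isCompl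
  have hfr : finrank F (ι → F) = finrank F C := by
    have h1 := Submodule.finrank_add_eq_of_isCompl hC
    have h2 : finrank F (LinearMap.range w) = Fintype.card κ := by
      rw [LinearMap.finrank_range_of_inj hw]; simp
    rw [h2] at h1
    simp only [Module.finrank_fintype_fun_eq_card, Fintype.card_sum] at h1 ⊢
    omega
  let φ : (ι → F) ≃ₗ[F] C := LinearEquiv.ofFinrankEq _ _ hfr
  let pl : (κ ⊕ ι → F) →ₗ[F] (κ → F) := LinearMap.funLeft F F Sum.inl
  let pr : (κ ⊕ ι → F) →ₗ[F] (ι → F) := LinearMap.funLeft F F Sum.inr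
  let h0 : (κ ⊕ ι → F) →ₗ[F] (κ ⊕ ι → F) := w ∘ₗ pl + C.subtype ∘ₗ φ.toLinearMap ∘ₗ pr
  have h0A : ∀ x, h0 (fvA F κ ι x) = w x := by
    intro x
    have e1 : pl (fvA F κ ι x) = x := by funext i; simp [pl, fvA]
    have e2 : pr (fvA F κ ι x) = 0 := by funext i; simp [pr, fvA]
    simp only [h0, LinearMap.add_apply, LinearMap.comp_apply, e1, e2, map_zero, add_zero]
  have h0E : ∀ z, h0 (fvE F κ ι z) = (φ z : κ ⊕ ι → F) := by
    intro x
    have e1 : pl (fvE F κ ι x) = 0 := by funext i; simp [pl, fvE]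
    have e2 : pr (fvE F κ ι x) = x := by funext i; simp [pr, fvE]
    simp only [h0, LinearMap.add_apply, LinearMap.comp_apply, e1, e2, map_zero, zero_add]
    rfl
  have hinj : Function.Injective h0 := by
    rw [← LinearMap.ker_eq_bot, LinearMap.ker_eq_bot']
    intro v hv
    rw [fv_split v, map_add, h0A, h0E] at hv
    have h1 : (φ (fun i => v (Sum.inr i)) : κ ⊕ ι → F) ∈ C ⊓ LinearMap.range w := by
      refine ⟨(φ _).2, ⟨-(fun i => v (Sum.inl i)), ?_⟩⟩
      rw [map_neg]
      exact (eq_neg_of_add_eq_zero_right hv).symm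
    rw [hC.inf_eq_bot, Submodule.mem_bot] at h1
    have h2 : (fun i => v (Sum.inr i)) = 0 := by
      have h3 : φ (fun i => v (Sum.inr i)) = 0 := Subtype.ext h1
      exact (map_eq_zero_iff φ φ.injective).1 h3
    rw [h1, add_zero] at hv
    have h3 : (fun i => v (Sum.inl i)) = 0 := hw (by rw [hv, map_zero])
    rw [fv_split v, h2, h3, map_zero, map_zero, add_zero]
  let M : Matrix (κ ⊕ ι) (κ ⊕ ι) F := LinearMap.toMatrix' h0
  have hM : ∀ v, M.mulVec v = h0 v := by
    intro v
    have := LinearMap.toMatrix'_mulVec h0 v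
    exact this
  have hdet : M.det ≠ 0 := by
    have h1 : Function.Injective M.mulVec := by
      have : M.mulVec = h0 := funext hM
      rw [this]
      exact hinj
    rw [Matrix.mulVec_injective_iff_isUnit, Matrix.isUnit_iff_isUnit_det] at h1
    exact h1.ne_zero
  obtain ⟨i0⟩ := ‹Nonempty ι›
  let D : Matrix (κ ⊕ ι) (κ ⊕ ι) F :=
    Matrix.diagonal (Function.update (fun _ => 1) (Sum.inr i0) (M.det)⁻¹)
  have hD : D.det = (M.det)⁻¹ := by
    simp only [D, Matrix.det_diagonal]
    rw [Finset.prod_update_of_mem (Finset.mem_univ _)]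
    simp
  refine ⟨⟨M * D, by rw [Matrix.det_mul, hD, mul_inv_cancel₀ hdet]⟩, ?_, ?_⟩
  · intro x
    simp only
    rw [← Matrix.mulVec_mulVec, hM, ← h0A]
    congr 1
    funext i
    simp only [D, Matrix.mulVec_diagonal]
    cases i with
    | inl i => simp [fvA]
    | inr i => simp [fvA]
  · intro y hy
    obtain ⟨z, hz⟩ : ∃ z, (φ z : κ ⊕ ι → F) = y := ⟨φ.symm ⟨y, hGC hy⟩, by simp⟩
    refine ⟨Function.update z i0 (M.det * z i0), ?_⟩
    simp only
    rw [← Matrix.mulVec_mulVec, hM, ← hz, ← h0E]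
    congr 1
    funext i
    simp only [D, Matrix.mulVec_diagonal]
    cases i with
    | inl i => simp [fvE]
    | inr i =>
      by_cases hi : i = i0
      · subst hi
        simp only [fvE, LinearMap.coe_mk, AddHom.coe_mk, Sum.elim_inr, Function.update_self]
        rw [← mul_assoc, inv_mul_cancel₀ hdet, one_mul]
      · have hi' : (Sum.inr i : κ ⊕ ι) ≠ Sum.inr i0 := fun h => hi (Sum.inr.inj h)
        simp only [fvE, LinearMap.coe_mk, AddHom.coe_mk, Sum.elim_inr,
          Function.update_of_ne hi, Function.update_of_ne hi']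
        rw [one_mul]

/-- the nilpotent matrix `ν = Um * Bm` -/
private theorem fv_nu {n : Type} [Fintype n] [DecidableEq n] (w u : (κ → F) →ₗ[F] (n → F))
    (G : Submodule F (n → F)) (hG : ∀ x, w x ∈ G → x = 0) (hu : ∀ x, u x ∈ G) :
    ∃ (Um : Matrix n κ F) (Bm : Matrix κ n F), Bm * Um = 0 ∧ (∀ y ∈ G, Bm.mulVec y = 0) ∧
      (∀ x, Bm.mulVec (w x) = x) ∧ ∀ x, Um.mulVec x = u x := by
  have hker : LinearMap.ker (G.mkQ ∘ₗ w) = ⊥ := by
    rw [LinearMap.ker_eq_bot']
    intro x hx
    rw [LinearMap.comp_apply, Submodule.mkQ_apply, Submodule.Quotient.mk_eq_zero] at hx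
    exact hG x hx
  obtain ⟨β, hβ⟩ := LinearMap.exists_leftInverse_of_injective _ hker
  have hB : ∀ y, (LinearMap.toMatrix' (β ∘ₗ G.mkQ)).mulVec y = β (G.mkQ y) := fun y =>
    LinearMap.toMatrix'_mulVec (β ∘ₗ G.mkQ) y
  have hBG : ∀ y ∈ G, (LinearMap.toMatrix' (β ∘ₗ G.mkQ)).mulVec y = 0 := by
    intro y hy
    rw [hB, Submodule.mkQ_apply, (Submodule.Quotient.mk_eq_zero G).2 hy, map_zero]
  refine ⟨LinearMap.toMatrix' u, LinearMap.toMatrix' (β ∘ₗ G.mkQ), ?_, hBG, ?_, ?_⟩
  · rw [← LinearMap.toMatrix'_comp]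
    have h1 : (β ∘ₗ G.mkQ) ∘ₗ u = 0 := by
      ext x i
      have h2 : ∀ z, β (G.mkQ (u z)) = 0 := fun z => by rw [← hB]; exact hBG _ (hu z)
      simp only [LinearMap.comp_apply] at h2 ⊢
      rw [h2]
      simp
    rw [h1, map_zero]
  · intro x
    rw [hB]
    exact LinearMap.congr_fun hβ x
  · intro x
    exact LinearMap.toMatrix'_mulVec u x

end linalg

section ring

variable {p m : ℕ} [Fact p.Prime] {R : Type} [CommRing R] [Algebra (ZMod p) R]
  {κ ι n : Type} [Fintype κ] [Fintype ι] [DecidableEq κ] [DecidableEq ι] [Fintype n] [DecidableEq n]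

/-- base change of a matrix -/
private noncomputable def bc (R : Type) [CommRing R] [Algebra (ZMod p) R] {α β : Type} (M : Matrix α β (ZMod p)) : Matrix α β R :=
  M.map (algebraMap (ZMod p) R)

omit [Fintype κ] [DecidableEq κ] [DecidableEq n] in
private theorem fv_vco_bc (A : TR p m R) (a : ℕ) (M : Matrix κ n (ZMod p)) (v : n → R) :
    A.vco a ((bc R M).mulVec v) = M.mulVec (A.vco a v) := by
  funext i
  change A.co a ((bc R M).mulVec v i) = M.mulVec (fun j => A.co a (v j)) i
  simp only [Matrix.mulVec, dotProduct, bc, Matrix.map_apply, map_sum, A.co_smul_const]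

omit [Fintype κ] [DecidableEq κ] [DecidableEq n] in
private theorem fv_bc_cst (M : Matrix κ n (ZMod p)) (x : n → ZMod p) :
    (bc R M).mulVec (cst R n x) = cst R κ (M.mulVec x) := by
  funext i
  change (bc R M).mulVec (fun j => algebraMap (ZMod p) R (x j)) i =
    algebraMap (ZMod p) R (M.mulVec x i)
  simp only [Matrix.mulVec, dotProduct, bc, Matrix.map_apply, map_sum, map_mul]

/-- `1 + t ν` -/
private noncomputable def fvT (A : TR p m R) (Um : Matrix n κ (ZMod p)) (Bm : Matrix κ n (ZMod p)) :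
    Matrix n n R := 1 + (A.t • bc R Um) * bc R Bm

omit [Fintype n] [DecidableEq κ] in
private theorem fvT_apply [Fintype n] (A : TR p m R) (Um : Matrix n κ (ZMod p))
    (Bm : Matrix κ n (ZMod p)) (v : n → R) :
    (fvT A Um Bm).mulVec v = v + A.tl ((bc R Um).mulVec ((bc R Bm).mulVec v)) := by
  unfold fvT
  rw [Matrix.add_mulVec, Matrix.one_mulVec, ← Matrix.mulVec_mulVec, Matrix.smul_mulVec]
  rfl

private theorem bc_mul {α β γ : Type} [Fintype β] (M : Matrix α β (ZMod p))
    (N : Matrix β γ (ZMod p)) : bc R (M * N) = bc R M * bc R N := by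
  unfold bc
  rw [Matrix.map_mul]

private theorem fvT_det (A : TR p m R) (Um : Matrix n κ (ZMod p)) (Bm : Matrix κ n (ZMod p))
    (h : Bm * Um = 0) : (fvT A Um Bm).det = 1 := by
  unfold fvT
  rw [Matrix.det_one_add_mul_comm, Matrix.mul_smul, ← bc_mul, h]
  have : bc R (0 : Matrix κ κ (ZMod p)) = 0 := by
    ext i j
    simp [bc]
  rw [this, smul_zero, add_zero, Matrix.det_one]

omit [DecidableEq κ] in
private theorem fvT_std_le (A : TR p m R) (hm : 3 ≤ m) (Um : Matrix n κ (ZMod p))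
    (Bm : Matrix κ n (ZMod p)) (U : Submodule (ZMod p) (n → ZMod p))
    (hB : ∀ y ∈ U, Bm.mulVec y = 0) (hU : ∀ x, Um.mulVec x ∈ U) (v : n → R) (hv : v ∈ A.std U) :
    (fvT A Um Bm).mulVec v ∈ A.std U := by
  rw [mem_std] at hv ⊢
  obtain ⟨h1, h2⟩ := hv
  have h3 : ∀ a, A.vco (a + 1) ((fvT A Um Bm).mulVec v) = A.vco (a + 1) v +
      if a + 1 < m then Um.mulVec (Bm.mulVec (A.vco a v)) else 0 := by
    intro a
    rw [fvT_apply, map_add, A.vco_tl, fv_vco_bc, fv_vco_bc]
  constructor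
  · rw [h3 0, if_pos (by omega)]
    exact U.add_mem h1 (hU _)
  · intro a ha
    obtain ⟨b, rfl⟩ : ∃ b, a = b + 1 := ⟨a - 1, by omega⟩
    rw [h3 b, h2 (b + 1) ha, zero_add]
    split_ifs with hb
    · have h4 : Bm.mulVec (A.vco b v) = 0 := by
        rcases Nat.lt_or_ge b 2 with h5 | h5
        · have h6 : b = 1 := by omega
          subst h6
          exact hB _ h1
        · rw [h2 b h5, Matrix.mulVec_zero]
      rw [h4, Matrix.mulVec_zero]
    · rfl

omit [DecidableEq κ] in
private theorem fvT_inv (A : TR p m R) (Um : Matrix n κ (ZMod p)) (Bm : Matrix κ n (ZMod p))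
    (h : Bm * Um = 0) (v : n → R) :
    (fvT A Um Bm).mulVec ((fvT A (-Um) Bm).mulVec v) = v := by
  rw [Matrix.mulVec_mulVec]
  have h1 : fvT A Um Bm * fvT A (-Um) Bm = 1 := by
    unfold fvT
    have h2 : bc R (-Um) = - bc R Um := by
      ext i j
      simp [bc]
    have h0 : bc R Bm * bc R Um = 0 := by
      rw [← bc_mul, h]
      ext i j
      simp [bc]
    rw [h2, smul_neg, Matrix.neg_mul, mul_add, mul_one, add_mul, one_mul]
    have h3 : A.t • bc R Um * bc R Bm * -(A.t • bc R Um * bc R Bm) = 0 := by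
      rw [Matrix.mul_neg, Matrix.mul_assoc, ← Matrix.mul_assoc (bc R Bm), Matrix.mul_smul, h0, smul_zero,
        Matrix.zero_mul, Matrix.mul_zero, neg_zero]
    rw [h3, add_zero]
    abel
  rw [h1, Matrix.one_mulVec]

private theorem fvT_std (A : TR p m R) (hm : 3 ≤ m) (Um : Matrix n κ (ZMod p))
    (Bm : Matrix κ n (ZMod p)) (h : Bm * Um = 0) (U : Submodule (ZMod p) (n → ZMod p))
    (hB : ∀ y ∈ U, Bm.mulVec y = 0) (hU : ∀ x, Um.mulVec x ∈ U) :
    (A.std U).map (gm p (fvT A Um Bm)) = A.std U := by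
  apply le_antisymm
  · rintro _ ⟨v, hv, rfl⟩
    exact fvT_std_le A hm Um Bm U hB hU v hv
  · intro v hv
    refine ⟨(fvT A (-Um) Bm).mulVec v, fvT_std_le A hm (-Um) Bm U hB (fun x => ?_) v hv,
      fvT_inv A Um Bm h v⟩
    rw [Matrix.neg_mulVec]
    exact U.neg_mem (hU x)

/-! ### constant vectors, blocks -/

private theorem fv_const_iff (A : TR p m R) (x : R) :
    (∃ c : ZMod p, x = algebraMap (ZMod p) R c) ↔ ∀ a, 1 ≤ a → A.co a x = 0 := by
  constructor
  · rintro ⟨c, rfl⟩ a ha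
    rw [A.co_algebraMap, if_neg (by omega)]
  · intro h
    refine ⟨A.co 0 x, A.ext _ _ fun a => ?_⟩
    rw [A.co_algebraMap]
    split_ifs with ha
    · rw [ha]
    · exact h a (by omega)

/-- the key identity -/
private theorem fv_key (A : TR p m R) (q : Matrix κ ι R) (g₁ : Matrix ι ι R)
    (U : Submodule (ZMod p) (ι → ZMod p)) :
    (A.std (U.map (fvE (ZMod p) κ ι))).map (gm p (Matrix.fromBlocks 1 (q * g₁) 0 g₁)) =
      liftV q ((A.std U).map (gm p g₁)) := by
  have hmem : ∀ w : κ ⊕ ι → R, w ∈ A.std (U.map (fvE (ZMod p) κ ι)) ↔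
      (∀ i, ∃ c : ZMod p, w (Sum.inl i) = algebraMap (ZMod p) R c) ∧
        (fun i => w (Sum.inr i)) ∈ A.std U := by
    intro w
    rw [mem_std, mem_std]
    constructor
    · rintro ⟨⟨z, hz, hz2⟩, h2⟩
      have h3 : ∀ i : κ, A.co 1 (w (Sum.inl i)) = 0 := fun i =>
        (congrFun hz2 (Sum.inl i)).symm
      have h4 : A.vco 1 (fun i => w (Sum.inr i)) = z := by
        funext i
        exact (congrFun hz2 (Sum.inr i)).symm
      refine ⟨fun i => ?_, ?_, fun a ha => ?_⟩
      · rw [fv_const_iff A]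
        intro a ha
        rcases Nat.lt_or_ge a 2 with h5 | h5
        · have h6 : a = 1 := by omega
          rw [h6]
          exact h3 i
        · exact congrFun (h2 a h5) (Sum.inl i)
      · rw [h4]
        exact hz
      · funext i
        exact congrFun (h2 a ha) (Sum.inr i)
    · rintro ⟨h1, h2, h3⟩
      refine ⟨⟨A.vco 1 (fun i => w (Sum.inr i)), h2, ?_⟩, fun a ha => ?_⟩
      · funext i
        cases i with
        | inl i => exact ((fv_const_iff A _).1 (h1 i) 1 le_rfl).symm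
        | inr i => rfl
      · funext i
        cases i with
        | inl i => exact (fv_const_iff A _).1 (h1 i) a (by omega)
        | inr i => exact congrFun (h3 a ha) i
  have hblk : ∀ w : κ ⊕ ι → R, (Matrix.fromBlocks 1 (q * g₁) 0 g₁).mulVec w =
      Sum.elim ((fun i => w (Sum.inl i)) + q.mulVec (g₁.mulVec fun i => w (Sum.inr i)))
        (g₁.mulVec fun i => w (Sum.inr i)) := by
    intro w
    rw [Matrix.fromBlocks_mulVec, Matrix.one_mulVec, Matrix.zero_mulVec, zero_add,
      ← Matrix.mulVec_mulVec]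
    rfl
  ext v
  constructor
  · rintro ⟨w, hw, rfl⟩
    obtain ⟨h1, h2⟩ := (hmem w).1 hw
    change (Matrix.fromBlocks 1 (q * g₁) 0 g₁).mulVec w ∈ _
    rw [hblk]
    refine ⟨⟨_, h2, rfl⟩, fun i => ?_⟩
    simp only [Sum.elim_inl, Sum.elim_inr, Pi.add_apply]
    obtain ⟨c, hc⟩ := h1 i
    exact ⟨c, by rw [← hc]; ring⟩
  · rintro ⟨⟨w, hw, hw2⟩, h2⟩
    have hw3 : g₁.mulVec w = fun i => v (Sum.inr i) := hw2
    refine ⟨Sum.elim (fun i => v (Sum.inl i) - q.mulVec (fun j => v (Sum.inr j)) i) w, ?_, ?_⟩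
    · refine (hmem _).2 ⟨fun i => ?_, ?_⟩
      · simp only [Sum.elim_inl]
        exact h2 i
      · simp only [Sum.elim_inr]
        exact hw
    · change (Matrix.fromBlocks 1 (q * g₁) 0 g₁).mulVec _ = _
      rw [hblk]
      simp only [Sum.elim_inl, Sum.elim_inr]
      rw [hw3]
      funext i
      cases i with
      | inl i => simp
      | inr i => rfl

end ring

private theorem fv_gm {p : ℕ} [Fact p.Prime] {R : Type} [CommRing R] [Algebra (ZMod p) R]
    {α β : Type} [Fintype α] (M : Matrix β α R) (v : α → R) : gm p M v = M.mulVec v := rfl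

private theorem fv_chain_image {α β : Type*} [PartialOrder α] [PartialOrder β] {c : Finset α}
    (hc : IsChain (· ≤ ·) (c : Set α)) (f : α → β) (hf : Monotone f) :
    IsChain (· ≤ ·) ((c.image f : Finset β) : Set β) := by
  rw [Finset.coe_image]
  rintro _ ⟨x, hx, rfl⟩ _ ⟨y, hy, rfl⟩ _
  rcases hc.total hx hy with h | h
  · exact Or.inl (hf h)
  · exact Or.inr (hf h)

private theorem fv_min {α : Type*} [PartialOrder α] {c : Finset α}
    (hc : IsChain (· ≤ ·) (c : Set α)) (hne : c.Nonempty) :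
    (∃ L ∈ c, ∀ U ∈ c, L ≤ U) ∧ ∃ G ∈ c, ∀ U ∈ c, U ≤ G := by
  constructor
  · obtain ⟨L, hL⟩ := c.exists_minimal hne
    refine ⟨L, hL.1, fun U hU => ?_⟩
    rcases hc.total hL.1 hU with h | h
    · exact h
    · exact hL.2 hU h
  · obtain ⟨G, hG⟩ := c.exists_maximal hne
    refine ⟨G, hG.1, fun U hU => ?_⟩
    rcases hc.total hU hG.1 with h | h
    · exact h
    · exact hG.2 hU h

/-- block form of a matrix fixing `F^κ` -/
private theorem fv_block {p : ℕ} [Fact p.Prime] {R : Type} [CommRing R] [Algebra (ZMod p) R]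
    {κ ι : Type} [Fintype κ] [Fintype ι] [DecidableEq κ] [DecidableEq ι]
    (M : Matrix.SpecialLinearGroup (κ ⊕ ι) R)
    (hM : ∀ x : κ → ZMod p, M.1.mulVec (cst R (κ ⊕ ι) (fvA (ZMod p) κ ι x)) =
      cst R (κ ⊕ ι) (fvA (ZMod p) κ ι x)) :
    ∃ (g₁ : Matrix.SpecialLinearGroup ι R) (q : Matrix κ ι R),
      M.1 = Matrix.fromBlocks 1 (q * g₁.1) 0 g₁.1 := by
  have hcol : ∀ k : κ, M.1.col (Sum.inl k) = Pi.single (Sum.inl k) 1 := by
    intro k
    have h1 : cst R (κ ⊕ ι) (fvA (ZMod p) κ ι (Pi.single k 1)) = Pi.single (Sum.inl k) 1 := by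
      funext i
      cases i with
      | inl i =>
        change algebraMap (ZMod p) R ((Pi.single k 1 : κ → ZMod p) i) = _
        by_cases h : i = k
        · subst h; simp
        · have h' : (Sum.inl i : κ ⊕ ι) ≠ Sum.inl k := fun h0 => h (Sum.inl.inj h0)
          rw [Pi.single_eq_of_ne h, Pi.single_eq_of_ne h', map_zero]
      | inr i =>
        change algebraMap (ZMod p) R 0 = _
        rw [Pi.single_eq_of_ne (by simp), map_zero]
    have h2 := hM (Pi.single k 1)
    rw [h1, Matrix.mulVec_single_one] at h2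
    exact h2
  have h11 : M.1.toBlocks₁₁ = 1 := by
    ext i k
    have h1 := congrFun (hcol k) (Sum.inl i)
    change M.1 (Sum.inl i) (Sum.inl k) = _ at h1
    change M.1 (Sum.inl i) (Sum.inl k) = _
    rw [h1]
    by_cases h : i = k
    · subst h; simp
    · have h' : (Sum.inl i : κ ⊕ ι) ≠ Sum.inl k := fun h0 => h (Sum.inl.inj h0)
      rw [Pi.single_eq_of_ne h', Matrix.one_apply_ne h]
  have h21 : M.1.toBlocks₂₁ = 0 := by
    ext i k
    have h1 := congrFun (hcol k) (Sum.inr i)
    change M.1 (Sum.inr i) (Sum.inl k) = _ at h1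
    change M.1 (Sum.inr i) (Sum.inl k) = _
    rw [h1, Pi.single_eq_of_ne (by simp)]
    rfl
  have hMb : M.1 = Matrix.fromBlocks 1 M.1.toBlocks₁₂ 0 M.1.toBlocks₂₂ := by
    conv_lhs => rw [← Matrix.fromBlocks_toBlocks M.1, h11, h21]
  have hdet : (M.1.toBlocks₂₂).det = 1 := by
    have h1 := M.2
    rw [hMb, Matrix.det_fromBlocks_zero₂₁, Matrix.det_one, one_mul] at h1
    exact h1
  let g₁ : Matrix.SpecialLinearGroup ι R := ⟨M.1.toBlocks₂₂, hdet⟩
  refine ⟨g₁, M.1.toBlocks₁₂ * (g₁⁻¹).1, ?_⟩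
  have h1 : (g₁⁻¹).1 * g₁.1 = 1 := by
    have := congrArg Subtype.val (inv_mul_cancel g₁)
    rw [Matrix.SpecialLinearGroup.coe_mul] at this
    exact this
  rw [Matrix.mul_assoc, h1, Matrix.mul_one]
  exact hMb

theorem fibV {p m : ℕ} [Fact p.Prime] {R : Type} [CommRing R] [Algebra (ZMod p) R]
    (A : TR p m R) (hm : 3 ≤ m) (κ ι : Type) [Fintype κ] [Fintype ι] [DecidableEq κ]
    [DecidableEq ι] [Nonempty ι] (r : ℕ) :
    Fib p (A.XX ι r) (A.XV (κ ⊕ ι) r (VV R κ ι)) QSV
      (liftV : Matrix κ ι R → Submodule (ZMod p) (ι → R) → _) := by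
  refine ⟨isCx_XX A r, ?_, ?_⟩
  · intro q q' S S' _ _
    constructor
    · intro h
      have h1 : ∀ (q q' : Matrix κ ι R) (S S' : Submodule (ZMod p) (ι → R)),
          liftV q S = liftV q' S' → ∀ s ∈ S, s ∈ S' ∧
            ∀ i, ∃ c : ZMod p, (q - q').mulVec s i = algebraMap (ZMod p) R c := by
        intro q q' S S' h s hs
        have hv : Sum.elim (q.mulVec s) s ∈ liftV q S := ⟨hs, fun i => ⟨0, by simp⟩⟩
        rw [h] at hv
        obtain ⟨h2, h3⟩ := hv
        refine ⟨h2, fun i => ?_⟩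
        obtain ⟨c, hc⟩ := h3 i
        refine ⟨c, ?_⟩
        rw [Matrix.sub_mulVec]
        exact hc
      have hS : S = S' := le_antisymm (fun s hs => (h1 q q' S S' h s hs).1)
        (fun s hs => (h1 q' q S' S h.symm s hs).1)
      exact ⟨hS, fun v hv i => (h1 q q' S S' h v hv).2 i⟩
    · rintro ⟨rfl, hq⟩
      have key : ∀ q q' : Matrix κ ι R, q - q' ∈ QSV (p := p) S → ∀ v, v ∈ liftV q S →
          v ∈ liftV q' S := by
        rintro q q' hq v ⟨h1, h2⟩
        refine ⟨h1, fun i => ?_⟩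
        obtain ⟨c, hc⟩ := h2 i
        obtain ⟨c', hc'⟩ := hq _ h1 i
        refine ⟨c + c', ?_⟩
        rw [map_add, ← hc, ← hc', Matrix.sub_mulVec, Pi.sub_apply]
        ring
      refine le_antisymm (fun v hv => key q q' hq v hv) (fun v hv => key q' q ?_ v hv)
      have := (QSV (p := p) S).neg_mem hq
      rwa [neg_sub] at this
  · ext τ
    constructor
    · rintro ⟨⟨g, c, hc1, hc2, rfl⟩, hfull⟩
      by_cases hne : c.Nonempty
      swap
      · rw [Finset.not_nonempty_iff_eq_empty] at hne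
        subst hne
        exact ⟨0, ∅, (isCx_XX A r).1, by simp⟩
      obtain ⟨⟨L, hLc, hL⟩, ⟨G, hGc, hG⟩⟩ := fv_min hc1 hne
      have hVL := (hfull _ (Finset.mem_image_of_mem _ hLc)).1
      have hVG := (hfull _ (Finset.mem_image_of_mem _ hGc)).2
      have hLG : L ≤ G := hL G hGc
      -- the vectors of `V`
      have haV : ∀ x : κ → ZMod p, cst R (κ ⊕ ι) (fvA (ZMod p) κ ι x) ∈ VV (p := p) R κ ι := by
        intro x
        refine ⟨fun i => ⟨x i, rfl⟩, fun i => ?_⟩
        change algebraMap (ZMod p) R 0 = 0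
        rw [map_zero]
      obtain ⟨b, hb⟩ : ∃ b : (κ → ZMod p) →ₗ[ZMod p] (κ ⊕ ι → R),
          b = gm p (g⁻¹).1 ∘ₗ cst (p := p) R (κ ⊕ ι) ∘ₗ fvA (ZMod p) κ ι := ⟨_, rfl⟩
      have hbx : ∀ x, b x = gm p (g⁻¹).1 (cst R (κ ⊕ ι) (fvA (ZMod p) κ ι x)) := by
        intro x
        rw [hb]
        rfl
      have hbL : ∀ x, b x ∈ A.std L := by
        intro x
        rw [hbx, ← mem_map_gm]
        exact hVL (haV x)
      have hgb : ∀ x, gm p g.1 (b x) = cst R (κ ⊕ ι) (fvA (ZMod p) κ ι x) := by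
        intro x
        rw [hbx, ← gm_mul, ← Matrix.SpecialLinearGroup.coe_mul, mul_inv_cancel]
        change (1 : Matrix (κ ⊕ ι) (κ ⊕ ι) R).mulVec _ = _
        rw [Matrix.one_mulVec]
      obtain ⟨w, hw⟩ : ∃ w : (κ → ZMod p) →ₗ[ZMod p] (κ ⊕ ι → ZMod p), w = A.vco 0 ∘ₗ b := ⟨_, rfl⟩
      obtain ⟨u, hu⟩ : ∃ u : (κ → ZMod p) →ₗ[ZMod p] (κ ⊕ ι → ZMod p), u = A.vco 1 ∘ₗ b := ⟨_, rfl⟩
      have huL : ∀ x, u x ∈ L := by
        intro x
        rw [hu]
        exact ((mem_std A L _).1 (hbL x)).1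
      have hwG : ∀ x, w x ∈ G → x = 0 := by
        intro x hx
        have h1 : b x ∈ A.KK (A.std G) := by
          rw [mem_KK_std A hm]
          refine ⟨?_, hLG (by have := huL x; rwa [hu] at this), ((mem_std A L _).1 (hbL x)).2⟩
          rwa [hw] at hx
        have h2 : cst R (κ ⊕ ι) (fvA (ZMod p) κ ι x) ∈ VV (p := p) R κ ι ⊓ A.KK ((A.std G).map (gm p g.1)) := by
          refine ⟨haV x, ?_⟩
          rw [KK_map]
          exact ⟨b x, h1, hgb x⟩
        rw [hVG, Submodule.mem_bot] at h2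
        funext i
        have h3 : algebraMap (ZMod p) R (x i) = 0 := congrFun h2 (Sum.inl i)
        have h4 := A.co_algebraMap 0 (x i)
        rw [h3, map_zero, if_pos rfl] at h4
        exact h4.symm
      have hwinj : Function.Injective w := by
        rw [← LinearMap.ker_eq_bot, LinearMap.ker_eq_bot']
        intro x hx
        exact hwG x (by rw [hx]; exact G.zero_mem)
      obtain ⟨h, hh1, hh2⟩ := fv_complete w hwinj G hwG
      obtain ⟨Um, Bm, hBU, hBG, hBw, hUu⟩ := fv_nu w u G hwG (fun x => hLG (huL x))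
      let T : Matrix.SpecialLinearGroup (κ ⊕ ι) R := ⟨fvT A Um Bm, fvT_det A Um Bm hBU⟩
      let hR : Matrix.SpecialLinearGroup (κ ⊕ ι) R := h.map (algebraMap (ZMod p) R)
      let g' : Matrix.SpecialLinearGroup (κ ⊕ ι) R := g * (T * hR)
      have hfix : ∀ x : κ → ZMod p, g'.1.mulVec (cst R (κ ⊕ ι) (fvA (ZMod p) κ ι x)) =
          cst R (κ ⊕ ι) (fvA (ZMod p) κ ι x) := by
        intro x
        have e1 : hR.1.mulVec (cst R (κ ⊕ ι) (fvA (ZMod p) κ ι x)) = cst R (κ ⊕ ι) (w x) := by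
          rw [← hh1 x]
          exact fv_bc_cst h.1 _
        have e2 : T.1.mulVec (cst R (κ ⊕ ι) (w x)) = b x := by
          change (fvT A Um Bm).mulVec _ = _
          rw [fvT_apply, fv_bc_cst, fv_bc_cst, hBw, hUu]
          have h3 := A.eq_of_deg_one (by omega) (b x) ((mem_std A L _).1 (hbL x)).2
          rw [h3]
          rw [hw, hu]
          rfl
        have e3 : g'.1 = g.1 * (T.1 * hR.1) := by
          rw [← Matrix.SpecialLinearGroup.coe_mul, ← Matrix.SpecialLinearGroup.coe_mul]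
        rw [e3, ← Matrix.mulVec_mulVec, ← Matrix.mulVec_mulVec, e1, e2]
        exact hgb x
      obtain ⟨g₁, q, hgq⟩ := fv_block g' hfix
      -- the subspaces
      let f : (ι → ZMod p) →ₗ[ZMod p] (κ ⊕ ι → ZMod p) :=
        Matrix.mulVecLin h.1 ∘ₗ fvE (ZMod p) κ ι
      have hhinj : Function.Injective h.1.mulVec := by
        rw [Matrix.mulVec_injective_iff_isUnit, Matrix.isUnit_iff_isUnit_det, h.2]
        exact isUnit_one
      have hfinj : Function.Injective f := fun x y hxy => fvE_inj (hhinj hxy)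
      have hmapU : ∀ U ∈ c, ((U.comap f).map (fvE (ZMod p) κ ι)).map (Matrix.mulVecLin h.1) = U := by
        intro U hU
        rw [← Submodule.map_comp]
        apply le_antisymm
        · exact Submodule.map_comap_le _ _
        · intro y hy
          obtain ⟨z, hz⟩ := hh2 y (hG U hU hy)
          exact ⟨z, by change f z ∈ U; change h.1.mulVec _ ∈ U; rw [hz]; exact hy, hz⟩
      have hU : ∀ U ∈ c, (A.std U).map (gm p g.1) =
          liftV q ((A.std (U.comap f)).map (gm p g₁.1)) := by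
        intro U hU
        rw [← fv_key, ← hgq]
        have e3 : g'.1 = g.1 * (T.1 * hR.1) := by
          rw [← Matrix.SpecialLinearGroup.coe_mul, ← Matrix.SpecialLinearGroup.coe_mul]
        have e4 : (A.std ((U.comap f).map (fvE (ZMod p) κ ι))).map (gm p hR.1) = A.std U := by
          rw [std_map_const, hmapU U hU]
        have e5 : (A.std U).map (gm p T.1) = A.std U :=
          fvT_std A hm Um Bm hBU U (fun y hy => hBG y (hG U hU hy))
            (fun x => by rw [hUu]; exact hL U hU (huL x))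
        rw [e3, map_gm_mul, map_gm_mul, e4, e5]
      refine ⟨q, (c.image (fun U => U.comap f)).image (fun U => (A.std U).map (gm p g₁.1)),
        ⟨g₁, c.image (fun U => U.comap f), ?_, ?_, rfl⟩, ?_⟩
      · exact fv_chain_image hc1 _ fun U U' h => Submodule.comap_mono h
      · intro U' hU'
        rw [Finset.mem_image] at hU'
        obtain ⟨U, hUc, rfl⟩ := hU'
        refine le_trans ?_ (hc2 U hUc)
        rw [(Submodule.equivMapOfInjective f hfinj (U.comap f)).finrank_eq]
        exact Submodule.finrank_mono (Submodule.map_comap_le _ _)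
      · rw [Finset.image_image, Finset.image_image]
        exact Finset.image_congr fun U hUc => hU U hUc
    · rintro ⟨q, σ, ⟨g₁, c, hc1, hc2, rfl⟩, rfl⟩
      let g : Matrix.SpecialLinearGroup (κ ⊕ ι) R := ⟨Matrix.fromBlocks 1 (q * g₁.1) 0 g₁.1, by
        rw [Matrix.det_fromBlocks_zero₂₁, Matrix.det_one, one_mul]
        exact g₁.2⟩
      have hface : ∀ U, liftV q ((A.std U).map (gm p g₁.1)) =
          (A.std (U.map (fvE (ZMod p) κ ι))).map (gm p g.1) := fun U => (fv_key A q g₁.1 U).symm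
      refine ⟨⟨g, c.image (fun U => U.map (fvE (ZMod p) κ ι)), ?_, ?_, ?_⟩, ?_⟩
      · exact fv_chain_image hc1 _ fun U U' h => Submodule.map_mono h
      · intro U' hU'
        rw [Finset.mem_image] at hU'
        obtain ⟨U, hUc, rfl⟩ := hU'
        rw [← (Submodule.equivMapOfInjective (fvE (ZMod p) κ ι) fvE_inj U).finrank_eq]
        exact hc2 U hUc
      · rw [Finset.image_image, Finset.image_image]
        exact Finset.image_congr fun U hUc => hface U
      · intro S hS
        rw [Finset.image_image, Finset.mem_image] at hS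
        obtain ⟨U, hUc, rfl⟩ := hS
        simp only [Function.comp_apply]
        constructor
        · rintro v ⟨h1, h2⟩
          have h3 : (fun j => v (Sum.inr j)) = 0 := funext h2
          refine ⟨?_, fun i => ?_⟩
          · rw [h3]
            exact Submodule.zero_mem _
          · rw [h3, Matrix.mulVec_zero]
            simp only [Pi.zero_apply, sub_zero]
            exact h1 i
        · rw [hface, KK_map, eq_bot_iff]
          rintro v ⟨⟨h1, h2⟩, hv⟩
          obtain ⟨w, hw, hwv⟩ := hv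
          have h3 : (fun j => v (Sum.inr j)) = 0 := funext h2
          have h4 : gm p g.1 v = v := by
            change (Matrix.fromBlocks 1 (q * g₁.1) 0 g₁.1).mulVec v = v
            rw [Matrix.fromBlocks_mulVec]
            have h5 : v ∘ Sum.inr = 0 := h3
            rw [h5, Matrix.one_mulVec, Matrix.zero_mulVec, Matrix.mulVec_zero, Matrix.mulVec_zero,
              add_zero, add_zero]
            funext i
            cases i with
            | inl i => rfl
            | inr i => exact (h2 i).symm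
          have h5 : w = v := gm_injective g (hwv.trans h4.symm)
          rw [h5] at hw
          obtain ⟨⟨z, hz, hz2⟩, -⟩ := (mem_KK_std A hm _ v).1 hw
          rw [Submodule.mem_bot]
          funext i
          cases i with
          | inl i =>
            obtain ⟨c', hc'⟩ := h1 i
            have h6 : (0 : ZMod p) = A.co 0 (v (Sum.inl i)) := congrFun hz2 (Sum.inl i)
            rw [hc', A.co_algebraMap, if_pos rfl] at h6
            rw [hc', ← h6, map_zero]
            rfl
          | inr i => exact h2 i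

end P067X
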