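import Vale.Agent.P067X.PresF
import Vale.Agent.P067X.Avg

/-!
# P067, module RELF: relative acyclicity for the fibration over `X(ι)` with fibre `R^ι`

PROOF.  `Q = R^ι`, `QS S = S`.  For a face `σ` (a chain) the intersection is the smallest vertex, so `ZH` is `Full Z (λ(S) ≠ 0)`, `λ = η`.
MORSE with `a(S) = min {a : λ(t^a S) ≠ 0}` (exists, `≤ m - 1`, since `S` generates `R^ι`: it contains `g F^ι`), rank `0` if `a(S) = 0`, otherwise
`1 + a(S) (r+1) + ty S`.  For adjacent `S < S'`: `a(S') ≤ a(S) ≤ a(S') + 1` (`S' ≤ S + t ...`: `S' ≤ lev S 2 = S + t S`, from `lev_adj` with `e = 1`,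
so `t^b S' ≤ t^b S + t^(b+1) S`).  The present link of `S` with `a(S) = a ≥ 1` is
{lower `S'` with `a(S') = a`} ∪ {upper `S'` with `a(S') = a - 1`}, as in `presF`.
-/

namespace P067X

open Classical Module

section aux

variable {p m : ℕ} [Fact p.Prime] {R : Type} [CommRing R] [Algebra (ZMod p) R]
  {ι : Type} [Fintype ι]

/-- `η (t^a S) ≠ 0` -/
def relfP (A : TR p m R) (η : (ι → R) →ₗ[ZMod p] ZMod p)
    (S : Submodule (ZMod p) (ι → R)) (a : ℕ) : Prop :=
  ∃ v ∈ S, η ((A.tl ^ a) v) ≠ 0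

theorem relfP_mono (A : TR p m R) (η : (ι → R) →ₗ[ZMod p] ZMod p)
    {S S' : Submodule (ZMod p) (ι → R)} (h : S ≤ S') {a : ℕ} (ha : relfP A η S a) :
    relfP A η S' a := by
  obtain ⟨v, hv, hv'⟩ := ha
  exact ⟨v, h hv, hv'⟩

theorem relf_lev (A : TR p m R) (η : (ι → R) →ₗ[ZMod p] ZMod p)
    (S : Submodule (ZMod p) (ι → R)) (h : ∀ a, ¬ relfP A η S a) (e : ℕ) :
    ∀ b, ∀ v ∈ A.lev S e, η ((A.tl ^ b) v) = 0 := by
  induction e with
  | zero =>
    intro b v hv
    by_contra hne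
    exact h b ⟨v, hv.1, hne⟩
  | succ e ih =>
    intro b v hv
    obtain ⟨x, hx, y, hy, rfl⟩ := Submodule.mem_sup.1 hv
    obtain ⟨w, hw, rfl⟩ := Submodule.mem_map.1 hy
    rw [map_add, map_add]
    have h1 : η ((A.tl ^ b) x) = 0 := by
      by_contra hne
      exact h b ⟨x, hx, hne⟩
    have h2 : (A.tl ^ b) (A.tl w) = (A.tl ^ (b + 1)) w := by
      rw [pow_succ]
      rfl
    rw [h1, h2, ih (b + 1) w hw, add_zero]

theorem relf_step (A : TR p m R) (η : (ι → R) →ₗ[ZMod p] ZMod p)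
    {S S' : Submodule (ZMod p) (ι → R)} (h : S' ≤ A.lev S 2) {a : ℕ}
    (ha : ∀ b, b ≤ a + 1 → ¬ relfP A η S b) : ¬ relfP A η S' a := by
  rintro ⟨v, hv, hv'⟩
  have h1 : v ∈ S ⊔ (A.lev S 1).map A.tl := h hv
  have hl : A.lev S 1 = S := lev_one A S
  rw [hl] at h1
  obtain ⟨x, hx, y, hy, rfl⟩ := Submodule.mem_sup.1 h1
  obtain ⟨w, hw, rfl⟩ := Submodule.mem_map.1 hy
  apply hv'
  rw [map_add, map_add]
  have h2 : (A.tl ^ a) (A.tl w) = (A.tl ^ (a + 1)) w := by
    rw [pow_succ]
    rfl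
  rw [h2]
  have h3 : η ((A.tl ^ a) x) = 0 := by
    by_contra hne
    exact ha a (by omega) ⟨x, hx, hne⟩
  have h4 : η ((A.tl ^ (a + 1)) w) = 0 := by
    by_contra hne
    exact ha (a + 1) le_rfl ⟨w, hw, hne⟩
  rw [h3, h4, add_zero]

/-- the rank -/
noncomputable def relfRk (A : TR p m R) (r : ℕ) (η : (ι → R) →ₗ[ZMod p] ZMod p)
    (S : Submodule (ZMod p) (ι → R)) : ℕ :=
  if relfP A η S 0 then 0 else
    if h : ∃ a, relfP A η S a then 1 + Nat.find h * (r + 1) + ty S else 0

theorem relfRk_eq (A : TR p m R) (r : ℕ) (η : (ι → R) →ₗ[ZMod p] ZMod p)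
    (S : Submodule (ZMod p) (ι → R)) (a : ℕ) (h0 : relfP A η S a)
    (h1 : ∀ b < a, ¬ relfP A η S b) (ha : 1 ≤ a) :
    relfRk A r η S = 1 + a * (r + 1) + ty S := by
  unfold relfRk
  rw [if_neg (h1 0 (by omega)), dif_pos ⟨a, h0⟩]
  have : Nat.find (⟨a, h0⟩ : ∃ a, relfP A η S a) = a := by
    rw [Nat.find_eq_iff]
    exact ⟨h0, fun b hb => h1 b hb⟩
  rw [this]

theorem relfRk_zero (A : TR p m R) (r : ℕ) (η : (ι → R) →ₗ[ZMod p] ZMod p)
    (S : Submodule (ZMod p) (ι → R)) (h0 : relfP A η S 0) : relfRk A r η S = 0 := by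
  unfold relfRk
  rw [if_pos h0]

variable [DecidableEq ι]

theorem relf_exists (A : TR p m R) (hm : 3 ≤ m) (η : (ι → R) →ₗ[ZMod p] ZMod p) (hη : η ≠ 0)
    (r : ℕ) (S : Submodule (ZMod p) (ι → R)) (hS : {S} ∈ A.XX ι r) : ∃ a, relfP A η S a := by
  by_contra hcon
  push Not at hcon
  apply hη
  refine LinearMap.ext fun v => ?_
  obtain ⟨g, U, -, rfl⟩ := (mem_XX_single A r S).1 hS
  have h1 : A.lev ((A.std U).map (gm p g.1)) m = ⊤ := by
    rw [lev_map, lev_std_top A hm, eq_top_iff]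
    intro w _
    rw [mem_map_gm]
    trivial
  have h2 := relf_lev A η _ hcon m 0 v (by rw [h1]; trivial)
  simpa using h2

/-- the minimal exponent -/
theorem relf_min (A : TR p m R) (hm : 3 ≤ m) (η : (ι → R) →ₗ[ZMod p] ZMod p) (hη : η ≠ 0)
    (r : ℕ) (S : Submodule (ZMod p) (ι → R)) (hS : {S} ∈ A.XX ι r) :
    ∃ a, relfP A η S a ∧ ∀ b < a, ¬ relfP A η S b :=
  ⟨Nat.find (relf_exists A hm η hη r S hS), Nat.find_spec (relf_exists A hm η hη r S hS),
    fun _ hb => Nat.find_min _ hb⟩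

theorem relfRk_cases (A : TR p m R) (hm : 3 ≤ m) (η : (ι → R) →ₗ[ZMod p] ZMod p) (hη : η ≠ 0)
    (r : ℕ) (S : Submodule (ZMod p) (ι → R)) (hS : {S} ∈ A.XX ι r) :
    (relfP A η S 0 ∧ relfRk A r η S = 0) ∨ ∃ a, 1 ≤ a ∧ relfP A η S a ∧
      (∀ b < a, ¬ relfP A η S b) ∧ relfRk A r η S = 1 + a * (r + 1) + ty S := by
  obtain ⟨a, h0, h1⟩ := relf_min A hm η hη r S hS
  rcases Nat.eq_zero_or_pos a with ha | ha
  · subst ha
    exact Or.inl ⟨h0, relfRk_zero A r η S h0⟩
  · exact Or.inr ⟨a, ha, h0, h1, relfRk_eq A r η S a h0 h1 ha⟩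

theorem relf_lk (A : TR p m R) (hm : 3 ≤ m) (η : (ι → R) →ₗ[ZMod p] ZMod p) (hη : η ≠ 0)
    (r : ℕ) (S S' : Submodule (ZMod p) (ι → R)) {σ : Finset (Submodule (ZMod p) (ι → R))}
    (hσ : σ ∈ A.XX ι r) (hS : S ∈ σ) (hS' : S' ∈ σ) (hne : S' ≠ S) (a : ℕ) (ha : 1 ≤ a)
    (h0 : relfP A η S a) (h1 : ∀ b < a, ¬ relfP A η S b) :
    relfRk A r η S' < relfRk A r η S ↔
      ((S' < S ∧ ∃ v ∈ S', η ((A.tl ^ a) v) ≠ 0) ∨
        (S < S' ∧ ∃ v ∈ S', η ((A.tl ^ (a - 1)) v) ≠ 0)) := by
  have hcx := isCx_XX (ι := ι) A r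
  have hvS' : {S'} ∈ A.XX ι r := hcx.2 σ hσ _ (Finset.singleton_subset_iff.2 hS')
  have hrS := relfRk_eq A r η S a h0 h1 ha
  have htS := XX_ty_le A (by omega) r hσ hS
  have htS' := XX_ty_le A (by omega) r hσ hS'
  obtain ⟨a', h0', h1'⟩ := relf_min A hm η hη r S' hvS'
  have hch := XX_chain A (by omega) r hσ hS' hS hne
  rcases hch with hle | hle
  · -- `S' < S`
    have hlt : S' < S := lt_of_le_of_ne hle hne
    have hty := (XX_lt_iff A (by omega) r hσ hS' hS).1 hlt
    have haa : a ≤ a' := by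
      by_contra hcon
      exact h1 a' (by omega) (relfP_mono A η hle h0')
    have hr' := relfRk_eq A r η S' a' h0' h1' (by omega)
    rw [hrS, hr']
    constructor
    · intro h
      left
      refine ⟨hlt, ?_⟩
      have : a' = a := by
        by_contra hne'
        have h3 : a + 1 ≤ a' := by omega
        have h4 : (a + 1) * (r + 1) ≤ a' * (r + 1) := Nat.mul_le_mul_right _ h3
        have h5 : (a + 1) * (r + 1) = a * (r + 1) + (r + 1) := by ring
        omega
      rw [this] at h0'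
      exact h0'
    · rintro (⟨-, h⟩ | ⟨h, -⟩)
      · have : a' = a := by
          by_contra hne'
          exact h1' a (by omega) h
        rw [this]
        omega
      · exact absurd hlt (lt_asymm h)
  · -- `S < S'`
    have hlt : S < S' := lt_of_le_of_ne hle (Ne.symm hne)
    have hty := (XX_lt_iff A (by omega) r hσ hS hS').1 hlt
    have hlev := (lev_adj A hm r hσ hS hS' hle 1).2
    rw [lev_one] at hlev
    have haa : a' ≤ a := by
      by_contra hcon
      exact h1' a (by omega) (relfP_mono A η hle h0)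
    have haa' : a ≤ a' + 1 := by
      by_contra hcon
      exact relf_step A η hlev (a := a') (fun b hb => h1 b (by omega)) h0'
    constructor
    · intro h
      right
      refine ⟨hlt, ?_⟩
      have h3 : a' = a - 1 := by
        by_contra hne'
        have h4 : a' = a := by omega
        rw [hrS, relfRk_eq A r η S' a' h0' h1' (by omega), h4] at h
        omega
      rw [h3] at h0'
      exact h0'
    · rintro (⟨h, -⟩ | ⟨-, h⟩)
      · exact absurd hlt (lt_asymm h)
      · have h3 : a' = a - 1 := by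
          by_contra hne'
          exact h1' (a - 1) (by omega) h
        rcases Nat.eq_zero_or_pos a' with h4 | h4
        · rw [h4] at h0'
          rw [relfRk_zero A r η S' h0', hrS]
          omega
        · rw [hrS, relfRk_eq A r η S' a' h0' h1' h4]
          have h5 : a = a' + 1 := by omega
          rw [h5]
          have h6 : (a' + 1) * (r + 1) = a' * (r + 1) + (r + 1) := by ring
          omega

end aux

theorem relF (k : ℕ) : ∃ p₀ : ℕ, ∀ (p : ℕ) [Fact p.Prime], p₀ ≤ p → ∀ (m : ℕ), 3 ≤ m →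
    ∀ (R : Type) [CommRing R] [Algebra (ZMod p) R] (A : TR p m R)
      (ι : Type) [Fintype ι] [DecidableEq ι] (r : ℕ), 2 * k + 2 ≤ r →
      r + k + 2 ≤ Fintype.card ι →
      ∀ (η : (ι → R) →ₗ[ZMod p] ZMod p), η ≠ 0 →
        ∀ j ≤ k, RelAcyc (A.XX ι r) (ZH (A.XX ι r) (fun S => S) η) j := by
  obtain ⟨p₀, hp₀⟩ := presF k
  refine ⟨p₀, fun p _ hp m hm R _ _ A ι _ _ r hr hrι η hη j hj => ?_⟩
  have hcx := isCx_XX (ι := ι) A r
  have hZH : ZH (A.XX ι r) (fun S => S) η =
      Full (A.XX ι r) (fun S => relfRk A r η S = 0) := by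
    ext σ
    constructor
    · rintro ⟨hσ, q, hq, hηq⟩
      refine ⟨hσ, fun S hS => relfRk_zero A r η S ⟨q, hq S hS, ?_⟩⟩
      simpa using hηq
    · rintro ⟨hσ, hrk⟩
      refine ⟨hσ, ?_⟩
      rcases σ.eq_empty_or_nonempty with rfl | hne
      · have : ∃ q, η q ≠ 0 := by
          by_contra hcon
          push Not at hcon
          exact hη (LinearMap.ext hcon)
        obtain ⟨q, hq⟩ := this
        exact ⟨q, fun x hx => absurd hx (Finset.notMem_empty _), hq⟩
      · obtain ⟨S, hS, hmin⟩ := Finset.exists_min_image σ ty hne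
        have hvS : {S} ∈ A.XX ι r := hcx.2 σ hσ _ (Finset.singleton_subset_iff.2 hS)
        rcases relfRk_cases A hm η hη r S hvS with ⟨⟨v, hv, hv'⟩, -⟩ | ⟨a, ha, -, -, h⟩
        · refine ⟨v, fun S' hS' => ?_, by simpa using hv'⟩
          by_cases hSS : S = S'
          · exact hSS ▸ hv
          · rcases XX_chain A (by omega) r hσ hS hS' hSS with hle | hle
            · exact hle hv
            · exfalso
              have hlt : S' < S := lt_of_le_of_ne hle (Ne.symm hSS)
              have := (XX_lt_iff A (by omega) r hσ hS' hS).1 hlt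
              have := hmin S' hS'
              omega
        · have := hrk S hS
          omega
  rw [hZH]
  refine morse (A.XX ι r) hcx ?_ (relfRk A r η) ?_ j ?_
  · refine Set.Finite.preimage (f := fun S => ({S} : Finset (Submodule (ZMod p) (ι → R)))) ?_
      (XX_finite A r)
    exact Finset.singleton_injective.injOn
  · intro S S' hSS hne heq
    have hvS : {S} ∈ A.XX ι r := hcx.2 _ hSS _ (by simp)
    have hvS' : {S'} ∈ A.XX ι r := hcx.2 _ hSS _ (by simp)
    rcases relfRk_cases A hm η hη r S hvS with ⟨-, h⟩ | ⟨a, ha, -, -, h⟩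
    · exact h
    · rcases relfRk_cases A hm η hη r S' hvS' with ⟨-, h'⟩ | ⟨a', ha', -, -, h'⟩
      · rw [heq]; exact h'
      · exfalso
        have ht := XX_ty_le A (by omega) r hSS (S := S) (by simp)
        have ht' := XX_ty_le A (by omega) r hSS (S := S') (by simp)
        rw [h, h'] at heq
        have haa : a = a' := by
          rcases lt_trichotomy a a' with h3 | h3 | h3
          · have h4 : (a + 1) * (r + 1) ≤ a' * (r + 1) := Nat.mul_le_mul_right _ h3
            have h5 : (a + 1) * (r + 1) = a * (r + 1) + (r + 1) := by ring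
            omega
          · exact h3
          · have h4 : (a' + 1) * (r + 1) ≤ a * (r + 1) := Nat.mul_le_mul_right _ h3
            have h5 : (a' + 1) * (r + 1) = a' * (r + 1) + (r + 1) := by ring
            omega
        subst haa
        exact hne (XX_ty_inj A (by omega) r hSS (S := S) (S' := S') (by simp) (by simp)
          (by omega))
  · intro S hvS hpos
    rcases relfRk_cases A hm η hη r S hvS with ⟨-, h⟩ | ⟨a, ha, h0, h1, h⟩
    · omega
    · have hA := hp₀ p hp m hm R A ι r hr hrι S η a hvS ha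
        (fun b hb v hv => by
          by_contra hne
          exact h1 b hb ⟨v, hv, hne⟩) h0 (j - 1) (by omega)
      have heq : Full (Lk (A.XX ι r) {S}) (fun S' => relfRk A r η S' < relfRk A r η S) =
          Full (Lk (A.XX ι r) {S}) (fun S' => (S' < S ∧ ∃ v ∈ S', η ((A.tl ^ a) v) ≠ 0) ∨
            (S < S' ∧ ∃ v ∈ S', η ((A.tl ^ (a - 1)) v) ≠ 0)) := by
        ext τ
        refine and_congr_right fun hτ => forall₂_congr fun S' hS' => ?_
        refine relf_lk A hm η hη r S S' hτ.2 (by simp) (by simp [hS']) ?_ a ha h0 h1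
        rintro rfl
        exact Finset.disjoint_singleton_left.1 hτ.1 hS'
      rw [heq]
      exact hA

end P067X
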