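import Vale.Agent.P067X.Coef

/-!
# P067, module PAIRING: linear functionals on matrices over `R`

PROOF.  Every functional on `R` is of the form `x ↦ co (m-1) (x * y)`: take `co a y = θ (t^(m-1-a))`.
-/

namespace P067X

open Classical Module

section
variable {p m : ℕ} [Fact p.Prime] {R : Type} [CommRing R] [Algebra (ZMod p) R]

theorem pairing_co_tpow_mul (A : TR p m R) (b a : ℕ) (y : R) (h : b + a < m) :
    A.co (b + a) (A.t ^ b * y) = A.co a y := by
  induction b generalizing a with
  | zero => simp
  | succ b ih =>
    rw [pow_succ', mul_assoc, show b + 1 + a = (b + a) + 1 by ring, A.co_t, if_pos (by omega)]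
    exact ih a (by omega)

theorem pairing_co_tpow_mul_lt (A : TR p m R) (b a : ℕ) (y : R) (h : a < b) :
    A.co a (A.t ^ b * y) = 0 := by
  induction b generalizing a with
  | zero => omega
  | succ b ih =>
    rw [pow_succ', mul_assoc]
    rcases a with _ | a
    · exact A.co_t_zero _
    · rw [A.co_t]
      split_ifs
      · exact ih a (by omega)
      · rfl

theorem pairing_expand (A : TR p m R) (x : R) :
    x = ∑ b ∈ Finset.range m, A.co b x • A.t ^ b := by
  refine A.ext _ _ fun a => ?_
  rw [map_sum]
  simp only [map_smul, smul_eq_mul]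
  by_cases ha : a < m
  · rw [Finset.sum_eq_single a]
    · have := pairing_co_tpow_mul A a 0 1 (by omega)
      rw [mul_one, add_zero, A.co_one, if_pos rfl] at this
      rw [this, mul_one]
    · intro b _ hb
      rcases lt_or_gt_of_ne hb with h | h
      · have := pairing_co_tpow_mul A b (a - b) 1 (by omega)
        rw [mul_one, show b + (a - b) = a by omega, A.co_one, if_neg (by omega)] at this
        rw [this, mul_zero]
      · have := pairing_co_tpow_mul_lt A b a 1 h
        rw [mul_one] at this
        rw [this, mul_zero]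
    · intro h
      exact absurd (Finset.mem_range.2 ha) h
  · rw [A.co_ge a x (by omega)]
    symm
    refine Finset.sum_eq_zero fun b _ => ?_
    rw [A.co_ge a _ (by omega), mul_zero]

theorem pairing_single (A : TR p m R) (θ : R →ₗ[ZMod p] ZMod p) :
    ∃ y : R, ∀ x, θ x = A.co (m - 1) (x * y) := by
  obtain ⟨y, hy⟩ := A.surj fun a => θ (A.t ^ (m - 1 - a))
  refine ⟨y, fun x => ?_⟩
  conv_lhs => rw [pairing_expand A x]
  conv_rhs => rw [pairing_expand A x]
  rw [map_sum, Finset.sum_mul, map_sum]
  refine Finset.sum_congr rfl fun b hb => ?_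
  have hb' := Finset.mem_range.1 hb
  rw [map_smul, smul_mul_assoc, map_smul]
  congr 1
  have := pairing_co_tpow_mul A b (m - 1 - b) y (by omega)
  rw [show b + (m - 1 - b) = m - 1 by omega, hy _ (by omega)] at this
  rw [this]
  congr 2
  omega

end

theorem pairing {p m : ℕ} [Fact p.Prime] {R : Type} [CommRing R] [Algebra (ZMod p) R]
    (A : TR p m R) (κ ι : Type) [Fintype κ] [Fintype ι]
    (η : Matrix κ ι R →ₗ[ZMod p] ZMod p) :
    ∃ g : κ → ι → R, ∀ q : Matrix κ ι R, η q = ∑ i, A.co (m - 1) (∑ j, q i j * g i j) := by
  let e : κ → ι → R →ₗ[ZMod p] Matrix κ ι R := fun i j =>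
    { toFun := fun x => Matrix.of fun i' j' => if i = i' ∧ j = j' then x else 0
      map_add' := by
        intro x y; ext i' j'
        by_cases h : i = i' ∧ j = j' <;> simp [h]
      map_smul' := by
        intro c x; ext i' j'
        by_cases h : i = i' ∧ j = j' <;> simp [h] }
  choose g hg using fun i j => pairing_single A (η ∘ₗ e i j)
  refine ⟨g, fun q => ?_⟩
  have hq : q = ∑ i, ∑ j, e i j (q i j) := by
    ext i' j'
    rw [Matrix.sum_apply, Finset.sum_eq_single i']
    · rw [Matrix.sum_apply, Finset.sum_eq_single j']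
      · simp [e]
      · intro b _ hb
        simp [e, hb]
      · intro h; exact absurd (Finset.mem_univ _) h
    · intro b _ hb
      rw [Matrix.sum_apply]
      refine Finset.sum_eq_zero fun c _ => ?_
      simp [e, hb]
    · intro h; exact absurd (Finset.mem_univ _) h
  conv_lhs => rw [hq]
  rw [map_sum]
  refine Finset.sum_congr rfl fun i _ => ?_
  rw [map_sum, map_sum]
  exact Finset.sum_congr rfl fun j _ => hg i j (q i j)

end P067X
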