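import Vale.Agent.P067X.PresV
import Vale.Agent.P067X.Pairing
import Vale.Agent.P067X.Avg

/-!
# P067, module RELV: relative acyclicity for the fibration over `X(ι)` with fibre `Hom(R^ι, R^κ)`

PROOF.  PAIRING: every linear functional `η` on `Matrix κ ι R` is `q ↦ ∑ i, co (m-1) (∑ j, q i j * g i j)` for some `g : κ → ι → R` (the map
`g ↦ η_g` is injective: `η_g (t^a E_ij)` are the coefficients of `g i j`; dimensions agree).  `W₀` = span of the `g i`; `W₀ ≠ ⊥`.
For a vertex `S` of `XX`: (`∃ q ∈ QSV S, η q ≠ 0`) iff `¬ W₀ ≤ lev S (m-1)`: for `S = std U` the rows of `q ∈ QSV S` are the constant functionals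
vanishing on `U`, and `co (m-1) (φ (g i)) = φ (vco (m-1) (g i))`, `mem_lev_std` (for `lev (std U) (m-1)` the condition is
`vco (m-1) v ∈ U`); general `S` by `SL`.
`ZH` is `Full Z (¬ W₀ ≤ lev S (m-1))`: a face is a chain, and `QSV` of its largest vertex is the intersection.
MORSE with `h(S) = min {e : W₀ ≤ lev S e}` (`≤ m`), rank `0` if `h(S) = m`, otherwise `1 + (m - h(S)) (r+1) + (r - ty S)`:
for adjacent `S < S'`, `h(S') ≤ h(S) ≤ h(S') + 1` (`lev_adj`), so the present link of `S` with `h(S) = e ≤ m - 1` is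
{lower `S'` with `h(S') = e + 1`} ∪ {upper `S'` with `h(S') = e`}, as in `presV`.
-/

namespace P067X

open Classical Module

section rv

variable {p m : ℕ} [Fact p.Prime] {R : Type} [CommRing R] [Algebra (ZMod p) R]
  {κ ι : Type} [Fintype κ] [Fintype ι] [DecidableEq ι]

/-- vector coefficients of a row of constants -/
private theorem rv_co_row {ι : Type} [Fintype ι] (A : TR p m R) (c : ι → ZMod p) (v : ι → R) (a : ℕ) :
    A.co a (∑ j, algebraMap (ZMod p) R (c j) * v j) = ∑ j, c j * A.vco a v j := by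
  rw [map_sum]
  refine Finset.sum_congr rfl fun j _ => ?_
  rw [A.co_smul_const]
  rfl

/-- a row which maps `std U` to the constants is constant and kills `U` -/
private theorem rv_row (A : TR p m R) (hm : 3 ≤ m) (U : Submodule (ZMod p) (ι → ZMod p))
    (φ : ι → R)
    (h : ∀ v ∈ A.std U, ∃ c : ZMod p, ∑ j, φ j * v j = algebraMap (ZMod p) R c) :
    ∃ c : ι → ZMod p, (∀ j, φ j = algebraMap (ZMod p) R (c j)) ∧ ∀ u ∈ U, ∑ j, c j * u j = 0 := by
  have hc : ∀ j, ∃ c : ZMod p, φ j = algebraMap (ZMod p) R c := by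
    intro j
    obtain ⟨c, hc⟩ := h (cst R ι (Pi.single j 1)) (by
      rw [mem_std]
      refine ⟨?_, fun a ha => ?_⟩
      · rw [A.vco_cst, if_neg one_ne_zero]
        exact U.zero_mem
      · rw [A.vco_cst, if_neg (by omega)])
    refine ⟨c, ?_⟩
    rw [← hc, Finset.sum_eq_single j]
    · simp [cst]
    · intro b _ hb
      simp [cst, Pi.single_eq_of_ne hb]
    · intro hj
      exact absurd (Finset.mem_univ j) hj
  choose c hc using hc
  refine ⟨c, hc, fun u hu => ?_⟩
  obtain ⟨b, hb⟩ := h (A.tl (cst R ι u)) (by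
    rw [mem_std]
    refine ⟨?_, fun a ha => ?_⟩
    · have := A.vco_tl 0 (cst R ι u)
      rw [zero_add] at this
      rw [this, if_pos (by omega), A.vco_cst, if_pos rfl]
      exact hu
    · obtain ⟨a, rfl⟩ : ∃ a', a = a' + 1 := ⟨a - 1, by omega⟩
      rw [A.vco_tl, A.vco_cst, if_neg (by omega : ¬ a = 0)]
      split_ifs <;> rfl)
  have h1 : A.co 1 (∑ j, φ j * A.tl (cst R ι u) j) = 0 := by
    rw [hb, A.co_algebraMap, if_neg one_ne_zero]
  have h2 : ∑ j, φ j * A.tl (cst R ι u) j =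
      ∑ j, algebraMap (ZMod p) R (c j) * A.tl (cst R ι u) j :=
    Finset.sum_congr rfl fun j _ => by rw [hc j]
  rw [h2, rv_co_row] at h1
  rw [← h1]
  refine Finset.sum_congr rfl fun j _ => ?_
  have := A.vco_tl 0 (cst R ι u)
  rw [zero_add] at this
  rw [this, if_pos (by omega), A.vco_cst, if_pos rfl]

/-- the condition on the standard vertices -/
private theorem rv_std (A : TR p m R) (hm : 3 ≤ m) (U : Submodule (ZMod p) (ι → ZMod p))
    (g : κ → ι → R) :
    (∃ q ∈ (QSV (A.std U) : Submodule (ZMod p) (Matrix κ ι R)),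
      ∑ i, A.co (m - 1) (∑ j, q i j * g i j) ≠ 0) ↔
      ∃ i, g i ∉ A.lev (A.std U) (m - 1) := by
  have hmem : ∀ v : ι → R, v ∈ A.lev (A.std U) (m - 1) ↔ A.vco (m - 1) v ∈ U := by
    intro v
    rw [mem_lev_std A hm]
    exact ⟨fun h => h.1, fun h => ⟨h, fun a ha => A.vco_ge a v (by omega)⟩⟩
  constructor
  · rintro ⟨q, hq, hne⟩
    by_contra hcon
    push Not at hcon
    apply hne
    refine Finset.sum_eq_zero fun i _ => ?_
    obtain ⟨c, hc, hcU⟩ := rv_row A hm U (q i) (fun v hv => hq v hv i)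
    have h2 : ∑ j, q i j * g i j = ∑ j, algebraMap (ZMod p) R (c j) * g i j :=
      Finset.sum_congr rfl fun j _ => by rw [hc j]
    rw [h2, rv_co_row]
    exact hcU _ ((hmem _).1 (hcon i))
  · rintro ⟨i₀, hi₀⟩
    rw [hmem] at hi₀
    -- a functional vanishing on `U`
    obtain ⟨f, hf, hfU⟩ := Submodule.exists_le_ker_of_notMem hi₀
    obtain ⟨c, hc⟩ : ∃ c : ι → ZMod p, ∀ x, f x = ∑ j, c j * x j := by
      refine ⟨fun j => f (Pi.single j 1), fun x => ?_⟩
      conv_lhs => rw [← Finset.univ_sum_single x]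
      rw [map_sum]
      refine Finset.sum_congr rfl fun j _ => ?_
      have : (Pi.single j (x j) : ι → ZMod p) = x j • Pi.single j 1 := by
        rw [← Pi.single_smul, smul_eq_mul, mul_one]
      rw [this, map_smul, smul_eq_mul, mul_comm]
    let q : Matrix κ ι R := fun i j => if i = i₀ then algebraMap (ZMod p) R (c j) else 0
    have hq0 : ∀ v : ι → R, ∑ j, q i₀ j * v j = ∑ j, algebraMap (ZMod p) R (c j) * v j := by
      intro v
      refine Finset.sum_congr rfl fun j _ => ?_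
      simp [q]
    refine ⟨q, ?_, ?_⟩
    · intro v hv i
      by_cases hi : i = i₀
      · subst hi
        refine ⟨∑ j, c j * A.vco 0 v j, ?_⟩
        have h1 : q.mulVec v i = ∑ j, algebraMap (ZMod p) R (c j) * v j := hq0 v
        rw [h1]
        rw [mem_std] at hv
        refine A.ext _ _ fun a => ?_
        rw [rv_co_row, A.co_algebraMap]
        by_cases ha : a = 0
        · rw [if_pos ha, ha]
        · rw [if_neg ha]
          by_cases ha1 : a = 1
          · rw [ha1, ← hc]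
            exact LinearMap.mem_ker.1 (hfU hv.1)
          · rw [hv.2 a (by omega)]
            simp
      · refine ⟨0, ?_⟩
        have h1 : q.mulVec v i = ∑ j, q i j * v j := rfl
        rw [h1, map_zero]
        refine Finset.sum_eq_zero fun j _ => ?_
        simp [q, hi]
    · rw [Finset.sum_eq_single i₀]
      · rw [hq0, rv_co_row, ← hc]
        exact hf
      · intro b _ hb
        have : ∑ j, q b j * g b j = 0 := by
          refine Finset.sum_eq_zero fun j _ => ?_
          simp [q, hb]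
        rw [this, map_zero]
      · intro h
        exact absurd (Finset.mem_univ i₀) h

/-- the condition on a vertex -/
private theorem rv_vert (A : TR p m R) (hm : 3 ≤ m) (U : Submodule (ZMod p) (ι → ZMod p))
    (γ : Matrix.SpecialLinearGroup ι R) (g : κ → ι → R) :
    (∃ q ∈ (QSV ((A.std U).map (gm p γ.1)) : Submodule (ZMod p) (Matrix κ ι R)),
      ∑ i, A.co (m - 1) (∑ j, q i j * g i j) ≠ 0) ↔
      ¬ Submodule.span (ZMod p) (Set.range g) ≤ A.lev ((A.std U).map (gm p γ.1)) (m - 1) := by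
  have h1 : ¬ Submodule.span (ZMod p) (Set.range g) ≤
      A.lev ((A.std U).map (gm p γ.1)) (m - 1) ↔
      ∃ i, gm p (γ⁻¹).1 (g i) ∉ A.lev (A.std U) (m - 1) := by
    rw [Submodule.span_le, lev_map, Set.range_subset_iff]
    push Not
    refine exists_congr fun i => ?_
    rw [SetLike.mem_coe, mem_map_gm]
  rw [h1, ← rv_std A hm U (fun i => gm p (γ⁻¹).1 (g i))]
  have hinv : γ.1 * (γ⁻¹).1 = 1 := by
    rw [← Matrix.SpecialLinearGroup.coe_mul, mul_inv_cancel]
    rfl
  have hinv' : (γ⁻¹).1 * γ.1 = 1 := by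
    rw [← Matrix.SpecialLinearGroup.coe_mul, inv_mul_cancel]
    rfl
  constructor
  · rintro ⟨q, hq, hne⟩
    refine ⟨q * γ.1, ?_, ?_⟩
    · intro v hv i
      obtain ⟨c, hc⟩ := hq (gm p γ.1 v) ⟨v, hv, rfl⟩ i
      refine ⟨c, ?_⟩
      rw [← hc, ← Matrix.mulVec_mulVec]
      rfl
    · intro h0
      apply hne
      rw [← h0]
      refine Finset.sum_congr rfl fun i _ => ?_
      congr 1
      have e1 : ∑ j, q i j * g i j = q.mulVec (g i) i := rfl
      have e2 : ∑ j, (q * γ.1) i j * gm p (γ⁻¹).1 (g i) j =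
          (q * γ.1).mulVec ((γ⁻¹).1.mulVec (g i)) i := rfl
      rw [e1, e2, Matrix.mulVec_mulVec, Matrix.mul_assoc, hinv, Matrix.mul_one]
  · rintro ⟨q, hq, hne⟩
    refine ⟨q * (γ⁻¹).1, ?_, ?_⟩
    · rintro _ ⟨v, hv, rfl⟩ i
      obtain ⟨c, hc⟩ := hq v hv i
      refine ⟨c, ?_⟩
      rw [← hc]
      have e1 : gm p γ.1 v = γ.1.mulVec v := rfl
      rw [e1, Matrix.mulVec_mulVec, Matrix.mul_assoc, hinv', Matrix.mul_one]
    · intro h0
      apply hne
      rw [← h0]
      refine Finset.sum_congr rfl fun i _ => ?_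
      congr 1
      have e1 : ∑ j, q i j * gm p (γ⁻¹).1 (g i) j = q.mulVec ((γ⁻¹).1.mulVec (g i)) i := rfl
      have e2 : ∑ j, (q * (γ⁻¹).1) i j * g i j = (q * (γ⁻¹).1).mulVec (g i) i := rfl
      rw [e1, e2, Matrix.mulVec_mulVec]

/-- the height -/
private noncomputable def hh (A : TR p m R) (W₀ S : Submodule (ZMod p) (ι → R)) : ℕ :=
  sInf {e | W₀ ≤ A.lev S e}

private theorem rv_le_iff (A : TR p m R) {W₀ S : Submodule (ZMod p) (ι → R)}
    (h : W₀ ≤ A.lev S m) (e : ℕ) : W₀ ≤ A.lev S e ↔ hh A W₀ S ≤ e := by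
  constructor
  · intro h1
    exact Nat.sInf_le h1
  · intro h1
    have h2 : W₀ ≤ A.lev S (hh A W₀ S) := Nat.sInf_mem (s := {e | W₀ ≤ A.lev S e}) ⟨m, h⟩
    exact h2.trans (lev_mono A S h1)

/-- the rank -/
private noncomputable def rk (A : TR p m R) (r : ℕ) (W₀ S : Submodule (ZMod p) (ι → R)) : ℕ :=
  if m ≤ hh A W₀ S then 0 else 1 + ((m - hh A W₀ S) * (r + 1) + (r - ty S))

private theorem rv_lev_top (A : TR p m R) (hm : 3 ≤ m) (r : ℕ)
    {S : Submodule (ZMod p) (ι → R)} (hS : {S} ∈ A.XX ι r) (W₀ : Submodule (ZMod p) (ι → R)) :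
    W₀ ≤ A.lev S m := by
  obtain ⟨g, U, _, rfl⟩ := (mem_XX_single A r S).1 hS
  rw [lev_map, lev_std_top A hm]
  intro v _
  rw [mem_map_gm]
  trivial

/-- comparison of the ranks of adjacent vertices `S < S'` -/
private theorem rv_cmp {m r h h' y y' : ℕ} (h1 : h' ≤ h) (h2 : h ≤ h' + 1) (hy : y < y')
    (hyr : y' ≤ r) :
    ((if m ≤ h' then 0 else 1 + ((m - h') * (r + 1) + (r - y'))) <
      (if m ≤ h then 0 else 1 + ((m - h) * (r + 1) + (r - y))) ↔ (h < m ∧ h' = h)) ∧
    ((if m ≤ h then 0 else 1 + ((m - h) * (r + 1) + (r - y))) <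
      (if m ≤ h' then 0 else 1 + ((m - h') * (r + 1) + (r - y'))) ↔ (h' < m ∧ h = h' + 1)) := by
  rcases Nat.lt_or_ge h' h with h3 | h3
  · obtain rfl : h = h' + 1 := by omega
    rcases Nat.lt_or_ge h' m with h4 | h4
    · have e1 : ¬ m ≤ h' := by omega
      rw [if_neg e1]
      by_cases h5 : m ≤ h' + 1
      · rw [if_pos h5]
        omega
      · rw [if_neg h5]
        have e2 : m - h' = (m - (h' + 1)) + 1 := by omega
        rw [e2, add_mul]
        generalize (m - (h' + 1)) * (r + 1) = Q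
        omega
    · have e1 : m ≤ h' + 1 := by omega
      rw [if_pos h4, if_pos e1]
      omega
  · obtain rfl : h' = h := by omega
    by_cases h5 : m ≤ h'
    · rw [if_pos h5, if_pos h5]
      omega
    · rw [if_neg h5, if_neg h5]
      generalize (m - h') * (r + 1) = Q
      omega

/-- adjacent vertices -/
private theorem rv_adj (A : TR p m R) (hm : 3 ≤ m) (r : ℕ) (W₀ : Submodule (ZMod p) (ι → R))
    {σ : Finset (Submodule (ZMod p) (ι → R))} (hσ : σ ∈ A.XX ι r)
    {S S' : Submodule (ZMod p) (ι → R)} (hS : S ∈ σ) (hS' : S' ∈ σ) (h : S < S') :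
    hh A W₀ S' ≤ hh A W₀ S ∧ hh A W₀ S ≤ hh A W₀ S' + 1 ∧ ty S < ty S' ∧ ty S' ≤ r := by
  have h1 : {S} ∈ A.XX ι r := (isCx_XX A r).2 σ hσ _ (Finset.singleton_subset_iff.2 hS)
  have h2 : {S'} ∈ A.XX ι r := (isCx_XX A r).2 σ hσ _ (Finset.singleton_subset_iff.2 hS')
  have t1 := rv_lev_top A hm r h1 W₀
  have t2 := rv_lev_top A hm r h2 W₀
  refine ⟨?_, ?_, ?_, ?_⟩
  · rw [← rv_le_iff A t2]
    exact ((rv_le_iff A t1 _).2 le_rfl).trans (lev_adj A hm r hσ hS hS' h.le _).1
  · rw [← rv_le_iff A t1]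
    exact ((rv_le_iff A t2 _).2 le_rfl).trans (lev_adj A hm r hσ hS hS' h.le _).2
  · exact (XX_lt_iff A (by omega) r hσ hS hS').1 h
  · exact XX_ty_le A (by omega) r hσ hS'

end rv

theorem relV (k : ℕ) : ∃ p₀ : ℕ, ∀ (p : ℕ) [Fact p.Prime], p₀ ≤ p → ∀ (m : ℕ), 3 ≤ m →
    ∀ (R : Type) [CommRing R] [Algebra (ZMod p) R] (A : TR p m R)
      (κ ι : Type) [Fintype κ] [Fintype ι] [DecidableEq ι] (r : ℕ), 2 * k + 2 ≤ r →
      r + k + 2 ≤ Fintype.card ι →
      ∀ (η : Matrix κ ι R →ₗ[ZMod p] ZMod p), η ≠ 0 →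
        ∀ j ≤ k, RelAcyc (A.XX ι r) (ZH (A.XX ι r) QSV η) j := by
  obtain ⟨p₀, hp₀⟩ := presV k
  refine ⟨p₀, fun p _ hp m hm R _ _ A κ ι _ _ _ r hr hr' η hη j hj => ?_⟩
  obtain ⟨g, hg⟩ := pairing A κ ι η
  obtain ⟨W₀, hWdef⟩ : ∃ W₀, W₀ = Submodule.span (ZMod p) (Set.range g) := ⟨_, rfl⟩
  have hW₀ : W₀ ≠ ⊥ := by
    intro h0
    apply hη
    apply LinearMap.ext
    intro q
    rw [hg, LinearMap.zero_apply]
    refine Finset.sum_eq_zero fun i _ => ?_
    have h1 : g i ∈ W₀ := by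
      rw [hWdef]
      exact Submodule.subset_span ⟨i, rfl⟩
    rw [h0, Submodule.mem_bot] at h1
    have h2 : ∑ j, q i j * g i j = 0 := by
      refine Finset.sum_eq_zero fun j _ => ?_
      rw [h1, Pi.zero_apply, mul_zero]
    rw [h2, map_zero]
  have hcx := isCx_XX (ι := ι) A r
  have hsing : ∀ σ ∈ A.XX ι r, ∀ S ∈ σ, {S} ∈ A.XX ι r := fun σ hσ S hS =>
    hcx.2 σ hσ _ (Finset.singleton_subset_iff.2 hS)
  have hvert : ∀ S, {S} ∈ A.XX ι r →
      ((∃ q ∈ (QSV S : Submodule (ZMod p) (Matrix κ ι R)), η q ≠ 0) ↔ rk A r W₀ S = 0) := by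
    intro S hS
    have t1 := rv_lev_top A hm r hS W₀
    have h2 : rk A r W₀ S = 0 ↔ ¬ W₀ ≤ A.lev S (m - 1) := by
      rw [rv_le_iff A t1]
      unfold rk
      split_ifs with h3
      · exact ⟨fun _ => by omega, fun _ => rfl⟩
      · exact ⟨fun h4 => by omega, fun h4 => by omega⟩
    rw [h2]
    obtain ⟨γ, U, _, rfl⟩ := (mem_XX_single A r S).1 hS
    rw [hWdef, ← rv_vert A hm U γ g]
    refine exists_congr fun q => and_congr_right fun _ => ?_
    rw [hg]
  have hZH : ZH (A.XX ι r) QSV η = Full (A.XX ι r) (fun x => rk A r W₀ x = 0) := by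
    ext σ
    constructor
    · rintro ⟨hσ, q, hq, hne⟩
      exact ⟨hσ, fun x hx => (hvert x (hsing σ hσ x hx)).1 ⟨q, hq x hx, hne⟩⟩
    · rintro ⟨hσ, hrk⟩
      refine ⟨hσ, ?_⟩
      rcases σ.eq_empty_or_nonempty with h0 | h0
      · subst h0
        by_contra hcon
        push Not at hcon
        apply hη
        apply LinearMap.ext
        intro q
        rw [LinearMap.zero_apply]
        exact hcon q (fun x hx => absurd hx (Finset.notMem_empty x))
      · obtain ⟨S, hS, hmax⟩ := σ.exists_maximal h0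
        have hch := XX_chain A (by omega) r hσ
        have hle : ∀ x ∈ σ, x ≤ S := by
          intro x hx
          rcases hch.total hx hS with h1 | h1
          · exact h1
          · exact hmax hx h1
        obtain ⟨q, hq, hne⟩ := (hvert S (hsing σ hσ S hS)).2 (hrk S hS)
        exact ⟨q, fun x hx v hv => hq v (hle x hx hv), hne⟩
  rw [hZH]
  refine morse (A.XX ι r) hcx ?_ (rk A r W₀) ?_ j ?_
  · exact (XX_finite A r).preimage (Finset.singleton_injective.injOn)
  · intro x y hxy hne heq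
    have hx : x ∈ ({x, y} : Finset (Submodule (ZMod p) (ι → R))) := by simp
    have hy : y ∈ ({x, y} : Finset (Submodule (ZMod p) (ι → R))) := by simp
    have hch := XX_chain A (by omega) r hxy
    rcases hch.total hx hy with h1 | h1
    · obtain ⟨a1, a2, a3, a4⟩ := rv_adj A hm r W₀ hxy hx hy (lt_of_le_of_ne h1 hne)
      obtain ⟨c1, c2⟩ := rv_cmp (m := m) a1 a2 a3 a4
      unfold rk at heq ⊢
      by_contra hcon
      have h5 : ¬ m ≤ hh A W₀ x := by
        intro h6
        rw [if_pos h6] at hcon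
        exact hcon rfl
      by_cases h7 : hh A W₀ y = hh A W₀ x
      · have := c1.2 ⟨by omega, h7⟩
        omega
      · have := c2.2 ⟨by omega, by omega⟩
        omega
    · obtain ⟨a1, a2, a3, a4⟩ := rv_adj A hm r W₀ hxy hy hx (lt_of_le_of_ne h1 hne.symm)
      obtain ⟨c1, c2⟩ := rv_cmp (m := m) a1 a2 a3 a4
      unfold rk at heq ⊢
      by_contra hcon
      have h5 : ¬ m ≤ hh A W₀ x := by
        intro h6
        rw [if_pos h6] at hcon
        exact hcon rfl
      by_cases h7 : hh A W₀ x = hh A W₀ y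
      · have := c1.2 ⟨by omega, h7⟩
        omega
      · have := c2.2 ⟨by omega, by omega⟩
        omega
  · intro x hx hpos
    have t1 := rv_lev_top A hm r hx W₀
    have he : hh A W₀ x < m := by
      by_contra hcon
      unfold rk at hpos
      rw [if_pos (by omega)] at hpos
      omega
    have hset : Full (Lk (A.XX ι r) {x}) (fun y => rk A r W₀ y < rk A r W₀ x) =
        Full (Lk (A.XX ι r) {x}) (fun S' =>
          (S' < x ∧ ¬ W₀ ≤ A.lev S' (hh A W₀ x)) ∨
            (x < S' ∧ (1 ≤ hh A W₀ x → ¬ W₀ ≤ A.lev S' (hh A W₀ x - 1)))) := by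
      have key : ∀ σ ∈ Lk (A.XX ι r) {x}, ∀ y ∈ σ, (rk A r W₀ y < rk A r W₀ x ↔
          (y < x ∧ ¬ W₀ ≤ A.lev y (hh A W₀ x)) ∨
            (x < y ∧ (1 ≤ hh A W₀ x → ¬ W₀ ≤ A.lev y (hh A W₀ x - 1)))) := by
        rintro σ ⟨hd, hσ⟩ y hy
        have hxσ : x ∈ {x} ∪ σ := Finset.mem_union_left _ (Finset.mem_singleton_self x)
        have hyσ : y ∈ {x} ∪ σ := Finset.mem_union_right _ hy
        have hne : y ≠ x := by
          rintro rfl
          exact Finset.disjoint_singleton_left.1 hd hy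
        have t2 := rv_lev_top A hm r (hsing _ hσ y hyσ) W₀
        have hch := XX_chain A (by omega) r hσ
        rw [rv_le_iff A t2, rv_le_iff A t2]
        rcases hch.total hyσ hxσ with h1 | h1
        · have hlt : y < x := lt_of_le_of_ne h1 hne
          obtain ⟨a1, a2, a3, a4⟩ := rv_adj A hm r W₀ hσ hyσ hxσ hlt
          obtain ⟨c1, c2⟩ := rv_cmp (m := m) a1 a2 a3 a4
          unfold rk
          rw [c2]
          constructor
          · rintro ⟨_, h4⟩
            exact Or.inl ⟨hlt, by omega⟩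
          · rintro (⟨_, h4⟩ | ⟨h4, _⟩)
            · exact ⟨he, by omega⟩
            · exact absurd h4 (lt_asymm hlt)
        · have hlt : x < y := lt_of_le_of_ne h1 hne.symm
          obtain ⟨a1, a2, a3, a4⟩ := rv_adj A hm r W₀ hσ hxσ hyσ hlt
          obtain ⟨c1, c2⟩ := rv_cmp (m := m) a1 a2 a3 a4
          unfold rk
          rw [c1]
          constructor
          · rintro ⟨_, h4⟩
            exact Or.inr ⟨hlt, by omega⟩
          · rintro (⟨h4, _⟩ | ⟨_, h4⟩)
            · exact absurd h4 (lt_asymm hlt)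
            · exact ⟨he, by omega⟩
      ext σ
      exact ⟨fun h => ⟨h.1, fun y hy => (key σ h.1 y hy).1 (h.2 y hy)⟩,
        fun h => ⟨h.1, fun y hy => (key σ h.1 y hy).2 (h.2 y hy)⟩⟩
    rw [hset]
    refine hp₀ p hp m hm R A ι r hr hr' x W₀ (hh A W₀ x) hx he hW₀
      ((rv_le_iff A t1 _).2 le_rfl) ?_ (j - 1) (by omega)
    intro h1
    rw [rv_le_iff A t1]
    omega

end P067X
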