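import Vale.Agent.P067X.TransP
import Vale.Agent.P067X.RelV
import Vale.Agent.P067X.RelF
import Vale.Agent.P067X.FibV
import Vale.Agent.P067X.FibF

/-!
# P067, module COBPAIR: acyclicity of `X^V`; the kernels `N_v` do not depend on `v`; transvections act trivially

PROOF.
`colV`: `trans_V` (transport to `V = F^κ`), `avg_acyc` with `fibV`, `relV` and `Acyc (XX (Fin b) r) q`.
`cobdy_pair`: `trans_pair` transports to `v = e`, `ξ = xi0`: `Cobdy (X^e) k f ↔ Cobdy (section) k f` by `avg_section` (`fibV`, `relV`, and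
restriction to the subcomplex), `↔ Cobdy (X^ξ) k f` by `avg_section` (`fibF`, `relF`); the sections agree (`lift_zero`).
`cobdy_indep`: `v, v'` with independent constant coefficients have a common `ξ` (`exists_xi`); otherwise use a third vector
(`|ι| ≥ 2`, so there is one independent of both when `v_0, v'_0` are proportional).
`triv_XV`: for a transvection `x ↦ x + φ(x) v`, `φ(v) = 0`: transport by `trans_pair` (any `ξ` with `ξ v = 1`) to `v = e`, then it is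
`liftV q S ↦ liftV (q + q₀) S`: `avg_translate`.
-/

namespace P067X

open Classical Module

theorem cp_mono {V : Type*} {K K' : Set (Finset V)} {k : ℕ} {f : Finset V → ZMod 2}
    (h : Cobdy K k f) (hK : K' ⊆ K) : Cobdy K' k f := by
  obtain ⟨g, hg⟩ := h
  exact ⟨g, fun σ hσ hc => hg σ (hK hσ) hc⟩

theorem cp_cocyc_mono {V : Type*} {K K' : Set (Finset V)} {k : ℕ} {f : Finset V → ZMod 2}
    (h : Cocyc K k f) (hK : K' ⊆ K) : Cocyc K' k f :=
  fun ρ hρ hc => h ρ (hK hρ) hc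

/-- the condition for `X^V` is transported by `Φ` -/
theorem cp_fullV {p m : ℕ} [Fact p.Prime] {R : Type} [CommRing R] [Algebra (ZMod p) R]
    (A : TR p m R) {ι₁ ι₂ : Type} [Fintype ι₁] [DecidableEq ι₁] [Fintype ι₂] [DecidableEq ι₂]
    (Φ : (ι₁ → R) ≃ₗ[R] (ι₂ → R)) (hΦ : Str A Φ) (r : ℕ) (W : Submodule (ZMod p) (ι₁ → R))
    (V : Submodule (ZMod p) (ι₂ → R))
    (hW : W.map (Φ.restrictScalars (ZMod p)).toLinearMap = V) :
    CxIso (A.XV ι₁ r W) (A.XV ι₂ r V)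
      (fun S => S.map (Φ.restrictScalars (ZMod p)).toLinearMap) := by
  refine CxIso.full (hΦ.iso r) (isCx_XX A r) ?_
  intro S _
  have hinj : Function.Injective (Φ.restrictScalars (ZMod p)).toLinearMap :=
    (Φ.restrictScalars (ZMod p)).injective
  show (W ≤ S ∧ W ⊓ A.KK S = ⊥) ↔
    (V ≤ S.map (Φ.restrictScalars (ZMod p)).toLinearMap ∧
      V ⊓ A.KK (S.map (Φ.restrictScalars (ZMod p)).toLinearMap) = ⊥)
  rw [hΦ.kk, ← hW, Submodule.map_le_map_iff_of_injective hinj, ← Submodule.map_inf _ hinj]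
  exact and_congr_right fun _ => ⟨fun h => by rw [h, Submodule.map_bot],
    fun h => Submodule.map_injective_of_injective hinj (h.trans (Submodule.map_bot _).symm)⟩

/-- the condition for `X^ξ` is transported by `Φ` -/
theorem cp_fullF {p m : ℕ} [Fact p.Prime] {R : Type} [CommRing R] [Algebra (ZMod p) R]
    (A : TR p m R) {ι₁ ι₂ : Type} [Fintype ι₁] [DecidableEq ι₁] [Fintype ι₂] [DecidableEq ι₂]
    (Φ : (ι₁ → R) ≃ₗ[R] (ι₂ → R)) (hΦ : Str A Φ) (r : ℕ) (ξ₁ : (ι₁ → R) →ₗ[R] R)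
    (ξ₂ : (ι₂ → R) →ₗ[R] R) (hξ : ∀ w, ξ₂ (Φ w) = ξ₁ w) :
    CxIso (A.XF ι₁ r ξ₁) (A.XF ι₂ r ξ₂)
      (fun S => S.map (Φ.restrictScalars (ZMod p)).toLinearMap) := by
  refine CxIso.full (hΦ.iso r) (isCx_XX A r) ?_
  intro S _
  constructor
  · intro h v hv
    obtain ⟨w, hw, rfl⟩ := Submodule.mem_map.1 hv
    obtain ⟨c, hc⟩ := h w hw
    exact ⟨c, (hξ w).trans hc⟩
  · intro h w hw
    obtain ⟨c, hc⟩ := h (Φ w) (Submodule.mem_map.2 ⟨w, hw, rfl⟩)
    exact ⟨c, (hξ w).symm.trans hc⟩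

theorem cobdy_pair (k : ℕ) : ∃ p₀ : ℕ, ∀ (p : ℕ) [Fact p.Prime], p₀ ≤ p → ∀ (m : ℕ), 3 ≤ m →
    ∀ (R : Type) [CommRing R] [Algebra (ZMod p) R] (A : TR p m R)
      (ι : Type) [Fintype ι] [DecidableEq ι] (r : ℕ), 2 * k + 2 ≤ r →
      r + k + 3 ≤ Fintype.card ι →
      ∀ (v : ι → R) (ξ : (ι → R) →ₗ[R] R), ξ v = 1 →
        ∀ f, Cocyc (A.XX ι r) k f →
          (Cobdy (A.XV ι r (Submodule.span (ZMod p) {v})) k f ↔ Cobdy (A.XF ι r ξ) k f) := by
  obtain ⟨pV, hV⟩ := relV k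
  obtain ⟨pF, hF⟩ := relF k
  refine ⟨pV + pF + 3, ?_⟩
  intro p _ hp m hm R _ _ A ι _ _ r hr hrι v ξ hξ f hf
  obtain ⟨b, hb⟩ : ∃ b, 1 + b = Fintype.card ι := ⟨Fintype.card ι - 1, by omega⟩
  have hb0 : 0 < b := by omega
  have : Nonempty (Fin b) := ⟨⟨0, hb0⟩⟩
  obtain ⟨Φ, hΦ, _, hξΦ, hmap⟩ := trans_pair A hm v ξ hξ b hb hb0
  have : Finite R := A.finiteR
  have : Fintype R := Fintype.ofFinite R
  have hfV := fibV A hm Unit (Fin b) r
  have hfF := fibF A hm (Fin b) r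
  have hcx : IsCx (A.XX (Unit ⊕ Fin b) r) := isCx_XX A r
  have hisoV := cp_fullV A Φ hΦ r _ _ hmap
  have hisoF := cp_fullF A Φ hΦ r (xi0 R (Fin b)) ξ hξΦ
  rw [hisoV.cobdy (isCx_Full hcx _) f, hisoF.cobdy (isCx_Full hcx _) f]
  have hf' := ((hΦ.iso r).cocyc hcx f).1 hf
  have hsubV : A.XV (Unit ⊕ Fin b) r (VV R Unit (Fin b)) ⊆ A.XX (Unit ⊕ Fin b) r :=
    fun σ hσ => hσ.1
  have hsubF : A.XF (Unit ⊕ Fin b) r (xi0 R (Fin b)) ⊆ A.XX (Unit ⊕ Fin b) r :=
    fun σ hσ => hσ.1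
  constructor
  · intro h
    have : Fintype (Fin b → R) := Fintype.ofFinite _
    refine avg_section p (by omega) hfF k ?_ _ (cp_cocyc_mono hf' hsubF) ?_
    · intro η hη
      exact hF p (by omega) m hm R A (Fin b) r hr (by simp only [Fintype.card_fin]; omega)
        η hη k le_rfl
    · refine cp_mono h ?_
      rintro τ ⟨σ, hσ, rfl⟩
      rw [hfV.eq]
      exact ⟨0, σ, hσ, Finset.image_congr fun S _ => lift_zero A (Fin b) S⟩
  · intro h
    have : Fintype (Matrix Unit (Fin b) R) := Fintype.ofFinite _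
    refine avg_section p (by omega) hfV k ?_ _ (cp_cocyc_mono hf' hsubV) ?_
    · intro η hη
      exact hV p (by omega) m hm R A Unit (Fin b) r hr (by simp only [Fintype.card_fin]; omega)
        η hη k le_rfl
    · refine cp_mono h ?_
      rintro τ ⟨σ, hσ, rfl⟩
      rw [hfF.eq]
      exact ⟨0, σ, hσ, Finset.image_congr fun S _ => (lift_zero A (Fin b) S).symm⟩

end P067X
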