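import Vale.Agent.P067X.XDefs

/-!
# P067, module COEF: the ring `R = F[t]/t^m`, coefficient vectors
-/

set_option linter.unusedSectionVars false

namespace P067X

open Classical Module

variable {p m : ℕ} [Fact p.Prime] {R : Type} [CommRing R] [Algebra (ZMod p) R]
  {ι : Type} [Fintype ι]

theorem TR.m_pos (A : TR p m R) : 0 < m := by
  rcases Nat.eq_zero_or_pos m with h | h
  · have h1 : A.co 0 1 = 1 := by
      rw [A.co_one, if_pos rfl]
    have h2 : A.co 0 1 = 0 := A.co_ge 0 1 (by omega)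
    rw [h1] at h2
    exact absurd h2 one_ne_zero
  · exact h

theorem TR.co_algebraMap (A : TR p m R) (a : ℕ) (c : ZMod p) :
    A.co a (algebraMap (ZMod p) R c) = if a = 0 then c else 0 := by
  rw [Algebra.algebraMap_eq_smul_one, map_smul, A.co_one, smul_eq_mul]
  split_ifs
  · rw [mul_one]
  · rw [mul_zero]

theorem TR.finiteR (A : TR p m R) : Finite R := by
  refine Finite.of_injective (fun (x : R) (a : Fin m) => A.co a x) fun x y h => ?_
  refine A.ext x y fun a => ?_
  rcases Nat.lt_or_ge a m with h1 | h1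
  · exact congrFun h ⟨a, h1⟩
  · rw [A.co_ge a x h1, A.co_ge a y h1]

private theorem TR.coef_pow_lt (A : TR p m R) (k : ℕ) : ∀ (a : ℕ) (x : R), a < k →
    A.co a (A.t ^ k * x) = 0 := by
  induction k with
  | zero =>
    intro a x h
    omega
  | succ k ih =>
    intro a x h
    rw [pow_succ', mul_assoc]
    rcases Nat.eq_zero_or_pos a with h0 | h0
    · rw [h0, A.co_t_zero]
    · obtain ⟨b, rfl⟩ : ∃ b, a = b + 1 := ⟨a - 1, by omega⟩
      rw [A.co_t, ih b x (by omega)]
      split_ifs <;> rfl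

theorem TR.t_pow (A : TR p m R) : A.t ^ m = 0 := by
  refine A.ext _ _ fun a => ?_
  rw [map_zero]
  rcases Nat.lt_or_ge a m with h1 | h1
  · rw [← mul_one (A.t ^ m)]
    exact A.coef_pow_lt m a 1 h1
  · exact A.co_ge a _ h1

/-- an element with vanishing constant coefficient is divisible by `t` -/
theorem TR.exists_t_mul (A : TR p m R) (x : R) (hx : A.co 0 x = 0) : ∃ y, x = A.t * y := by
  obtain ⟨y, hy⟩ := A.surj (fun a => A.co (a + 1) x)
  refine ⟨y, A.ext _ _ fun a => ?_⟩
  rcases Nat.eq_zero_or_pos a with h0 | h0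
  · rw [h0, hx, A.co_t_zero]
  · obtain ⟨b, rfl⟩ : ∃ b, a = b + 1 := ⟨a - 1, by omega⟩
    rw [A.co_t]
    split_ifs with h1
    · exact (hy b (by omega)).symm
    · exact A.co_ge _ x (by omega)

private theorem TR.coef_split (A : TR p m R) (x : R) :
    ∃ y, x = algebraMap (ZMod p) R (A.co 0 x) + A.t * y := by
  obtain ⟨y, hy⟩ := A.exists_t_mul (x - algebraMap (ZMod p) R (A.co 0 x)) (by
    rw [map_sub, A.co_algebraMap, if_pos rfl, sub_self])
  exact ⟨y, by rw [← hy]; ring⟩

theorem TR.co_smul_const (A : TR p m R) (a : ℕ) (c : ZMod p) (x : R) :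
    A.co a (algebraMap (ZMod p) R c * x) = c * A.co a x := by
  rw [← Algebra.smul_def, map_smul, smul_eq_mul]

theorem TR.co_zero_mul (A : TR p m R) (x y : R) : A.co 0 (x * y) = A.co 0 x * A.co 0 y := by
  obtain ⟨z, hz⟩ := A.coef_split x
  have h : x * y = algebraMap (ZMod p) R (A.co 0 x) * y + A.t * (z * y) := by
    conv_lhs => rw [hz]
    ring
  rw [h, map_add, A.co_smul_const, A.co_t_zero, add_zero]

theorem TR.isUnit_iff (A : TR p m R) (x : R) : IsUnit x ↔ A.co 0 x ≠ 0 := by
  constructor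
  · intro h h0
    obtain ⟨y, hy⟩ := h.exists_right_inv
    have h1 := congrArg (A.co 0) hy
    rw [A.co_zero_mul, h0, zero_mul, A.co_one, if_pos rfl] at h1
    exact zero_ne_one h1
  · intro h
    obtain ⟨y, hy⟩ := A.coef_split x
    have h1 : IsUnit (algebraMap (ZMod p) R (A.co 0 x)) :=
      (isUnit_iff_ne_zero.2 h).map (algebraMap (ZMod p) R)
    have h2 : IsNilpotent (A.t * y) := ⟨m, by rw [mul_pow, A.t_pow, zero_mul]⟩
    rw [hy, add_comm]
    exact h2.isUnit_add_right_of_commute h1 (Commute.all _ _)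

theorem TR.vec_ext (A : TR p m R) (v w : ι → R) (h : ∀ a, A.vco a v = A.vco a w) : v = w := by
  funext i
  exact A.ext _ _ fun a => congrFun (h a) i

theorem TR.vco_ge (A : TR p m R) (a : ℕ) (v : ι → R) (h : m ≤ a) : A.vco a v = 0 := by
  funext i
  exact A.co_ge a (v i) h

theorem TR.vco_tl (A : TR p m R) (a : ℕ) (v : ι → R) :
    A.vco (a + 1) (A.tl v) = if a + 1 < m then A.vco a v else 0 := by
  funext i
  show A.co (a + 1) (A.t * v i) = _
  rw [A.co_t]
  split_ifs <;> rfl

theorem TR.vco_tl_zero (A : TR p m R) (v : ι → R) : A.vco 0 (A.tl v) = 0 := by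
  funext i
  exact A.co_t_zero (v i)

theorem TR.vco_cst (A : TR p m R) (a : ℕ) (x : ι → ZMod p) :
    A.vco a (cst R ι x) = if a = 0 then x else 0 := by
  funext i
  show A.co a (algebraMap (ZMod p) R (x i)) = _
  rw [A.co_algebraMap]
  split_ifs <;> rfl

theorem TR.vsurj (A : TR p m R) (f : ℕ → ι → ZMod p) :
    ∃ v : ι → R, ∀ a, a < m → A.vco a v = f a := by
  choose v hv using fun i : ι => A.surj (fun a => f a i)
  refine ⟨v, fun a ha => ?_⟩
  funext i
  exact hv i a ha

/-- a vector with vanishing constant coefficient is divisible by `t` -/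
theorem TR.exists_tl (A : TR p m R) (v : ι → R) (hv : A.vco 0 v = 0) : ∃ w, v = A.tl w := by
  choose w hw using fun i : ι => A.exists_t_mul (v i) (congrFun hv i)
  exact ⟨w, funext hw⟩

/-- `v = v_0 + t v_1` for a vector with coefficients in degrees `0, 1` only -/
theorem TR.eq_of_deg_one (A : TR p m R) (hm : 2 ≤ m) (v : ι → R)
    (hv : ∀ a, 2 ≤ a → A.vco a v = 0) :
    v = cst R ι (A.vco 0 v) + A.tl (cst R ι (A.vco 1 v)) := by
  refine A.vec_ext _ _ fun a => ?_
  rw [map_add, A.vco_cst]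
  rcases Nat.eq_zero_or_pos a with h0 | h0
  · rw [h0, if_pos rfl, A.vco_tl_zero, add_zero]
  · obtain ⟨b, rfl⟩ : ∃ b, a = b + 1 := ⟨a - 1, by omega⟩
    rw [if_neg (by omega), zero_add, A.vco_tl, A.vco_cst]
    rcases Nat.eq_zero_or_pos b with h1 | h1
    · rw [h1, if_pos (by omega), if_pos rfl]
    · rw [hv (b + 1) (by omega), if_neg (by omega : ¬ b = 0)]
      split_ifs <;> rfl

end P067X
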