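import Vale.Agent.P067X.TransV
import Vale.Agent.P067X.RelV
import Vale.Agent.P067X.FibV

/-!
# P067, module COLV: acyclicity of `X^V`; the kernels `N_v` do not depend on `v`; transvections act trivially

PROOF.
`colV`: `trans_V` (transport to `V = F^κ`), `avg_acyc` with `fibV`, `relV` and `Acyc (XX (Fin b) r) q`.
`cobdy_pair`: `trans_pair` transports to `v = e`, `ξ = xi0`: `Cobdy (X^e) k f ↔ Cobdy (section) k f` by `avg_section` (`fibV`, `relV`, and
restriction to the subcomplex), `↔ Cobdy (X^ξ) k f` by `avg_section` (`fibF`, `relF`); the sections agree (`lift_zero`).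
`cobdy_indep`: `v, v'` with independent constant coefficients have a common `ξ` (`exists_xi`); otherwise use a third vector
(`|ι| ≥ 2`, so there is one independent of both when `v_0, v'_0` are proportional).
`triv_XV`: for a transvection `x ↦ x + φ(x) v`, `φ(v) = 0`: transport by `trans_pair` (any `ξ` with `ξ v = 1`) to `v = e`, then it is
`liftV q S ↦ liftV (q + q₀) S`: `avg_translate`.
-/

namespace P067X

open Classical Module

/-- the condition for `X^V` is transported by `Φ` -/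
theorem colv_full {p m : ℕ} [Fact p.Prime] {R : Type} [CommRing R] [Algebra (ZMod p) R]
    (A : TR p m R) {ι₁ ι₂ : Type} [Fintype ι₁] [DecidableEq ι₁] [Fintype ι₂] [DecidableEq ι₂]
    (Φ : (ι₁ → R) ≃ₗ[R] (ι₂ → R)) (hΦ : Str A Φ) (r : ℕ) (W : Submodule (ZMod p) (ι₁ → R))
    (V : Submodule (ZMod p) (ι₂ → R))
    (hW : W.map (Φ.restrictScalars (ZMod p)).toLinearMap = V) :
    CxIso (A.XV ι₁ r W) (A.XV ι₂ r V)
      (fun S => S.map (Φ.restrictScalars (ZMod p)).toLinearMap) := by
  refine CxIso.full (hΦ.iso r) (isCx_XX A r) ?_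
  intro S _
  have hinj : Function.Injective (Φ.restrictScalars (ZMod p)).toLinearMap :=
    (Φ.restrictScalars (ZMod p)).injective
  show (W ≤ S ∧ W ⊓ A.KK S = ⊥) ↔
    (V ≤ S.map (Φ.restrictScalars (ZMod p)).toLinearMap ∧
      V ⊓ A.KK (S.map (Φ.restrictScalars (ZMod p)).toLinearMap) = ⊥)
  rw [hΦ.kk, ← hW, Submodule.map_le_map_iff_of_injective hinj, ← Submodule.map_inf _ hinj]
  exact and_congr_right fun _ => ⟨fun h => by rw [h, Submodule.map_bot],
    fun h => Submodule.map_injective_of_injective hinj (h.trans (Submodule.map_bot _).symm)⟩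

theorem colV (k : ℕ) : ∃ p₀ : ℕ, ∀ (p : ℕ) [Fact p.Prime], p₀ ≤ p → ∀ (m : ℕ), 3 ≤ m →
    ∀ (R : Type) [CommRing R] [Algebra (ZMod p) R] (A : TR p m R)
      (ι : Type) [Fintype ι] [DecidableEq ι] (r : ℕ), 2 * k + 2 ≤ r →
      ∀ (V : Submodule (ZMod p) (ι → R)) (b : ℕ), V ⊓ LinearMap.range A.tl = ⊥ →
        finrank (ZMod p) V + b = Fintype.card ι → r + k + 2 ≤ b →
        ∀ q ≤ k, Acyc (A.XX (Fin b) r) q → Acyc (A.XV ι r V) q := by
  obtain ⟨p₀, h₀⟩ := relV k
  refine ⟨p₀ + 3, ?_⟩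
  intro p _ hp m hm R _ _ A ι _ _ r hr V b hV hb hrb q hq hacyc
  have hb0 : 0 < b := by omega
  have : Nonempty (Fin b) := ⟨⟨0, hb0⟩⟩
  obtain ⟨Φ, hΦ, hmap⟩ := trans_V A hm V hV (finrank (ZMod p) V) b rfl hb hb0
  have : Finite R := A.finiteR
  have : Fintype R := Fintype.ofFinite R
  have hfib := fibV A hm (Fin (finrank (ZMod p) V)) (Fin b) r
  have hac : Acyc (A.XV (Fin (finrank (ZMod p) V) ⊕ Fin b) r
      (VV R (Fin (finrank (ZMod p) V)) (Fin b))) q := by
    have : Fintype (Matrix (Fin (finrank (ZMod p) V)) (Fin b) R) := Fintype.ofFinite _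
    refine avg_acyc p (by omega) hfib q ?_ hacyc
    intro η hη
    exact h₀ p (by omega) m hm R A _ (Fin b) r hr (by simpa using hrb) η hη q hq
  exact ((colv_full A Φ hΦ r _ V hmap).acyc (isCx_Full (isCx_XX A r) _)).1 hac

end P067X
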