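import Vale.Agent.P067X.GMat

/-!
# P067, module CXBASIC: basic facts on the complex `XX`
-/

namespace P067X

open Classical Module

/-! ### flags of subspaces -/

section flags

variable {F V : Type*} [Field F] [AddCommGroup V] [Module F V] [FiniteDimensional F V]

/-- a subspace of prescribed dimension between two subspaces -/
theorem cx_between (L M : Submodule F V) (hLM : L ≤ M) (d : ℕ) (h1 : finrank F L ≤ d)
    (h2 : d ≤ finrank F M) : ∃ U : Submodule F V, L ≤ U ∧ U ≤ M ∧ finrank F U = d := by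
  induction d, h1 using Nat.le_induction with
  | base => exact ⟨L, le_rfl, hLM, rfl⟩
  | succ d _ ih =>
    obtain ⟨U, hLU, hUM, hU⟩ := ih (by omega)
    have hlt : U < M := by
      refine lt_of_le_of_ne hUM ?_
      rintro rfl
      omega
    obtain ⟨v, hvM, hvU⟩ := SetLike.exists_of_lt hlt
    refine ⟨U ⊔ Submodule.span F {v}, hLU.trans le_sup_left, sup_le hUM ?_, ?_⟩
    · rw [Submodule.span_le, Set.singleton_subset_iff]
      exact hvM
    · have h3 := Submodule.finrank_sup_add_finrank_inf_eq U (Submodule.span F {v})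
      have h4 : U ⊓ Submodule.span F {v} = ⊥ := by
        rw [Submodule.eq_bot_iff]
        intro x hx
        obtain ⟨c, rfl⟩ := Submodule.mem_span_singleton.1 hx.2
        by_cases hc : c = 0
        · rw [hc, zero_smul]
        · exact absurd ((Submodule.smul_mem_iff _ hc).1 hx.1) hvU
      have hv0 : v ≠ 0 := fun h => hvU (h ▸ U.zero_mem)
      rw [h4, finrank_bot, finrank_span_singleton hv0] at h3
      omega

theorem cx_le_of_finrank {c : Set (Submodule F V)} (hc : IsChain (· ≤ ·) c)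
    {U W : Submodule F V} (hU : U ∈ c) (hW : W ∈ c) (h : finrank F U ≤ finrank F W) : U ≤ W := by
  rcases eq_or_ne U W with rfl | hne
  · exact le_rfl
  · rcases hc hU hW hne with h1 | h1
    · exact h1
    · exact (Submodule.eq_of_le_of_finrank_le h1 h).ge

/-- a chain of subspaces of dimension `≤ r` which misses a dimension can be extended -/
theorem cx_extend (r : ℕ) (hr : r ≤ finrank F V) (c : Finset (Submodule F V))
    (hc : IsChain (· ≤ ·) (c : Set (Submodule F V))) (d : ℕ) (hd : d ≤ r)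
    (hmiss : ∀ U ∈ c, finrank F U ≠ d) :
    ∃ U : Submodule F V, U ∉ c ∧ finrank F U = d ∧
      IsChain (· ≤ ·) ((insert U c : Finset (Submodule F V)) : Set (Submodule F V)) := by
  obtain ⟨L, hL1, hL2, hL3⟩ : ∃ L : Submodule F V, finrank F L ≤ d ∧
      (∀ U ∈ c, finrank F U < d → U ≤ L) ∧ (∀ U ∈ c, d < finrank F U → L ≤ U) := by
    by_cases hne : (c.filter fun U : Submodule F V => finrank F U < d).Nonempty
    · obtain ⟨L, hL, hmax⟩ := Finset.exists_max_image _ (fun U : Submodule F V => finrank F U) hne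
      rw [Finset.mem_filter] at hL
      refine ⟨L, hL.2.le, fun U hU hUd => ?_, fun U hU hUd => ?_⟩
      · exact cx_le_of_finrank hc hU hL.1 (hmax U (Finset.mem_filter.2 ⟨hU, hUd⟩))
      · exact cx_le_of_finrank hc hL.1 hU (by omega)
    · refine ⟨⊥, by rw [finrank_bot]; omega, fun U hU hUd => ?_, fun U _ _ => bot_le⟩
      exact absurd ⟨U, Finset.mem_filter.2 ⟨hU, hUd⟩⟩ hne
  obtain ⟨M, hM1, hM2, hLM⟩ : ∃ M : Submodule F V, d ≤ finrank F M ∧
      (∀ U ∈ c, d < finrank F U → M ≤ U) ∧ L ≤ M := by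
    by_cases hne : (c.filter fun U : Submodule F V => d < finrank F U).Nonempty
    · obtain ⟨M, hM, hmin⟩ := Finset.exists_min_image _ (fun U : Submodule F V => finrank F U) hne
      rw [Finset.mem_filter] at hM
      refine ⟨M, hM.2.le, fun U hU hUd => ?_, hL3 M hM.1 hM.2⟩
      exact cx_le_of_finrank hc hM.1 hU (hmin U (Finset.mem_filter.2 ⟨hU, hUd⟩))
    · refine ⟨⊤, by rw [finrank_top]; omega, fun U hU hUd => ?_, le_top⟩
      exact absurd ⟨U, Finset.mem_filter.2 ⟨hU, hUd⟩⟩ hne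
  obtain ⟨U, hLU, hUM, hU⟩ := cx_between L M hLM d hL1 hM1
  refine ⟨U, fun h => hmiss U h hU, hU, ?_⟩
  rw [Finset.coe_insert]
  refine hc.insert fun W hW _ => ?_
  rcases lt_trichotomy (finrank F W) d with h | h | h
  · exact Or.inr ((hL2 W hW h).trans hLU)
  · exact absurd h (hmiss W hW)
  · exact Or.inl (hUM.trans (hM2 W hW h))

theorem cx_card_le (r : ℕ) (c : Finset (Submodule F V))
    (hc : IsChain (· ≤ ·) (c : Set (Submodule F V))) (hcr : ∀ U ∈ c, finrank F U ≤ r) :
    Set.InjOn (fun U : Submodule F V => finrank F U) (c : Set (Submodule F V)) ∧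
      c.card ≤ r + 1 := by
  have hinj : Set.InjOn (fun U : Submodule F V => finrank F U) (c : Set (Submodule F V)) := by
    intro U hU W hW h
    exact le_antisymm (cx_le_of_finrank hc hU hW (le_of_eq h))
      (cx_le_of_finrank hc hW hU (le_of_eq h.symm))
  refine ⟨hinj, ?_⟩
  rw [← Finset.card_image_of_injOn hinj, ← Finset.card_range (r + 1)]
  refine Finset.card_le_card ?_
  intro d hd
  obtain ⟨U, hU, rfl⟩ := Finset.mem_image.1 hd
  exact Finset.mem_range.2 (by have := hcr U hU; omega)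

theorem cx_full (r : ℕ) (hr : r ≤ finrank F V) (c : Finset (Submodule F V))
    (hc : IsChain (· ≤ ·) (c : Set (Submodule F V))) (hcr : ∀ U ∈ c, finrank F U ≤ r) :
    ∃ c' : Finset (Submodule F V), c ⊆ c' ∧ IsChain (· ≤ ·) (c' : Set (Submodule F V)) ∧
      (∀ U ∈ c', finrank F U ≤ r) ∧ c'.card = r + 1 := by
  obtain ⟨k, hk⟩ : ∃ k, r + 1 - c.card = k := ⟨_, rfl⟩
  induction k generalizing c with
  | zero =>
    have := (cx_card_le r c hc hcr).2
    exact ⟨c, subset_rfl, hc, hcr, by omega⟩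
  | succ k ih =>
    obtain ⟨hinj, hle⟩ := cx_card_le r c hc hcr
    obtain ⟨d, hd, hmiss⟩ : ∃ d, d ≤ r ∧ ∀ U ∈ c, finrank F U ≠ d := by
      by_contra hcon
      push Not at hcon
      have h1 : Finset.range (r + 1) ⊆ c.image (fun U : Submodule F V => finrank F U) := by
        intro d hd
        obtain ⟨U, hU, h⟩ := hcon d (by have := Finset.mem_range.1 hd; omega)
        exact Finset.mem_image.2 ⟨U, hU, h⟩
      have h2 := Finset.card_le_card h1
      rw [Finset.card_range, Finset.card_image_of_injOn hinj] at h2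
      omega
    obtain ⟨U, hUc, hUd, hch⟩ := cx_extend r hr c hc d hd hmiss
    obtain ⟨c', h1, h2, h3, h4⟩ := ih (insert U c) hch (by
      intro W hW
      rcases Finset.mem_insert.1 hW with rfl | hW
      · omega
      · exact hcr W hW) (by rw [Finset.card_insert_of_notMem hUc]; omega)
    exact ⟨c', (Finset.subset_insert U c).trans h1, h2, h3, h4⟩

end flags

/-! ### transitivity on flags -/

section trans

variable {p : ℕ} [Fact p.Prime] {ι : Type} [Fintype ι] [DecidableEq ι]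

/-- a functional (dot product) vanishing on a subspace but not at a vector outside -/
theorem cx_dual (L : Submodule (ZMod p) (ι → ZMod p)) (u : ι → ZMod p) (hu : u ∉ L) :
    ∃ φ : ι → ZMod p, (∀ x ∈ L, φ ⬝ᵥ x = 0) ∧ φ ⬝ᵥ u ≠ 0 := by
  obtain ⟨f, hf1, hf2⟩ := Submodule.exists_le_ker_of_notMem hu
  refine ⟨fun i => f (Pi.single i 1), ?_, ?_⟩
  · intro x hx
    have h1 : f x = (fun i => f (Pi.single i 1)) ⬝ᵥ x := by
      conv_lhs => rw [pi_eq_sum_univ' x]
      rw [map_sum, dotProduct]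
      refine Finset.sum_congr rfl fun i _ => ?_
      rw [map_smul, smul_eq_mul, mul_comm]
    rw [← h1]
    exact LinearMap.mem_ker.1 (hf2 hx)
  · have h1 : f u = (fun i => f (Pi.single i 1)) ⬝ᵥ u := by
      conv_lhs => rw [pi_eq_sum_univ' u]
      rw [map_sum, dotProduct]
      refine Finset.sum_congr rfl fun i _ => ?_
      rw [map_smul, smul_eq_mul, mul_comm]
    rw [← h1]
    exact hf1

theorem cx_dual2 (L : Submodule (ZMod p) (ι → ZMod p)) (u w : ι → ZMod p) (hu : u ∉ L)
    (hw : w ∉ L) : ∃ φ : ι → ZMod p, (∀ x ∈ L, φ ⬝ᵥ x = 0) ∧ φ ⬝ᵥ u ≠ 0 ∧ φ ⬝ᵥ w ≠ 0 := by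
  obtain ⟨φ, h1, h2⟩ := cx_dual L u hu
  obtain ⟨ψ, h3, h4⟩ := cx_dual L w hw
  by_cases h5 : φ ⬝ᵥ w = 0
  · by_cases h6 : ψ ⬝ᵥ u = 0
    · refine ⟨φ + ψ, fun x hx => ?_, ?_, ?_⟩
      · rw [add_dotProduct, h1 x hx, h3 x hx, add_zero]
      · rw [add_dotProduct, h6, add_zero]; exact h2
      · rw [add_dotProduct, h5, zero_add]; exact h4
    · exact ⟨ψ, h3, h6, h4⟩
  · exact ⟨φ, h1, h2, h5⟩

/-- one step: move `L + u` to `L + w` by a transvection which fixes `L` pointwise -/
theorem cx_step (L : Submodule (ZMod p) (ι → ZMod p)) (u w : ι → ZMod p) (hu : u ∉ L)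
    (hw : w ∉ L) : ∃ f : Matrix.SpecialLinearGroup ι (ZMod p),
      (∀ x ∈ L, f.1.mulVec x = x) ∧ ∃ c : ZMod p, c ≠ 0 ∧ f.1.mulVec u = c • w := by
  obtain ⟨φ, h1, h2, h3⟩ := cx_dual2 L u w hu hw
  set c : ZMod p := φ ⬝ᵥ u / φ ⬝ᵥ w with hc
  have hc0 : c ≠ 0 := div_ne_zero h2 h3
  set a : ι → ZMod p := (φ ⬝ᵥ u)⁻¹ • (c • w - u) with ha
  have hφa : φ ⬝ᵥ a = 0 := by
    rw [ha, dotProduct_smul, dotProduct_sub, dotProduct_smul, smul_eq_mul, smul_eq_mul, hc,
      div_mul_cancel₀ _ h3, sub_self, mul_zero]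
  have hmv : ∀ x, (1 + Matrix.replicateCol Unit a * Matrix.replicateRow Unit φ :
      Matrix ι ι (ZMod p)).mulVec x = x + (φ ⬝ᵥ x) • a := by
    intro x
    rw [Matrix.add_mulVec, Matrix.one_mulVec, ← Matrix.mulVec_mulVec]
    congr 1
    funext i
    simp only [Matrix.mulVec, Matrix.replicateCol_apply, Matrix.replicateRow_apply, dotProduct,
      Finset.univ_unique, Finset.sum_singleton, Pi.smul_apply, smul_eq_mul]
    ring
  refine ⟨⟨1 + Matrix.replicateCol Unit a * Matrix.replicateRow Unit φ, ?_⟩, ?_, c, hc0, ?_⟩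
  · rw [Matrix.det_one_add_replicateCol_mul_replicateRow, hφa, add_zero]
  · intro x hx
    show (1 + Matrix.replicateCol Unit a * Matrix.replicateRow Unit φ :
      Matrix ι ι (ZMod p)).mulVec x = x
    rw [hmv, h1 x hx, zero_smul, add_zero]
  · show (1 + Matrix.replicateCol Unit a * Matrix.replicateRow Unit φ :
      Matrix ι ι (ZMod p)).mulVec u = c • w
    rw [hmv, ha, smul_smul, mul_inv_cancel₀ h2, one_smul]
    abel

theorem cx_map_mul (g h : Matrix.SpecialLinearGroup ι (ZMod p))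
    (U : Submodule (ZMod p) (ι → ZMod p)) :
    U.map (Matrix.mulVecLin (g * h).1) = (U.map (Matrix.mulVecLin h.1)).map
      (Matrix.mulVecLin g.1) := by
  rw [← Submodule.map_comp, ← Matrix.mulVecLin_mul]
  rfl

theorem cx_map_one (U : Submodule (ZMod p) (ι → ZMod p)) :
    U.map (Matrix.mulVecLin (1 : Matrix.SpecialLinearGroup ι (ZMod p)).1) = U := by
  have : Matrix.mulVecLin (1 : Matrix.SpecialLinearGroup ι (ZMod p)).1 = LinearMap.id :=
    Matrix.mulVecLin_one
  rw [this, Submodule.map_id]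

omit [DecidableEq ι] in
theorem cx_sup_eq {U L : Submodule (ZMod p) (ι → ZMod p)} (hL : L ≤ U)
    (hd : finrank (ZMod p) U = finrank (ZMod p) L + 1) (u : ι → ZMod p) (hu : u ∈ U)
    (huL : u ∉ L) : L ⊔ Submodule.span (ZMod p) {u} = U := by
  refine Submodule.eq_of_le_of_finrank_le (sup_le hL ?_) ?_
  · rw [Submodule.span_le, Set.singleton_subset_iff]
    exact hu
  · rw [hd, Nat.succ_le_iff]
    refine Submodule.finrank_lt_finrank_of_lt ?_
    refine lt_of_le_of_ne le_sup_left fun h => huL ?_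
    rw [h]
    exact Submodule.mem_sup_right (Submodule.mem_span_singleton_self u)

/-- `SL_n(F)` is transitive on flags -/
theorem cx_flag (s : ℕ) (U W : ℕ → Submodule (ZMod p) (ι → ZMod p))
    (hU : ∀ i ≤ s, finrank (ZMod p) (U i) = i) (hW : ∀ i ≤ s, finrank (ZMod p) (W i) = i)
    (hUm : ∀ i, i < s → U i ≤ U (i + 1)) (hWm : ∀ i, i < s → W i ≤ W (i + 1)) :
    ∃ h : Matrix.SpecialLinearGroup ι (ZMod p), ∀ i ≤ s,
      (U i).map (Matrix.mulVecLin h.1) = W i := by
  induction s with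
  | zero =>
    refine ⟨1, fun i hi => ?_⟩
    obtain rfl : i = 0 := by omega
    rw [cx_map_one]
    have h1 := hU 0 le_rfl
    have h2 := hW 0 le_rfl
    rw [Submodule.finrank_eq_zero] at h1 h2
    rw [h1, h2]
  | succ s ih =>
    obtain ⟨h, hh⟩ := ih (fun i hi => hU i (by omega)) (fun i hi => hW i (by omega))
      (fun i hi => hUm i (by omega)) (fun i hi => hWm i (by omega))
    -- pull back
    set W' : Submodule (ZMod p) (ι → ZMod p) := (W (s + 1)).map (Matrix.mulVecLin (h⁻¹).1)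
      with hW'
    have hWh : W'.map (Matrix.mulVecLin h.1) = W (s + 1) := by
      rw [hW', ← cx_map_mul, mul_inv_cancel, cx_map_one]
    have hUW : (W s).map (Matrix.mulVecLin (h⁻¹).1) = U s := by
      rw [← hh s le_rfl, ← cx_map_mul, inv_mul_cancel, cx_map_one]
    have hle : U s ≤ W' := by
      rw [← hUW]
      exact Submodule.map_mono (hWm s (by omega))
    have hinj : Function.Injective (Matrix.mulVecLin (h⁻¹).1) := by
      intro x y hxy
      have h1 := congrArg (Matrix.mulVecLin h.1) hxy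
      simp only [Matrix.mulVecLin_apply, Matrix.mulVec_mulVec] at h1
      have h2 : h.1 * (h⁻¹).1 = 1 := by
        have := congrArg Subtype.val (mul_inv_cancel h)
        exact this
      rwa [h2, Matrix.one_mulVec, Matrix.one_mulVec] at h1
    have hdW : finrank (ZMod p) W' = s + 1 := by
      rw [hW', ← (Submodule.equivMapOfInjective _ hinj (W (s + 1))).finrank_eq,
        hW (s + 1) le_rfl]
    have hdU := hU (s + 1) le_rfl
    have hds := hU s (by omega)
    have hltU : U s < U (s + 1) := lt_of_le_of_ne (hUm s (by omega)) fun h' => by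
      rw [← h', hds] at hdU
      omega
    have hltW : U s < W' := lt_of_le_of_ne hle fun h' => by
      rw [← h', hds] at hdW
      omega
    obtain ⟨u, huU, hus⟩ := SetLike.exists_of_lt hltU
    obtain ⟨w, hwW, hws⟩ := SetLike.exists_of_lt hltW
    obtain ⟨f, hf1, c, hc, hf2⟩ := cx_step (U s) u w hus hws
    have hfs : ∀ L : Submodule (ZMod p) (ι → ZMod p), L ≤ U s →
        L.map (Matrix.mulVecLin f.1) = L := by
      intro L hL
      ext x
      constructor
      · rintro ⟨y, hy, rfl⟩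
        rw [Matrix.mulVecLin_apply, hf1 y (hL hy)]
        exact hy
      · intro hx
        exact ⟨x, hx, by rw [Matrix.mulVecLin_apply, hf1 x (hL hx)]⟩
    have hmono : ∀ i ≤ s, U i ≤ U s := by
      intro i hi
      obtain ⟨j, rfl⟩ := Nat.exists_eq_add_of_le hi
      have : ∀ j', j' ≤ j → U i ≤ U (i + j') := by
        intro j' hj'
        induction j' with
        | zero => exact le_rfl
        | succ j' ih' => exact (ih' (by omega)).trans (hUm (i + j') (by omega))
      exact this j le_rfl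
    refine ⟨h * f, fun i hi => ?_⟩
    rw [cx_map_mul]
    rcases Nat.lt_or_ge s i with h1 | h1
    · obtain rfl : i = s + 1 := by omega
      have e1 : (U (s + 1)).map (Matrix.mulVecLin f.1) = W' := by
        rw [← cx_sup_eq hltU.le (by omega) u huU hus, Submodule.map_sup, hfs _ le_rfl,
          Submodule.map_span, Set.image_singleton, Matrix.mulVecLin_apply, hf2,
          Submodule.span_singleton_smul_eq (IsUnit.mk0 c hc),
          cx_sup_eq hltW.le (by omega) w hwW hws]
      rw [e1, hWh]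
    · rw [hfs _ (hmono i h1)]
      exact hh i h1

/-- transitivity on full chains of subspaces of dimension `≤ r` -/
theorem cx_flag' (r : ℕ) (c c' : Finset (Submodule (ZMod p) (ι → ZMod p)))
    (hc : IsChain (· ≤ ·) (c : Set (Submodule (ZMod p) (ι → ZMod p))))
    (hc' : IsChain (· ≤ ·) (c' : Set (Submodule (ZMod p) (ι → ZMod p))))
    (hcr : ∀ U ∈ c, finrank (ZMod p) U ≤ r) (hcr' : ∀ U ∈ c', finrank (ZMod p) U ≤ r)
    (hcard : c.card = r + 1) (hcard' : c'.card = r + 1) :
    ∃ h : Matrix.SpecialLinearGroup ι (ZMod p),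
      c' = c.image (fun U => U.map (Matrix.mulVecLin h.1)) := by
  have key : ∀ c : Finset (Submodule (ZMod p) (ι → ZMod p)),
      IsChain (· ≤ ·) (c : Set (Submodule (ZMod p) (ι → ZMod p))) →
      (∀ U ∈ c, finrank (ZMod p) U ≤ r) → c.card = r + 1 →
      ∃ U : ℕ → Submodule (ZMod p) (ι → ZMod p), (∀ i ≤ r, finrank (ZMod p) (U i) = i) ∧
        (∀ i, i < r → U i ≤ U (i + 1)) ∧ c = (Finset.range (r + 1)).image U := by
    intro c hc hcr hcard
    obtain ⟨hinj, -⟩ := cx_card_le r c hc hcr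
    have h1 : c.image (fun U : Submodule (ZMod p) (ι → ZMod p) => finrank (ZMod p) U) = Finset.range (r + 1) := by
      refine Finset.eq_of_subset_of_card_le ?_ ?_
      · intro d hd
        obtain ⟨U, hU, rfl⟩ := Finset.mem_image.1 hd
        exact Finset.mem_range.2 (by have := hcr U hU; omega)
      · rw [Finset.card_range, Finset.card_image_of_injOn hinj, hcard]
    have h2 : ∀ i, ∃ U : Submodule (ZMod p) (ι → ZMod p), i ≤ r → U ∈ c ∧
        finrank (ZMod p) U = i := by
      intro i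
      by_cases hi : i ≤ r
      · have h3 : i ∈ c.image (fun U : Submodule (ZMod p) (ι → ZMod p) => finrank (ZMod p) U) := by
          rw [h1]
          exact Finset.mem_range.2 (by omega)
        obtain ⟨U, hU, hUi⟩ := Finset.mem_image.1 h3
        exact ⟨U, fun _ => ⟨hU, hUi⟩⟩
      · exact ⟨⊥, fun h => absurd h hi⟩
    choose U hU using h2
    refine ⟨U, fun i hi => (hU i hi).2, fun i hi => ?_, ?_⟩
    · refine cx_le_of_finrank hc (hU i (by omega)).1 (hU (i + 1) (by omega)).1 ?_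
      rw [(hU i (by omega)).2, (hU (i + 1) (by omega)).2]
      omega
    · ext W
      rw [Finset.mem_image]
      constructor
      · intro hW
        have h4 := hcr W hW
        refine ⟨finrank (ZMod p) W, Finset.mem_range.2 (by omega), ?_⟩
        exact hinj (hU _ h4).1 hW (hU _ h4).2
      · rintro ⟨i, hi, rfl⟩
        exact (hU i (by have := Finset.mem_range.1 hi; omega)).1
  obtain ⟨U, hU1, hU2, hU3⟩ := key c hc hcr hcard
  obtain ⟨W, hW1, hW2, hW3⟩ := key c' hc' hcr' hcard'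
  obtain ⟨h, hh⟩ := cx_flag r U W hU1 hW1 hU2 hW2
  refine ⟨h, ?_⟩
  rw [hU3, hW3, Finset.image_image]
  refine Finset.image_congr ?_
  intro i hi
  have := Finset.mem_range.1 (Finset.mem_coe.1 hi)
  exact (hh i (by omega)).symm

end trans

variable {p m : ℕ} [Fact p.Prime] {R : Type} [CommRing R] [Algebra (ZMod p) R]
  {ι : Type} [Fintype ι] [DecidableEq ι]

theorem isCx_XX (A : TR p m R) (r : ℕ) : IsCx (A.XX ι r) := by
  refine ⟨⟨1, ∅, by simp, by simp, by simp⟩, ?_⟩
  rintro σ ⟨g, c, hc, hr, rfl⟩ τ hτ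
  refine ⟨g, c.filter fun U => (A.std U).map (gm p g.1) ∈ τ, ?_, ?_, ?_⟩
  · refine hc.mono ?_
    intro U hU
    exact (Finset.mem_filter.1 (Finset.mem_coe.1 hU)).1
  · intro U hU
    exact hr U (Finset.mem_filter.1 hU).1
  · ext S
    rw [Finset.mem_image]
    constructor
    · intro hS
      obtain ⟨U, hU, rfl⟩ := Finset.mem_image.1 (hτ hS)
      exact ⟨U, Finset.mem_filter.2 ⟨hU, hS⟩, rfl⟩
    · rintro ⟨U, hU, rfl⟩
      exact (Finset.mem_filter.1 hU).2

theorem XX_map (A : TR p m R) (r : ℕ) (g : Matrix.SpecialLinearGroup ι R)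
    (σ : Finset (Submodule (ZMod p) (ι → R))) :
    σ.image (fun S => S.map (gm p g.1)) ∈ A.XX ι r ↔ σ ∈ A.XX ι r := by
  have key : ∀ (g : Matrix.SpecialLinearGroup ι R) (σ : Finset (Submodule (ZMod p) (ι → R))),
      σ ∈ A.XX ι r → σ.image (fun S => S.map (gm p g.1)) ∈ A.XX ι r := by
    rintro g σ ⟨h, c, hc, hr, rfl⟩
    refine ⟨g * h, c, hc, hr, ?_⟩
    rw [Finset.image_image]
    congr 1
    funext U
    exact (map_gm_mul g.1 h.1 (A.std U)).symm
  refine ⟨fun h => ?_, key g σ⟩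
  have h1 := key g⁻¹ _ h
  rw [Finset.image_image] at h1
  have h2 : (fun S : Submodule (ZMod p) (ι → R) => S.map (gm p (g⁻¹).1)) ∘
      (fun S => S.map (gm p g.1)) = id := by
    funext S
    exact map_gm_inv g S
  rwa [h2, Finset.image_id] at h1

theorem mem_XX_single (A : TR p m R) (r : ℕ) (S : Submodule (ZMod p) (ι → R)) :
    {S} ∈ A.XX ι r ↔ ∃ g : Matrix.SpecialLinearGroup ι R,
      ∃ U : Submodule (ZMod p) (ι → ZMod p), finrank (ZMod p) U ≤ r ∧
        S = (A.std U).map (gm p g.1) := by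
  constructor
  · rintro ⟨g, c, -, hr, h⟩
    have hS : S ∈ c.image (fun U => (A.std U).map (gm p g.1)) := by
      rw [← h]
      exact Finset.mem_singleton_self S
    obtain ⟨U, hU, hUS⟩ := Finset.mem_image.1 hS
    exact ⟨g, U, hr U hU, hUS.symm⟩
  · rintro ⟨g, U, hU, rfl⟩
    refine ⟨g, {U}, by simp, ?_, by simp⟩
    intro W hW
    rw [Finset.mem_singleton.1 hW]
    exact hU

theorem XX_chain (A : TR p m R) (hm : 2 ≤ m) (r : ℕ) {σ : Finset (Submodule (ZMod p) (ι → R))}
    (hσ : σ ∈ A.XX ι r) : IsChain (· ≤ ·) (σ : Set (Submodule (ZMod p) (ι → R))) := by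
  obtain ⟨g, c, hc, hr, rfl⟩ := hσ
  intro S hS S' hS' hne
  obtain ⟨U, hU, rfl⟩ := Finset.mem_image.1 (Finset.mem_coe.1 hS)
  obtain ⟨W, hW, rfl⟩ := Finset.mem_image.1 (Finset.mem_coe.1 hS')
  have hne' : U ≠ W := fun h => hne (by rw [h])
  rcases hc hU hW hne' with h | h
  · left
    show (A.std U).map (gm p g.1) ≤ (A.std W).map (gm p g.1)
    rw [map_gm_le_iff, std_le_iff A hm]
    exact h
  · right
    show (A.std W).map (gm p g.1) ≤ (A.std U).map (gm p g.1)
    rw [map_gm_le_iff, std_le_iff A hm]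
    exact h

/-- two vertices of a face in standard position -/
theorem cx_pair (A : TR p m R) (r : ℕ) {σ : Finset (Submodule (ZMod p) (ι → R))}
    (hσ : σ ∈ A.XX ι r) {S S' : Submodule _ _} (hS : S ∈ σ) (hS' : S' ∈ σ) :
    ∃ (g : Matrix.SpecialLinearGroup ι R) (U U' : Submodule (ZMod p) (ι → ZMod p)),
      finrank (ZMod p) U ≤ r ∧ finrank (ZMod p) U' ≤ r ∧ (U ≤ U' ∨ U' ≤ U) ∧
      S = (A.std U).map (gm p g.1) ∧ S' = (A.std U').map (gm p g.1) := by
  obtain ⟨g, c, hc, hr, rfl⟩ := hσ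
  obtain ⟨U, hU, rfl⟩ := Finset.mem_image.1 hS
  obtain ⟨W, hW, rfl⟩ := Finset.mem_image.1 hS'
  refine ⟨g, U, W, hr U hU, hr W hW, ?_, rfl, rfl⟩
  rcases eq_or_ne U W with rfl | hne
  · exact Or.inl le_rfl
  · exact hc hU hW hne

theorem XX_ty_inj (A : TR p m R) (hm : 2 ≤ m) (r : ℕ)
    {σ : Finset (Submodule (ZMod p) (ι → R))} (hσ : σ ∈ A.XX ι r) {S S' : Submodule _ _}
    (hS : S ∈ σ) (hS' : S' ∈ σ) (h : ty S = ty S') : S = S' := by
  obtain ⟨g, U, U', -, -, hUU, rfl, rfl⟩ := cx_pair A r hσ hS hS'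
  rw [ty_std A hm, ty_std A hm] at h
  rcases hUU with h1 | h1
  · rw [Submodule.eq_of_le_of_finrank_eq h1 h]
  · rw [Submodule.eq_of_le_of_finrank_eq h1 h.symm]

theorem XX_lt_iff (A : TR p m R) (hm : 2 ≤ m) (r : ℕ)
    {σ : Finset (Submodule (ZMod p) (ι → R))} (hσ : σ ∈ A.XX ι r) {S S' : Submodule _ _}
    (hS : S ∈ σ) (hS' : S' ∈ σ) : S < S' ↔ ty S < ty S' := by
  obtain ⟨g, U, U', -, -, hUU, rfl, rfl⟩ := cx_pair A r hσ hS hS'
  rw [ty_std A hm, ty_std A hm]
  have h0 : (A.std U).map (gm p g.1) < (A.std U').map (gm p g.1) ↔ U < U' := by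
    rw [lt_iff_le_not_ge, lt_iff_le_not_ge, map_gm_le_iff, map_gm_le_iff, std_le_iff A hm,
      std_le_iff A hm]
  rw [h0]
  constructor
  · intro h
    exact Submodule.finrank_lt_finrank_of_lt h
  · intro h
    rcases hUU with h1 | h1
    · refine lt_of_le_of_ne h1 ?_
      rintro rfl
      exact lt_irrefl _ h
    · exact absurd (Submodule.finrank_mono h1) (by omega)

theorem XX_ty_le (A : TR p m R) (hm : 2 ≤ m) (r : ℕ)
    {σ : Finset (Submodule (ZMod p) (ι → R))} (hσ : σ ∈ A.XX ι r) {S : Submodule _ _}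
    (hS : S ∈ σ) : ty S ≤ r := by
  obtain ⟨g, U, U', hU, -, -, rfl, -⟩ := cx_pair A r hσ hS hS
  rw [ty_std A hm]
  exact hU

/-- levels of adjacent vertices -/
theorem lev_adj (A : TR p m R) (hm : 3 ≤ m) (r : ℕ)
    {σ : Finset (Submodule (ZMod p) (ι → R))} (hσ : σ ∈ A.XX ι r) {S S' : Submodule _ _}
    (hS : S ∈ σ) (hS' : S' ∈ σ) (h : S ≤ S') (e : ℕ) :
    A.lev S e ≤ A.lev S' e ∧ A.lev S' e ≤ A.lev S (e + 1) := by
  refine ⟨lev_mono_left A h e, ?_⟩
  obtain ⟨g, U, U', -, -, -, rfl, rfl⟩ := cx_pair A r hσ hS hS'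
  rw [lev_map, lev_map, map_gm_le_iff]
  intro v hv
  rw [mem_lev_std A hm] at hv ⊢
  refine ⟨?_, fun a ha => hv.2 a (by omega)⟩
  rw [hv.2 (e + 1) (by omega)]
  exact U.zero_mem

theorem KK_adj (A : TR p m R) {S S' : Submodule (ZMod p) (ι → R)} (h : S ≤ S') :
    A.KK S ≤ A.KK S' :=
  sup_le_sup (lev_mono_left A h 0) (Submodule.map_mono (lev_mono_left A h 0))

/-- every face is contained in a face with `r + 1` vertices -/
theorem XX_pure (A : TR p m R) (hm : 2 ≤ m) (r : ℕ) (hr : r ≤ Fintype.card ι)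
    {σ : Finset (Submodule (ZMod p) (ι → R))} (hσ : σ ∈ A.XX ι r) :
    ∃ τ ∈ A.XX ι r, σ ⊆ τ ∧ τ.card = r + 1 := by
  obtain ⟨g, c, hc, hcr, rfl⟩ := hσ
  obtain ⟨c', h1, h2, h3, h4⟩ := cx_full r (by rw [finrank_fintype_fun_eq_card]; exact hr)
    c hc hcr
  refine ⟨c'.image (fun U => (A.std U).map (gm p g.1)), ⟨g, c', h2, h3, rfl⟩,
    Finset.image_subset_image h1, ?_⟩
  rw [Finset.card_image_of_injective, h4]
  intro U W h
  exact std_injective A hm (map_gm_injective g h)

/-- types of a face with `r + 1` vertices -/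
theorem XX_top_ty (A : TR p m R) (hm : 2 ≤ m) (r : ℕ)
    {σ : Finset (Submodule (ZMod p) (ι → R))} (hσ : σ ∈ A.XX ι r) (hc : σ.card = r + 1) :
    σ.image ty = Finset.range (r + 1) := by
  refine Finset.eq_of_subset_of_card_le ?_ ?_
  · intro d hd
    obtain ⟨S, hS, rfl⟩ := Finset.mem_image.1 hd
    exact Finset.mem_range.2 (by have := XX_ty_le A hm r hσ hS; omega)
  · rw [Finset.card_range, Finset.card_image_of_injOn, hc]
    intro S hS S' hS' h
    exact XX_ty_inj A hm r hσ (Finset.mem_coe.1 hS) (Finset.mem_coe.1 hS') h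

/-- transitivity on the faces with `r + 1` vertices -/
theorem XX_trans (A : TR p m R) (hm : 2 ≤ m) (r : ℕ) (hr : r < Fintype.card ι)
    {σ τ : Finset (Submodule (ZMod p) (ι → R))} (hσ : σ ∈ A.XX ι r) (hc : σ.card = r + 1)
    (hτ : τ ∈ A.XX ι r) (hc' : τ.card = r + 1) :
    ∃ g : Matrix.SpecialLinearGroup ι R, τ = σ.image (fun S => S.map (gm p g.1)) := by
  obtain ⟨a, c, hch, hcr, rfl⟩ := hσ
  obtain ⟨b, c', hch', hcr', rfl⟩ := hτ
  rw [Finset.card_image_of_injective _ (fun U W h =>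
    std_injective A hm (map_gm_injective a h))] at hc
  rw [Finset.card_image_of_injective _ (fun U W h =>
    std_injective A hm (map_gm_injective b h))] at hc'
  obtain ⟨h, hh⟩ := cx_flag' r c c' hch hch' hcr hcr' hc hc'
  refine ⟨b * h.map (algebraMap (ZMod p) R) * a⁻¹, ?_⟩
  rw [hh, Finset.image_image, Finset.image_image]
  congr 1
  funext U
  show (A.std (U.map (Matrix.mulVecLin h.1))).map (gm p b.1) =
    ((A.std U).map (gm p a.1)).map (gm p (b.1 * (h.map (algebraMap (ZMod p) R)).1 * (a⁻¹).1))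
  rw [map_gm_mul, map_gm_inv, map_gm_mul, std_map_const]

theorem XX_finite (A : TR p m R) (r : ℕ) : (A.XX ι r).Finite := by
  have h1 : Finite R := A.finiteR
  have h2 : Finite (Submodule (ZMod p) (ι → R)) :=
    Finite.of_injective (fun S : Submodule (ZMod p) (ι → R) => (S : Set (ι → R)))
      SetLike.coe_injective
  exact Set.toFinite _

end P067X
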