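import Vale.Agent.P067A.SmallSet
import Vale.Agent.P067A.Clean
import Vale.Agent.P067A.SpDefs
import Vale.Agent.P067X.Cone

/-!
# P067, module EXP: fillings and a transitive group give coboundary expansion of the links

PROOF.  `exists_cone` gives `κ` for the complex `Lk (KT T) s`; for a cochain `f` and a face `σ` with `k` vertices
`f σ + cob (f ∘ κ) σ = (cob f)(κ σ)` (`f` extended linearly).  The stabiliser `G_s` of `s` (pointwise) acts transitively on the
top faces of the link (types are preserved, so `g t = t'`, `s ⊆ t, t'` implies `g` fixes `s` pointwise), hence transitively on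
the faces of each type of the link.  Average over `g ∈ G_s` the weight of `(cob f)(g κ (g⁻¹ σ))`:
`P(g⁻¹ τ = τ') ≤ 1 / |orbit of τ| = Wt τ / |lk T s|`, so the average of the norm is at most
`B * (∑_σ Wt σ) / |lk T s| * nrm (cob f) ≤ B * 2 ^ |I| * nrm (cob f)`; some `g` is at most the average.
-/

namespace P067X

open Classical Vale.Agent.P067A

/-- the complex with top faces `T` -/
def KT {V : Type} (T : Finset (Finset V)) : Set (Finset V) := {σ | ∃ t ∈ T, σ ⊆ t}

theorem isCx_KT {V : Type} (T : Finset (Finset V)) (hT : T.Nonempty) : IsCx (KT T) := by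
  refine ⟨?_, ?_⟩
  · obtain ⟨t, ht⟩ := hT
    exact ⟨t, ht, Finset.empty_subset _⟩
  · rintro σ ⟨t, ht, hσ⟩ τ hτ
    exact ⟨t, ht, hτ.trans hσ⟩

theorem lk_KT {V : Type} [Fintype V] (T : Finset (Finset V)) (s : Finset V) :
    KT (lk T s) = Lk (KT T) s := by
  ext σ
  simp only [KT, Lk, lk, Finset.mem_image, Finset.mem_filter, Set.mem_ofPred_eq]
  constructor
  · rintro ⟨t, ⟨u, ⟨hu, hs⟩, rfl⟩, hσ⟩
    refine ⟨?_, u, hu, Finset.union_subset hs (hσ.trans Finset.sdiff_subset)⟩
    rw [Finset.disjoint_left]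
    intro x hx hxσ
    exact (Finset.mem_sdiff.1 (hσ hxσ)).2 hx
  · rintro ⟨hd, u, hu, hsu⟩
    refine ⟨u \ s, ⟨u, ⟨hu, Finset.subset_union_left.trans hsu⟩, rfl⟩, ?_⟩
    intro x hx
    exact Finset.mem_sdiff.2 ⟨hsu (Finset.mem_union_right _ hx),
      fun hxs => (Finset.disjoint_left.1 hd) hxs hx⟩

/-- positive weight means membership in the complex -/
theorem mem_KT_iff {V : Type} [Fintype V] (T : Finset (Finset V)) (σ : Finset V) :
    σ ∈ KT T ↔ 0 < Wt T σ := by
  unfold Wt
  rw [Finset.card_pos]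
  constructor
  · rintro ⟨t, ht, h⟩
    exact ⟨t, Finset.mem_filter.2 ⟨ht, h⟩⟩
  · rintro ⟨t, ht⟩
    rw [Finset.mem_filter] at ht
    exact ⟨t, ht.1, ht.2⟩

section act

variable {V : Type} {G : Type} [Group G] [MulAction G V]

/-- action on faces -/
noncomputable def act (g : G) (t : Finset V) : Finset V := t.image (fun x => g • x)

theorem act_card (g : G) (t : Finset V) : (act g t).card = t.card :=
  Finset.card_image_of_injective _ (MulAction.injective g)

theorem act_mul (g h : G) (t : Finset V) : act (g * h) t = act g (act h t) := by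
  unfold act
  rw [Finset.image_image]
  refine Finset.image_congr fun x _ => ?_
  exact mul_smul g h x

theorem act_one (t : Finset V) : act (1 : G) t = t := by
  unfold act
  simp

theorem act_inv_act (g : G) (t : Finset V) : act g⁻¹ (act g t) = t := by
  rw [← act_mul, inv_mul_cancel, act_one]

theorem act_act_inv (g : G) (t : Finset V) : act g (act g⁻¹ t) = t := by
  rw [← act_mul, mul_inv_cancel, act_one]

theorem act_injective (g : G) : Function.Injective (act g : Finset V → Finset V) := by
  intro a b h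
  rw [← act_inv_act g a, h, act_inv_act]

theorem act_sdiff (g : G) (t s : Finset V) : act g (t \ s) = act g t \ act g s :=
  Finset.image_sdiff _ _ (MulAction.injective g)

theorem act_subset (g : G) {t s : Finset V} : act g s ⊆ act g t ↔ s ⊆ t := by
  constructor
  · intro h
    have := Finset.image_subset_image (f := fun x => g⁻¹ • x) h
    have e1 : ∀ u : Finset V, (act g u).image (fun x => g⁻¹ • x) = u := fun u => act_inv_act g u
    rwa [e1, e1] at this
  · intro h
    exact Finset.image_subset_image h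

theorem act_erase (g : G) (t : Finset V) (x : V) : act g (t.erase x) = (act g t).erase (g • x) := by
  rw [← Finset.sdiff_singleton_eq_erase, act_sdiff, ← Finset.sdiff_singleton_eq_erase]
  unfold act
  rw [Finset.image_singleton]

theorem act_fix (g : G) {s : Finset V} (h : ∀ x ∈ s, g • x = x) : act g s = s := by
  unfold act
  calc s.image (fun x => g • x) = s.image id := Finset.image_congr fun x hx => h x hx
    _ = s := Finset.image_id

/-- the coboundary commutes with the action -/
theorem cob_act (g : G) (f : Finset V → ZMod 2) (r : Finset V) :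
    P067X.cob (fun σ => f (act g σ)) r = P067X.cob f (act g r) := by
  unfold P067X.cob
  rw [show act g r = r.image (fun x => g • x) from rfl,
    Finset.sum_image (fun x _ y _ h => MulAction.injective g h)]
  refine Finset.sum_congr rfl fun x _ => ?_
  show f (act g (r.erase x)) = _
  rw [act_erase]
  rfl

end act

/-- Some `g` is at most the average: the combinatorial heart. -/
theorem exp_avg {V : Type} [Fintype V] (L : Finset (Finset V)) {G : Type}
    [Group G] [MulAction G V] (GS : Finset G)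
    (hmul : ∀ g ∈ GS, ∀ h ∈ GS, g * h ∈ GS) (hinv : ∀ g ∈ GS, g⁻¹ ∈ GS)
    (hact : ∀ g ∈ GS, ∀ t ∈ L, act g t ∈ L)
    (htr : ∀ t ∈ L, ∀ t' ∈ L, ∃ g ∈ GS, act g t = t')
    (D : Finset (Finset V)) (ρ : Finset V) (hρ : ρ ∈ KT L) :
    (GS.filter (fun g => act g ρ ∈ D)).card * L.card ≤ GS.card * ∑ τ ∈ D, Wt L τ := by
  obtain ⟨t₀, ht₀, hρt⟩ := hρ
  set m : ℕ := (GS.filter (fun g => act g t₀ = t₀)).card with hm
  have hfib : ∀ t ∈ L, (GS.filter (fun g => act g t₀ = t)).card = m := by
    intro t ht
    obtain ⟨h, hh, hht⟩ := htr t₀ ht₀ t ht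
    rw [hm]
    refine Finset.card_bij' (fun g _ => h⁻¹ * g) (fun g _ => h * g) ?_ ?_ ?_ ?_
    · intro g hg
      rw [Finset.mem_filter] at hg ⊢
      refine ⟨hmul _ (hinv _ hh) _ hg.1, ?_⟩
      rw [act_mul, hg.2, ← hht, act_inv_act]
    · intro g hg
      rw [Finset.mem_filter] at hg ⊢
      refine ⟨hmul _ hh _ hg.1, ?_⟩
      rw [act_mul, hg.2, hht]
    · intro g _
      simp
    · intro g _
      simp
  have hcard : GS.card = L.card * m := by
    rw [Finset.card_eq_sum_card_fiberwise (f := fun g => act g t₀) (t := L)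
      (fun g hg => hact g hg t₀ ht₀)]
    rw [Finset.sum_congr rfl hfib, Finset.sum_const, smul_eq_mul]
  -- the set of tops containing an element of `D`
  set L' : Finset (Finset V) := L.filter (fun t => ∃ τ ∈ D, τ ⊆ t) with hL'
  have hsub : (GS.filter (fun g => act g ρ ∈ D)).card ≤ L'.card * m := by
    have h2 : (GS.filter (fun g => act g ρ ∈ D)) ⊆
        L'.biUnion (fun t => GS.filter (fun g => act g t₀ = t)) := by
      intro g hg
      rw [Finset.mem_filter] at hg
      rw [Finset.mem_biUnion]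
      refine ⟨act g t₀, ?_, Finset.mem_filter.2 ⟨hg.1, rfl⟩⟩
      rw [hL', Finset.mem_filter]
      exact ⟨hact g hg.1 t₀ ht₀, act g ρ, hg.2, (act_subset g).2 hρt⟩
    calc (GS.filter (fun g => act g ρ ∈ D)).card
        ≤ (L'.biUnion (fun t => GS.filter (fun g => act g t₀ = t))).card := Finset.card_le_card h2
      _ ≤ ∑ t ∈ L', (GS.filter (fun g => act g t₀ = t)).card := Finset.card_biUnion_le
      _ = ∑ t ∈ L', m := Finset.sum_congr rfl fun t ht => hfib t (Finset.mem_filter.1 ht).1
      _ = L'.card * m := by rw [Finset.sum_const, smul_eq_mul]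
  have hL'c : L'.card ≤ ∑ τ ∈ D, Wt L τ := by
    have h2 : L' ⊆ D.biUnion (fun τ => L.filter (fun t => τ ⊆ t)) := by
      intro t ht
      rw [hL', Finset.mem_filter] at ht
      obtain ⟨ht, τ, hτ, hτt⟩ := ht
      rw [Finset.mem_biUnion]
      exact ⟨τ, hτ, Finset.mem_filter.2 ⟨ht, hτt⟩⟩
    exact (Finset.card_le_card h2).trans Finset.card_biUnion_le
  calc (GS.filter (fun g => act g ρ ∈ D)).card * L.card ≤ (L'.card * m) * L.card :=
        Nat.mul_le_mul_right _ hsub
    _ = GS.card * L'.card := by rw [hcard]; ring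
    _ ≤ GS.card * ∑ τ ∈ D, Wt L τ := Nat.mul_le_mul_left _ hL'c

/-- weights are invariant -/
theorem Wt_act {V : Type} [Fintype V] (L : Finset (Finset V)) {G : Type}
    [Group G] [MulAction G V] (g : G) (hact : ∀ t ∈ L, act g t ∈ L)
    (hact' : ∀ t ∈ L, act g⁻¹ t ∈ L) (σ : Finset V) : Wt L (act g σ) = Wt L σ := by
  unfold Wt
  refine Finset.card_bij' (fun t _ => act g⁻¹ t) (fun t _ => act g t) ?_ ?_ ?_ ?_
  · intro t ht
    rw [Finset.mem_filter] at ht ⊢
    refine ⟨hact' t ht.1, ?_⟩
    rw [← act_subset g, act_act_inv]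
    exact ht.2
  · intro t ht
    rw [Finset.mem_filter] at ht ⊢
    exact ⟨hact t ht.1, (act_subset g).2 ht.2⟩
  · intro t _
    exact act_act_inv g t
  · intro t _
    exact act_inv_act g t

theorem nrm_act {V : Type} [Fintype V] (L : Finset (Finset V)) {G : Type}
    [Group G] [MulAction G V] (g : G) (hact : ∀ t ∈ L, act g t ∈ L)
    (hact' : ∀ t ∈ L, act g⁻¹ t ∈ L) (k : ℕ) (f : Finset V → ZMod 2) :
    nrm L k (fun σ => f (act g σ)) = nrm L k f := by
  unfold nrm
  refine Finset.sum_bij' (fun σ _ => act g σ) (fun σ _ => act g⁻¹ σ) ?_ ?_ ?_ ?_ ?_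
  · intro σ hσ
    rw [Finset.mem_powersetCard_univ] at hσ ⊢
    rw [act_card, hσ]
  · intro σ hσ
    rw [Finset.mem_powersetCard_univ] at hσ ⊢
    rw [act_card, hσ]
  · intro σ _
    exact act_inv_act g σ
  · intro σ _
    exact act_act_inv g σ
  · intro σ _
    rw [Wt_act L g hact hact']

theorem lc_bd {V : Type} (f : Finset V → ZMod 2) (c : Ch V) :
    Finsupp.linearCombination (ZMod 2) f (bd c) =
      Finsupp.linearCombination (ZMod 2) (P067X.cob f) c := by
  have h : (Finsupp.linearCombination (ZMod 2) f) ∘ₗ bd =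
      Finsupp.linearCombination (ZMod 2) (P067X.cob f) := by
    refine Finsupp.lhom_ext' fun σ => LinearMap.ext_ring ?_
    show Finsupp.linearCombination (ZMod 2) f (bd (Finsupp.single σ 1)) =
      Finsupp.linearCombination (ZMod 2) (P067X.cob f) (Finsupp.single σ 1)
    rw [bd_single, cone_lin_bdf_cob, Finsupp.linearCombination_single, one_smul]
  exact DFunLike.congr_fun h c

theorem zadd (a : ZMod 2) : a + a = 0 := CharTwo.add_self_eq_zero a

/-- the value of `f + cob h` -/
theorem cone_value {V : Type} {κ : Ch V →ₗ[ZMod 2] Ch V} {σ : Finset V}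
    (hκ : bd (κ (Finsupp.single σ 1)) + κ (bdf σ) = Finsupp.single σ 1) (f : Finset V → ZMod 2) :
    f σ + P067X.cob (fun τ => Finsupp.linearCombination (ZMod 2) f (κ (Finsupp.single τ 1))) σ =
      Finsupp.linearCombination (ZMod 2) (P067X.cob f) (κ (Finsupp.single σ 1)) := by
  have h1 := congrArg (Finsupp.linearCombination (ZMod 2) f) hκ
  rw [map_add, lc_bd, Finsupp.linearCombination_single, one_smul] at h1
  have h2 : Finsupp.linearCombination (ZMod 2) f (κ (bdf σ)) =
      P067X.cob (fun τ => Finsupp.linearCombination (ZMod 2) f (κ (Finsupp.single τ 1))) σ := by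
    rw [bdf, map_sum, map_sum]
    rfl
  rw [h2] at h1
  rw [← h1, add_assoc, zadd, add_zero]

/-- total weight -/
theorem sum_Wt_le {V : Type} [Fintype V] (L : Finset (Finset V)) (N : ℕ) (hN : ∀ t ∈ L, t.card ≤ N)
    (S : Finset (Finset V)) : ∑ σ ∈ S, Wt L σ ≤ 2 ^ N * L.card := by
  unfold Wt
  simp only [Finset.card_filter]
  rw [Finset.sum_comm]
  calc ∑ t ∈ L, ∑ σ ∈ S, (if σ ⊆ t then 1 else 0) ≤ ∑ t ∈ L, 2 ^ N := by
        refine Finset.sum_le_sum fun t ht => ?_
        rw [← Finset.card_filter]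
        calc (S.filter (fun σ => σ ⊆ t)).card ≤ t.powerset.card := by
              refine Finset.card_le_card fun σ hσ => ?_
              rw [Finset.mem_powerset]
              exact (Finset.mem_filter.1 hσ).2
          _ = 2 ^ t.card := Finset.card_powerset t
          _ ≤ 2 ^ N := Nat.pow_le_pow_right (by norm_num) (hN t ht)
    _ = 2 ^ N * L.card := by rw [Finset.sum_const, smul_eq_mul, mul_comm]

theorem ce_of_fill {V : Type} [Fintype V] (T : Finset (Finset V)) (I : Finset ℕ) (ty : V → ℕ)
    (hT : Typed I ty T) (G : Type) [Group G] [Finite G] [MulAction G V]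
    (hty : ∀ (g : G) (x : V), ty (g • x) = ty x)
    (hGT : ∀ g : G, ∀ t ∈ T, t.image (fun x => g • x) ∈ T)
    (htr : ∀ t ∈ T, ∀ t' ∈ T, ∃ g : G, t.image (fun x => g • x) = t')
    (B : ℕ → ℕ → ℕ) (s : Finset V) (hs : s ∈ KT T) (k : ℕ) (hk : s.card + k < I.card)
    (hfill : ∀ j ≤ k, Fill (Lk (KT T) s) j (coneA B j) (coneB B j)) :
    CE (lk T s) k (1 / (coneB B k * 2 ^ I.card + 1)) := by
  intro f
  have : Fintype G := Fintype.ofFinite G
  set L : Finset (Finset V) := lk T s with hL
  have hLmem : ∀ t, t ∈ L ↔ ∃ u ∈ T, s ⊆ u ∧ u \ s = t := by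
    intro t
    rw [hL]
    unfold lk
    rw [Finset.mem_image]
    constructor
    · rintro ⟨u, hu, rfl⟩
      rw [Finset.mem_filter] at hu
      exact ⟨u, hu.1, hu.2, rfl⟩
    · rintro ⟨u, hu, hsu, rfl⟩
      exact ⟨u, Finset.mem_filter.2 ⟨hu, hsu⟩, rfl⟩
  have hLne : L.Nonempty := by
    obtain ⟨u, hu, hsu⟩ := hs
    exact ⟨u \ s, (hLmem _).2 ⟨u, hu, hsu, rfl⟩⟩
  have hLcard : ∀ t ∈ L, t.card ≤ I.card := by
    intro t ht
    obtain ⟨u, hu, _, rfl⟩ := (hLmem t).1 ht
    exact (Finset.card_le_card Finset.sdiff_subset).trans (hT.card hu).le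
  obtain ⟨κ, hκ⟩ := exists_cone (isCx_KT L hLne) B k (fun j hj => by
    rw [hL, lk_KT]
    exact hfill j hj)
  -- the stabiliser
  set GS : Finset G := Finset.univ.filter (fun g => ∀ x ∈ s, g • x = x) with hGS
  have hGSmem : ∀ g, g ∈ GS ↔ ∀ x ∈ s, g • x = x := by
    intro g
    rw [hGS, Finset.mem_filter]
    simp
  have h1 : (1 : G) ∈ GS := (hGSmem 1).2 fun x _ => one_smul G x
  have hmul : ∀ g ∈ GS, ∀ h ∈ GS, g * h ∈ GS := by
    intro g hg h hh
    rw [hGSmem] at hg hh ⊢
    intro x hx
    rw [mul_smul, hh x hx, hg x hx]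
  have hinv : ∀ g ∈ GS, g⁻¹ ∈ GS := by
    intro g hg
    rw [hGSmem] at hg ⊢
    intro x hx
    rw [inv_smul_eq_iff]
    exact (hg x hx).symm
  have hact : ∀ g ∈ GS, ∀ t ∈ L, act g t ∈ L := by
    intro g hg t ht
    obtain ⟨u, hu, hsu, rfl⟩ := (hLmem t).1 ht
    have hfix : act g s = s := act_fix g ((hGSmem g).1 hg)
    rw [hLmem]
    refine ⟨act g u, hGT g u hu, ?_, ?_⟩
    · rw [← hfix]
      exact (act_subset g).2 hsu
    · rw [act_sdiff, hfix]
  have htrL : ∀ t ∈ L, ∀ t' ∈ L, ∃ g ∈ GS, act g t = t' := by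
    intro t ht t' ht'
    obtain ⟨u, hu, hsu, rfl⟩ := (hLmem t).1 ht
    obtain ⟨u', hu', hsu', rfl⟩ := (hLmem t').1 ht'
    obtain ⟨g, hg⟩ := htr u hu u' hu'
    have hg' : act g u = u' := hg
    have hgs : ∀ x ∈ s, g • x = x := by
      intro x hx
      have a1 : g • x ∈ u' := by
        rw [← hg']
        exact Finset.mem_image_of_mem _ (hsu hx)
      exact hT.inj u' hu' a1 (hsu' hx) (hty g x)
    refine ⟨g, (hGSmem g).2 hgs, ?_⟩
    rw [act_sdiff, hg', act_fix g hgs]
  -- the cochains
  set fg : G → Finset V → ZMod 2 := fun g σ => f (act g σ) with hfg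
  set hg : G → Finset V → ZMod 2 := fun g τ =>
    Finsupp.linearCombination (ZMod 2) (fg g) (κ (Finsupp.single τ 1)) with hhg
  set D : Finset (Finset V) := (Finset.powersetCard (k + 1) Finset.univ).filter
    (fun τ => P067X.cob f τ ≠ 0) with hD
  set N : ℕ := nrm L (k + 1) (P067X.cob f) with hN
  have hDN : ∑ τ ∈ D, Wt L τ = N := by
    rw [hN, hD]
    unfold nrm
    rw [Finset.sum_filter]
  have hval : ∀ g ∈ GS, ∀ σ ∈ Finset.powersetCard k (Finset.univ : Finset V),
      (if fg g σ + P067X.cob (hg g) σ ≠ 0 then Wt L σ else 0) ≤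
        Wt L σ * ((κ (Finsupp.single σ 1)).support.filter (fun ρ => act g ρ ∈ D)).card := by
    intro g _ σ hσ
    rw [Finset.mem_powersetCard_univ] at hσ
    by_cases hW : 0 < Wt L σ
    · have hσK : σ ∈ KT L := (mem_KT_iff L σ).2 hW
      obtain ⟨k1, k2, _⟩ := hκ σ hσK hσ.le
      have k4 := cone_value k2 (fg g)
      split_ifs with hne
      · have hne2 : Finsupp.linearCombination (ZMod 2) (P067X.cob (fg g))
            (κ (Finsupp.single σ 1)) ≠ 0 := by
          rw [← k4]
          exact hne
        rw [Finsupp.linearCombination_apply, Finsupp.sum] at hne2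
        obtain ⟨ρ, hρ, hρ2⟩ := Finset.exists_ne_zero_of_sum_ne_zero hne2
        have hρ3 : P067X.cob (fg g) ρ ≠ 0 := by
          intro h0
          apply hρ2
          rw [h0, smul_zero]
        have hρ4 : P067X.cob f (act g ρ) ≠ 0 := by
          rw [← cob_act]
          exact hρ3
        have hρD : act g ρ ∈ D := by
          rw [hD, Finset.mem_filter, Finset.mem_powersetCard_univ, act_card]
          refine ⟨?_, hρ4⟩
          rw [(k1 ρ hρ).2, hσ]
        have hpos : 0 < ((κ (Finsupp.single σ 1)).support.filter (fun ρ => act g ρ ∈ D)).card :=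
          Finset.card_pos.2 ⟨ρ, Finset.mem_filter.2 ⟨hρ, hρD⟩⟩
        exact Nat.le_mul_of_pos_right _ hpos
      · exact Nat.zero_le _
    · have h0 : Wt L σ = 0 := by omega
      rw [h0]
      simp
  have hsum : (∑ g ∈ GS, nrm L k (fun σ => fg g σ + P067X.cob (hg g) σ)) * L.card ≤
      GS.card * (coneB B k * 2 ^ I.card * N) * L.card := by
    calc (∑ g ∈ GS, nrm L k (fun σ => fg g σ + P067X.cob (hg g) σ)) * L.card
        ≤ (∑ g ∈ GS, ∑ σ ∈ Finset.powersetCard k (Finset.univ : Finset V),
            Wt L σ * ((κ (Finsupp.single σ 1)).support.filter (fun ρ => act g ρ ∈ D)).card) * L.card := by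
          refine Nat.mul_le_mul_right _ (Finset.sum_le_sum fun g hgS => ?_)
          unfold nrm
          exact Finset.sum_le_sum fun σ hσ => hval g hgS σ hσ
      _ = ∑ σ ∈ Finset.powersetCard k (Finset.univ : Finset V), Wt L σ *
            ∑ ρ ∈ (κ (Finsupp.single σ 1)).support,
              (GS.filter (fun g => act g ρ ∈ D)).card * L.card := by
          rw [Finset.sum_comm, Finset.sum_mul]
          refine Finset.sum_congr rfl fun σ _ => ?_
          rw [← Finset.mul_sum, mul_assoc]
          congr 1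
          simp only [Finset.card_filter]
          rw [Finset.sum_comm, Finset.sum_mul]
      _ ≤ ∑ σ ∈ Finset.powersetCard k (Finset.univ : Finset V), Wt L σ *
            (coneB B k * (GS.card * N)) := by
          refine Finset.sum_le_sum fun σ hσ => ?_
          rw [Finset.mem_powersetCard_univ] at hσ
          by_cases hW : 0 < Wt L σ
          · have hσK : σ ∈ KT L := (mem_KT_iff L σ).2 hW
            obtain ⟨k1, _, k3⟩ := hκ σ hσK hσ.le
            rw [hσ] at k3
            refine Nat.mul_le_mul_left _ ?_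
            calc ∑ ρ ∈ (κ (Finsupp.single σ 1)).support,
                  (GS.filter (fun g => act g ρ ∈ D)).card * L.card
                ≤ ∑ ρ ∈ (κ (Finsupp.single σ 1)).support, GS.card * N := by
                  refine Finset.sum_le_sum fun ρ hρ => ?_
                  rw [← hDN]
                  exact exp_avg L GS hmul hinv hact htrL D ρ (k1 ρ hρ).1
              _ = (κ (Finsupp.single σ 1)).support.card * (GS.card * N) := by
                  rw [Finset.sum_const, smul_eq_mul]
              _ ≤ coneB B k * (GS.card * N) := Nat.mul_le_mul_right _ k3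
          · have h0 : Wt L σ = 0 := by omega
            rw [h0]
            simp
      _ = (∑ σ ∈ Finset.powersetCard k (Finset.univ : Finset V), Wt L σ) *
            (coneB B k * (GS.card * N)) := by rw [Finset.sum_mul]
      _ ≤ (2 ^ I.card * L.card) * (coneB B k * (GS.card * N)) :=
          Nat.mul_le_mul_right _ (sum_Wt_le L I.card hLcard _)
      _ = _ := by ring
  have hLpos : 0 < L.card := Finset.card_pos.2 hLne
  have hsum2 : ∑ g ∈ GS, nrm L k (fun σ => fg g σ + P067X.cob (hg g) σ) ≤
      ∑ _g ∈ GS, coneB B k * 2 ^ I.card * N := by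
    rw [Finset.sum_const, smul_eq_mul]
    exact Nat.le_of_mul_le_mul_right hsum hLpos
  obtain ⟨g, hgS, hgle⟩ := Finset.exists_le_of_sum_le ⟨1, h1⟩ hsum2
  refine ⟨fun τ => hg g (act g⁻¹ τ), ?_⟩
  have heq : nrm L k (fun r => f r + Vale.Agent.P067A.cob (fun τ => hg g (act g⁻¹ τ)) r) =
      nrm L k (fun σ => fg g σ + P067X.cob (hg g) σ) := by
    rw [← nrm_act L g (hact g hgS) (hact _ (hinv g hgS)) k]
    congr 1
    funext σ
    show f (act g σ) + P067X.cob (fun τ => hg g (act g⁻¹ τ)) (act g σ) = _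
    rw [← cob_act]
    simp only [act_inv_act]
    rfl
  rw [heq]
  have hN' : (nrm L (k + 1) (Vale.Agent.P067A.cob f) : ℝ) = N := rfl
  rw [hN', div_mul_eq_mul_div, one_mul, div_le_iff₀ (by positivity)]
  have h9 : (nrm L k (fun σ => fg g σ + P067X.cob (hg g) σ) : ℝ) ≤ coneB B k * 2 ^ I.card * N := by
    exact_mod_cast hgle
  have h10 : (0 : ℝ) ≤ N := Nat.cast_nonneg _
  nlinarith

/-- from `Acyc` to the vanishing used in part A -/
theorem van_of_acyc {V : Type} [Fintype V] (T : Finset (Finset V)) (i : ℕ)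
    (h : Acyc (KT T) i) : Van T i := by
  intro f hf
  obtain ⟨g, hg⟩ := h f fun ρ hρ hc => hf ρ hc ((mem_KT_iff T ρ).1 hρ)
  exact ⟨g, fun r hr hW => hg r ((mem_KT_iff T r).2 hW) hr⟩

/-- connectedness from `Acyc` in degree `1` -/
theorem conn_of_acyc {V : Type} [Fintype V] (T : Finset (Finset V))
    (h : Acyc (KT T) 1) : Conn T := by
  intro f hf x y hx hy
  set F : Finset V → ZMod 2 := fun σ => if ∃ z, σ = {z} ∧ f z = f x then 1 else 0 with hF
  have hF1 : ∀ z, F {z} = if f z = f x then 1 else 0 := by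
    intro z
    rw [hF]
    have : (∃ z', ({z} : Finset V) = {z'} ∧ f z' = f x) ↔ f z = f x := by
      constructor
      · rintro ⟨z', h1, h2⟩
        rw [Finset.singleton_inj.1 h1]
        exact h2
      · intro h1
        exact ⟨z, rfl, h1⟩
    simp only [this]
  have hco : Cocyc (KT T) 1 F := by
    rintro ρ ⟨t, ht, hρt⟩ hρ
    obtain ⟨a, b, hab, rfl⟩ := Finset.card_eq_two.1 hρ
    have hfab : f a = f b := hf t ht a (hρt (by simp)) b (hρt (by simp))
    unfold P067X.cob
    rw [Finset.sum_pair hab]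
    have e1 : ({a, b} : Finset V).erase a = {b} := by
      ext z
      simp only [Finset.mem_erase, Finset.mem_insert, Finset.mem_singleton]
      constructor
      · rintro ⟨h1, h2 | h2⟩
        · exact absurd h2 h1
        · exact h2
      · intro h1
        exact ⟨fun h2 => hab (h2.symm.trans h1), Or.inr h1⟩
    have e2 : ({a, b} : Finset V).erase b = {a} := by
      ext z
      simp only [Finset.mem_erase, Finset.mem_insert, Finset.mem_singleton]
      constructor
      · rintro ⟨h1, h2 | h2⟩
        · exact h2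
        · exact absurd h2 h1
      · intro h1
        exact ⟨fun h2 => hab (h1.symm.trans h2), Or.inl h1⟩
    rw [e1, e2, hF1, hF1, hfab]
    exact zadd _
  obtain ⟨g, hg⟩ := h F hco
  have hval : ∀ z, 0 < Wt T {z} → F {z} = g ∅ := by
    intro z hz
    rw [hg {z} ((mem_KT_iff T _).2 hz) (Finset.card_singleton z)]
    unfold P067X.cob
    simp
  have h1 := hval x hx
  have h2 := hval y hy
  rw [hF1, if_pos rfl] at h1
  rw [hF1, ← h1] at h2
  by_contra hne
  rw [if_neg (fun h => hne h.symm)] at h2
  exact zero_ne_one h2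

end P067X
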