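import Vale.Agent.P067X.Coef

/-!
# P067, module GMAT: the action of matrices; levels of the standard vertices
-/

set_option linter.unusedSectionVars false

namespace P067X

open Classical Module

variable {p m : ℕ} [Fact p.Prime] {R : Type} [CommRing R] [Algebra (ZMod p) R]
  {ι κ : Type} [Fintype ι] [Fintype κ] [DecidableEq ι]

theorem gm_mul {μ : Type} (M : Matrix μ κ R) (N : Matrix κ ι R) (v : ι → R) :
    gm p (M * N) v = gm p M (gm p N v) := by
  show (M * N).mulVec v = M.mulVec (N.mulVec v)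
  rw [Matrix.mulVec_mulVec]

theorem map_gm_mul {μ : Type} (M : Matrix μ κ R) (N : Matrix κ ι R)
    (S : Submodule (ZMod p) (ι → R)) :
    S.map (gm p (M * N)) = (S.map (gm p N)).map (gm p M) := by
  rw [← Submodule.map_comp]
  congr 1
  exact LinearMap.ext fun v => gm_mul M N v

private theorem gmat_one : (gm p (1 : Matrix ι ι R)) = LinearMap.id := by
  refine LinearMap.ext fun v => ?_
  show (1 : Matrix ι ι R).mulVec v = v
  rw [Matrix.one_mulVec]

theorem map_gm_one (S : Submodule (ZMod p) (ι → R)) :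
    S.map (gm p (1 : Matrix ι ι R)) = S := by
  rw [gmat_one, Submodule.map_id]

private theorem gmat_inv_mul (g : Matrix.SpecialLinearGroup ι R) : (g⁻¹).1 * g.1 = 1 := by
  have h := congrArg Subtype.val (inv_mul_cancel g)
  exact h

private theorem gmat_mul_inv (g : Matrix.SpecialLinearGroup ι R) : g.1 * (g⁻¹).1 = 1 := by
  have h := congrArg Subtype.val (mul_inv_cancel g)
  exact h

theorem map_gm_inv (g : Matrix.SpecialLinearGroup ι R) (S : Submodule (ZMod p) (ι → R)) :
    (S.map (gm p g.1)).map (gm p (g⁻¹).1) = S := by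
  rw [← map_gm_mul, gmat_inv_mul, map_gm_one]

theorem map_gm_inv' (g : Matrix.SpecialLinearGroup ι R) (S : Submodule (ZMod p) (ι → R)) :
    (S.map (gm p (g⁻¹).1)).map (gm p g.1) = S := by
  rw [← map_gm_mul, gmat_mul_inv, map_gm_one]

private theorem gmat_inv_apply (g : Matrix.SpecialLinearGroup ι R) (v : ι → R) :
    gm p (g⁻¹).1 (gm p g.1 v) = v := by
  rw [← gm_mul, gmat_inv_mul, gmat_one]
  rfl

private theorem gmat_apply_inv (g : Matrix.SpecialLinearGroup ι R) (v : ι → R) :
    gm p g.1 (gm p (g⁻¹).1 v) = v := by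
  rw [← gm_mul, gmat_mul_inv, gmat_one]
  rfl

theorem gm_injective (g : Matrix.SpecialLinearGroup ι R) :
    Function.Injective (gm p g.1 : (ι → R) → (ι → R)) :=
  Function.LeftInverse.injective (g := (gm p (g⁻¹).1 : (ι → R) → (ι → R)))
    (fun v => gmat_inv_apply g v)

theorem map_gm_injective (g : Matrix.SpecialLinearGroup ι R) :
    Function.Injective (fun S : Submodule (ZMod p) (ι → R) => S.map (gm p g.1)) := by
  intro S S' h
  have h2 : (S.map (gm p g.1)).map (gm p (g⁻¹).1) = (S'.map (gm p g.1)).map (gm p (g⁻¹).1) :=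
    congrArg (fun T => Submodule.map (gm p (g⁻¹).1) T) h
  rwa [map_gm_inv, map_gm_inv] at h2

theorem map_gm_le_iff (g : Matrix.SpecialLinearGroup ι R) (S S' : Submodule (ZMod p) (ι → R)) :
    S.map (gm p g.1) ≤ S'.map (gm p g.1) ↔ S ≤ S' := by
  constructor
  · intro h
    have h2 := Submodule.map_mono (f := gm p (g⁻¹).1) h
    rwa [map_gm_inv, map_gm_inv] at h2
  · intro h
    exact Submodule.map_mono h

theorem mem_map_gm (g : Matrix.SpecialLinearGroup ι R) (S : Submodule (ZMod p) (ι → R))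
    (v : ι → R) : v ∈ S.map (gm p g.1) ↔ gm p (g⁻¹).1 v ∈ S := by
  rw [Submodule.mem_map]
  constructor
  · rintro ⟨w, hw, rfl⟩
    rwa [gmat_inv_apply]
  · intro h
    exact ⟨_, h, gmat_apply_inv g v⟩

theorem finrank_map_gm (g : Matrix.SpecialLinearGroup ι R) (S : Submodule (ZMod p) (ι → R)) :
    finrank (ZMod p) (S.map (gm p g.1)) = finrank (ZMod p) S :=
  (Submodule.equivMapOfInjective (gm p g.1) (gm_injective g) S).finrank_eq.symm

theorem gm_tl (A : TR p m R) (M : Matrix κ ι R) (v : ι → R) :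
    gm p M (A.tl v) = A.tl (gm p M v) := by
  show M.mulVec (A.t • v) = A.t • M.mulVec v
  rw [Matrix.mulVec_smul]

private theorem gmat_map_tl (A : TR p m R) (M : Matrix κ ι R) (S : Submodule (ZMod p) (ι → R)) :
    (S.map A.tl).map (gm p M) = (S.map (gm p M)).map A.tl := by
  rw [← Submodule.map_comp, ← Submodule.map_comp]
  congr 1
  exact LinearMap.ext fun v => gm_tl A M v

theorem lev_map (A : TR p m R) (g : Matrix.SpecialLinearGroup ι R)
    (S : Submodule (ZMod p) (ι → R)) (e : ℕ) :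
    A.lev (S.map (gm p g.1)) e = (A.lev S e).map (gm p g.1) := by
  induction e with
  | zero =>
    ext v
    show v ∈ S.map (gm p g.1) ∧ A.tl v ∈ S.map (gm p g.1) ↔ _
    rw [mem_map_gm, mem_map_gm, mem_map_gm, gm_tl]
    rfl
  | succ e ih =>
    show S.map (gm p g.1) ⊔ (A.lev (S.map (gm p g.1)) e).map A.tl =
      (S ⊔ (A.lev S e).map A.tl).map (gm p g.1)
    rw [ih, Submodule.map_sup, gmat_map_tl]

theorem KK_map (A : TR p m R) (g : Matrix.SpecialLinearGroup ι R)
    (S : Submodule (ZMod p) (ι → R)) :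
    A.KK (S.map (gm p g.1)) = (A.KK S).map (gm p g.1) := by
  show A.lev (S.map (gm p g.1)) 0 ⊔ (A.lev (S.map (gm p g.1)) 0).map A.tl =
    (A.lev S 0 ⊔ (A.lev S 0).map A.tl).map (gm p g.1)
  rw [lev_map, Submodule.map_sup, gmat_map_tl]

theorem lev_one (A : TR p m R) (S : Submodule (ZMod p) (ι → R)) : A.lev S 1 = S := by
  show S ⊔ (S ⊓ S.comap A.tl).map A.tl = S
  refine sup_eq_left.2 ?_
  rw [Submodule.map_le_iff_le_comap]
  exact inf_le_right

private theorem gmat_lev_succ (A : TR p m R) (S : Submodule (ZMod p) (ι → R)) (e : ℕ) :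
    A.lev S e ≤ A.lev S (e + 1) := by
  induction e with
  | zero =>
    rw [lev_one]
    exact inf_le_left
  | succ e ih =>
    show S ⊔ (A.lev S e).map A.tl ≤ S ⊔ (A.lev S (e + 1)).map A.tl
    exact sup_le_sup_left (Submodule.map_mono ih) _

theorem lev_mono (A : TR p m R) (S : Submodule (ZMod p) (ι → R)) {e e' : ℕ} (h : e ≤ e') :
    A.lev S e ≤ A.lev S e' :=
  monotone_nat_of_le_succ (f := A.lev S) (gmat_lev_succ A S) h

theorem lev_mono_left (A : TR p m R) {S S' : Submodule (ZMod p) (ι → R)} (h : S ≤ S') (e : ℕ) :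
    A.lev S e ≤ A.lev S' e := by
  induction e with
  | zero =>
    exact inf_le_inf h (Submodule.comap_mono h)
  | succ e ih =>
    exact sup_le_sup h (Submodule.map_mono ih)

theorem mem_std (A : TR p m R) (U : Submodule (ZMod p) (ι → ZMod p)) (v : ι → R) :
    v ∈ A.std U ↔ A.vco 1 v ∈ U ∧ ∀ a, 2 ≤ a → A.vco a v = 0 :=
  Iff.rfl

/-- levels of the standard vertices (`e ≤ m - 1`: for larger `e` the level is everything) -/
theorem mem_lev_std (A : TR p m R) (hm : 3 ≤ m) (U : Submodule (ZMod p) (ι → ZMod p)) (e : ℕ)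
    (v : ι → R) :
    v ∈ A.lev (A.std U) e ↔ A.vco e v ∈ U ∧ ∀ a, e < a → A.vco a v = 0 := by
  induction e generalizing v with
  | zero =>
    show (A.vco 1 v ∈ U ∧ ∀ a, 2 ≤ a → A.vco a v = 0) ∧
      (A.vco 1 (A.tl v) ∈ U ∧ ∀ a, 2 ≤ a → A.vco a (A.tl v) = 0) ↔ _
    have h1 : A.vco 1 (A.tl v) = A.vco 0 v := by
      rw [A.vco_tl 0 v, if_pos (by omega)]
    have h2 : A.vco 2 (A.tl v) = A.vco 1 v := by
      rw [A.vco_tl 1 v, if_pos (by omega)]
    constructor
    · rintro ⟨⟨h3, h4⟩, h5, h6⟩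
      rw [h1] at h5
      refine ⟨h5, fun a ha => ?_⟩
      rcases Nat.lt_or_ge a 2 with h7 | h7
      · have h8 : a = 1 := by omega
        rw [h8, ← h2]
        exact h6 2 le_rfl
      · exact h4 a h7
    · rintro ⟨h3, h4⟩
      refine ⟨⟨?_, fun a ha => h4 a (by omega)⟩, ?_, fun a ha => ?_⟩
      · rw [h4 1 (by omega)]
        exact U.zero_mem
      · rwa [h1]
      · obtain ⟨b, rfl⟩ : ∃ b, a = b + 1 := ⟨a - 1, by omega⟩
        rw [A.vco_tl]
        split_ifs
        · exact h4 b (by omega)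
        · rfl
  | succ e ih =>
    show v ∈ A.std U ⊔ (A.lev (A.std U) e).map A.tl ↔ _
    constructor
    · intro hv
      obtain ⟨x, hx, y, hy, rfl⟩ := Submodule.mem_sup.1 hv
      obtain ⟨w, hw, rfl⟩ := Submodule.mem_map.1 hy
      rw [ih] at hw
      rw [mem_std] at hx
      refine ⟨?_, fun a ha => ?_⟩
      · rw [map_add]
        refine U.add_mem ?_ ?_
        · rcases Nat.eq_zero_or_pos e with h0 | h0
          · rw [h0]
            exact hx.1
          · rw [hx.2 (e + 1) (by omega)]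
            exact U.zero_mem
        · rw [A.vco_tl]
          split_ifs
          · exact hw.1
          · exact U.zero_mem
      · rw [map_add, hx.2 a (by omega), zero_add]
        obtain ⟨b, rfl⟩ : ∃ b, a = b + 1 := ⟨a - 1, by omega⟩
        rw [A.vco_tl]
        split_ifs
        · exact hw.2 b (by omega)
        · rfl
    · rintro ⟨h1, h2⟩
      obtain ⟨w, hw⟩ := A.vsurj (ι := ι) (fun a => if a + 1 < m then A.vco (a + 1) v else 0)
      have hw' : ∀ a, A.vco a w = if a + 1 < m then A.vco (a + 1) v else 0 := by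
        intro a
        rcases Nat.lt_or_ge a m with h3 | h3
        · exact hw a h3
        · rw [A.vco_ge a w h3, if_neg (by omega)]
      have hv : v = cst R ι (A.vco 0 v) + A.tl w := by
        refine A.vec_ext _ _ fun a => ?_
        rw [map_add, A.vco_cst]
        rcases Nat.eq_zero_or_pos a with h3 | h3
        · rw [h3, if_pos rfl, A.vco_tl_zero, add_zero]
        · obtain ⟨b, rfl⟩ : ∃ b, a = b + 1 := ⟨a - 1, by omega⟩
          rw [if_neg (by omega), zero_add, A.vco_tl, hw']
          split_ifs with h4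
          · rfl
          · exact A.vco_ge _ v (by omega)
      rw [hv]
      refine Submodule.add_mem_sup ?_ (Submodule.mem_map_of_mem ?_)
      · rw [mem_std]
        refine ⟨?_, fun a ha => ?_⟩
        · rw [A.vco_cst, if_neg (by omega)]
          exact U.zero_mem
        · rw [A.vco_cst, if_neg (by omega)]
      · rw [ih]
        refine ⟨?_, fun a ha => ?_⟩
        · rw [hw']
          split_ifs
          · exact h1
          · exact U.zero_mem
        · rw [hw']
          split_ifs
          · exact h2 (a + 1) (by omega)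
          · rfl

theorem lev_std_top (A : TR p m R) (hm : 3 ≤ m) (U : Submodule (ZMod p) (ι → ZMod p)) :
    A.lev (A.std U) m = ⊤ := by
  rw [eq_top_iff]
  intro v _
  rw [mem_lev_std A hm]
  refine ⟨?_, fun a ha => A.vco_ge a v (by omega)⟩
  rw [A.vco_ge m v le_rfl]
  exact U.zero_mem

theorem mem_KK_std (A : TR p m R) (hm : 3 ≤ m) (U : Submodule (ZMod p) (ι → ZMod p))
    (v : ι → R) :
    v ∈ A.KK (A.std U) ↔ A.vco 0 v ∈ U ∧ A.vco 1 v ∈ U ∧ ∀ a, 2 ≤ a → A.vco a v = 0 := by
  show v ∈ A.lev (A.std U) 0 ⊔ (A.lev (A.std U) 0).map A.tl ↔ _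
  constructor
  · intro hv
    obtain ⟨x, hx, y, hy, rfl⟩ := Submodule.mem_sup.1 hv
    obtain ⟨w, hw, rfl⟩ := Submodule.mem_map.1 hy
    rw [mem_lev_std A hm] at hx hw
    refine ⟨?_, ?_, fun a ha => ?_⟩
    · rw [map_add, A.vco_tl_zero, add_zero]
      exact hx.1
    · rw [map_add, hx.2 1 (by omega), zero_add, A.vco_tl, if_pos (by omega)]
      exact hw.1
    · rw [map_add, hx.2 a (by omega), zero_add]
      obtain ⟨b, rfl⟩ : ∃ b, a = b + 1 := ⟨a - 1, by omega⟩
      rw [A.vco_tl]
      split_ifs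
      · exact hw.2 b (by omega)
      · rfl
  · rintro ⟨h0, h1, h2⟩
    rw [A.eq_of_deg_one (by omega) v h2]
    refine Submodule.add_mem_sup ?_ (Submodule.mem_map_of_mem ?_)
    · rw [mem_lev_std A hm]
      refine ⟨?_, fun a ha => ?_⟩
      · rw [A.vco_cst, if_pos rfl]
        exact h0
      · rw [A.vco_cst, if_neg (by omega)]
    · rw [mem_lev_std A hm]
      refine ⟨?_, fun a ha => ?_⟩
      · rw [A.vco_cst, if_pos rfl]
        exact h1
      · rw [A.vco_cst, if_neg (by omega)]

private theorem gmat_vco_tl_cst (A : TR p m R) (hm : 2 ≤ m) (u : ι → ZMod p) (a : ℕ) :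
    A.vco a (A.tl (cst R ι u)) = if a = 1 then u else 0 := by
  rcases Nat.eq_zero_or_pos a with h0 | h0
  · rw [h0, A.vco_tl_zero, if_neg (by omega)]
  · obtain ⟨b, rfl⟩ : ∃ b, a = b + 1 := ⟨a - 1, by omega⟩
    rw [A.vco_tl, A.vco_cst]
    rcases Nat.eq_zero_or_pos b with h1 | h1
    · rw [h1, if_pos (by omega), if_pos rfl, if_pos rfl]
    · rw [if_neg (by omega : ¬ b = 0), if_neg (by omega : ¬ b + 1 = 1)]
      split_ifs <;> rfl

theorem std_le_iff (A : TR p m R) (hm : 2 ≤ m) (U U' : Submodule (ZMod p) (ι → ZMod p)) :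
    A.std U ≤ A.std U' ↔ U ≤ U' := by
  constructor
  · intro h u hu
    have h1 : A.tl (cst R ι u) ∈ A.std U := by
      rw [mem_std]
      refine ⟨?_, fun a ha => ?_⟩
      · rw [gmat_vco_tl_cst A hm, if_pos rfl]
        exact hu
      · rw [gmat_vco_tl_cst A hm, if_neg (by omega)]
    have h2 := (h h1).1
    rwa [gmat_vco_tl_cst A hm, if_pos rfl] at h2
  · intro h v hv
    exact ⟨h hv.1, hv.2⟩

theorem std_injective (A : TR p m R) (hm : 2 ≤ m) :
    Function.Injective (A.std : Submodule (ZMod p) (ι → ZMod p) → _) := by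
  intro U U' h
  exact le_antisymm ((std_le_iff A hm U U').1 h.le) ((std_le_iff A hm U' U).1 h.ge)

theorem finrank_std (A : TR p m R) (hm : 2 ≤ m) (U : Submodule (ZMod p) (ι → ZMod p)) :
    finrank (ZMod p) (A.std U) = Fintype.card ι + finrank (ZMod p) U := by
  let f : A.std U →ₗ[ZMod p] (ι → ZMod p) × U :=
    LinearMap.prod ((A.vco 0).comp (A.std U).subtype)
      (LinearMap.codRestrict U ((A.vco 1).comp (A.std U).subtype) (fun v => v.2.1))
  have hf : Function.Bijective f := by
    constructor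
    · intro v w h
      have h0 : A.vco 0 v.1 = A.vco 0 w.1 := congrArg Prod.fst h
      have h1 : A.vco 1 v.1 = A.vco 1 w.1 := congrArg (fun x => (x.2 : ι → ZMod p)) h
      refine Subtype.ext (A.vec_ext _ _ fun a => ?_)
      rcases Nat.lt_or_ge a 2 with h2 | h2
      · interval_cases a
        · exact h0
        · exact h1
      · rw [v.2.2 a h2, w.2.2 a h2]
    · rintro ⟨x, y⟩
      have hv : cst R ι x + A.tl (cst R ι (y : ι → ZMod p)) ∈ A.std U := by
        rw [mem_std]
        refine ⟨?_, fun a ha => ?_⟩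
        · rw [map_add, A.vco_cst, gmat_vco_tl_cst A hm, if_neg (by omega), if_pos rfl, zero_add]
          exact y.2
        · rw [map_add, A.vco_cst, gmat_vco_tl_cst A hm, if_neg (by omega), if_neg (by omega),
            zero_add]
      refine ⟨⟨_, hv⟩, Prod.ext ?_ (Subtype.ext ?_)⟩
      · show A.vco 0 (cst R ι x + A.tl (cst R ι (y : ι → ZMod p))) = x
        rw [map_add, A.vco_cst, gmat_vco_tl_cst A hm, if_pos rfl, if_neg (by omega), add_zero]
      · show A.vco 1 (cst R ι x + A.tl (cst R ι (y : ι → ZMod p))) = y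
        rw [map_add, A.vco_cst, gmat_vco_tl_cst A hm, if_neg (by omega), if_pos rfl, zero_add]
  have h := (LinearEquiv.ofBijective f hf).finrank_eq
  rw [h, Module.finrank_prod, Module.finrank_fintype_fun_eq_card]

theorem ty_std (A : TR p m R) (hm : 2 ≤ m) (g : Matrix.SpecialLinearGroup ι R)
    (U : Submodule (ZMod p) (ι → ZMod p)) :
    ty ((A.std U).map (gm p g.1)) = finrank (ZMod p) U := by
  show finrank (ZMod p) ((A.std U).map (gm p g.1)) - Fintype.card ι = _
  rw [finrank_map_gm, finrank_std A hm]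
  omega

private theorem gmat_vco_const (A : TR p m R) (M : Matrix κ ι (ZMod p)) (a : ℕ) (v : ι → R) :
    A.vco a (gm p (M.map (algebraMap (ZMod p) R)) v) = M.mulVec (A.vco a v) := by
  funext k
  show A.co a (((M.map (algebraMap (ZMod p) R)).mulVec v) k) = (M.mulVec (A.vco a v)) k
  simp only [Matrix.mulVec, dotProduct, Matrix.map_apply, map_sum]
  refine Finset.sum_congr rfl fun i _ => ?_
  exact A.co_smul_const a (M k i) (v i)

/-- constant matrices move the standard vertices among themselves -/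
theorem std_map_const (A : TR p m R) (h : Matrix.SpecialLinearGroup ι (ZMod p))
    (U : Submodule (ZMod p) (ι → ZMod p)) :
    (A.std U).map (gm p (h.map (algebraMap (ZMod p) R)).1) =
      A.std (U.map (Matrix.mulVecLin h.1)) := by
  have hc : ∀ k : Matrix.SpecialLinearGroup ι (ZMod p), ∀ (a : ℕ) (v : ι → R),
      A.vco a (gm p (k.map (algebraMap (ZMod p) R)).1 v) = k.1.mulVec (A.vco a v) :=
    fun k a v => gmat_vco_const A k.1 a v
  ext v
  rw [mem_map_gm, ← map_inv, mem_std, mem_std]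
  constructor
  · rintro ⟨h1, h2⟩
    refine ⟨?_, fun a ha => ?_⟩
    · rw [hc] at h1
      refine Submodule.mem_map.2 ⟨_, h1, ?_⟩
      rw [Matrix.mulVecLin_apply, Matrix.mulVec_mulVec, gmat_mul_inv, Matrix.one_mulVec]
    · have h3 := h2 a ha
      rw [hc] at h3
      have h4 := congrArg h.1.mulVec h3
      rwa [Matrix.mulVec_mulVec, gmat_mul_inv, Matrix.one_mulVec, Matrix.mulVec_zero] at h4
  · rintro ⟨h1, h2⟩
    refine ⟨?_, fun a ha => ?_⟩
    · obtain ⟨u, hu, hu2⟩ := Submodule.mem_map.1 h1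
      rw [hc, ← hu2, Matrix.mulVecLin_apply, Matrix.mulVec_mulVec, gmat_inv_mul,
        Matrix.one_mulVec]
      exact hu
    · rw [hc, h2 a ha, Matrix.mulVec_zero]

end P067X
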