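import Mathlib

/-!
# P067, module GENERIC: a vector space over `ZMod p` is not the union of at most `p` proper subspaces

PROOF.  All the subspaces contain `0` and have at most `|E|/p` elements, so the union has at most
`p (|E|/p - 1) + 1 < |E|` elements.  The dual version: `{η | η y = 0}` is a proper subspace of the dual.
-/

namespace P067X

open Module

theorem gn_card (p : ℕ) [Fact p.Prime] (E : Type) [AddCommGroup E] [Module (ZMod p) E]
    [FiniteDimensional (ZMod p) E] (T : Submodule (ZMod p) E) (hT : T ≠ ⊤) :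
    Nat.card T * p ≤ Nat.card E := by
  have h1 : Nat.card T = p ^ finrank (ZMod p) T := by
    rw [Module.natCard_eq_pow_finrank (K := ZMod p) (V := T), Nat.card_zmod]
  have h2 : Nat.card E = p ^ finrank (ZMod p) E := by
    rw [Module.natCard_eq_pow_finrank (K := ZMod p) (V := E), Nat.card_zmod]
  have h3 : finrank (ZMod p) T < finrank (ZMod p) E := Submodule.finrank_lt hT
  rw [h1, h2, ← pow_succ]
  exact Nat.pow_le_pow_right (Fact.out : p.Prime).pos h3

/-- `x ≠ 0` needs a subspace in the family (`E` may be zero) -/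
theorem exists_generic (p : ℕ) [Fact p.Prime] (E : Type) [AddCommGroup E] [Module (ZMod p) E]
    [FiniteDimensional (ZMod p) E] (S : Finset (Submodule (ZMod p) E)) (hS : S.card ≤ p)
    (hp : ∀ T ∈ S, T ≠ ⊤) : ∃ x : E, (S.Nonempty → x ≠ 0) ∧ ∀ T ∈ S, x ∉ T := by
  classical
  have : Finite E := Module.finite_of_finite (ZMod p)
  have : Fintype E := Fintype.ofFinite E
  have hp2 := (Fact.out : p.Prime).two_le
  rcases S.eq_empty_or_nonempty with rfl | hne
  · exact ⟨0, by simp, by simp⟩
  suffices h : ∃ x : E, ∀ T ∈ S, x ∉ T by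
    obtain ⟨x, hx⟩ := h
    refine ⟨x, fun _ h0 => ?_, hx⟩
    obtain ⟨T, hT⟩ := hne
    exact hx T hT (by rw [h0]; exact T.zero_mem)
  by_contra hcon
  push Not at hcon
  have hcov : (Finset.univ.erase (0 : E)) ⊆
      S.biUnion (fun T => (Finset.univ.filter (fun x : E => x ∈ T)).erase 0) := by
    intro x hx
    obtain ⟨T, hT, hxT⟩ := hcon x
    rw [Finset.mem_biUnion]
    refine ⟨T, hT, ?_⟩
    rw [Finset.mem_erase] at hx ⊢
    exact ⟨hx.1, by simpa using hxT⟩
  have hcard := Finset.card_le_card hcov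
  rw [Finset.card_erase_of_mem (Finset.mem_univ _), Finset.card_univ] at hcard
  have h1 : (S.biUnion (fun T => (Finset.univ.filter (fun x : E => x ∈ T)).erase 0)).card
      * p ≤ S.card * (Fintype.card E - p) := by
    refine le_trans (Nat.mul_le_mul_right _ Finset.card_biUnion_le) ?_
    rw [Finset.sum_mul, ← smul_eq_mul, ← Finset.sum_const]
    refine Finset.sum_le_sum fun T hT => ?_
    rw [Finset.card_erase_of_mem (by simp)]
    have h2 := gn_card p E T (hp T hT)
    rw [Nat.card_eq_fintype_card (α := E)] at h2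
    have h3 : (Finset.univ.filter (fun x : E => x ∈ T)).card = Nat.card T := by
      rw [← Fintype.card_subtype, Nat.card_eq_fintype_card]
    rw [h3, Nat.sub_mul, one_mul]
    omega
  have h4 : p ≤ Fintype.card E := by
    obtain ⟨T, hT⟩ := hne
    have h2 := gn_card p E T (hp T hT)
    rw [Nat.card_eq_fintype_card (α := E)] at h2
    have h3 : 1 ≤ Nat.card T := Nat.card_pos
    nlinarith
  have h5 : (Fintype.card E - 1) * p ≤ p * (Fintype.card E - p) :=
    le_trans (Nat.mul_le_mul_right _ hcard) (le_trans h1 (Nat.mul_le_mul_right _ hS))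
  rw [mul_comm] at h5
  have h6 := Nat.le_of_mul_le_mul_left h5 (by omega)
  omega

theorem exists_generic_dual (p : ℕ) [Fact p.Prime] (E : Type) [AddCommGroup E]
    [Module (ZMod p) E] [FiniteDimensional (ZMod p) E] (Y : Finset E) (hY : Y.card ≤ p)
    (h0 : ∀ y ∈ Y, y ≠ 0) : ∃ η : E →ₗ[ZMod p] ZMod p, ∀ y ∈ Y, η y ≠ 0 := by
  classical
  obtain ⟨η, -, hη⟩ := exists_generic p (E →ₗ[ZMod p] ZMod p)
    (Y.image (fun y => LinearMap.ker (LinearMap.applyₗ (R := ZMod p) (M₂ := ZMod p) y)))
    (le_trans Finset.card_image_le hY) (by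
      intro T hT
      obtain ⟨y, hy, rfl⟩ := Finset.mem_image.mp hT
      intro htop
      apply h0 y hy
      rw [← Module.forall_dual_apply_eq_zero_iff (ZMod p)]
      intro φ
      have : φ ∈ LinearMap.ker (LinearMap.applyₗ (R := ZMod p) (M₂ := ZMod p) y) := by
        rw [htop]; trivial
      simpa using this)
  refine ⟨η, fun y hy h => ?_⟩
  refine hη _ (Finset.mem_image_of_mem _ hy) ?_
  simpa using h

end P067X
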