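import Vale.Agent.P067X.GMat

/-!
# P067, module GROUP: the congruence subgroup has odd order

PROOF.  The congruence subgroup is the kernel of the reduction `SL_ι(R) → SL_ι(F)`.
`card_cong_odd`: an element of order two in the congruence subgroup: `g² = 1` gives `(g - 1) (g + 1) = 0`,
`g + 1` is invertible (its determinant reduces to `2 ^ |ι|`); Cauchy.
-/

namespace P067X

open Classical Module

variable {p m : ℕ} [Fact p.Prime] {R : Type} [CommRing R] [Algebra (ZMod p) R]
  {ι : Type} [Fintype ι] [DecidableEq ι]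

/-- the congruence subgroup: `g ≡ 1` mod `t` -/
def TR.cong (A : TR p m R) (ι : Type) [Fintype ι] [DecidableEq ι] :
    Set (Matrix.SpecialLinearGroup ι R) :=
  {g | ∀ i j, A.co 0 (g.1 i j) = if i = j then 1 else 0}

/-- the reduction modulo `t` -/
def TR.redHom (A : TR p m R) : R →+* ZMod p where
  toFun x := A.co 0 x
  map_one' := by rw [A.co_one, if_pos rfl]
  map_mul' x y := A.co_zero_mul x y
  map_zero' := map_zero _
  map_add' x y := map_add _ x y

theorem TR.redHom_apply (A : TR p m R) (x : R) : A.redHom x = A.co 0 x := rfl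

theorem TR.mem_cong_iff (A : TR p m R) (g : Matrix.SpecialLinearGroup ι R) :
    g ∈ A.cong ι ↔ Matrix.SpecialLinearGroup.map A.redHom g = 1 := by
  constructor
  · intro h
    refine Matrix.SpecialLinearGroup.ext _ _ fun i j => ?_
    show A.redHom (g.1 i j) = (1 : Matrix ι ι (ZMod p)) i j
    rw [A.redHom_apply, h i j, Matrix.one_apply]
  · intro h i j
    have h2 := congrArg (fun k : Matrix.SpecialLinearGroup ι (ZMod p) => k.1 i j) h
    have h3 : A.redHom (g.1 i j) = (1 : Matrix ι ι (ZMod p)) i j := h2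
    rw [A.redHom_apply, Matrix.one_apply] at h3
    exact h3

theorem TR.cong_one (A : TR p m R) : (1 : Matrix.SpecialLinearGroup ι R) ∈ A.cong ι := by
  rw [A.mem_cong_iff, map_one]

theorem TR.cong_mul (A : TR p m R) {g h : Matrix.SpecialLinearGroup ι R} (hg : g ∈ A.cong ι)
    (hh : h ∈ A.cong ι) : g * h ∈ A.cong ι := by
  rw [A.mem_cong_iff] at *
  rw [map_mul, hg, hh, one_mul]

theorem TR.cong_inv (A : TR p m R) {g : Matrix.SpecialLinearGroup ι R} (hg : g ∈ A.cong ι) :
    g⁻¹ ∈ A.cong ι := by
  rw [A.mem_cong_iff] at *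
  rw [map_inv, hg, inv_one]

/-- every element is a congruence element times a constant one -/
theorem TR.cong_decomp (A : TR p m R) (g : Matrix.SpecialLinearGroup ι R) :
    ∃ g' ∈ A.cong ι, ∃ h : Matrix.SpecialLinearGroup ι (ZMod p),
      g = g' * h.map (algebraMap (ZMod p) R) := by
  have key : ∀ k : Matrix.SpecialLinearGroup ι (ZMod p),
      Matrix.SpecialLinearGroup.map A.redHom (k.map (algebraMap (ZMod p) R)) = k := by
    intro k
    refine Matrix.SpecialLinearGroup.ext _ _ fun i j => ?_
    show A.redHom (algebraMap (ZMod p) R (k.1 i j)) = k.1 i j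
    rw [A.redHom_apply, A.co_algebraMap, if_pos rfl]
  set h := Matrix.SpecialLinearGroup.map A.redHom g with hh
  refine ⟨g * (h.map (algebraMap (ZMod p) R))⁻¹, ?_, h, by group⟩
  rw [A.mem_cong_iff, map_mul, map_inv, key, ← hh, mul_inv_cancel]

theorem card_cong_odd (A : TR p m R) (hp : p ≠ 2) : Odd (Nat.card (A.cong ι)) := by
  have := A.finiteR
  let K : Subgroup (Matrix.SpecialLinearGroup ι R) :=
    (Matrix.SpecialLinearGroup.map (n := ι) A.redHom).ker
  have hK : Nat.card (A.cong ι) = Nat.card K := by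
    refine Nat.card_congr (Equiv.setCongr ?_)
    ext g
    rw [A.mem_cong_iff]
    rfl
  have hfin : Finite (Matrix.SpecialLinearGroup ι R) :=
    Finite.of_injective (fun g => g.1) Subtype.val_injective
  rw [hK, ← Nat.not_even_iff_odd, even_iff_two_dvd]
  intro h2
  have : Fact (Nat.Prime 2) := ⟨Nat.prime_two⟩
  obtain ⟨g, hg⟩ := exists_prime_orderOf_dvd_card' 2 h2
  have hg2 : g ^ 2 = 1 := by rw [← hg, pow_orderOf_eq_one]
  have hg1 : g ≠ 1 := by
    intro h
    rw [h, orderOf_one] at hg
    omega
  apply hg1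
  have e1 : ((g : Matrix.SpecialLinearGroup ι R).1) * (g : Matrix.SpecialLinearGroup ι R).1 =
      1 := by
    have := congrArg (fun k : K => (k : Matrix.SpecialLinearGroup ι R).1) hg2
    rw [pow_two] at this
    exact this
  set M := (g : Matrix.SpecialLinearGroup ι R).1 with hM
  have e2 : (M - 1) * (M + 1) = 0 := by
    have : (M - 1) * (M + 1) = M * M - 1 := by noncomm_ring
    rw [this, e1, sub_self]
  have hred : A.redHom.mapMatrix M = 1 := by
    have := g.2
    have h3 := congrArg (fun k : Matrix.SpecialLinearGroup ι (ZMod p) => k.1)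
      (MonoidHom.mem_ker.1 this)
    exact h3
  have hdet : IsUnit (M + 1).det := by
    rw [A.isUnit_iff]
    have : A.co 0 (M + 1).det = A.redHom (M + 1).det := rfl
    rw [this, RingHom.map_det, map_add, hred, map_one]
    have h4 : (1 + 1 : Matrix ι ι (ZMod p)) = (2 : ZMod p) • (1 : Matrix ι ι (ZMod p)) := by
      rw [two_smul]
    rw [h4, Matrix.det_smul, Matrix.det_one, mul_one]
    refine pow_ne_zero _ ?_
    intro h5
    have h6 : ((2 : ℕ) : ZMod p) = 0 := by exact_mod_cast h5
    rw [ZMod.natCast_eq_zero_iff] at h6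
    exact hp ((Nat.prime_dvd_prime_iff_eq (Fact.out : p.Prime) Nat.prime_two).1 h6)
  have e3 : M - 1 = 0 := by
    have h5 := congrArg (fun N => N * (M + 1)⁻¹) e2
    simp only [zero_mul, mul_assoc] at h5
    rwa [Matrix.mul_nonsing_inv _ hdet, mul_one] at h5
  refine Subtype.ext (Subtype.ext ?_)
  show M = 1
  exact sub_eq_zero.1 e3

end P067X
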