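import Vale.Agent.P067X.Mul

/-!
# P067, module HOMOTOPY: `T ≤ φ T ≥ l` contracts cycles of an order complex

PROOF.  Replace the vertices `x` of the cycle by `φ x` one at a time, from the top to the bottom: if `t` is the part of the
present cycle containing `w` (with `w` removed) then `bd (w * φ w * t) = w * t + φ w * t`.  Finally cone with `l`.
-/

namespace P067X

open Classical

theorem psh_congr {V W : Type*} {ψ ψ' : V → W} {c : Ch V}
    (h : ∀ σ ∈ c.support, ∀ x ∈ σ, ψ x = ψ' x) : psh ψ c = psh ψ' c := by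
  rw [psh, psh, Finsupp.linearCombination_apply, Finsupp.linearCombination_apply, Finsupp.sum,
    Finsupp.sum]
  refine Finset.sum_congr rfl fun σ hσ => ?_
  have h1 : σ.image ψ = σ.image ψ' := Finset.image_congr fun x hx => h σ hσ x hx
  rw [h1]

theorem psh_id {V : Type*} {ψ : V → V} {c : Ch V}
    (h : ∀ σ ∈ c.support, ∀ x ∈ σ, ψ x = x) : psh ψ c = c := by
  rw [psh_congr (ψ' := fun x => x) h]
  have key : psh (fun x : V => x) = LinearMap.id := by
    refine hm_ext _ _ fun σ => ?_
    have : σ.image (fun x => x) = σ := Finset.image_id'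
    rw [psh_single, this, if_pos rfl, LinearMap.id_apply]
  rw [key, LinearMap.id_apply]

theorem hm_chain {α : Type*} [PartialOrder α] {P : Set α} {ρ : Finset α}
    (h1 : ∀ x ∈ ρ, x ∈ P) (h2 : ∀ x ∈ ρ, ∀ y ∈ ρ, x ≤ y ∨ y ≤ x) : ρ ∈ OC P :=
  ⟨h1, fun x hx y hy _ => h2 x hx y hy⟩

theorem hm_comp {α : Type*} [PartialOrder α] {P : Set α} {ρ : Finset α} (h : ρ ∈ OC P)
    {x y : α} (hx : x ∈ ρ) (hy : y ∈ ρ) : x ≤ y ∨ y ≤ x := by
  by_cases hxy : x = y
  · exact Or.inl hxy.le
  · exact h.2 hx hy hxy

theorem homotopy_up {α : Type*} [PartialOrder α] (P : Set α) (φ : α → α) (l : α) (hl : l ∈ P)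
    (k : ℕ) (z : Ch α) (hz : InK (OC P) k z) (hb : bd z = 0)
    (hmono : ∀ σ ∈ z.support, ∀ x ∈ σ, ∀ τ ∈ z.support, ∀ y ∈ τ, x ≤ y → φ x ≤ φ y)
    (hφ : ∀ σ ∈ z.support, ∀ x ∈ σ, x ≤ φ x ∧ φ x ∈ P ∧ l ≤ φ x) :
    ∃ c : Ch α, InK (OC P) (k + 1) c ∧ bd c = z ∧
      c.support.card ≤ (2 * k + 2) * z.support.card + 1 := by
  set W : Finset α := z.support.biUnion id with hW
  have hWmem : ∀ x, x ∈ W ↔ ∃ σ ∈ z.support, x ∈ σ := by
    intro x; simp [hW, Finset.mem_biUnion]
  have hmW : ∀ x ∈ W, ∀ y ∈ W, x ≤ y → φ x ≤ φ y := by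
    intro x hx y hy hxy
    obtain ⟨σ, hσ, hxσ⟩ := (hWmem x).1 hx
    obtain ⟨τ, hτ, hyτ⟩ := (hWmem y).1 hy
    exact hmono σ hσ x hxσ τ hτ y hyτ hxy
  have hφW : ∀ x ∈ W, x ≤ φ x ∧ φ x ∈ P ∧ l ≤ φ x := by
    intro x hx
    obtain ⟨σ, hσ, hxσ⟩ := (hWmem x).1 hx
    exact hφ σ hσ x hxσ
  set ψ : Finset α → α → α := fun U x => if x ∈ U then φ x else x with hψ
  have key : ∀ (n : ℕ) (U : Finset α), U.card = n → U ⊆ W →
      (∀ x ∈ U, ∀ y ∈ W, x ≤ y → y ∈ U) →
      ∃ e : Ch α, InK (OC P) (k + 1) e ∧ bd e = z + psh (ψ U) z ∧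
        e.support.card ≤ ∑ x ∈ U, (z.support.filter fun σ => x ∈ σ).card := by
    intro n
    induction n with
    | zero =>
      intro U hU _ _
      have hU0 : U = ∅ := Finset.card_eq_zero.mp hU
      subst hU0
      refine ⟨0, InK.zero, ?_, by simp⟩
      rw [psh_id (fun σ _ x _ => by simp [hψ]), hm_self, map_zero]
    | succ n ih =>
      intro U hU hUW hup
      have hne : U.Nonempty := Finset.card_pos.mp (by omega)
      obtain ⟨w, hw⟩ := U.exists_minimal hne
      have hwU : w ∈ U := hw.1
      have hmin : ∀ y ∈ U, y ≤ w → y = w := fun y hy hyw => le_antisymm hyw (hw.2 hy hyw)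
      have hwW := hUW hwU
      obtain ⟨e', he1, he2, he3⟩ := ih (U.erase w) (by rw [Finset.card_erase_of_mem hwU, hU]; rfl)
        (fun x hx => hUW (Finset.mem_of_mem_erase hx)) (by
          intro x hx y hy hxy
          refine Finset.mem_erase.mpr ⟨?_, hup x (Finset.mem_of_mem_erase hx) y hy hxy⟩
          intro hyw
          rw [hyw] at hxy
          exact Finset.ne_of_mem_erase hx (hmin x (Finset.mem_of_mem_erase hx) hxy))
      set t : Ch α := psh (ψ U) (lkx w z) with ht
      have ht' : psh (ψ (U.erase w)) (lkx w z) = t := by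
        refine psh_congr fun σ hσ x hx => ?_
        have h1 := (mem_lkx hσ).1
        have h2 : x ≠ w := fun h => h1 (h ▸ hx)
        simp [hψ, Finset.mem_erase, h2]
      have hbt : bd t = 0 := by
        rw [ht, bd_psh, bd_lkx, hb, map_zero, map_zero]
      have hN : psh (ψ (U.erase w)) (nox w z) = psh (ψ U) (nox w z) := by
        refine psh_congr fun σ hσ x hx => ?_
        have h2 : x ≠ w := by
          obtain ⟨τ, _, h2⟩ := hm_supp _ _ _ hσ
          by_cases hw' : w ∈ τ
          · rw [if_pos hw'] at h2; simp at h2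
          · rw [if_neg hw'] at h2
            have := Finset.mem_singleton.mp (Finsupp.support_single_subset h2)
            intro h; rw [← h, ← this] at hw'; exact hw' hx
        simp [hψ, Finset.mem_erase, h2]
      have e1 : psh (ψ U) z = psh (ψ U) (nox w z) + mulx (φ w) t := by
        conv_lhs => rw [nox_add w z]
        rw [map_add, psh_mulx, ← ht]
        simp [hψ, hwU]
      have e2 : psh (ψ (U.erase w)) z = psh (ψ U) (nox w z) + mulx w t := by
        conv_lhs => rw [nox_add w z]
        rw [map_add, psh_mulx, ht', hN]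
        simp [hψ]
      refine ⟨e' + mulx w (mulx (φ w) t), ?_, ?_, ?_⟩
      · refine he1.add ?_
        intro ρ hρ
        obtain ⟨σ1, h1, h2, rfl⟩ := mem_mulx hρ
        obtain ⟨σ2, h3, h4, rfl⟩ := mem_mulx h1
        obtain ⟨τ, h5, rfl, h7⟩ := mem_psh h3
        obtain ⟨h8, h9⟩ := mem_lkx h5
        have h10 := hz _ h9
        have hτW : ∀ y ∈ τ, y ∈ W := fun y hy =>
          (hWmem y).2 ⟨_, h9, Finset.mem_insert_of_mem hy⟩
        have hcmp : ∀ y ∈ τ, (y ≤ w ∧ y ∉ U) ∨ (w ≤ y ∧ y ∈ U) := by
          intro y hy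
          have hyw : y ≠ w := fun h => h8 (h ▸ hy)
          rcases hm_comp h10.1 (Finset.mem_insert_of_mem hy) (Finset.mem_insert_self w τ) with
            h | h
          · exact Or.inl ⟨h, fun hyU => hyw (hmin y hyU h)⟩
          · exact Or.inr ⟨h, hup w hwU y (hτW y hy) h⟩
        have F2 : ∀ y ∈ τ, ψ U y ≤ w ∨ φ w ≤ ψ U y := by
          intro y hy
          rcases hcmp y hy with ⟨h, hU'⟩ | ⟨h, hU'⟩
          · left; simp [hψ, hU', h]
          · right; simp [hψ, hU', hmW w hwW y (hτW y hy) h]
        have F3 : ∀ y ∈ τ, ∀ y' ∈ τ, y ≤ y' → ψ U y ≤ ψ U y' := by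
          intro y hy y' hy' hyy
          by_cases hU1 : y ∈ U
          · have hU2 : y' ∈ U := hup y hU1 y' (hτW y' hy') hyy
            simp [hψ, hU1, hU2, hmW y (hτW y hy) y' (hτW y' hy') hyy]
          · by_cases hU2 : y' ∈ U
            · simp [hψ, hU1, hU2, hyy.trans (hφW y' (hτW y' hy')).1]
            · simp [hψ, hU1, hU2, hyy]
        have F4 : ∀ y ∈ τ, ∀ y' ∈ τ, ψ U y ≤ ψ U y' ∨ ψ U y' ≤ ψ U y := by
          intro y hy y' hy'
          rcases hm_comp h10.1 (Finset.mem_insert_of_mem hy) (Finset.mem_insert_of_mem hy') with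
            h | h
          · exact Or.inl (F3 y hy y' hy' h)
          · exact Or.inr (F3 y' hy' y hy h)
        have hwP : w ∈ P := h10.1.1 w (Finset.mem_insert_self w τ)
        have F1 := hφW w hwW
        refine ⟨hm_chain ?_ ?_, ?_⟩
        · intro x hx
          rcases Finset.mem_insert.mp hx with rfl | hx
          · exact hwP
          rcases Finset.mem_insert.mp hx with rfl | hx
          · exact F1.2.1
          obtain ⟨y, hy, rfl⟩ := Finset.mem_image.mp hx
          by_cases hyU : y ∈ U
          · simp only [hψ, if_pos hyU]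
            exact (hφW y (hτW y hy)).2.1
          · simp only [hψ, if_neg hyU]
            exact h10.1.1 y (Finset.mem_insert_of_mem hy)
        · intro x hx x' hx'
          rcases Finset.mem_insert.mp hx with rfl | hx
          · rcases Finset.mem_insert.mp hx' with rfl | hx'
            · exact Or.inl le_rfl
            rcases Finset.mem_insert.mp hx' with rfl | hx'
            · exact Or.inl F1.1
            obtain ⟨y, hy, rfl⟩ := Finset.mem_image.mp hx'
            rcases F2 y hy with h | h
            · exact Or.inr h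
            · exact Or.inl (F1.1.trans h)
          rcases Finset.mem_insert.mp hx with rfl | hx
          · rcases Finset.mem_insert.mp hx' with rfl | hx'
            · exact Or.inr F1.1
            rcases Finset.mem_insert.mp hx' with rfl | hx'
            · exact Or.inl le_rfl
            obtain ⟨y, hy, rfl⟩ := Finset.mem_image.mp hx'
            rcases F2 y hy with h | h
            · exact Or.inr (h.trans F1.1)
            · exact Or.inl h
          obtain ⟨y, hy, rfl⟩ := Finset.mem_image.mp hx
          rcases Finset.mem_insert.mp hx' with rfl | hx'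
          · rcases F2 y hy with h | h
            · exact Or.inl h
            · exact Or.inr (F1.1.trans h)
          rcases Finset.mem_insert.mp hx' with rfl | hx'
          · rcases F2 y hy with h | h
            · exact Or.inl (h.trans F1.1)
            · exact Or.inr h
          obtain ⟨y', hy', rfl⟩ := Finset.mem_image.mp hx'
          exact F4 y hy y' hy'
        · rw [Finset.card_insert_of_notMem h2, Finset.card_insert_of_notMem h4, h7]
          have := h10.2
          rw [Finset.card_insert_of_notMem h8] at this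
          omega
      · rw [map_add, he2, bd_mulx, bd_mulx, hbt, map_zero, add_zero, e1, e2]
        have h1 := hm_self (mulx w t)
        calc z + (psh (ψ U) (nox w z) + mulx w t) + (mulx (φ w) t + mulx w t)
            = z + (psh (ψ U) (nox w z) + mulx (φ w) t) + (mulx w t + mulx w t) := by abel
          _ = _ := by rw [h1, add_zero]
      · have h1 : (e' + mulx w (mulx (φ w) t)).support.card ≤
            e'.support.card + (mulx w (mulx (φ w) t)).support.card :=
          le_trans (Finset.card_le_card Finsupp.support_add) (Finset.card_union_le _ _)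
        have h2 := card_mulx w (mulx (φ w) t)
        have h3 := card_mulx (φ w) t
        have h4 := card_psh (ψ U) (lkx w z)
        have h5 := card_lkx w z
        have h6 : ∑ x ∈ U, (z.support.filter fun σ => x ∈ σ).card =
            (z.support.filter fun σ => w ∈ σ).card +
              ∑ x ∈ U.erase w, (z.support.filter fun σ => x ∈ σ).card :=
          (Finset.add_sum_erase U _ hwU).symm
        rw [← ht] at h4
        omega
  obtain ⟨e, he1, he2, he3⟩ := key W.card W rfl (Finset.Subset.refl W) (fun x _ y hy _ => hy)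
  have hψW : ∀ y ∈ W, ψ W y = φ y := fun y hy => by simp [hψ, hy]
  refine ⟨e + mulx l (psh (ψ W) z), he1.add ?_, ?_, ?_⟩
  · intro ρ hρ
    obtain ⟨σ1, h1, h2, rfl⟩ := mem_mulx hρ
    obtain ⟨τ, h5, rfl, h7⟩ := mem_psh h1
    have hτW : ∀ y ∈ τ, y ∈ W := fun y hy => (hWmem y).2 ⟨_, h5, hy⟩
    have h10 := hz _ h5
    refine ⟨hm_chain ?_ ?_, ?_⟩
    · intro x hx
      rcases Finset.mem_insert.mp hx with rfl | hx
      · exact hl
      obtain ⟨y, hy, rfl⟩ := Finset.mem_image.mp hx
      rw [hψW y (hτW y hy)]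
      exact (hφW y (hτW y hy)).2.1
    · intro x hx x' hx'
      rcases Finset.mem_insert.mp hx with rfl | hx
      · rcases Finset.mem_insert.mp hx' with rfl | hx'
        · exact Or.inl le_rfl
        obtain ⟨y, hy, rfl⟩ := Finset.mem_image.mp hx'
        rw [hψW y (hτW y hy)]
        exact Or.inl (hφW y (hτW y hy)).2.2
      obtain ⟨y, hy, rfl⟩ := Finset.mem_image.mp hx
      rw [hψW y (hτW y hy)]
      rcases Finset.mem_insert.mp hx' with rfl | hx'
      · exact Or.inr (hφW y (hτW y hy)).2.2
      obtain ⟨y', hy', rfl⟩ := Finset.mem_image.mp hx'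
      rw [hψW y' (hτW y' hy')]
      rcases hm_comp h10.1 hy hy' with h | h
      · exact Or.inl (hmW y (hτW y hy) y' (hτW y' hy') h)
      · exact Or.inr (hmW y' (hτW y' hy') y (hτW y hy) h)
    · rw [Finset.card_insert_of_notMem h2, h7, h10.2]
  · rw [map_add, he2, bd_mulx, bd_psh, hb, map_zero, map_zero, add_zero, add_assoc, hm_self,
      add_zero]
  · have h1 : (e + mulx l (psh (ψ W) z)).support.card ≤
        e.support.card + (mulx l (psh (ψ W) z)).support.card :=
      le_trans (Finset.card_le_card Finsupp.support_add) (Finset.card_union_le _ _)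
    have h2 := card_mulx l (psh (ψ W) z)
    have h4 := card_psh (ψ W) z
    have h5 : ∑ x ∈ W, (z.support.filter fun σ => x ∈ σ).card ≤ k * z.support.card := by
      have h6 : ∑ x ∈ W, (z.support.filter fun σ => x ∈ σ).card =
          ∑ σ ∈ z.support, (W.filter fun x => x ∈ σ).card := by
        simp only [Finset.card_filter]
        rw [Finset.sum_comm]
      rw [h6]
      have h7 : ∀ σ ∈ z.support, (W.filter fun x => x ∈ σ).card ≤ k := by
        intro σ hσ
        rw [← (hz σ hσ).2]
        refine Finset.card_le_card fun x hx => (Finset.mem_filter.mp hx).2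
      calc _ ≤ ∑ σ ∈ z.support, k := Finset.sum_le_sum h7
        _ = k * z.support.card := by rw [Finset.sum_const, smul_eq_mul, mul_comm]
    nlinarith

theorem hm_OC_dual {α : Type*} [PartialOrder α] (P : Set α) :
    @OC αᵒᵈ _ P = @OC α _ P := by
  ext σ
  constructor
  · rintro ⟨h1, h2⟩
    exact ⟨h1, fun x hx y hy hxy => (h2 hx hy hxy).symm⟩
  · rintro ⟨h1, h2⟩
    exact ⟨h1, fun x hx y hy hxy => (h2 hx hy hxy).symm⟩

theorem homotopy_down {α : Type*} [PartialOrder α] (P : Set α) (φ : α → α) (l : α) (hl : l ∈ P)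
    (k : ℕ) (z : Ch α) (hz : InK (OC P) k z) (hb : bd z = 0)
    (hmono : ∀ σ ∈ z.support, ∀ x ∈ σ, ∀ τ ∈ z.support, ∀ y ∈ τ, x ≤ y → φ x ≤ φ y)
    (hφ : ∀ σ ∈ z.support, ∀ x ∈ σ, φ x ≤ x ∧ φ x ∈ P ∧ φ x ≤ l) :
    ∃ c : Ch α, InK (OC P) (k + 1) c ∧ bd c = z ∧
      c.support.card ≤ (2 * k + 2) * z.support.card + 1 := by
  have h := @homotopy_up αᵒᵈ _ P φ l hl k z (by rw [hm_OC_dual]; exact hz) hb
    (fun σ hσ x hx τ hτ y hy hxy => hmono τ hτ y hy σ hσ x hx hxy)
    (fun σ hσ x hx => hφ σ hσ x hx)
  rw [hm_OC_dual] at h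
  exact h

end P067X
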