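import Vale.Agent.P067X.ChainLib

/-!
# P067, module MORSE: relative acyclicity by adding vertices

PROOF.  Induction on `N`: if `f` is a cocycle on the faces with `k` vertices which vanishes on `Full Z (rk ≤ N)`, then there is `g` vanishing
on the faces of `Full Z (rk = 0)` (in fact on all of `Full Z (rk ≤ N)`) such that `f + cob g` vanishes on the faces of `Full Z (rk ≤ N + 1)` with
`k` vertices: for a vertex `x` of rank `N + 1` let `D` be its present link; `τ ↦ f (insert x τ)` is a cocycle on `D` (`k - 1` vertices),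
hence `cob g_x`; put `g (insert x τ') = g_x τ'` for `τ' ∈ D`, and `g = 0` on all other faces.  `k = 0` is trivial.
The ranks are bounded since there are finitely many vertices.
-/

namespace P067X

open Classical

/-- relative acyclicity of the pair `(K, K₀)` on faces with `k` vertices -/
def RelAcyc {V : Type*} (K K₀ : Set (Finset V)) (k : ℕ) : Prop :=
  ∀ f : Finset V → ZMod 2, Cocyc K k f → (∀ σ ∈ K₀, σ.card = k → f σ = 0) →
    ∃ g : Finset V → ZMod 2, (∀ σ ∈ K, σ.card = k → f σ = cob g σ) ∧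
      ∀ σ ∈ K₀, σ.card + 1 = k → g σ = 0

private theorem mrs_cob_insert {V : Type*} (f : Finset V → ZMod 2) (x : V) (τ : Finset V)
    (hx : x ∉ τ) : cob f (insert x τ) = f τ + ∑ y ∈ τ, f (insert x (τ.erase y)) := by
  unfold cob
  rw [Finset.sum_insert hx, Finset.erase_insert hx]
  congr 1
  refine Finset.sum_congr rfl fun y hy => ?_
  have hxy : x ≠ y := fun h => hx (h ▸ hy)
  rw [Finset.erase_insert_of_ne hxy]

/-- one step: kill the cocycle on the faces with a vertex of rank `N + 1` -/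
private theorem mrs_step {V : Type*} (Z : Set (Finset V)) (hZ : IsCx Z)
    (rk : V → ℕ)
    (hrk : ∀ x y, {x, y} ∈ Z → x ≠ y → rk x = rk y → rk x = 0) (m : ℕ)
    (hlink : ∀ x, {x} ∈ Z → 0 < rk x →
      Acyc (Full (Lk Z {x}) (fun y => rk y < rk x)) m) (N : ℕ)
    (f : Finset V → ZMod 2) (hf : Cocyc Z (m + 1) f)
    (hf0 : ∀ σ ∈ Full Z (fun x => rk x ≤ N), σ.card = m + 1 → f σ = 0) :
    ∃ g : Finset V → ZMod 2, (∀ σ, (∀ x ∈ σ, rk x ≤ N) → g σ = 0) ∧
      (∀ σ ∈ Full Z (fun x => rk x ≤ N + 1), σ.card = m + 1 → f σ = cob g σ) := by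
  have hx : ∀ x, ∃ gx : Finset V → ZMod 2, {x} ∈ Z → rk x = N + 1 →
      ∀ τ, x ∉ τ → insert x τ ∈ Z → (∀ y ∈ τ, rk y ≤ N) → τ.card = m →
        f (insert x τ) = cob gx τ := by
    intro x
    by_cases h1 : {x} ∈ Z ∧ rk x = N + 1
    · obtain ⟨h1, h2⟩ := h1
      have hac := hlink x h1 (by omega) (fun τ => f (insert x τ)) ?_
      · obtain ⟨gx, hgx⟩ := hac
        refine ⟨gx, fun _ _ τ hτ1 hτ2 hτ3 hτ4 => ?_⟩
        refine hgx τ ⟨⟨?_, ?_⟩, ?_⟩ hτ4
        · exact Finset.disjoint_singleton_left.2 hτ1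
        · rw [← Finset.insert_eq]
          exact hτ2
        · intro y hy
          have := hτ3 y hy
          omega
      · rintro ρ ⟨⟨hρ1, hρ2⟩, hρ3⟩ hρ4
        have hxρ : x ∉ ρ := Finset.disjoint_singleton_left.1 hρ1
        rw [← Finset.insert_eq] at hρ2
        have h3 := hf (insert x ρ) hρ2 (by rw [Finset.card_insert_of_notMem hxρ, hρ4])
        rw [mrs_cob_insert f x ρ hxρ] at h3
        have h4 : f ρ = 0 := by
          refine hf0 ρ ⟨hZ.2 _ hρ2 _ (Finset.subset_insert _ _), fun y hy => ?_⟩ hρ4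
          have := hρ3 y hy
          omega
        rw [h4, zero_add] at h3
        exact h3
    · exact ⟨0, fun h2 h3 => absurd ⟨h2, h3⟩ h1⟩
  choose gx hgx using hx
  refine ⟨fun σ => ∑ x ∈ σ.filter (fun x => rk x = N + 1), gx x (σ.erase x), ?_, ?_⟩
  · intro σ hσ
    have : σ.filter (fun x => rk x = N + 1) = ∅ := by
      refine Finset.filter_eq_empty_iff.2 fun x hx => ?_
      have := hσ x hx
      omega
    simp only [this, Finset.sum_empty]
  · rintro σ ⟨hσZ, hσ⟩ hcard
    by_cases hex : ∃ x ∈ σ, rk x = N + 1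
    · obtain ⟨x, hxσ, hxr⟩ := hex
      obtain ⟨τ, hτ⟩ : ∃ τ, τ = σ.erase x := ⟨_, rfl⟩
      have hxτ : x ∉ τ := by rw [hτ]; exact Finset.notMem_erase _ _
      have hσ' : σ = insert x τ := by rw [hτ, Finset.insert_erase hxσ]
      have hτN : ∀ y ∈ τ, rk y ≤ N := by
        intro y hy
        have hyσ : y ∈ σ := by rw [hσ']; exact Finset.mem_insert_of_mem hy
        have h1 := hσ y hyσ
        by_contra hn
        have h2 : rk y = rk x := by omega
        have hne : x ≠ y := fun h => hxτ (h ▸ hy)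
        have h3 : ({x, y} : Finset V) ∈ Z := hZ.2 σ hσZ _ (by
          intro z hz
          rw [Finset.mem_insert, Finset.mem_singleton] at hz
          rcases hz with h | h
          · rw [h]; exact hxσ
          · rw [h]; exact hyσ)
        have h4 := hrk x y h3 hne h2.symm
        omega
      have hτc : τ.card = m := by
        have h1 := Finset.card_erase_of_mem hxσ
        rw [← hτ, hcard] at h1
        omega
      have hxZ : {x} ∈ Z := hZ.2 σ hσZ _ (Finset.singleton_subset_iff.2 hxσ)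
      rw [hσ', hgx x hxZ hxr τ hxτ (hσ' ▸ hσZ) hτN hτc, mrs_cob_insert _ x τ hxτ]
      have h1 : τ.filter (fun x => rk x = N + 1) = ∅ := by
        refine Finset.filter_eq_empty_iff.2 fun y hy => ?_
        have := hτN y hy
        omega
      rw [h1, Finset.sum_empty, zero_add]
      unfold cob
      refine Finset.sum_congr rfl fun y hy => ?_
      have h2 : (insert x (τ.erase y)).filter (fun x => rk x = N + 1) = {x} := by
        ext z
        rw [Finset.mem_filter, Finset.mem_insert, Finset.mem_singleton]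
        constructor
        · rintro ⟨h3 | h3, h4⟩
          · exact h3
          · have := hτN z (Finset.mem_of_mem_erase h3)
            omega
        · intro h3
          rw [h3]
          exact ⟨Or.inl rfl, hxr⟩
      have h3 : x ∉ τ.erase y := fun h => hxτ (Finset.mem_of_mem_erase h)
      rw [h2, Finset.sum_singleton, Finset.erase_insert h3]
    · have hσN : ∀ y ∈ σ, rk y ≤ N := by
        intro y hy
        have h1 := hσ y hy
        by_contra hn
        exact hex ⟨y, hy, by omega⟩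
      rw [hf0 σ ⟨hσZ, hσN⟩ hcard]
      unfold cob
      symm
      refine Finset.sum_eq_zero fun y hy => ?_
      have h1 : (σ.erase y).filter (fun x => rk x = N + 1) = ∅ := by
        refine Finset.filter_eq_empty_iff.2 fun z hz => ?_
        have := hσN z (Finset.mem_of_mem_erase hz)
        omega
      simp only [h1, Finset.sum_empty]

theorem morse {V : Type*} (Z : Set (Finset V)) (hZ : IsCx Z) (hfin : {x | {x} ∈ Z}.Finite)
    (rk : V → ℕ)
    (hrk : ∀ x y, {x, y} ∈ Z → x ≠ y → rk x = rk y → rk x = 0) (k : ℕ)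
    (hlink : ∀ x, {x} ∈ Z → 0 < rk x →
      Acyc (Full (Lk Z {x}) (fun y => rk y < rk x)) (k - 1)) :
    RelAcyc Z (Full Z (fun x => rk x = 0)) k := by
  intro f hf hf0
  rcases Nat.eq_zero_or_pos k with hk | hk
  · subst hk
    refine ⟨0, fun σ hσ hc => ?_, fun σ _ hc => by omega⟩
    have hσe : σ = ∅ := Finset.card_eq_zero.1 hc
    subst hσe
    rw [hf0 ∅ ⟨hσ, fun x hx => absurd hx (Finset.notMem_empty _)⟩ rfl]
    simp [cob]
  obtain ⟨m, rfl⟩ : ∃ m, k = m + 1 := ⟨k - 1, by omega⟩
  simp only [Nat.add_sub_cancel] at hlink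
  have key : ∀ N : ℕ, ∃ g : Finset V → ZMod 2, (∀ σ, (∀ x ∈ σ, rk x = 0) → g σ = 0) ∧
      ∀ σ ∈ Full Z (fun x => rk x ≤ N), σ.card = m + 1 → f σ = cob g σ := by
    intro N
    induction N with
    | zero =>
      refine ⟨0, fun _ _ => rfl, fun σ hσ hc => ?_⟩
      rw [hf0 σ ⟨hσ.1, fun x hx => Nat.le_zero.1 (hσ.2 x hx)⟩ hc]
      simp [cob]
    | succ N ih =>
      obtain ⟨g, hg1, hg2⟩ := ih
      have hc1 : Cocyc Z (m + 1) (fun σ => f σ + cob g σ) := by
        intro ρ hρ hc
        rw [cob_add, cob_cob, hf ρ hρ hc, add_zero]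
      have hc2 : ∀ σ ∈ Full Z (fun x => rk x ≤ N), σ.card = m + 1 → f σ + cob g σ = 0 := by
        intro σ hσ hc
        rw [hg2 σ hσ hc, CharTwo.add_self_eq_zero]
      obtain ⟨h, hh1, hh2⟩ := mrs_step Z hZ rk hrk m hlink N (fun σ => f σ + cob g σ) hc1 hc2
      · refine ⟨fun σ => g σ + h σ, fun σ hσ => ?_, fun σ hσ hc => ?_⟩
        · simp only
          rw [hg1 σ hσ, hh1 σ (fun x hx => by rw [hσ x hx]; exact Nat.zero_le _), add_zero]
        · have h1 := hh2 σ hσ hc
          rw [cob_add, ← h1]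
          have h2 : cob g σ + cob g σ = 0 := CharTwo.add_self_eq_zero _
          calc f σ = f σ + (cob g σ + cob g σ) := by rw [h2, add_zero]
            _ = _ := by ring
  obtain ⟨N, hN⟩ : ∃ N, ∀ x, {x} ∈ Z → rk x ≤ N := by
    obtain ⟨N, hN⟩ := (hfin.image rk).bddAbove
    exact ⟨N, fun x hx => hN ⟨x, hx, rfl⟩⟩
  obtain ⟨g, hg1, hg2⟩ := key N
  refine ⟨g, fun σ hσ hc => hg2 σ ⟨hσ, fun x hx => hN x (hZ.2 σ hσ _
    (Finset.singleton_subset_iff.2 hx))⟩ hc, fun σ hσ _ => hg1 σ hσ.2⟩

end P067X
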