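import Vale.Agent.P067X.XDefs
import Vale.Agent.P067X.Exp
import Vale.Agent.P067X.Morse

/-!
# P067, module CXISO: transport along isomorphisms of complexes
-/

namespace P067X

open Classical

variable {V W X : Type*} {K : Set (Finset V)} {L : Set (Finset W)} {M : Set (Finset X)}
  {φ : V → W} {ψ : W → X}

private theorem iso_vert (hK : IsCx K) {σ : Finset V} (hσ : σ ∈ K) {x : V} (hx : x ∈ σ) :
    ({x} : Finset V) ∈ K :=
  hK.2 σ hσ _ (Finset.singleton_subset_iff.mpr hx)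

private theorem iso_vmem (h : CxIso K L φ) {x : V} (hx : ({x} : Finset V) ∈ K) :
    ({φ x} : Finset W) ∈ L := by
  have h1 := (h.mem {x} (fun y hy => by rw [Finset.mem_singleton] at hy; rw [hy]; exact hx)).1 hx
  rwa [Finset.image_singleton] at h1

private theorem iso_image (h : CxIso K L φ) (hK : IsCx K) {σ : Finset V} (hσ : σ ∈ K) :
    σ.image φ ∈ L := (h.mem σ (fun _ hx => iso_vert hK hσ hx)).1 hσ

private theorem iso_injOn (h : CxIso K L φ) (hK : IsCx K) {σ : Finset V} (hσ : σ ∈ K) :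
    Set.InjOn φ (σ : Set V) := fun x hx y hy hxy =>
  h.inj x y (iso_vert hK hσ hx) (iso_vert hK hσ hy) hxy

private theorem iso_card (h : CxIso K L φ) (hK : IsCx K) {σ : Finset V} (hσ : σ ∈ K) :
    (σ.image φ).card = σ.card := Finset.card_image_of_injOn (iso_injOn h hK hσ)

private theorem iso_sub (h : CxIso K L φ) (hK : IsCx K) {σ σ' : Finset V} (hσ : σ ∈ K)
    (hσ' : σ' ∈ K) (he : σ.image φ ⊆ σ'.image φ) : σ ⊆ σ' := by
  intro x hx
  obtain ⟨y, hy, hxy⟩ := Finset.mem_image.mp (he (Finset.mem_image_of_mem _ hx))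
  have := h.inj y x (iso_vert hK hσ' hy) (iso_vert hK hσ hx) hxy
  rwa [this] at hy

private theorem iso_face_inj (h : CxIso K L φ) (hK : IsCx K) {σ σ' : Finset V} (hσ : σ ∈ K)
    (hσ' : σ' ∈ K) (he : σ.image φ = σ'.image φ) : σ = σ' :=
  Finset.Subset.antisymm (iso_sub h hK hσ hσ' he.le) (iso_sub h hK hσ' hσ he.ge)

private theorem iso_erase (h : CxIso K L φ) (hK : IsCx K) {σ : Finset V} (hσ : σ ∈ K) {x : V}
    (hx : x ∈ σ) : (σ.image φ).erase (φ x) = (σ.erase x).image φ := by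
  ext w
  simp only [Finset.mem_erase, Finset.mem_image]
  constructor
  · rintro ⟨hw, y, hy, rfl⟩
    exact ⟨y, ⟨fun e => hw (by rw [e]), hy⟩, rfl⟩
  · rintro ⟨y, ⟨hyx, hy⟩, rfl⟩
    exact ⟨fun e => hyx (iso_injOn h hK hσ hy hx e), y, hy, rfl⟩

private theorem iso_cob (h : CxIso K L φ) (hK : IsCx K) (f : Finset W → ZMod 2) {ρ : Finset V}
    (hρ : ρ ∈ K) : cob f (ρ.image φ) = cob (fun σ => f (σ.image φ)) ρ := by
  rw [cob, cob, Finset.sum_image (iso_injOn h hK hρ)]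
  refine Finset.sum_congr rfl fun x hx => ?_
  rw [iso_erase h hK hρ hx]

private theorem iso_pre (h : CxIso K L φ) (hK : IsCx K) :
    ∃ pre : Finset W → Finset V, ∀ σ ∈ K, pre (σ.image φ) = σ := by
  refine ⟨fun τ => if hτ : ∃ σ ∈ K, τ = σ.image φ then hτ.choose else ∅, fun σ hσ => ?_⟩
  have hex : ∃ σ' ∈ K, σ.image φ = σ'.image φ := ⟨σ, hσ, rfl⟩
  simp only [dif_pos hex]
  exact (iso_face_inj h hK hσ hex.choose_spec.1 hex.choose_spec.2).symm

theorem CxIso.comp (h : CxIso K L φ) (h' : CxIso L M ψ) : CxIso K M (ψ ∘ φ) := by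
  refine ⟨fun x y hx hy hxy => ?_, fun σ hσ => ?_, fun τ hτ => ?_⟩
  · exact h.inj x y hx hy (h'.inj _ _ (iso_vmem h hx) (iso_vmem h hy) hxy)
  · rw [h.mem σ hσ, h'.mem (σ.image φ), Finset.image_image]
    intro y hy
    obtain ⟨x, hx, rfl⟩ := Finset.mem_image.mp hy
    exact iso_vmem h (hσ x hx)
  · obtain ⟨σ', hσ', rfl⟩ := h'.surj τ hτ
    obtain ⟨σ, hσ, rfl⟩ := h.surj σ' hσ'
    exact ⟨σ, hσ, Finset.image_image⟩

theorem CxIso.symm [Nonempty V] (h : CxIso K L φ) (hK : IsCx K) :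
    ∃ χ : W → V, CxIso L K χ ∧ (∀ x, {x} ∈ K → χ (φ x) = x) ∧ ∀ y, {y} ∈ L → φ (χ y) = y := by
  obtain ⟨χ, hχ⟩ : ∃ χ : W → V, ∀ y, (∃ x, ({x} : Finset V) ∈ K ∧ φ x = y) →
      ({χ y} : Finset V) ∈ K ∧ φ (χ y) = y := by
    refine ⟨fun y => if hy : ∃ x, ({x} : Finset V) ∈ K ∧ φ x = y then hy.choose
      else Classical.arbitrary V, fun y hy => ?_⟩
    simp only [dif_pos hy]
    exact hy.choose_spec
  have hL1 : ∀ y, ({y} : Finset W) ∈ L → ∃ x, ({x} : Finset V) ∈ K ∧ φ x = y := by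
    intro y hy
    obtain ⟨σ, hσ, he⟩ := h.surj _ hy
    have h1 : y ∈ σ.image φ := by rw [← he]; exact Finset.mem_singleton_self y
    obtain ⟨x, hx, hxy⟩ := Finset.mem_image.mp h1
    exact ⟨x, iso_vert hK hσ hx, hxy⟩
  have hχφ : ∀ x, ({x} : Finset V) ∈ K → χ (φ x) = x := by
    intro x hx
    have h1 := hχ (φ x) ⟨x, hx, rfl⟩
    exact h.inj _ _ h1.1 hx h1.2
  have hφχ : ∀ y, ({y} : Finset W) ∈ L → φ (χ y) = y := fun y hy => (hχ y (hL1 y hy)).2
  refine ⟨χ, ⟨fun y y' hy hy' he => ?_, fun σ hσ => ?_, fun τ hτ => ?_⟩, hχφ, hφχ⟩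
  · rw [← hφχ y hy, ← hφχ y' hy', he]
  · have h1 : (σ.image χ).image φ = σ := by
      rw [Finset.image_image]
      conv_rhs => rw [← Finset.image_id (s := σ)]
      refine Finset.image_congr fun y hy => ?_
      exact hφχ y (hσ y hy)
    rw [h.mem (σ.image χ), h1]
    intro x hx
    obtain ⟨y, hy, rfl⟩ := Finset.mem_image.mp hx
    exact (hχ y (hL1 y (hσ y hy))).1
  · refine ⟨τ.image φ, iso_image h hK hτ, ?_⟩
    rw [Finset.image_image]
    conv_lhs => rw [← Finset.image_id (s := τ)]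
    refine Finset.image_congr fun x hx => ?_
    exact (hχφ x (iso_vert hK hτ hx)).symm

private theorem iso_filter {σ : Finset V} {τ : Finset W} (hτ : τ ⊆ σ.image φ) :
    (σ.filter fun x => φ x ∈ τ).image φ = τ := by
  ext y
  rw [Finset.mem_image]
  constructor
  · rintro ⟨x, hx, rfl⟩
    exact (Finset.mem_filter.mp hx).2
  · intro hy
    obtain ⟨x, hx, rfl⟩ := Finset.mem_image.mp (hτ hy)
    exact ⟨x, Finset.mem_filter.mpr ⟨hx, hy⟩, rfl⟩

theorem CxIso.isCx (h : CxIso K L φ) (hK : IsCx K) : IsCx L := by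
  refine ⟨?_, fun ρ hρ τ hτ => ?_⟩
  · have := iso_image h hK hK.1
    rwa [Finset.image_empty] at this
  · obtain ⟨σ, hσ, rfl⟩ := h.surj ρ hρ
    rw [← iso_filter hτ]
    exact iso_image h hK (hK.2 σ hσ _ (Finset.filter_subset _ _))

theorem CxIso.fill (h : CxIso K L φ) (hK : IsCx K) {k N N' : ℕ} :
    Fill K k N N' ↔ Fill L k N N' := by
  constructor
  · intro hf
    exact Fill.map φ (fun σ hσ => iso_image h hK hσ) h.inj h.surj hK hf
  · intro hf
    by_cases hV : Nonempty V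
    · obtain ⟨χ, h', _, _⟩ := h.symm hK
      have hL := h.isCx hK
      exact Fill.map χ (fun σ hσ => iso_image h' hL hσ) h'.inj h'.surj hL hf
    · rw [not_nonempty_iff] at hV
      intro z hz hb hN
      by_cases hz0 : z = 0
      · exact ⟨0, InK.zero, by rw [map_zero, hz0], by simp⟩
      · exfalso
        have hall : ∀ σ : Finset V, σ = ∅ := fun σ => Finset.eq_empty_of_isEmpty σ
        obtain ⟨σ, hσ⟩ := Finsupp.support_nonempty_iff.mpr hz0
        have hk : k = 0 := by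
          rw [← (hz σ hσ).2, hall σ, Finset.card_empty]
        subst hk
        have hN1 : 1 ≤ N := (Finset.card_pos.mpr ⟨σ, hσ⟩).trans_le hN
        have hLe : (∅ : Finset W) ∈ L := (h.isCx hK).1
        obtain ⟨c, hc, hbc, _⟩ := hf (Finsupp.single ∅ 1) (by
          intro τ hτ
          rw [cl_supp_single hτ]
          exact ⟨hLe, rfl⟩) (by rw [bd_single, bdf, Finset.sum_empty])
          ((cl_card_single _).trans hN1)
        have hc0 : c ≠ 0 := by
          intro h0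
          rw [h0, map_zero] at hbc
          have := DFunLike.congr_fun hbc ∅
          rw [Finsupp.single_eq_same, Finsupp.zero_apply] at this
          exact zero_ne_one this
        obtain ⟨τ, hτ⟩ := Finsupp.support_nonempty_iff.mpr hc0
        obtain ⟨h1, h2⟩ := hc τ hτ
        obtain ⟨ρ, _, rfl⟩ := h.surj τ h1
        rw [hall ρ, Finset.image_empty, Finset.card_empty] at h2
        omega

/-- pull back of cochains -/
theorem CxIso.cocyc (h : CxIso K L φ) (hK : IsCx K) {k : ℕ} (f : Finset W → ZMod 2) :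
    Cocyc L k f ↔ Cocyc K k (fun σ => f (σ.image φ)) := by
  constructor
  · intro hf ρ hρ hc
    rw [← iso_cob h hK f hρ]
    exact hf _ (iso_image h hK hρ) (by rw [iso_card h hK hρ, hc])
  · intro hf ρ' hρ' hc
    obtain ⟨ρ, hρ, rfl⟩ := h.surj ρ' hρ'
    rw [iso_card h hK hρ] at hc
    rw [iso_cob h hK f hρ]
    exact hf ρ hρ hc

/-- pull back of cochains -/
theorem CxIso.cobdy (h : CxIso K L φ) (hK : IsCx K) {k : ℕ} (f : Finset W → ZMod 2) :
    Cobdy L k f ↔ Cobdy K k (fun σ => f (σ.image φ)) := by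
  constructor
  · rintro ⟨g, hg⟩
    refine ⟨fun σ => g (σ.image φ), fun σ hσ hc => ?_⟩
    rw [← iso_cob h hK g hσ]
    exact hg _ (iso_image h hK hσ) (by rw [iso_card h hK hσ, hc])
  · rintro ⟨g, hg⟩
    obtain ⟨pre, hpre⟩ := iso_pre h hK
    refine ⟨fun τ => g (pre τ), fun σ' hσ' hc => ?_⟩
    obtain ⟨σ, hσ, rfl⟩ := h.surj σ' hσ'
    rw [iso_card h hK hσ] at hc
    rw [iso_cob h hK _ hσ]
    have h1 : f (σ.image φ) = cob g σ := hg σ hσ hc
    rw [h1, cob, cob]
    refine Finset.sum_congr rfl fun x _ => ?_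
    rw [hpre _ (hK.2 σ hσ _ (Finset.erase_subset _ _))]

theorem CxIso.acyc (h : CxIso K L φ) (hK : IsCx K) {k : ℕ} : Acyc K k ↔ Acyc L k := by
  constructor
  · intro hA f hf
    exact (h.cobdy hK f).2 (hA _ ((h.cocyc hK f).1 hf))
  · intro hA f hf
    obtain ⟨pre, hpre⟩ := iso_pre h hK
    have h1 : Cocyc K k (fun σ => f (pre (σ.image φ))) := by
      intro ρ hρ hc
      rw [← hf ρ hρ hc, cob, cob]
      refine Finset.sum_congr rfl fun x _ => ?_
      rw [hpre _ (hK.2 ρ hρ _ (Finset.erase_subset _ _))]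
    obtain ⟨g, hg⟩ := (h.cobdy hK (fun τ => f (pre τ))).1
      (hA _ ((h.cocyc hK (fun τ => f (pre τ))).2 h1))
    refine ⟨g, fun σ hσ hc => ?_⟩
    have h2 : f (pre (σ.image φ)) = cob g σ := hg σ hσ hc
    rw [← h2, hpre σ hσ]

theorem CxIso.link (h : CxIso K L φ) (hK : IsCx K) {s : Finset V} (hs : s ∈ K) :
    CxIso (Lk K s) (Lk L (s.image φ)) φ := by
  have hvK : ∀ x, ({x} : Finset V) ∈ Lk K s → ({x} : Finset V) ∈ K := fun x hx =>
    hK.2 _ hx.2 _ Finset.subset_union_right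
  refine ⟨fun x y hx hy hxy => h.inj x y (hvK x hx) (hvK y hy) hxy, fun σ hσ => ?_,
    fun τ hτ => ?_⟩
  · have hxs : ∀ x ∈ σ, x ∉ s := fun x hx hxs =>
      (Finset.disjoint_left.mp (hσ x hx).1 hxs) (Finset.mem_singleton_self x)
    have hv : ∀ x ∈ s ∪ σ, ({x} : Finset V) ∈ K := by
      intro x hx
      rcases Finset.mem_union.mp hx with h1 | h1
      · exact iso_vert hK hs h1
      · exact hvK x (hσ x h1)
    have hu : (s ∪ σ).image φ = s.image φ ∪ σ.image φ := Finset.image_union _ _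
    constructor
    · rintro ⟨_, h2⟩
      refine ⟨?_, ?_⟩
      · rw [Finset.disjoint_left]
        intro w hw hw'
        obtain ⟨a, ha, rfl⟩ := Finset.mem_image.mp hw
        obtain ⟨b, hb, hab⟩ := Finset.mem_image.mp hw'
        have := h.inj b a (hvK b (hσ b hb)) (iso_vert hK hs ha) hab
        exact hxs b hb (this ▸ ha)
      · rw [← hu]
        exact (h.mem _ hv).1 h2
    · rintro ⟨_, h2⟩
      refine ⟨?_, ?_⟩
      · rw [Finset.disjoint_left]
        intro a ha ha'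
        exact hxs a ha' ha
      · rw [← hu] at h2
        exact (h.mem _ hv).2 h2
  · obtain ⟨h1, h2⟩ := hτ
    obtain ⟨ρ, hρ, he⟩ := h.surj _ h2
    have hτρ : τ ⊆ ρ.image φ := by
      rw [← he]
      exact Finset.subset_union_right
    have hsρ : s ⊆ ρ := by
      apply iso_sub h hK hs hρ
      rw [← he]
      exact Finset.subset_union_left
    refine ⟨ρ.filter fun x => φ x ∈ τ, ⟨?_, ?_⟩, (iso_filter hτρ).symm⟩
    · rw [Finset.disjoint_left]
      intro a ha ha'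
      exact Finset.disjoint_left.mp h1 (Finset.mem_image_of_mem φ ha) (Finset.mem_filter.mp ha').2
    · exact hK.2 ρ hρ _ (Finset.union_subset hsρ (Finset.filter_subset _ _))

theorem CxIso.full (h : CxIso K L φ) (hK : IsCx K) {P : V → Prop} {P' : W → Prop}
    (hP : ∀ x, {x} ∈ K → (P x ↔ P' (φ x))) : CxIso (Full K P) (Full L P') φ := by
  refine ⟨fun x y hx hy hxy => h.inj x y hx.1 hy.1 hxy, fun σ hσ => ?_, fun τ hτ => ?_⟩
  · constructor
    · rintro ⟨h1, h2⟩
      refine ⟨(h.mem σ fun x hx => (hσ x hx).1).1 h1, fun y hy => ?_⟩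
      obtain ⟨x, hx, rfl⟩ := Finset.mem_image.mp hy
      exact (hP x (hσ x hx).1).1 (h2 x hx)
    · rintro ⟨h1, _⟩
      exact ⟨(h.mem σ fun x hx => (hσ x hx).1).2 h1,
        fun x hx => (hσ x hx).2 x (Finset.mem_singleton_self x)⟩
  · obtain ⟨h1, h2⟩ := hτ
    obtain ⟨σ, hσ, rfl⟩ := h.surj τ h1
    exact ⟨σ, ⟨hσ, fun x hx => (hP x (iso_vert hK hσ hx)).2 (h2 _ (Finset.mem_image_of_mem φ hx))⟩,
      rfl⟩

theorem Lk_Lk (K : Set (Finset V)) (s t : Finset V) (hst : Disjoint s t) :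
    Lk (Lk K s) t = Lk K (s ∪ t) := by
  ext u
  simp only [Lk, Set.mem_ofPred_eq, Finset.disjoint_union_left, Finset.disjoint_union_right,
    Finset.union_assoc]
  tauto

theorem Full_Full (K : Set (Finset V)) (P P' : V → Prop) :
    Full (Full K P) P' = Full K (fun x => P x ∧ P' x) := by
  ext σ
  simp only [Full, Set.mem_ofPred_eq]
  constructor
  · rintro ⟨⟨h1, h2⟩, h3⟩
    exact ⟨h1, fun x hx => ⟨h2 x hx, h3 x hx⟩⟩
  · rintro ⟨h1, h2⟩
    exact ⟨⟨h1, fun x hx => (h2 x hx).1⟩, fun x hx => (h2 x hx).2⟩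

end P067X
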