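import Vale.Agent.P067X.CxBasic
import Vale.Agent.P067X.Iso
import Vale.Agent.P067X.Group

/-!
# P067, module INVCOB: the cohomology of `XX` vanishes

PROOF.
`act_trivial`: let `f` be a cocycle on faces with `k` vertices, `g` a transvection; `f + g^* f` is a coboundary on `X^{e_i}` (`triv_XV`), hence on all `X^v` (`cobdy_indep`),
hence on all `X^V`, `V ∈ PP` (`V` contains a `v` with `v_0 ≠ 0`, `X^V ⊆ X^v`), hence on `XX` (`gen_XX`).  Products: `sl_gen_cong`.
`inv_cobdy`: for a cocycle `F` invariant under the congruence group: `ψ(σ) = 0` if `σ` has a vertex of type `0`, and otherwise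
`ψ(σ) = F(insert S₀ σ)` for any vertex `S₀` of type `0` with `insert S₀ σ` a face; this does not depend on `S₀`: two faces `ρ, ρ'` with the same
vertices of type `≠ 0` and both with a vertex of type `0` differ by an element of the congruence group (`TR.cong_decomp`, `std_map_const`: a face is `γ {std W_i}`,
`γ ∈ cong`, `W_i = {vco 0 v : v ∈ lev S_i 0}`).  Then `F = cob ψ`.
`vanish`: induction on `k`; `k = 0`: `XX` has a vertex.  `k ≥ 1`: `colV` (with the induction hypothesis) gives the hypothesis of `act_trivial`; for a cocycle `f`: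
`f ∼ |G| f ∼ ∑_{g ∈ G} g^* f = F`, `G` the congruence group, `F` is invariant, so `F` is a coboundary.
(`n - (k+2) ≥ r + k²+...`: with `n ≥ r + (k+3)²`, `n - (k+2) ≥ r + (k+2)²`.)
-/

namespace P067X

open Classical Module

section aux

variable {p m : ℕ} [Fact p.Prime] {R : Type} [CommRing R] [Algebra (ZMod p) R]
  {ι : Type} [Fintype ι] [DecidableEq ι]

/-- the subspace `W` of a vertex `γ (F + t W)`, `γ` in the congruence group -/
private noncomputable def icWt (A : TR p m R) (S : Submodule (ZMod p) (ι → R)) :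
    Submodule (ZMod p) (ι → ZMod p) := (A.lev S 0).map (A.vco 0)

private theorem ic_vco_zero (A : TR p m R) {g : Matrix.SpecialLinearGroup ι R} (hg : g ∈ A.cong ι)
    (v : ι → R) : A.vco 0 (gm p g.1 v) = A.vco 0 v := by
  funext i
  change A.co 0 (∑ j, g.1 i j * v j) = A.co 0 (v i)
  rw [map_sum]
  have h1 : ∀ j ∈ Finset.univ, A.co 0 (g.1 i j * v j) = if i = j then A.co 0 (v j) else 0 := by
    intro j _
    rw [A.co_zero_mul, hg i j]
    split_ifs <;> simp
  rw [Finset.sum_congr rfl h1, Finset.sum_ite_eq, if_pos (Finset.mem_univ i)]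

private theorem ic_wt_std (A : TR p m R) (hm : 3 ≤ m) {g : Matrix.SpecialLinearGroup ι R}
    (hg : g ∈ A.cong ι) (W : Submodule (ZMod p) (ι → ZMod p)) :
    icWt A ((A.std W).map (gm p g.1)) = W := by
  rw [icWt, lev_map]
  ext x
  constructor
  · rintro ⟨_, ⟨v, hv, rfl⟩, rfl⟩
    rw [ic_vco_zero A hg]
    exact ((mem_lev_std A hm W 0 v).1 hv).1
  · intro hx
    refine ⟨gm p g.1 (cst R ι x), ⟨cst R ι x, ?_, rfl⟩, ?_⟩
    · refine (mem_lev_std A hm W 0 _).2 ⟨?_, fun a ha => ?_⟩
      · rw [A.vco_cst, if_pos rfl]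
        exact hx
      · rw [A.vco_cst, if_neg (by omega)]
    · rw [ic_vco_zero A hg, A.vco_cst, if_pos rfl]

/-- faces are translates of standard faces by elements of the congruence group -/
private theorem ic_face (A : TR p m R) (r : ℕ) {σ : Finset (Submodule (ZMod p) (ι → R))}
    (hσ : σ ∈ A.XX ι r) : ∃ g ∈ A.cong ι, ∃ c : Finset (Submodule (ZMod p) (ι → ZMod p)),
      IsChain (· ≤ ·) (c : Set (Submodule (ZMod p) (ι → ZMod p))) ∧
      (∀ U ∈ c, finrank (ZMod p) U ≤ r) ∧
      σ = c.image (fun U => (A.std U).map (gm p g.1)) := by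
  obtain ⟨g, c, hc, hr, rfl⟩ := hσ
  obtain ⟨g', hg', h, rfl⟩ := A.cong_decomp g
  refine ⟨g', hg', c.image (fun U => U.map (Matrix.mulVecLin h.1)), ?_, ?_, ?_⟩
  · intro U hU U' hU' hne
    rw [Finset.mem_coe, Finset.mem_image] at hU hU'
    obtain ⟨W, hW, rfl⟩ := hU
    obtain ⟨W', hW', rfl⟩ := hU'
    have hne' : W ≠ W' := fun h => hne (by rw [h])
    rcases hc hW hW' hne' with h1 | h1
    · exact Or.inl (Submodule.map_mono h1)
    · exact Or.inr (Submodule.map_mono h1)
  · intro U hU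
    rw [Finset.mem_image] at hU
    obtain ⟨W, hW, rfl⟩ := hU
    exact (Submodule.finrank_map_le _ _).trans (hr W hW)
  · rw [Finset.image_image]
    apply Finset.image_congr
    intro U _
    simp only [Function.comp_apply]
    rw [← std_map_const, ← map_gm_mul]
    rfl

end aux

theorem inv_cobdy {p m : ℕ} [Fact p.Prime] (hm : 3 ≤ m) {R : Type} [CommRing R]
    [Algebra (ZMod p) R] (A : TR p m R) {ι : Type} [Fintype ι] [DecidableEq ι] (r k : ℕ)
    (F : Finset (Submodule (ZMod p) (ι → R)) → ZMod 2) (hF : Cocyc (A.XX ι r) k F)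
    (hinv : ∀ g ∈ A.cong ι, ∀ σ ∈ A.XX ι r, F (σ.image (fun S => S.map (gm p g.1))) = F σ) :
    Cobdy (A.XX ι r) k F := by
  -- the value of `F` depends only on the set of subspaces
  have hval : ∀ σ ∈ A.XX ι r, F σ = F ((σ.image (icWt A)).image A.std) := by
    intro σ hσ
    obtain ⟨g, hg, c, hc, hr, rfl⟩ := ic_face A r hσ
    have h1 : (c.image (fun U => (A.std U).map (gm p g.1))).image (icWt A) = c := by
      rw [Finset.image_image]
      conv_rhs => rw [← Finset.image_id (s := c)]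
      apply Finset.image_congr
      intro U _
      exact ic_wt_std A hm hg U
    rw [h1]
    have h2 : c.image A.std ∈ A.XX ι r := by
      refine ⟨1, c, hc, hr, ?_⟩
      apply Finset.image_congr
      intro U _
      exact (map_gm_one _).symm
    rw [← hinv g hg _ h2, Finset.image_image]
    rfl
  have hinjW : ∀ σ ∈ A.XX ι r, ∀ S ∈ σ, ∀ S' ∈ σ, icWt A S = icWt A S' → S = S' := by
    intro σ hσ S hS S' hS' he
    obtain ⟨g, hg, c, hc, hr, rfl⟩ := ic_face A r hσ
    rw [Finset.mem_image] at hS hS'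
    obtain ⟨U, _, rfl⟩ := hS
    obtain ⟨U', _, rfl⟩ := hS'
    rw [ic_wt_std A hm hg, ic_wt_std A hm hg] at he
    rw [he]
  obtain ⟨ψ, hψ0, hψ1⟩ : ∃ ψ : Finset (Submodule (ZMod p) (ι → R)) → ZMod 2,
      (∀ σ, (∃ S ∈ σ, icWt A S = ⊥) → ψ σ = 0) ∧
      (∀ σ, (¬ ∃ S ∈ σ, icWt A S = ⊥) →
        ψ σ = F ((insert ⊥ (σ.image (icWt A))).image A.std)) :=
    ⟨fun σ => if ∃ S ∈ σ, icWt A S = ⊥ then 0 else
      F ((insert ⊥ (σ.image (icWt A))).image A.std), fun σ h => if_pos h, fun σ h => if_neg h⟩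
  refine ⟨ψ, ?_⟩
  intro σ hσ hcard
  by_cases h0 : ∃ S ∈ σ, icWt A S = ⊥
  · obtain ⟨S₀, hS₀, hW₀⟩ := h0
    rw [cob, Finset.sum_eq_single S₀]
    · rw [hψ1, hval σ hσ]
      · congr 2
        ext W
        rw [Finset.mem_insert, Finset.mem_image, Finset.mem_image]
        constructor
        · rintro ⟨S, hS, rfl⟩
          by_cases hSS : S = S₀
          · left
            rw [hSS, hW₀]
          · right
            exact ⟨S, Finset.mem_erase.2 ⟨hSS, hS⟩, rfl⟩
        · rintro (rfl | ⟨S, hS, rfl⟩)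
          · exact ⟨S₀, hS₀, hW₀⟩
          · exact ⟨S, Finset.mem_of_mem_erase hS, rfl⟩
      · rintro ⟨S, hS, hW⟩
        rw [Finset.mem_erase] at hS
        exact hS.1 (hinjW σ hσ S hS.2 S₀ hS₀ (hW.trans hW₀.symm))
    · intro S hS hne
      exact hψ0 _ ⟨S₀, Finset.mem_erase.2 ⟨hne.symm, hS₀⟩, hW₀⟩
    · intro h
      exact absurd hS₀ h
  · obtain ⟨g, hg, c, hc, hr, hσc⟩ := ic_face A r hσ
    set S₀ : Submodule (ZMod p) (ι → R) := (A.std ⊥).map (gm p g.1) with hS₀
    have hW₀ : icWt A S₀ = ⊥ := ic_wt_std A hm hg ⊥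
    have hS₀σ : S₀ ∉ σ := fun h => h0 ⟨S₀, h, hW₀⟩
    have hρ : insert S₀ σ ∈ A.XX ι r := by
      refine ⟨g, insert ⊥ c, ?_, ?_, ?_⟩
      · rw [Finset.coe_insert]
        exact hc.insert fun U _ _ => Or.inl bot_le
      · intro U hU
        rw [Finset.mem_insert] at hU
        rcases hU with rfl | hU
        · simp
        · exact hr U hU
      · rw [Finset.image_insert, ← hσc]
    have hcoc := hF _ hρ (by rw [Finset.card_insert_of_notMem hS₀σ, hcard])
    rw [cob, Finset.sum_insert hS₀σ] at hcoc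
    have hsum : ∀ τ : Submodule (ZMod p) (ι → R) → Finset (Submodule (ZMod p) (ι → R)),
        (∀ x ∈ σ, ∀ y, y ∈ τ x ↔ y ≠ x ∧ y ∈ insert S₀ σ) →
        ∑ x ∈ σ, F (τ x) = cob ψ σ := by
      intro τ hτ
      rw [cob]
      apply Finset.sum_congr rfl
      intro x hx
      have hne : x ≠ S₀ := fun h => hS₀σ (h ▸ hx)
      have hmem : τ x ∈ A.XX ι r := by
        apply (isCx_XX A r).2 _ hρ
        intro y hy
        exact ((hτ x hx y).1 hy).2
      rw [hψ1, hval _ hmem]
      · congr 2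
        ext W
        rw [Finset.mem_insert, Finset.mem_image, Finset.mem_image]
        constructor
        · rintro ⟨S, hS, rfl⟩
          have h1 := (hτ x hx S).1 hS
          rw [Finset.mem_insert] at h1
          rcases h1.2 with h2 | h2
          · left
            rw [h2, hW₀]
          · right
            exact ⟨S, Finset.mem_erase.2 ⟨h1.1, h2⟩, rfl⟩
        · rintro (rfl | ⟨S, hS, rfl⟩)
          · exact ⟨S₀, (hτ x hx S₀).2 ⟨hne.symm, Finset.mem_insert_self _ _⟩, hW₀⟩
          · rw [Finset.mem_erase] at hS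
            exact ⟨S, (hτ x hx S).2 ⟨hS.1, Finset.mem_insert_of_mem hS.2⟩, rfl⟩
      · rintro ⟨S, hS, hW⟩
        exact h0 ⟨S, Finset.mem_of_mem_erase hS, hW⟩
    have hsum' := hsum (fun x => (insert S₀ σ).erase x) (fun x _ y => Finset.mem_erase)
    have he : ∀ τ : Finset (Submodule (ZMod p) (ι → R)),
        (∀ y, y ∈ τ ↔ y ≠ S₀ ∧ y ∈ insert S₀ σ) → τ = σ := by
      intro τ hτ
      ext y
      rw [hτ, Finset.mem_insert]
      constructor
      · rintro ⟨h1, h2 | h2⟩
        · exact absurd h2 h1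
        · exact h2
      · intro h
        exact ⟨fun h1 => hS₀σ (h1 ▸ h), Or.inr h⟩
    have h3 : F σ + F σ = 0 := CharTwo.add_self_eq_zero _
    have h4 : F σ + cob ψ σ = 0 := by
      rw [← hsum', ← hcoc]
      congr 1
      congr 1
      exact (he _ (fun y => Finset.mem_erase)).symm
    calc F σ = F σ + (F σ + cob ψ σ) := by rw [h4, add_zero]
      _ = cob ψ σ := by rw [← add_assoc, h3, zero_add]

end P067X
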