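import Vale.Agent.P067X.GMat

/-!
# P067, auxiliary file of module LINKISO (proved): complements of `J`, the elements `1 + t N`, the map `phi`
-/

namespace P067X

open Classical Module

set_option linter.unusedSectionVars false

theorem li_exists_compl {F E : Type} [Field F] [AddCommGroup E] [Module F E]
    (A B J : Submodule F E) (hAB : A ≤ B) (hA : A ⊓ J = ⊥) (hB : B ⊔ J = ⊤) :
    ∃ C : Submodule F E, A ≤ C ∧ C ≤ B ∧ C ⊓ J = ⊥ ∧ C ⊔ J = ⊤ := by
  obtain ⟨D, hD⟩ := exists_isCompl (A ⊔ (J ⊓ B))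
  refine ⟨A ⊔ (D ⊓ B), le_sup_left, sup_le hAB inf_le_right, ?_, ?_⟩
  · rw [eq_bot_iff]
    intro x hx
    obtain ⟨hx1, hx2⟩ := Submodule.mem_inf.1 hx
    obtain ⟨a, ha, d, hd, rfl⟩ := Submodule.mem_sup.1 hx1
    obtain ⟨hd1, hd2⟩ := Submodule.mem_inf.1 hd
    have h1 : a + d ∈ J ⊓ B := ⟨hx2, B.add_mem (hAB ha) hd2⟩
    have h2 : d ∈ A ⊔ (J ⊓ B) := by
      have h3 : d = -a + (a + d) := by abel
      rw [h3]
      exact Submodule.add_mem_sup (A.neg_mem ha) h1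
    have h4 : d ∈ (A ⊔ (J ⊓ B)) ⊓ D := ⟨h2, hd1⟩
    rw [hD.inf_eq_bot, Submodule.mem_bot] at h4
    subst h4
    rw [add_zero] at hx2 ⊢
    have h5 : a ∈ A ⊓ J := ⟨ha, hx2⟩
    rw [hA] at h5
    exact h5
  · have h1 : (A ⊔ (D ⊓ B)) ⊔ (J ⊓ B) = B := by
      have h2 : (A ⊔ (J ⊓ B)) ⊔ (D ⊓ B) = B := by
        rw [← sup_inf_assoc_of_le D (sup_le hAB inf_le_right), hD.sup_eq_top, top_inf_eq]
      rw [sup_right_comm]
      exact h2
    rw [eq_top_iff, ← hB]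
    refine sup_le ?_ le_sup_right
    calc B = (A ⊔ (D ⊓ B)) ⊔ (J ⊓ B) := h1.symm
      _ ≤ _ := sup_le_sup_left inf_le_left _

variable {p m : ℕ} [Fact p.Prime] {R : Type} [CommRing R] [Algebra (ZMod p) R]
  {ι : Type} [Fintype ι] [DecidableEq ι]

theorem li_graph {U : Submodule (ZMod p) (ι → ZMod p)} (C : Submodule (ZMod p) (EE U))
    (h1 : C ⊓ JJ U = ⊥) (h2 : C ⊔ JJ U = ⊤) :
    ∃ nu : ((ι → ZMod p) ⧸ U) →ₗ[ZMod p] ↥U, ∀ z y, (z, y) ∈ C ↔ y = nu z := by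
  have hex : ∀ z : (ι → ZMod p) ⧸ U, ∃ y : ↥U, (z, y) ∈ C := by
    intro z
    have h3 : ((z, 0) : EE U) ∈ C ⊔ JJ U := by rw [h2]; trivial
    obtain ⟨c, hc, w, hw, hcw⟩ := Submodule.mem_sup.1 h3
    refine ⟨c.2, ?_⟩
    have h4 : w.1 = 0 := hw.1
    have h5 : c.1 = z := by
      have := congrArg Prod.fst hcw
      simp only [Prod.fst_add, h4, add_zero] at this
      exact this
    rw [← h5]
    exact hc
  have huniq : ∀ (z : (ι → ZMod p) ⧸ U) (y y' : ↥U), (z, y) ∈ C → (z, y') ∈ C → y = y' := by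
    intro z y y' hy hy'
    have h3 := C.sub_mem hy hy'
    have h4 : ((z, y) : EE U) - (z, y') = (0, y - y') := by simp
    rw [h4] at h3
    have h5 : ((0, y - y') : EE U) ∈ C ⊓ JJ U := ⟨h3, ⟨rfl, trivial⟩⟩
    rw [h1, Submodule.mem_bot] at h5
    have := congrArg Prod.snd h5
    exact sub_eq_zero.1 this
  choose f hf using hex
  refine ⟨⟨⟨f, fun a b => ?_⟩, fun c a => ?_⟩, fun z y => ⟨fun h => huniq z _ _ h (hf z), ?_⟩⟩
  · refine huniq (a + b) _ _ (hf _) ?_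
    exact C.add_mem (hf a) (hf b)
  · refine huniq (c • a) _ _ (hf _) ?_
    exact C.smul_mem c (hf a)
  · rintro rfl
    exact hf z

/-- coefficients of a constant matrix times a vector -/
theorem li_vco_const (A : TR p m R) (N : Matrix ι ι (ZMod p)) (v : ι → R) (a : ℕ) :
    A.vco a ((N.map (algebraMap (ZMod p) R)).mulVec v) = N.mulVec (A.vco a v) := by
  funext i
  show A.co a (∑ j, N.map (algebraMap (ZMod p) R) i j * v j) = ∑ j, N i j * A.co a (v j)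
  rw [map_sum]
  exact Finset.sum_congr rfl fun j _ => A.co_smul_const a _ _

/-- the matrix of `x ↦ nu (x mod U)` and the determinant of `1 + t N` -/
theorem li_matrix (A : TR p m R) {U : Submodule (ZMod p) (ι → ZMod p)}
    (nu : ((ι → ZMod p) ⧸ U) →ₗ[ZMod p] ↥U) :
    ∃ N : Matrix ι ι (ZMod p), (∀ x, N.mulVec x = (nu (U.mkQ x) : ι → ZMod p)) ∧
      (1 + A.t • N.map (algebraMap (ZMod p) R)).det = 1 := by
  set b := Module.finBasis (ZMod p) U with hb
  set k := finrank (ZMod p) U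
  let P : Matrix ι (Fin k) (ZMod p) := Matrix.of fun i a => (b a : ι → ZMod p) i
  let Q : Matrix (Fin k) ι (ZMod p) := Matrix.of fun a i => b.repr (nu (U.mkQ (Pi.single i 1))) a
  have hQ : ∀ x : ι → ZMod p, ∀ a, Q.mulVec x a = b.repr (nu (U.mkQ x)) a := by
    intro x a
    have hx : x = ∑ i, x i • (Pi.single i 1 : ι → ZMod p) := by
      funext j
      simp [Finset.sum_apply, Pi.single_apply]
    conv_rhs => rw [hx]
    rw [map_sum, map_sum, map_sum, Finsupp.finsetSum_apply]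
    show ∑ i, Q a i * x i = _
    refine Finset.sum_congr rfl fun i _ => ?_
    rw [map_smul, map_smul, map_smul, Finsupp.smul_apply, smul_eq_mul, mul_comm]
    rfl
  have hP : ∀ c : Fin k → ZMod p, P.mulVec c = ((∑ a, c a • b a : ↥U) : ι → ZMod p) := by
    intro c
    funext i
    show ∑ a, P i a * c a = _
    rw [Submodule.coe_sum, Finset.sum_apply]
    refine Finset.sum_congr rfl fun a _ => ?_
    show (b a : ι → ZMod p) i * c a = c a * (b a : ι → ZMod p) i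
    ring
  have hPQ : ∀ x, (P * Q).mulVec x = (nu (U.mkQ x) : ι → ZMod p) := by
    intro x
    rw [← Matrix.mulVec_mulVec, hP]
    congr 1
    conv_rhs => rw [← b.sum_repr (nu (U.mkQ x))]
    exact Finset.sum_congr rfl fun a _ => by rw [hQ]
  refine ⟨P * Q, hPQ, ?_⟩
  have hQP : Q * P = 0 := by
    ext a a'
    show ∑ i, Q a i * P i a' = 0
    have h1 := hQ (b a' : ι → ZMod p) a
    have h2 : Q.mulVec (b a' : ι → ZMod p) a = ∑ i, Q a i * P i a' := rfl
    rw [← h2, h1]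
    have h3 : U.mkQ (b a' : ι → ZMod p) = 0 := by
      rw [Submodule.mkQ_apply, Submodule.Quotient.mk_eq_zero]
      exact (b a').2
    rw [h3, map_zero, map_zero]
    rfl
  have h4 : A.t • (P * Q).map (algebraMap (ZMod p) R) =
      (A.t • P.map (algebraMap (ZMod p) R)) * Q.map (algebraMap (ZMod p) R) := by
    rw [Matrix.map_mul, Matrix.smul_mul]
  rw [h4, Matrix.det_one_add_mul_comm, Matrix.mul_smul, ← Matrix.map_mul, hQP,
    Matrix.map_zero _ (map_zero _), smul_zero, add_zero, Matrix.det_one]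


/-- the element `1 + t N` -/
theorem li_gm (A : TR p m R) (N : Matrix ι ι (ZMod p)) (g : Matrix.SpecialLinearGroup ι R)
    (hg : g.1 = 1 + A.t • N.map (algebraMap (ZMod p) R)) (v : ι → R) :
    gm p g.1 v = v + A.tl ((N.map (algebraMap (ZMod p) R)).mulVec v) := by
  show g.1.mulVec v = _
  rw [hg, Matrix.add_mulVec, Matrix.one_mulVec, Matrix.smul_mulVec]
  rfl

theorem li_gm_zero (A : TR p m R) (N : Matrix ι ι (ZMod p)) (g : Matrix.SpecialLinearGroup ι R)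
    (hg : g.1 = 1 + A.t • N.map (algebraMap (ZMod p) R)) (v : ι → R) :
    A.vco 0 (gm p g.1 v) = A.vco 0 v := by
  rw [li_gm A N g hg, map_add, A.vco_tl_zero, add_zero]

theorem li_gm_succ (A : TR p m R) (N : Matrix ι ι (ZMod p)) (g : Matrix.SpecialLinearGroup ι R)
    (hg : g.1 = 1 + A.t • N.map (algebraMap (ZMod p) R)) (v : ι → R) (a : ℕ) (ha : a + 1 < m) :
    A.vco (a + 1) (gm p g.1 v) = A.vco (a + 1) v + N.mulVec (A.vco a v) := by
  rw [li_gm A N g hg, map_add, A.vco_tl, if_pos ha, li_vco_const]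

/-- vectors of degree one -/
theorem li_std_mk (A : TR p m R) (hm : 3 ≤ m) (x y : ι → ZMod p) :
    A.vco 0 (cst R ι x + A.tl (cst R ι y)) = x ∧ A.vco 1 (cst R ι x + A.tl (cst R ι y)) = y ∧
      ∀ a, 2 ≤ a → A.vco a (cst R ι x + A.tl (cst R ι y)) = 0 := by
  refine ⟨?_, ?_, fun a ha => ?_⟩
  · rw [map_add, A.vco_cst, if_pos rfl, A.vco_tl_zero, add_zero]
  · rw [map_add, A.vco_cst, if_neg one_ne_zero, zero_add]
    have := A.vco_tl 0 (cst R ι y)
    rw [zero_add] at this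
    rw [this, if_pos (by omega), A.vco_cst, if_pos rfl]
  · obtain ⟨b, rfl⟩ : ∃ b, a = b + 2 := ⟨a - 2, by omega⟩
    rw [map_add, A.vco_cst, if_neg (by omega), zero_add, A.vco_tl, A.vco_cst (b + 1),
      if_neg (show ¬ b + 1 = 0 by omega)]
    split_ifs <;> rfl

/-- an element of `std U` is `g w`, `w ∈ std W`, if `v_1 - N v_0 ∈ W` -/
theorem li_mem_map (A : TR p m R) (hm : 3 ≤ m) {U W : Submodule (ZMod p) (ι → ZMod p)}
    (N : Matrix ι ι (ZMod p)) (hN1 : ∀ x, N.mulVec x ∈ U) (hN2 : ∀ x ∈ U, N.mulVec x = 0)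
    (g : Matrix.SpecialLinearGroup ι R)
    (hg : g.1 = 1 + A.t • N.map (algebraMap (ZMod p) R)) (v : ι → R) (hv : v ∈ A.std U)
    (h : A.vco 1 v - N.mulVec (A.vco 0 v) ∈ W) : v ∈ (A.std W).map (gm p g.1) := by
  obtain ⟨h0, h1, h2⟩ := li_std_mk (R := R) A hm (A.vco 0 v)
    (A.vco 1 v - N.mulVec (A.vco 0 v))
  set w := cst R ι (A.vco 0 v) + A.tl (cst R ι (A.vco 1 v - N.mulVec (A.vco 0 v)))
  refine ⟨w, ⟨by rw [h1]; exact h, h2⟩, ?_⟩
  refine A.vec_ext _ _ fun a => ?_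
  rcases Nat.lt_or_ge a m with ham | ham
  · match a with
    | 0 => rw [li_gm_zero A N g hg, h0]
    | 1 => rw [li_gm_succ A N g hg w 0 (by omega), h1, h0, sub_add_cancel]
    | 2 =>
      rw [li_gm_succ A N g hg w 1 ham, h2 _ (by omega), h1, hN2 _ (U.sub_mem hv.1 (hN1 _)),
        add_zero, hv.2 _ (by omega)]
    | a + 3 =>
      rw [li_gm_succ A N g hg w (a + 2) ham, h2 _ (by omega), h2 _ (by omega),
        Matrix.mulVec_zero, add_zero, hv.2 _ (by omega)]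
  · rw [A.vco_ge a _ ham, A.vco_ge a _ ham]

theorem li_dn_eq (A : TR p m R) (hm : 3 ≤ m) {U W : Submodule (ZMod p) (ι → ZMod p)}
    (hWU : W ≤ U)
    (nu : ((ι → ZMod p) ⧸ U) →ₗ[ZMod p] ↥U) (N : Matrix ι ι (ZMod p))
    (hN : ∀ x, N.mulVec x = (nu (U.mkQ x) : ι → ZMod p)) (g : Matrix.SpecialLinearGroup ι R)
    (hg : g.1 = 1 + A.t • N.map (algebraMap (ZMod p) R)) (T : Submodule (ZMod p) (EE U))
    (hT : ∀ z (y : ↥U), (z, y) ∈ T ↔ ((y - nu z : ↥U) : ι → ZMod p) ∈ W) :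
    (A.std W).map (gm p g.1) = A.dn T := by
  have hN1 : ∀ x, N.mulVec x ∈ U := fun x => by rw [hN]; exact (nu _).2
  have hN2 : ∀ x ∈ U, N.mulVec x = 0 := fun x hx => by
    have h3 : U.mkQ x = 0 := by
      rw [Submodule.mkQ_apply, Submodule.Quotient.mk_eq_zero]
      exact hx
    rw [hN, h3, map_zero]
    rfl
  ext v
  constructor
  · rintro ⟨w, hw, rfl⟩
    have e0 : A.vco 0 (gm p g.1 w) = A.vco 0 w := li_gm_zero A N g hg w
    have e1 : A.vco 1 (gm p g.1 w) = A.vco 1 w + N.mulVec (A.vco 0 w) :=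
      li_gm_succ A N g hg w 0 (by omega)
    have hU : A.vco 1 (gm p g.1 w) ∈ U := by
      rw [e1]
      exact U.add_mem (hWU hw.1) (hN1 _)
    refine ⟨⟨hU, fun a ha => ?_⟩, hU, ?_⟩
    · rcases Nat.lt_or_ge a m with ham | ham
      · obtain ⟨b, rfl⟩ : ∃ b, a = b + 1 := ⟨a - 1, by omega⟩
        rw [li_gm_succ A N g hg w b ham, hw.2 _ ha, zero_add]
        rcases Nat.lt_or_ge b 2 with hb | hb
        · obtain rfl : b = 1 := by omega
          exact hN2 _ (hWU hw.1)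
        · rw [hw.2 _ hb, Matrix.mulVec_zero]
      · exact A.vco_ge a _ ham
    · refine (hT _ _).2 ?_
      have h5 : ((⟨A.vco 1 (gm p g.1 w), hU⟩ -
          nu (Submodule.Quotient.mk (A.vco 0 (gm p g.1 w))) : ↥U) : ι → ZMod p) =
          A.vco 1 w := by
        show A.vco 1 (gm p g.1 w) - (nu (U.mkQ (A.vco 0 (gm p g.1 w))) : ι → ZMod p) = _
        rw [e0, e1, ← hN]
        abel
      rw [h5]
      exact hw.1
  · rintro ⟨hv, hvU, hvT⟩
    refine li_mem_map A hm N hN1 hN2 g hg v hv ?_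
    have h5 := (hT _ _).1 hvT
    rw [hN]
    exact h5

theorem li_up_eq (A : TR p m R) (hm : 3 ≤ m) {U W : Submodule (ZMod p) (ι → ZMod p)}
    (hUW : U ≤ W)
    (nu : ((ι → ZMod p) ⧸ U) →ₗ[ZMod p] ↥U) (N : Matrix ι ι (ZMod p))
    (hN : ∀ x, N.mulVec x = (nu (U.mkQ x) : ι → ZMod p)) (g : Matrix.SpecialLinearGroup ι R)
    (hg : g.1 = 1 + A.t • N.map (algebraMap (ZMod p) R)) (T : Submodule (ZMod p) (EE U))
    (hT : ∀ x (y : ↥U), (U.mkQ x, y) ∈ T ↔ x ∈ W ∧ y = nu (U.mkQ x)) :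
    (A.std W).map (gm p g.1) = A.up T := by
  have hN1 : ∀ x, N.mulVec x ∈ U := fun x => by rw [hN]; exact (nu _).2
  have hN2 : ∀ x ∈ U, N.mulVec x = 0 := fun x hx => by
    have h3 : U.mkQ x = 0 := by
      rw [Submodule.mkQ_apply, Submodule.Quotient.mk_eq_zero]
      exact hx
    rw [hN, h3, map_zero]
    rfl
  apply le_antisymm
  · rintro v ⟨w, hw, rfl⟩
    have e0 : A.vco 0 (gm p g.1 w) = A.vco 0 w := li_gm_zero A N g hg w
    have e1 : A.vco 1 (gm p g.1 w) = A.vco 1 w + N.mulVec (A.vco 0 w) :=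
      li_gm_succ A N g hg w 0 (by omega)
    obtain ⟨s0, s1, s2⟩ := li_std_mk (R := R) A hm (A.vco 0 w) (N.mulVec (A.vco 0 w))
    set s := cst R ι (A.vco 0 w) + A.tl (cst R ι (N.mulVec (A.vco 0 w)))
    obtain ⟨d0, d1, d2⟩ := li_std_mk (R := R) A hm (A.vco 1 w) (N.mulVec (A.vco 1 w))
    set d := cst R ι (A.vco 1 w) + A.tl (cst R ι (N.mulVec (A.vco 1 w)))
    have hs : s ∈ A.std U := ⟨by rw [s1]; exact hN1 _, s2⟩
    have hd1 : A.vco 1 d ∈ U := by rw [d1]; exact hN1 _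
    have hd : d ∈ A.dn T := by
      refine ⟨⟨hd1, d2⟩, hd1, ?_⟩
      have h5 := (hT (A.vco 0 d) ⟨A.vco 1 d, hd1⟩).2 ⟨by rw [d0]; exact hw.1, Subtype.ext (by
        show A.vco 1 d = _
        rw [d0, d1, hN])⟩
      exact h5
    have hv : gm p g.1 w = s + A.tl d := by
      refine A.vec_ext _ _ fun a => ?_
      rcases Nat.lt_or_ge a m with ham | ham
      · match a with
        | 0 => rw [e0, map_add, s0, A.vco_tl_zero, add_zero]
        | 1 =>
          rw [e1, map_add, s1]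
          have := A.vco_tl 0 d
          rw [zero_add, if_pos (by omega)] at this
          rw [this, d0, add_comm]
        | 2 =>
          rw [li_gm_succ A N g hg w 1 ham, hw.2 _ (by omega), zero_add, map_add,
            s2 _ (by omega), zero_add]
          have := A.vco_tl 1 d
          rw [if_pos ham] at this
          rw [this, d1]
        | a + 3 =>
          rw [li_gm_succ A N g hg w (a + 2) ham, hw.2 _ (by omega), hw.2 _ (by omega),
            Matrix.mulVec_zero, add_zero, map_add, s2 _ (by omega), zero_add, A.vco_tl,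
            d2 _ (by omega)]
          split_ifs <;> rfl
      · rw [A.vco_ge a _ ham, A.vco_ge a _ ham]
    rw [hv]
    exact Submodule.add_mem_sup hs ⟨d, hd, rfl⟩
  · refine sup_le (fun v hv => ?_) ?_
    · exact li_mem_map A hm N hN1 hN2 g hg v hv (W.sub_mem (hUW hv.1) (hUW (hN1 _)))
    · rintro _ ⟨d, ⟨hd, hdU, hdT⟩, rfl⟩
      obtain ⟨h1, h2⟩ := (hT _ _).1 hdT
      have h3 : A.vco 1 d = N.mulVec (A.vco 0 d) := by
        rw [hN]
        exact congrArg Subtype.val h2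
      obtain ⟨c0, c1, c2⟩ := li_std_mk (R := R) A hm 0 (A.vco 0 d)
      set w := cst R ι (0 : ι → ZMod p) + A.tl (cst R ι (A.vco 0 d))
      refine ⟨w, ⟨by rw [c1]; exact h1, c2⟩, ?_⟩
      refine A.vec_ext _ _ fun a => ?_
      rcases Nat.lt_or_ge a m with ham | ham
      · match a with
        | 0 => rw [li_gm_zero A N g hg, c0, A.vco_tl_zero]
        | 1 =>
          rw [li_gm_succ A N g hg w 0 ham, c0, c1, Matrix.mulVec_zero, add_zero]
          have := A.vco_tl 0 d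
          rw [zero_add, if_pos (by omega)] at this
          rw [this]
        | 2 =>
          rw [li_gm_succ A N g hg w 1 ham, c2 _ (by omega), c1, zero_add, ← h3]
          have := A.vco_tl 1 d
          rw [if_pos ham] at this
          rw [this]
        | a + 3 =>
          rw [li_gm_succ A N g hg w (a + 2) ham, c2 _ (by omega), c2 _ (by omega),
            Matrix.mulVec_zero, add_zero, A.vco_tl, hd.2 _ (by omega)]
          split_ifs <;> rfl
      · rw [A.vco_ge a _ ham, A.vco_ge a _ ham]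

/-- the map `std U → EE U` -/
noncomputable def TR.phi (A : TR p m R) (U : Submodule (ZMod p) (ι → ZMod p)) :
    ↥(A.std U) →ₗ[ZMod p] EE U :=
  LinearMap.prod (U.mkQ ∘ₗ A.vco 0 ∘ₗ (A.std U).subtype)
    (LinearMap.codRestrict U (A.vco 1 ∘ₗ (A.std U).subtype) (fun v => v.2.1))

theorem li_mem_dn (A : TR p m R) {U : Submodule (ZMod p) (ι → ZMod p)}
    (T : Submodule (ZMod p) (EE U)) (v : ι → R) :
    v ∈ A.dn T ↔ ∃ h : v ∈ A.std U, A.phi U ⟨v, h⟩ ∈ T := by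
  constructor
  · rintro ⟨h1, h2, h3⟩
    exact ⟨h1, h3⟩
  · rintro ⟨h1, h3⟩
    exact ⟨h1, h1.1, h3⟩

theorem li_lift (A : TR p m R) (hm : 3 ≤ m) (U : Submodule (ZMod p) (ι → ZMod p))
    (x y : ι → ZMod p) (hy : y ∈ U) :
    ∃ h : cst R ι x + A.tl (cst R ι y) ∈ A.std U,
      A.phi U ⟨cst R ι x + A.tl (cst R ι y), h⟩ = (U.mkQ x, ⟨y, hy⟩) := by
  have h0 : A.vco 0 (cst R ι x + A.tl (cst R ι y)) = x := by
    rw [map_add, A.vco_cst, if_pos rfl, A.vco_tl_zero, add_zero]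
  have h1 : A.vco 1 (cst R ι x + A.tl (cst R ι y)) = y := by
    rw [map_add, A.vco_cst, if_neg one_ne_zero, zero_add]
    have := A.vco_tl 0 (cst R ι y)
    rw [zero_add] at this
    rw [this, if_pos (by omega), A.vco_cst, if_pos rfl]
  have h : cst R ι x + A.tl (cst R ι y) ∈ A.std U := by
    refine ⟨by rw [h1]; exact hy, fun a ha => ?_⟩
    obtain ⟨b, rfl⟩ : ∃ b, a = b + 2 := ⟨a - 2, by omega⟩
    rw [map_add, A.vco_cst, if_neg (by omega), zero_add, A.vco_tl, A.vco_cst (b + 1),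
      if_neg (show ¬ b + 1 = 0 by omega)]
    split_ifs <;> rfl
  refine ⟨h, ?_⟩
  refine Prod.ext ?_ (Subtype.ext ?_)
  · show U.mkQ (A.vco 0 (cst R ι x + A.tl (cst R ι y))) = U.mkQ x
    rw [h0]
  · exact h1

theorem li_phi_surj (A : TR p m R) (hm : 3 ≤ m) (U : Submodule (ZMod p) (ι → ZMod p))
    (z : EE U) : ∃ (v : ι → R) (h : v ∈ A.std U), A.phi U ⟨v, h⟩ = z := by
  obtain ⟨z1, z2⟩ := z
  obtain ⟨x, rfl⟩ := U.mkQ_surjective z1
  obtain ⟨h, h'⟩ := li_lift A hm U x z2.1 z2.2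
  exact ⟨_, h, h'⟩

theorem li_dn_le (A : TR p m R) (hm : 3 ≤ m) {U : Submodule (ZMod p) (ι → ZMod p)}
    (T T' : Submodule (ZMod p) (EE U)) : A.dn T ≤ A.dn T' ↔ T ≤ T' := by
  constructor
  · intro h z hz
    obtain ⟨v, hv, rfl⟩ := li_phi_surj A hm U z
    obtain ⟨h1, h2⟩ := (li_mem_dn A T' v).1 (h ((li_mem_dn A T v).2 ⟨hv, hz⟩))
    exact h2
  · intro h v hv
    obtain ⟨h1, h2⟩ := (li_mem_dn A T v).1 hv
    exact (li_mem_dn A T' v).2 ⟨h1, h h2⟩

/-- the kernel of `phi` -/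
theorem li_ker (A : TR p m R) (hm : 3 ≤ m) (U : Submodule (ZMod p) (ι → ZMod p)) (v : ι → R)
    (h : v ∈ A.std U) : A.phi U ⟨v, h⟩ = 0 ↔ v ∈ A.lev (A.std U) 0 := by
  rw [mem_lev_std A hm]
  constructor
  · intro h1
    have h2 : U.mkQ (A.vco 0 v) = 0 := congrArg Prod.fst h1
    have h3 : A.vco 1 v = 0 := congrArg (fun z : EE U => (z.2 : ι → ZMod p)) h1
    refine ⟨by rwa [Submodule.mkQ_apply, Submodule.Quotient.mk_eq_zero] at h2, fun a ha => ?_⟩
    rcases Nat.lt_or_ge a 2 with h4 | h4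
    · obtain rfl : a = 1 := by omega
      exact h3
    · exact h.2 a h4
  · rintro ⟨h1, h2⟩
    refine Prod.ext ?_ (Subtype.ext ?_)
    · show U.mkQ (A.vco 0 v) = 0
      rw [Submodule.mkQ_apply, Submodule.Quotient.mk_eq_zero]
      exact h1
    · exact h2 1 (by norm_num)

theorem li_lev_le_dn (A : TR p m R) (hm : 3 ≤ m) {U : Submodule (ZMod p) (ι → ZMod p)}
    (T : Submodule (ZMod p) (EE U)) : A.lev (A.std U) 0 ≤ A.dn T := by
  intro v hv
  have h : v ∈ A.std U := hv.1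
  rw [li_mem_dn]
  exact ⟨h, by rw [(li_ker A hm U v h).2 hv]; exact T.zero_mem⟩

theorem li_up_le (A : TR p m R) (hm : 3 ≤ m) {U : Submodule (ZMod p) (ι → ZMod p)}
    (T T' : Submodule (ZMod p) (EE U)) : A.up T ≤ A.up T' ↔ T ≤ T' := by
  constructor
  · intro h
    rw [← li_dn_le A hm]
    intro v hv
    have h1 : A.tl v ∈ A.up T' := h (Submodule.mem_sup_right ⟨v, hv, rfl⟩)
    obtain ⟨s, hs, w', ⟨w, hw, rfl⟩, hsw⟩ := Submodule.mem_sup.1 h1
    have h2 : A.tl (v - w) = s := by rw [map_sub, ← hsw]; abel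
    have h3 : v - w ∈ A.std U := (A.std U).sub_mem hv.1 hw.1
    have h4 : v - w ∈ A.lev (A.std U) 0 := ⟨h3, by
      show A.tl (v - w) ∈ A.std U
      rw [h2]; exact hs⟩
    have h5 := (A.dn T').add_mem (li_lev_le_dn A hm T' h4) hw
    rwa [sub_add_cancel] at h5
  · intro h
    exact sup_le_sup_left (Submodule.map_mono ((li_dn_le A hm T T').2 h)) _


/-- the part of `T` in the first component -/
def li_Wup {U : Submodule (ZMod p) (ι → ZMod p)} (T : Submodule (ZMod p) (EE U)) :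
    Submodule (ZMod p) (ι → ZMod p) :=
  (T.map (LinearMap.fst (ZMod p) _ _)).comap U.mkQ

/-- the part of `T` in `J` -/
def li_Wdn {U : Submodule (ZMod p) (ι → ZMod p)} (T : Submodule (ZMod p) (EE U)) :
    Submodule (ZMod p) (ι → ZMod p) :=
  (T.comap (LinearMap.inr (ZMod p) ((ι → ZMod p) ⧸ U) ↥U)).map U.subtype

theorem li_le_Wup {U : Submodule (ZMod p) (ι → ZMod p)} (T : Submodule (ZMod p) (EE U)) :
    U ≤ li_Wup T := by
  intro x hx
  refine ⟨0, T.zero_mem, ?_⟩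
  have h3 : U.mkQ x = 0 := by
    rw [Submodule.mkQ_apply, Submodule.Quotient.mk_eq_zero]
    exact hx
  rw [h3]
  rfl

theorem li_Wdn_le {U : Submodule (ZMod p) (ι → ZMod p)} (T : Submodule (ZMod p) (EE U)) :
    li_Wdn T ≤ U := by
  rintro _ ⟨y, _, rfl⟩
  exact y.2

theorem li_T_up {U : Submodule (ZMod p) (ι → ZMod p)} (C T : Submodule (ZMod p) (EE U))
    (nu : ((ι → ZMod p) ⧸ U) →ₗ[ZMod p] ↥U) (hC : ∀ z y, (z, y) ∈ C ↔ y = nu z) (hT : T ≤ C)
    (x : ι → ZMod p) (y : ↥U) :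
    (U.mkQ x, y) ∈ T ↔ x ∈ li_Wup T ∧ y = nu (U.mkQ x) := by
  constructor
  · intro h
    exact ⟨⟨_, h, rfl⟩, (hC _ _).1 (hT h)⟩
  · rintro ⟨⟨z, hz, hzx⟩, rfl⟩
    have h1 : z = (U.mkQ x, nu (U.mkQ x)) := by
      have h2 : z.1 = U.mkQ x := hzx
      have h3 : z.2 = nu z.1 := (hC z.1 z.2).1 (hT hz)
      exact Prod.ext h2 (by rw [h3, h2])
    rwa [h1] at hz

theorem li_T_dn {U : Submodule (ZMod p) (ι → ZMod p)} (C T : Submodule (ZMod p) (EE U))
    (nu : ((ι → ZMod p) ⧸ U) →ₗ[ZMod p] ↥U) (hC : ∀ z y, (z, y) ∈ C ↔ y = nu z) (hT : C ≤ T)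
    (z : (ι → ZMod p) ⧸ U) (y : ↥U) :
    (z, y) ∈ T ↔ ((y - nu z : ↥U) : ι → ZMod p) ∈ li_Wdn T := by
  have h1 : (z, nu z) ∈ T := hT ((hC _ _).2 rfl)
  have h2 : ((z, y) : EE U) - (z, nu z) = (0, y - nu z) := by simp
  constructor
  · intro h
    refine ⟨y - nu z, ?_, rfl⟩
    show ((0, y - nu z) : EE U) ∈ T
    rw [← h2]
    exact T.sub_mem h h1
  · rintro ⟨w, hw, hw'⟩
    have h3 : w = y - nu z := Subtype.ext hw'
    subst h3
    have h4 : ((0, y - nu z) : EE U) ∈ T := hw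
    rw [← h2] at h4
    have h5 := T.add_mem h4 h1
    rwa [sub_add_cancel] at h5

/-- **Normal form.**  For `A₀ ≤ B₀`, `A₀ ⊓ J = ⊥`, `B₀ ⊔ J = ⊤` there is one element `g = 1 + t N` with `up T = g std W` for all
`T ≤ A₀` and `dn T = g std W` for all `T ≥ B₀`. -/
theorem li_normal (A : TR p m R) (hm : 3 ≤ m) {U : Submodule (ZMod p) (ι → ZMod p)}
    (A₀ B₀ : Submodule (ZMod p) (EE U)) (hAB : A₀ ≤ B₀) (hA : A₀ ⊓ JJ U = ⊥)
    (hB : B₀ ⊔ JJ U = ⊤) :
    ∃ (nu : ((ι → ZMod p) ⧸ U) →ₗ[ZMod p] ↥U) (N : Matrix ι ι (ZMod p))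
      (g : Matrix.SpecialLinearGroup ι R),
      (∀ x, N.mulVec x = (nu (U.mkQ x) : ι → ZMod p)) ∧
      g.1 = 1 + A.t • N.map (algebraMap (ZMod p) R) ∧
      (A.std U).map (gm p g.1) = A.std U ∧
      (∀ T, T ≤ A₀ → (∀ x (y : ↥U), (U.mkQ x, y) ∈ T ↔ x ∈ li_Wup T ∧ y = nu (U.mkQ x)) ∧
        A.up T = (A.std (li_Wup T)).map (gm p g.1)) ∧
      (∀ T, B₀ ≤ T → (∀ z (y : ↥U), (z, y) ∈ T ↔ ((y - nu z : ↥U) : ι → ZMod p) ∈ li_Wdn T) ∧
        A.dn T = (A.std (li_Wdn T)).map (gm p g.1)) := by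
  obtain ⟨C, h1, h2, h3, h4⟩ := li_exists_compl A₀ B₀ (JJ U) hAB hA hB
  obtain ⟨nu, hnu⟩ := li_graph C h3 h4
  obtain ⟨N, hN, hdet⟩ := li_matrix A nu
  refine ⟨nu, N, ⟨1 + A.t • N.map (algebraMap (ZMod p) R), hdet⟩, hN, rfl, ?_,
    fun T hT => ⟨?_, ?_⟩, fun T hT => ⟨?_, ?_⟩⟩
  · have h5 : A.dn (⊤ : Submodule (ZMod p) (EE U)) = A.std U := by
      apply le_antisymm
      · intro v hv
        exact hv.1
      · intro v hv
        exact ⟨hv, hv.1, trivial⟩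
    have h6 := li_dn_eq A hm (W := U) le_rfl nu N hN
      ⟨1 + A.t • N.map (algebraMap (ZMod p) R), hdet⟩ rfl ⊤
      (fun z y => ⟨fun _ => (y - nu z).2, fun _ => trivial⟩)
    rw [h6, h5]
  · exact li_T_up C T nu hnu (hT.trans h1)
  · exact (li_up_eq A hm (li_le_Wup T) nu N hN _ rfl T
      (li_T_up C T nu hnu (hT.trans h1))).symm
  · exact li_T_dn C T nu hnu (h2.trans hT)
  · exact (li_dn_eq A hm (li_Wdn_le T) nu N hN _ rfl T
      (li_T_dn C T nu hnu (h2.trans hT))).symm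

end P067X
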