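import Vale.Agent.P067X.CxBasic
import Vale.Agent.P067X.LinkAux

/-!
# P067, module LINKDIM: dimensions and order of the neighbours of a standard vertex
-/

namespace P067X

open Classical Module

set_option linter.unusedSectionVars false

variable {p m : ℕ} [Fact p.Prime] {R : Type} [CommRing R] [Algebra (ZMod p) R]
  {ι : Type} [Fintype ι] [DecidableEq ι]

theorem finrank_EE (U : Submodule (ZMod p) (ι → ZMod p)) :
    finrank (ZMod p) (EE U) = Fintype.card ι := by
  have h1 := U.finrank_quotient_add_finrank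
  rw [Module.finrank_fintype_fun_eq_card] at h1
  rw [Module.finrank_prod]
  exact h1

theorem ld_JJ (U : Submodule (ZMod p) (ι → ZMod p)) :
    JJ U = LinearMap.range (LinearMap.inr (ZMod p) ((ι → ZMod p) ⧸ U) ↥U) := by
  ext z
  constructor
  · intro hz
    exact ⟨z.2, Prod.ext (by exact (hz.1 : z.1 = 0).symm) rfl⟩
  · rintro ⟨y, rfl⟩
    exact ⟨rfl, trivial⟩

theorem finrank_JJ (U : Submodule (ZMod p) (ι → ZMod p)) :
    finrank (ZMod p) (JJ U) = finrank (ZMod p) U := by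
  rw [ld_JJ]
  exact LinearMap.finrank_range_of_inj LinearMap.inr_injective

theorem ld_map {F E E' : Type} [Field F] [AddCommGroup E] [Module F E] [AddCommGroup E']
    [Module F E'] (f : E →ₗ[F] E') (hf : Function.Injective f) (P : Submodule F E) :
    finrank F (P.map f) = finrank F P :=
  (LinearEquiv.finrank_eq (Submodule.equivMapOfInjective f hf P)).symm

theorem ld_Wdn {U : Submodule (ZMod p) (ι → ZMod p)} (T : Submodule (ZMod p) (EE U)) :
    finrank (ZMod p) (li_Wdn T) = finrank (ZMod p) (T ⊓ JJ U : Submodule _ _) := by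
  have h1 : T ⊓ JJ U = (T.comap (LinearMap.inr (ZMod p) ((ι → ZMod p) ⧸ U) ↥U)).map
      (LinearMap.inr (ZMod p) ((ι → ZMod p) ⧸ U) ↥U) := by
    rw [Submodule.map_comap_eq, ld_JJ, inf_comm]
  rw [h1, ld_map _ LinearMap.inr_injective]
  exact ld_map _ U.subtype_injective _

/-- rank of a subspace containing `U` -/
theorem ld_mkQ {F E : Type} [Field F] [AddCommGroup E] [Module F E] [FiniteDimensional F E]
    (U W : Submodule F E) (h : U ≤ W) :
    finrank F W = finrank F (W.map U.mkQ) + finrank F U := by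
  have h1 := (U.mkQ.domRestrict W).finrank_range_add_finrank_ker
  have h2 : LinearMap.range (U.mkQ.domRestrict W) = W.map U.mkQ := by
    rw [LinearMap.range_domRestrict]
  have h3 : LinearMap.ker (U.mkQ.domRestrict W) = U.comap W.subtype := by
    rw [LinearMap.ker_domRestrict, Submodule.ker_mkQ]
  rw [h2, h3, (Submodule.comapSubtypeEquivOfLe h).finrank_eq] at h1
  exact h1.symm

theorem ld_fst {F E₁ E₂ : Type} [Field F] [AddCommGroup E₁] [Module F E₁] [AddCommGroup E₂]
    [Module F E₂] [FiniteDimensional F E₁] [FiniteDimensional F E₂] (T : Submodule F (E₁ × E₂))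
    (hT : ∀ z ∈ T, z.1 = 0 → z = 0) :
    finrank F (T.map (LinearMap.fst F E₁ E₂)) = finrank F T := by
  have h1 := ((LinearMap.fst F E₁ E₂).domRestrict T).finrank_range_add_finrank_ker
  have h2 : LinearMap.ker ((LinearMap.fst F E₁ E₂).domRestrict T) = ⊥ := by
    rw [eq_bot_iff]
    intro z hz
    exact (Submodule.mem_bot _).2 (Subtype.ext (hT z z.2 hz))
  rw [LinearMap.range_domRestrict, h2, finrank_bot, add_zero] at h1
  exact h1

theorem ld_Wup {U : Submodule (ZMod p) (ι → ZMod p)} (T : Submodule (ZMod p) (EE U))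
    (hT : T ⊓ JJ U = ⊥) :
    finrank (ZMod p) (li_Wup T) = finrank (ZMod p) U + finrank (ZMod p) T := by
  rw [ld_mkQ U (li_Wup T) (li_le_Wup T)]
  unfold li_Wup
  rw [Submodule.map_comap_eq_of_surjective U.mkQ_surjective, add_comm]
  congr 1
  refine ld_fst T fun z hz hz1 => ?_
  have h3 : (z : EE U) ∈ T ⊓ JJ U := ⟨hz, ⟨hz1, trivial⟩⟩
  rwa [hT, Submodule.mem_bot] at h3

theorem ld_dn_top (A : TR p m R) (U : Submodule (ZMod p) (ι → ZMod p)) :
    A.dn (⊤ : Submodule (ZMod p) (EE U)) = A.std U := by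
  apply le_antisymm
  · intro v hv
    exact hv.1
  · intro v hv
    exact ⟨hv, hv.1, trivial⟩

theorem ld_up_bot (A : TR p m R) (hm : 3 ≤ m) (U : Submodule (ZMod p) (ι → ZMod p)) :
    A.up (⊥ : Submodule (ZMod p) (EE U)) = A.std U := by
  apply le_antisymm
  · refine sup_le le_rfl ?_
    rintro _ ⟨v, hv, rfl⟩
    obtain ⟨h1, h2⟩ := (li_mem_dn A ⊥ v).1 hv
    have h3 := (li_ker A hm U v h1).1 ((Submodule.mem_bot _).1 h2)
    exact h3.2
  · exact le_sup_left

/-- the second part: lower neighbours -/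
theorem lv_lower (A : TR p m R) (hm : 3 ≤ m) (r : ℕ) (hr : r < Fintype.card ι)
    (U : Submodule (ZMod p) (ι → ZMod p)) (hU : finrank (ZMod p) U ≤ r)
    (T : Submodule (ZMod p) (EE U)) (hT : T ∈ QF (JJ U) (r - finrank (ZMod p) U) True ⊤ ⊥)
    (h : T ⊔ JJ U = ⊤) :
    A.lv T = A.dn T ∧ A.lv T < A.std U ∧ r - finrank (ZMod p) U < finrank (ZMod p) T ∧
      ty (A.lv T) = finrank (ZMod p) (T ⊓ JJ U : Submodule _ _) ∧
      ty (A.lv T) < finrank (ZMod p) U := by
  obtain ⟨_, hT1, hT2⟩ := hT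
  have h1 : A.lv T = A.dn T := if_pos h
  have h2 : ty (A.dn T) = finrank (ZMod p) (T ⊓ JJ U : Submodule _ _) := by
    obtain ⟨nu, N, g, _, _, _, _, h6⟩ := li_normal A hm ⊥ T bot_le (bot_inf_eq _) h
    rw [(h6 T le_rfl).2, ty_std A (by omega), ld_Wdn]
  rw [h1]
  refine ⟨rfl, lt_of_le_of_ne ?_ ?_, ?_, h2, ?_⟩
  · exact fun v hv => hv.1
  · intro h3
    rw [← ld_dn_top A U] at h3
    exact hT1 ((li_dn_le A hm _ _).1 h3.ge)
  · have h3 := Submodule.finrank_sup_add_finrank_inf_eq T (JJ U)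
    rw [h, finrank_top, finrank_EE, finrank_JJ] at h3
    omega
  · rw [h2, ← finrank_JJ U]
    refine Submodule.finrank_lt_finrank_of_lt (lt_of_le_of_ne inf_le_right fun h3 => ?_)
    apply hT1
    rw [← h]
    exact sup_le le_rfl (inf_eq_right.1 h3)

/-- the first part: upper neighbours -/
theorem lv_upper (A : TR p m R) (hm : 3 ≤ m) (r : ℕ) (hr : r < Fintype.card ι)
    (U : Submodule (ZMod p) (ι → ZMod p)) (hU : finrank (ZMod p) U ≤ r)
    (T : Submodule (ZMod p) (EE U)) (hT : T ∈ QF (JJ U) (r - finrank (ZMod p) U) True ⊤ ⊥)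
    (h : T ⊔ JJ U ≠ ⊤) :
    A.lv T = A.up T ∧ A.std U < A.lv T ∧ T ⊓ JJ U = ⊥ ∧
      finrank (ZMod p) T ≤ r - finrank (ZMod p) U ∧
      ty (A.lv T) = finrank (ZMod p) U + finrank (ZMod p) T := by
  obtain ⟨hT0, hT1, hT2⟩ := hT
  have h1 : A.lv T = A.up T := if_neg h
  obtain ⟨h3, h4⟩ : T ⊓ JJ U = ⊥ ∧ finrank (ZMod p) T ≤ r - finrank (ZMod p) U := by
    rcases hT0 with h5 | h5
    · exact h5
    · exact absurd h5.2 h
  have h2 : ty (A.up T) = finrank (ZMod p) U + finrank (ZMod p) T := by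
    obtain ⟨nu, N, g, _, _, _, h6, _⟩ := li_normal A hm T ⊤ le_top h3 (top_sup_eq _)
    rw [(h6 T le_rfl).2, ty_std A (by omega), ld_Wup T h3]
  rw [h1]
  refine ⟨rfl, lt_of_le_of_ne le_sup_left ?_, h3, h4, h2⟩
  intro h5
  refine hT2 ?_
  have h6 : A.up T ≤ A.up (⊥ : Submodule (ZMod p) (EE U)) := by rw [ld_up_bot A hm, ← h5]
  exact (li_up_le A hm _ _).1 h6

end P067X
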