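import Vale.Agent.P067X.AcycQF

/-!
# P067, module LINKFILL: links of chains in `OC (QF J s True ⊤ ⊥)`
-/

namespace P067X

open Classical Module

theorem lf_base : ∃ (B₀ P : ℕ → ℕ → ℕ), ∀ (q N p : ℕ) [Fact p.Prime], P q N ≤ p →
    (∀ (E : Type) [AddCommGroup E] [Module (ZMod p) E] [FiniteDimensional (ZMod p) E]
      (J : Submodule (ZMod p) E) (s : ℕ), s + finrank (ZMod p) J + q + 2 ≤ finrank (ZMod p) E →
      (q + 1 ≤ s ∨ q + 1 ≤ finrank (ZMod p) J) →
      Fill (OC (QF J s True ⊤ ⊥)) q N (B₀ q N)) ∧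
    (∀ (E : Type) [AddCommGroup E] [Module (ZMod p) E] [FiniteDimensional (ZMod p) E],
      q + 2 ≤ finrank (ZMod p) E →
      Fill (OC (QF (⊤ : Submodule (ZMod p) E) 0 True ⊤ ⊥)) q N (B₀ q N)) := by
  choose p1 M1 h1 using fill_caseI
  choose p2 M2 h2 using fill_caseII
  choose p3 M3 h3 using fill_TB
  refine ⟨fun q N => max (M1 q N) (max (M2 q N) (M3 q N)),
    fun q N => max (p1 q N) (max (p2 q N) (p3 q N)), ?_⟩
  intro q N p _ hp
  have hp1 : p1 q N ≤ p := le_trans (le_max_left _ _) hp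
  have hp2 : p2 q N ≤ p := le_trans (le_trans (le_max_left _ _) (le_max_right _ _)) hp
  have hp3 : p3 q N ≤ p := le_trans (le_trans (le_max_right _ _) (le_max_right _ _)) hp
  have nontr : ∀ (E : Type) [AddCommGroup E] [Module (ZMod p) E] [FiniteDimensional (ZMod p) E],
      0 < finrank (ZMod p) E → (⊤ : Submodule (ZMod p) E) ≠ ⊥ := by
    intro E _ _ _ hE h
    have := finrank_top (ZMod p) E
    rw [h, finrank_bot] at this
    omega
  refine ⟨?_, ?_⟩
  · intro E _ _ _ J s hd hc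
    have hne := nontr E (by omega)
    rcases hc with hc | hc
    · exact (h1 q N p hp1 E J ⊤ ⊥ s True hne hne.symm hc (by omega) (by omega)).mono le_rfl
        (le_max_left _ _)
    · refine (h2 q N p hp2 E J ⊤ ⊥ s hne hne.symm hc ?_ (by omega)).mono le_rfl
        (le_trans (le_max_left _ _) (le_max_right _ _))
      rintro rfl
      rw [finrank_top] at hd
      omega
  · intro E _ _ _ hd
    have hne := nontr E (by omega)
    exact (h3 q N p hp3 E ⊤ ⊥ hne hne.symm hd).mono le_rfl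
        (le_trans (le_max_right _ _) (le_max_right _ _))

theorem lf_mem {F E : Type} [Field F] [AddCommGroup E] [Module F E]
    (J : Submodule F E) (s : ℕ) (T : Submodule F E) :
    T ∈ QF J s True ⊤ ⊥ ↔ ((T ⊓ J = ⊥ ∧ finrank F T ≤ s) ∨ T ⊔ J = ⊤) ∧ T ≠ ⊤ ∧ T ≠ ⊥ := by
  simp [QF]

theorem lf_below {k p : ℕ} [Fact p.Prime] {B₀ P : ℕ → ℕ → ℕ}
    (hB : ∀ (q N : ℕ), P q N ≤ p →
    (∀ (E : Type) [AddCommGroup E] [Module (ZMod p) E] [FiniteDimensional (ZMod p) E]
      (J : Submodule (ZMod p) E) (s : ℕ), s + finrank (ZMod p) J + q + 2 ≤ finrank (ZMod p) E →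
      (q + 1 ≤ s ∨ q + 1 ≤ finrank (ZMod p) J) →
      Fill (OC (QF J s True ⊤ ⊥)) q N (B₀ q N)) ∧
    (∀ (E : Type) [AddCommGroup E] [Module (ZMod p) E] [FiniteDimensional (ZMod p) E],
      q + 2 ≤ finrank (ZMod p) E →
      Fill (OC (QF (⊤ : Submodule (ZMod p) E) 0 True ⊤ ⊥)) q N (B₀ q N)))
    (E : Type) [AddCommGroup E] [Module (ZMod p) E] [FiniteDimensional (ZMod p) E]
      (J : Submodule (ZMod p) E) (s : ℕ)
      (hd : s + finrank (ZMod p) J + k + 2 ≤ finrank (ZMod p) E)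
      (T₁ : Submodule (ZMod p) E) (hT : T₁ ∈ QF J s True ⊤ ⊥)
      (hc : (finrank (ZMod p) T₁ ≤ s → 2 * k + 2 ≤ finrank (ZMod p) T₁) ∧
          (s < finrank (ZMod p) T₁ → 2 * k + 1 ≤ s + finrank (ZMod p) (T₁ ⊓ J : Submodule _ _)))
      (q N : ℕ) (hq : q ≤ k) (hP : P q N ≤ p) :
      Fill (OC {T | T ∈ QF J s True ⊤ ⊥ ∧ T < T₁}) q N (B₀ q N) := by
  rw [lf_mem] at hT
  obtain ⟨h1, h2, h3⟩ := hT
  have hbot : (⊥ : Submodule (ZMod p) E).comap T₁.subtype = ⊥ := by
    rw [Submodule.comap_bot, Submodule.ker_subtype]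
  have htopT : ¬ (⊤ : Submodule (ZMod p) E) ≤ T₁ := fun h => h2 (top_le_iff.mp h)
  have hdim := Submodule.finrank_sup_add_finrank_inf_eq T₁ J
  by_cases hs : finrank (ZMod p) T₁ ≤ s
  · have hTJ : T₁ ⊓ J = ⊥ := by
      rcases h1 with h1 | h1
      · exact h1.1
      · rw [h1, finrank_top] at hdim
        omega
    have hset : {T | T ∈ QF J s True ⊤ ⊥ ∧ T < T₁} =
        {T | T ∈ QF (⊤ : Submodule (ZMod p) E) 0 True ⊤ ⊥ ∧ T < T₁} := by
      ext T
      simp only [Set.mem_ofPred_eq, lf_mem]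
      constructor
      · rintro ⟨⟨_, h5, h6⟩, h7⟩
        exact ⟨⟨Or.inr (by simp), h5, h6⟩, h7⟩
      · rintro ⟨⟨_, h5, h6⟩, h7⟩
        refine ⟨⟨Or.inl ⟨?_, ?_⟩, h5, h6⟩, h7⟩
        · exact le_bot_iff.mp (le_trans (inf_le_inf_right J h7.le) hTJ.le)
        · exact le_trans (Submodule.finrank_mono h7.le) hs
    rw [hset]
    apply fill_below ⊤ T₁ ⊤ ⊥ 0 True (fun _ => by simp) htopT
    rw [hbot, Submodule.comap_top]
    exact (hB q N hP).2 T₁ (by have := hc.1 hs; omega)
  · push Not at hs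
    have hTJ : T₁ ⊔ J = ⊤ := by
      rcases h1 with h1 | h1
      · exact absurd h1.2 (not_le.mpr hs)
      · exact h1
    rw [hTJ, finrank_top] at hdim
    apply fill_below J T₁ ⊤ ⊥ s True (fun _ => hTJ) htopT
    rw [hbot]
    have hJ' : finrank (ZMod p) (J.comap T₁.subtype) =
        finrank (ZMod p) (T₁ ⊓ J : Submodule (ZMod p) E) := by
      rw [← Submodule.map_comap_subtype]
      exact (LinearEquiv.finrank_eq (Submodule.equivMapOfInjective T₁.subtype
        T₁.subtype_injective (J.comap T₁.subtype)))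
    have h5 := hc.2 hs
    refine (hB q N hP).1 T₁ _ s ?_ ?_
    · rw [hJ']; omega
    · rw [hJ']; omega

/-- a nonempty finite chain has a least element -/
theorem lf_least {α : Type*} [PartialOrder α] (c : Finset α) (hc : IsChain (· ≤ ·) (c : Set α))
    (hne : c.Nonempty) : ∃ a ∈ c, ∀ b ∈ c, a ≤ b := by
  induction c using Finset.induction_on with
  | empty => exact absurd hne (by simp)
  | insert x c hx ih =>
    by_cases hce : c.Nonempty
    · obtain ⟨a, ha, hab⟩ := ih (hc.mono (by simp)) hce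
      rcases hc.total (show x ∈ ((insert x c : Finset α) : Set α) by simp)
        (show a ∈ ((insert x c : Finset α) : Set α) by simp [ha]) with h | h
      · refine ⟨x, Finset.mem_insert_self _ _, fun b hb => ?_⟩
        rcases Finset.mem_insert.mp hb with rfl | hb
        · exact le_rfl
        · exact le_trans h (hab b hb)
      · refine ⟨a, Finset.mem_insert_of_mem ha, fun b hb => ?_⟩
        rcases Finset.mem_insert.mp hb with rfl | hb
        · exact h
        · exact hab b hb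
    · rw [Finset.not_nonempty_iff_eq_empty] at hce
      subst hce
      exact ⟨x, by simp, fun b hb => by simp at hb; rw [hb]⟩

theorem lf_lk_empty {V : Type*} (K : Set (Finset V)) : Lk K ∅ = K := by
  ext t
  simp [Lk]

theorem lf_full {α : Type*} [PartialOrder α] (P : Set α) (c : Finset α) (hc : c ∈ OC P)
    (a : α) (hab : ∀ b ∈ c, a ≤ b) :
    Full (Lk (OC P) c) (fun x => x < a) = OC {x | x ∈ P ∧ x < a} := by
  ext σ
  simp only [Full, Lk, OC, Set.mem_ofPred_eq]
  constructor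
  · rintro ⟨⟨h1, h2, h3⟩, h4⟩
    exact ⟨fun x hx => ⟨h2 x (Finset.mem_union_right _ hx), h4 x hx⟩,
      h3.mono (by intro x hx; simp at hx ⊢; exact Or.inr hx)⟩
  · rintro ⟨h1, h2⟩
    refine ⟨⟨?_, ?_, ?_⟩, fun x hx => (h1 x hx).2⟩
    · rw [Finset.disjoint_left]
      intro x hx hxs
      exact absurd (h1 x hxs).2 (not_lt_of_ge (hab x hx))
    · intro x hx
      rcases Finset.mem_union.mp hx with hx | hx
      · exact hc.1 x hx
      · exact (h1 x hx).1
    · intro x hx y hy hxy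
      simp only [Finset.coe_union, Set.mem_union, Finset.mem_coe] at hx hy
      rcases hx with hx | hx <;> rcases hy with hy | hy
      · exact hc.2 hx hy hxy
      · exact Or.inr (le_trans (h1 y hy).2.le (hab x hx))
      · exact Or.inl (le_trans (h1 x hx).2.le (hab y hy))
      · exact h2 hx hy hxy

theorem lf_joinc {α : Type*} [PartialOrder α] (P : Set α) (c : Finset α)
    (a : α) (ha : a ∈ c) :
    ∀ σ ∈ Full (Lk (OC P) c) (fun x => x < a), ∀ τ ∈ Full (Lk (OC P) c) (fun x => ¬ x < a),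
      σ ∪ τ ∈ Lk (OC P) c := by
  rintro σ ⟨⟨h1, h2, h3⟩, h4⟩ τ ⟨⟨g1, g2, g3⟩, g4⟩
  have key : ∀ x ∈ τ, a ≤ x := by
    intro x hx
    by_cases hxa : a = x
    · exact hxa.le
    · have := g3 (show a ∈ ((c ∪ τ : Finset α) : Set α) by simp [ha])
        (show x ∈ ((c ∪ τ : Finset α) : Set α) by simp [hx]) hxa
      rcases this with h | h
      · exact h
      · exact absurd (lt_of_le_of_ne h (Ne.symm hxa)) (g4 x hx)
  refine ⟨?_, ?_, ?_⟩
  · rw [Finset.disjoint_union_right]
    exact ⟨h1, g1⟩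
  · intro x hx
    rcases Finset.mem_union.mp hx with hx | hx
    · exact h2 x (Finset.mem_union_left _ hx)
    · rcases Finset.mem_union.mp hx with hx | hx
      · exact h2 x (Finset.mem_union_right _ hx)
      · exact g2 x (Finset.mem_union_right _ hx)
  · intro x hx y hy hxy
    simp only [Finset.coe_union, Set.mem_union, Finset.mem_coe] at hx hy
    have hh : ∀ x ∈ c ∪ σ, ∀ y ∈ c ∪ σ, x ≠ y → x ≤ y ∨ y ≤ x := fun x hx y hy hxy =>
      h3 (Finset.mem_coe.mpr hx) (Finset.mem_coe.mpr hy) hxy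
    have gg : ∀ x ∈ c ∪ τ, ∀ y ∈ c ∪ τ, x ≠ y → x ≤ y ∨ y ≤ x := fun x hx y hy hxy =>
      g3 (Finset.mem_coe.mpr hx) (Finset.mem_coe.mpr hy) hxy
    rcases hx with hx | hx | hx <;> rcases hy with hy | hy | hy
    · exact hh x (Finset.mem_union_left _ hx) y (Finset.mem_union_left _ hy) hxy
    · exact hh x (Finset.mem_union_left _ hx) y (Finset.mem_union_right _ hy) hxy
    · exact gg x (Finset.mem_union_left _ hx) y (Finset.mem_union_right _ hy) hxy
    · exact hh x (Finset.mem_union_right _ hx) y (Finset.mem_union_left _ hy) hxy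
    · exact hh x (Finset.mem_union_right _ hx) y (Finset.mem_union_right _ hy) hxy
    · exact Or.inl (le_trans (h4 x hx).le (key y hy))
    · exact gg x (Finset.mem_union_right _ hx) y (Finset.mem_union_left _ hy) hxy
    · exact Or.inr (le_trans (h4 y hy).le (key x hx))
    · exact gg x (Finset.mem_union_right _ hx) y (Finset.mem_union_right _ hy) hxy

theorem fill_link (k : ℕ) : ∃ (p₀ : ℕ) (B : ℕ → ℕ → ℕ), ∀ (p : ℕ) [Fact p.Prime], p₀ ≤ p →
    ∀ (E : Type) [AddCommGroup E] [Module (ZMod p) E] [FiniteDimensional (ZMod p) E]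
      (J : Submodule (ZMod p) E) (s : ℕ),
      s + finrank (ZMod p) J + k + 2 ≤ finrank (ZMod p) E →
      2 * k + 1 ≤ s + finrank (ZMod p) J →
      ∀ c ∈ OC (QF J s True ⊤ ⊥),
        (∀ T ∈ c, (finrank (ZMod p) T ≤ s → 2 * k + 2 ≤ finrank (ZMod p) T) ∧
          (s < finrank (ZMod p) T → 2 * k + 1 ≤ s + finrank (ZMod p) (T ⊓ J : Submodule _ _))) →
        ∀ j ≤ k, Fill (Lk (OC (QF J s True ⊤ ⊥)) c) j (coneA B j) (coneB B j) := by
  obtain ⟨B₀, P, hB⟩ := lf_base
  choose L M' hL using fill_join B₀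
  set B : ℕ → ℕ → ℕ := fun j M => max (M' j M) (B₀ j M) with hBdef
  refine ⟨∑ j ∈ Finset.range (k + 1), (P j (coneA B j) +
    ∑ q ∈ Finset.range (j + 1), ∑ N ∈ Finset.range (L j (coneA B j) + 1), P q N), B, ?_⟩
  intro p _ hp E _ _ _ J s hd hs c hc hcc j hj
  have hpj : P j (coneA B j) + ∑ q ∈ Finset.range (j + 1),
      ∑ N ∈ Finset.range (L j (coneA B j) + 1), P q N ≤ p := by
    refine le_trans ?_ hp
    exact Finset.single_le_sum (f := fun j => P j (coneA B j) + ∑ q ∈ Finset.range (j + 1),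
      ∑ N ∈ Finset.range (L j (coneA B j) + 1), P q N) (fun i _ => Nat.zero_le _)
      (Finset.mem_range.mpr (by omega))
  have hpq : ∀ q ≤ j, ∀ N ≤ L j (coneA B j), P q N ≤ p := by
    intro q hq N hN
    have h1 : P q N ≤ ∑ N ∈ Finset.range (L j (coneA B j) + 1), P q N :=
      Finset.single_le_sum (f := fun N => P q N) (fun i _ => Nat.zero_le _)
        (Finset.mem_range.mpr (by omega))
    have h2 : ∑ N ∈ Finset.range (L j (coneA B j) + 1), P q N ≤ ∑ q ∈ Finset.range (j + 1),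
      ∑ N ∈ Finset.range (L j (coneA B j) + 1), P q N :=
      Finset.single_le_sum (f := fun q => ∑ N ∈ Finset.range (L j (coneA B j) + 1), P q N)
        (fun i _ => Nat.zero_le _) (Finset.mem_range.mpr (by omega))
    omega
  rcases Finset.eq_empty_or_nonempty c with rfl | hne
  · rw [lf_lk_empty]
    have h1 := (hB j (coneA B j) p (by omega)).1 E J s (by omega) (by omega)
    exact h1.mono le_rfl (le_max_right _ _)
  · obtain ⟨T₁, hT₁, hle⟩ := lf_least c hc.2 hne
    intro z hz1 hz2 hz3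
    obtain ⟨w, hw1, hw2, hw3, -⟩ := hL j (coneA B j) (Submodule (ZMod p) E)
      (Lk (OC (QF J s True ⊤ ⊥)) c) (fun x => x < T₁)
      (isCx_Lk (isCx_OC _) hc) (lf_joinc _ c T₁ hT₁) (by
        intro q hq N hN
        rw [lf_full _ c hc T₁ hle]
        exact lf_below (k := k) (fun q N => hB q N p) E J s hd T₁ (hc.1 T₁ hT₁) (hcc T₁ hT₁)
          q N (by omega) (hpq q hq N hN)) z hz1 hz2 hz3
    exact ⟨w, hw1, hw2, le_trans hw3 (le_max_left _ _)⟩

end P067X
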