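import Vale.Agent.P067X.LinkDim
import Vale.Agent.P067X.LinkAux
import Vale.Agent.P067X.Iso

/-!
# P067, module LINKISO: the link of a standard vertex

`E = (F^ι / U) × U`, `J = 0 × U`, `j = dim U`, `n = |ι|`.  `T ⊔ J = ⊤` gives the lower neighbour `dn T`, `T ⊓ J = ⊥` the upper neighbour `up T`.
-/

namespace P067X

open Classical Module

set_option linter.unusedSectionVars false

variable {p m : ℕ} [Fact p.Prime] {R : Type} [CommRing R] [Algebra (ZMod p) R]
  {ι : Type} [Fintype ι] [DecidableEq ι]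

/-- the image of `S'` in `EE U` -/
noncomputable def li_im (A : TR p m R) (U : Submodule (ZMod p) (ι → ZMod p))
    (S' : Submodule (ZMod p) (ι → R)) : Submodule (ZMod p) (EE U) :=
  (S'.comap (A.std U).subtype).map (A.phi U)

theorem li_im_mono (A : TR p m R) (U : Submodule (ZMod p) (ι → ZMod p))
    {S S' : Submodule (ZMod p) (ι → R)} (h : S ≤ S') : li_im A U S ≤ li_im A U S' :=
  Submodule.map_mono (Submodule.comap_mono h)

theorem li_dn_im (A : TR p m R) (hm : 3 ≤ m) (U : Submodule (ZMod p) (ι → ZMod p))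
    (S' : Submodule (ZMod p) (ι → R)) (h1 : S' ≤ A.std U) (h2 : A.lev (A.std U) 0 ≤ S') :
    A.dn (li_im A U S') = S' := by
  ext v
  rw [li_mem_dn]
  constructor
  · rintro ⟨hv, w, hw, hwv⟩
    have h3 : A.phi U (⟨v, hv⟩ - w) = 0 := by rw [map_sub, hwv, sub_self]
    have h4 : A.phi U ⟨v - w.1, (A.std U).sub_mem hv w.2⟩ = 0 := h3
    have h5 := h2 ((li_ker A hm U _ _).1 h4)
    have h6 := S'.add_mem h5 hw
    simpa using h6
  · intro hv
    exact ⟨h1 hv, ⟨v, h1 hv⟩, hv, rfl⟩

/-- maximum of a finite chain, or a default value -/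
theorem li_max {α : Type} [PartialOrder α] (s : Finset α) (hs : IsChain (· ≤ ·) (s : Set α))
    (d : α) : ∃ a, (a = d ∧ s = ∅ ∨ a ∈ s) ∧ ∀ x ∈ s, x ≤ a := by
  rcases s.eq_empty_or_nonempty with rfl | hne
  · exact ⟨d, Or.inl ⟨rfl, rfl⟩, by simp⟩
  · obtain ⟨a, ha⟩ := s.exists_maximal hne
    refine ⟨a, Or.inr ha.1, fun x hx => ?_⟩
    rcases eq_or_ne x a with rfl | hxa
    · exact le_rfl
    · rcases hs hx ha.1 hxa with h | h
      · exact h
      · exact ha.2 hx h

theorem li_min {α : Type} [PartialOrder α] (s : Finset α) (hs : IsChain (· ≤ ·) (s : Set α))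
    (d : α) : ∃ a, (a = d ∧ s = ∅ ∨ a ∈ s) ∧ ∀ x ∈ s, a ≤ x := by
  rcases s.eq_empty_or_nonempty with rfl | hne
  · exact ⟨d, Or.inl ⟨rfl, rfl⟩, by simp⟩
  · obtain ⟨a, ha⟩ := s.exists_minimal hne
    refine ⟨a, Or.inr ha.1, fun x hx => ?_⟩
    rcases eq_or_ne x a with rfl | hxa
    · exact le_rfl
    · rcases hs hx ha.1 hxa with h | h
      · exact ha.2 hx h
      · exact h

theorem li_Wdn_mono {U : Submodule (ZMod p) (ι → ZMod p)} {T T' : Submodule (ZMod p) (EE U)}
    (h : T ≤ T') : li_Wdn T ≤ li_Wdn T' :=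
  Submodule.map_mono (Submodule.comap_mono h)

theorem li_Wup_mono {U : Submodule (ZMod p) (ι → ZMod p)} {T T' : Submodule (ZMod p) (EE U)}
    (h : T ≤ T') : li_Wup T ≤ li_Wup T' :=
  Submodule.comap_mono (Submodule.map_mono h)

/-- chains give faces -/
theorem li_chain_face (A : TR p m R) (hm : 3 ≤ m) (r : ℕ) (hr : r < Fintype.card ι)
    (U : Submodule (ZMod p) (ι → ZMod p)) (hU : finrank (ZMod p) U ≤ r)
    (σ : Finset (Submodule (ZMod p) (EE U)))
    (hσ : σ ∈ OC (QF (JJ U) (r - finrank (ZMod p) U) True ⊤ ⊥)) :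
    σ.image A.lv ∈ Lk (A.XX ι r) {A.std U} := by
  obtain ⟨hQ, hch⟩ := hσ
  have hch1 : IsChain (· ≤ ·) ((σ.filter fun T => ¬ T ⊔ JJ U = ⊤ :
      Finset (Submodule (ZMod p) (EE U))) : Set (Submodule (ZMod p) (EE U))) :=
    hch.mono (by intro x hx; exact (Finset.mem_filter.1 hx).1)
  have hch2 : IsChain (· ≤ ·) ((σ.filter fun T => T ⊔ JJ U = ⊤ :
      Finset (Submodule (ZMod p) (EE U))) : Set (Submodule (ZMod p) (EE U))) :=
    hch.mono (by intro x hx; exact (Finset.mem_filter.1 hx).1)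
  obtain ⟨A₀, hA1, hA2⟩ := li_max _ hch1 ⊥
  obtain ⟨B₀, hB1, hB2⟩ := li_min _ hch2 ⊤
  have hA3 : A₀ ⊓ JJ U = ⊥ := by
    rcases hA1 with ⟨h, _⟩ | h
    · rw [h]; exact bot_inf_eq _
    · rw [Finset.mem_filter] at h
      exact (lv_upper A hm r hr U hU A₀ (hQ _ h.1) h.2).2.2.1
  have hB3 : B₀ ⊔ JJ U = ⊤ := by
    rcases hB1 with ⟨h, _⟩ | h
    · rw [h]; exact top_sup_eq _
    · exact (Finset.mem_filter.1 h).2
  have hAB : A₀ ≤ B₀ := by
    rcases hA1 with ⟨h, _⟩ | h
    · rw [h]; exact bot_le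
    · rcases hB1 with ⟨h', _⟩ | h'
      · rw [h']; exact le_top
      · rw [Finset.mem_filter] at h h'
        have hne : A₀ ≠ B₀ := by
          rintro h0
          exact h.2 (by rw [h0]; exact h'.2)
        rcases hch h.1 h'.1 hne with h3 | h3
        · exact h3
        · exfalso
          apply h.2
          rw [eq_top_iff, ← h'.2]
          exact sup_le_sup_right h3 _
  obtain ⟨nu, N, g, _, _, hgU, hup, hdn⟩ := li_normal A hm A₀ B₀ hAB hA3 hB3
  refine ⟨?_, g, insert U (σ.image fun T => if T ⊔ JJ U = ⊤ then li_Wdn T else li_Wup T),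
    ?_, ?_, ?_⟩
  · rw [Finset.disjoint_singleton_left, Finset.mem_image]
    rintro ⟨T, hT, hTU⟩
    by_cases h : T ⊔ JJ U = ⊤
    · exact (lv_lower A hm r hr U hU T (hQ _ hT) h).2.1.ne hTU
    · exact (lv_upper A hm r hr U hU T (hQ _ hT) h).2.1.ne' hTU
  · -- chain
    have key : ∀ T ∈ σ, (T ⊔ JJ U = ⊤ → (if T ⊔ JJ U = ⊤ then li_Wdn T else li_Wup T) ≤ U) ∧
        (¬ T ⊔ JJ U = ⊤ → U ≤ (if T ⊔ JJ U = ⊤ then li_Wdn T else li_Wup T)) := by
      intro T _
      refine ⟨fun h => ?_, fun h => ?_⟩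
      · rw [if_pos h]; exact li_Wdn_le T
      · rw [if_neg h]; exact li_le_Wup T
    rw [Finset.coe_insert]
    apply IsChain.insert
    · rintro _ h1 _ h2 _
      obtain ⟨T, hT, rfl⟩ := Finset.mem_image.1 (Finset.mem_coe.1 h1)
      obtain ⟨T', hT', rfl⟩ := Finset.mem_image.1 (Finset.mem_coe.1 h2)
      by_cases a : T ⊔ JJ U = ⊤ <;> by_cases b : T' ⊔ JJ U = ⊤
      · simp only [if_pos a, if_pos b]
        rcases eq_or_ne T T' with rfl | hne
        · exact Or.inl le_rfl
        rcases hch hT hT' hne with h | h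
        · exact Or.inl (li_Wdn_mono h)
        · exact Or.inr (li_Wdn_mono h)
      · exact Or.inl (((key T hT).1 a).trans ((key T' hT').2 b))
      · exact Or.inr (((key T' hT').1 b).trans ((key T hT).2 a))
      · simp only [if_neg a, if_neg b]
        rcases eq_or_ne T T' with rfl | hne
        · exact Or.inl le_rfl
        rcases hch hT hT' hne with h | h
        · exact Or.inl (li_Wup_mono h)
        · exact Or.inr (li_Wup_mono h)
    · rintro _ h1 _
      obtain ⟨T, hT, rfl⟩ := Finset.mem_image.1 (Finset.mem_coe.1 h1)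
      by_cases a : T ⊔ JJ U = ⊤
      · exact Or.inr ((key T hT).1 a)
      · exact Or.inl ((key T hT).2 a)
  · intro W hW
    rcases Finset.mem_insert.1 hW with rfl | hW
    · exact hU
    · obtain ⟨T, hT, rfl⟩ := Finset.mem_image.1 hW
      show finrank (ZMod p) ↥(if T ⊔ JJ U = ⊤ then li_Wdn T else li_Wup T) ≤ r
      by_cases a : T ⊔ JJ U = ⊤
      · rw [if_pos a]
        exact (Submodule.finrank_mono (li_Wdn_le T)).trans hU
      · rw [if_neg a]
        obtain ⟨_, _, h3, h4, _⟩ := lv_upper A hm r hr U hU T (hQ _ hT) a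
        rw [ld_Wup T h3]
        omega
  · rw [Finset.image_insert, hgU, Finset.image_image]
    show insert (A.std U) _ = _
    congr 1
    refine Finset.image_congr fun T hT => ?_
    have hT' : T ∈ σ := hT
    show A.lv T = (A.std (if T ⊔ JJ U = ⊤ then li_Wdn T else li_Wup T)).map (gm p g.1)
    by_cases a : T ⊔ JJ U = ⊤
    · rw [if_pos a, (lv_lower A hm r hr U hU T (hQ _ hT') a).1]
      exact (hdn T (hB2 T (Finset.mem_filter.2 ⟨hT', a⟩))).2
    · rw [if_neg a, (lv_upper A hm r hr U hU T (hQ _ hT') a).1]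
      exact (hup T (hA2 T (Finset.mem_filter.2 ⟨hT', a⟩))).2

theorem li_inj (A : TR p m R) (hm : 3 ≤ m) (r : ℕ) (hr : r < Fintype.card ι)
    (U : Submodule (ZMod p) (ι → ZMod p)) (hU : finrank (ZMod p) U ≤ r)
    (T T' : Submodule (ZMod p) (EE U)) (hT : T ∈ QF (JJ U) (r - finrank (ZMod p) U) True ⊤ ⊥)
    (hT' : T' ∈ QF (JJ U) (r - finrank (ZMod p) U) True ⊤ ⊥) (h : A.lv T = A.lv T') :
    T = T' := by
  by_cases a : T ⊔ JJ U = ⊤ <;> by_cases b : T' ⊔ JJ U = ⊤
  · rw [(lv_lower A hm r hr U hU T hT a).1, (lv_lower A hm r hr U hU T' hT' b).1] at h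
    exact le_antisymm ((li_dn_le A hm _ _).1 h.le) ((li_dn_le A hm _ _).1 h.ge)
  · exact absurd ((lv_lower A hm r hr U hU T hT a).2.1.trans
      (lv_upper A hm r hr U hU T' hT' b).2.1) (by rw [h]; exact lt_irrefl _)
  · exact absurd ((lv_lower A hm r hr U hU T' hT' b).2.1.trans
      (lv_upper A hm r hr U hU T hT a).2.1) (by rw [h]; exact lt_irrefl _)
  · rw [(lv_upper A hm r hr U hU T hT a).1, (lv_upper A hm r hr U hU T' hT' b).1] at h
    exact le_antisymm ((li_up_le A hm _ _).1 h.le) ((li_up_le A hm _ _).1 h.ge)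

/-- faces give chains -/
theorem li_face_chain (A : TR p m R) (hm : 3 ≤ m) (r : ℕ) (hr : r < Fintype.card ι)
    (U : Submodule (ZMod p) (ι → ZMod p)) (hU : finrank (ZMod p) U ≤ r)
    (τ : Finset (Submodule (ZMod p) (ι → R))) (hτ : τ ∈ Lk (A.XX ι r) {A.std U}) :
    ∃ σ ∈ OC (QF (JJ U) (r - finrank (ZMod p) U) True ⊤ ⊥), τ = σ.image A.lv := by
  obtain ⟨hdis, g, c, hc, hcr, heq⟩ := hτ
  have hSU : A.std U ∈ c.image (fun W => (A.std W).map (gm p g.1)) := by
    rw [← heq]; exact Finset.mem_union_left _ (Finset.mem_singleton_self _)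
  obtain ⟨Ui, hUi, hUiS⟩ := Finset.mem_image.1 hSU
  have hUiS' : (A.std Ui).map (gm p g.1) = A.std U := hUiS
  clear hUiS
  have hlev : A.lev (A.std U) 0 = (A.lev (A.std Ui) 0).map (gm p g.1) := by
    rw [← hUiS', lev_map]
  have hcst : ∀ (W : Submodule (ZMod p) (ι → ZMod p)), A.lev (A.std Ui) 0 ≤ A.std W := by
    intro W v hv
    rw [mem_lev_std A hm] at hv
    exact ⟨by rw [hv.2 1 (by norm_num)]; exact W.zero_mem, fun a ha => hv.2 a (by omega)⟩
  have hcst' : ∀ (W W' : Submodule (ZMod p) (ι → ZMod p)), A.lev (A.std W') 0 ≤ A.std W := by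
    intro W W' v hv
    rw [mem_lev_std A hm] at hv
    exact ⟨by rw [hv.2 1 (by norm_num)]; exact W.zero_mem, fun a ha => hv.2 a (by omega)⟩
  have hne : ∀ W ∈ c, W ≠ Ui → (A.std W).map (gm p g.1) ≠ A.std U := by
    intro W _ hW h
    rw [← hUiS'] at h
    exact hW (std_injective A (by omega) (map_gm_injective g h))
  have hfin : finrank (ZMod p) (EE U) = Fintype.card ι := finrank_EE U
  have hfJ : finrank (ZMod p) (JJ U) = finrank (ZMod p) U := finrank_JJ U
  -- lower part
  have low : ∀ W ∈ c, W ≠ Ui → W ≤ Ui →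
      li_im A U ((A.std W).map (gm p g.1)) ∈ QF (JJ U) (r - finrank (ZMod p) U) True ⊤ ⊥ ∧
      A.lv (li_im A U ((A.std W).map (gm p g.1))) = (A.std W).map (gm p g.1) := by
    intro W hW hWne hWU
    have h1 : (A.std W).map (gm p g.1) ≤ A.std U := by
      rw [← hUiS', map_gm_le_iff]
      exact (std_le_iff A (by omega) _ _).2 hWU
    have h2 : A.lev (A.std U) 0 ≤ (A.std W).map (gm p g.1) := by
      rw [hlev]; exact Submodule.map_mono (hcst W)
    have h3 := li_dn_im A hm U _ h1 h2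
    have h4 : li_im A U ((A.std W).map (gm p g.1)) ⊔ JJ U = ⊤ := by
      rw [eq_top_iff]
      intro z _
      obtain ⟨v, hv, rfl⟩ := li_phi_surj A hm U z
      have hv' := hv
      rw [← hUiS'] at hv'
      obtain ⟨u, hu, rfl⟩ := hv'
      have hu' := A.eq_of_deg_one (by omega) u hu.2
      have h5 : gm p g.1 (cst R ι (A.vco 0 u)) ∈ (A.std W).map (gm p g.1) := by
        refine ⟨_, ⟨?_, fun a ha => ?_⟩, rfl⟩
        · rw [A.vco_cst, if_neg one_ne_zero]; exact W.zero_mem
        · rw [A.vco_cst, if_neg (by omega)]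
      have h6 := h1 h5
      have h7 : gm p g.1 (A.tl (cst R ι (A.vco 1 u))) ∈ A.std U := by
        have h8 : gm p g.1 (A.tl (cst R ι (A.vco 1 u))) =
            gm p g.1 u - gm p g.1 (cst R ι (A.vco 0 u)) := by
          rw [← map_sub]
          congr 1
          conv_rhs => rw [hu']
          rw [← hu']
          exact (sub_eq_iff_eq_add'.2 hu').symm
        rw [h8]
        exact (A.std U).sub_mem hv h6
      have h9 : A.phi U ⟨gm p g.1 u, hv⟩ = A.phi U ⟨_, h6⟩ + A.phi U ⟨_, h7⟩ := by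
        rw [← map_add]
        congr 1
        refine Subtype.ext ?_
        show gm p g.1 u = gm p g.1 _ + gm p g.1 _
        rw [← map_add, ← hu']
      rw [h9]
      refine Submodule.add_mem_sup ⟨⟨_, h6⟩, h5, rfl⟩ ⟨?_, trivial⟩
      show U.mkQ (A.vco 0 (gm p g.1 (A.tl (cst R ι (A.vco 1 u))))) = 0
      rw [gm_tl A, A.vco_tl_zero, map_zero]
    refine ⟨⟨Or.inr ⟨trivial, h4⟩, fun h5 => ?_, fun h5 => ?_⟩, ?_⟩
    · apply hne W hW hWne
      rw [← h3, ← ld_dn_top A U]
      exact le_antisymm ((li_dn_le A hm _ _).2 le_top) ((li_dn_le A hm _ _).2 h5)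
    · rw [eq_bot_iff.2 h5, bot_sup_eq] at h4
      rw [h4, finrank_top, hfin] at hfJ
      omega
    · rw [show A.lv (li_im A U ((A.std W).map (gm p g.1))) = A.dn _ from if_pos h4, h3]
  -- upper part
  have upp : ∀ W ∈ c, W ≠ Ui → Ui ≤ W →
      li_im A U (A.lev ((A.std W).map (gm p g.1)) 0) ∈
        QF (JJ U) (r - finrank (ZMod p) U) True ⊤ ⊥ ∧
      A.lv (li_im A U (A.lev ((A.std W).map (gm p g.1)) 0)) = (A.std W).map (gm p g.1) := by
    intro W hW hWne hWU
    have h0 : A.std U ≤ (A.std W).map (gm p g.1) := by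
      rw [← hUiS', map_gm_le_iff]
      exact (std_le_iff A (by omega) _ _).2 hWU
    have h1 : A.lev ((A.std W).map (gm p g.1)) 0 ≤ A.std U := by
      rw [lev_map, ← hUiS']
      exact Submodule.map_mono (hcst' _ _)
    have h2 : A.lev (A.std U) 0 ≤ A.lev ((A.std W).map (gm p g.1)) 0 :=
      lev_mono_left A h0 0
    have h3 := li_dn_im A hm U _ h1 h2
    set T := li_im A U (A.lev ((A.std W).map (gm p g.1)) 0) with hT
    have h4 : A.up T = (A.std W).map (gm p g.1) := by
      unfold TR.up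
      rw [h3]
      apply le_antisymm
      · refine sup_le h0 ?_
        rintro _ ⟨v, hv, rfl⟩
        exact hv.2
      · rintro _ ⟨w, hw, rfl⟩
        have hw' := A.eq_of_deg_one (by omega) w hw.2
        rw [hw', map_add, gm_tl A]
        refine Submodule.add_mem_sup ?_ ⟨_, ?_, rfl⟩
        · rw [← hUiS']
          refine ⟨_, ⟨?_, fun a ha => ?_⟩, rfl⟩
          · rw [A.vco_cst, if_neg one_ne_zero]; exact Ui.zero_mem
          · rw [A.vco_cst, if_neg (by omega)]
        · rw [lev_map]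
          refine ⟨_, (mem_lev_std A hm W 0 _).2 ⟨?_, fun a ha => ?_⟩, rfl⟩
          · rw [A.vco_cst, if_pos rfl]; exact hw.1
          · rw [A.vco_cst, if_neg (by omega)]
    have h5 : T ⊓ JJ U = ⊥ := by
      rw [eq_bot_iff]
      rintro z ⟨⟨⟨v, hvU⟩, hv, rfl⟩, hz⟩
      have hv0 : U.mkQ (A.vco 0 v) = 0 := hz.1
      rw [Submodule.mkQ_apply, Submodule.Quotient.mk_eq_zero] at hv0
      have hvl : v ∈ A.lev ((A.std W).map (gm p g.1)) 0 := hv
      rw [lev_map] at hvl
      obtain ⟨x, hx, rfl⟩ := hvl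
      have hc0 : cst R ι (A.vco 0 (gm p g.1 x)) ∈ A.lev (A.std U) 0 := by
        rw [mem_lev_std A hm]
        refine ⟨?_, fun a ha => ?_⟩
        · rw [A.vco_cst, if_pos rfl]; exact hv0
        · rw [A.vco_cst, if_neg (by omega)]
      have hc0' := hc0
      rw [hlev] at hc0'
      obtain ⟨x', hx', hxx'⟩ := hc0'
      have h6 : A.vco 0 (gm p g.1 (x - x')) = 0 := by
        rw [map_sub, map_sub, hxx', A.vco_cst, if_pos rfl, sub_self]
      obtain ⟨y, hy⟩ := A.exists_tl _ h6
      have h7 : x - x' = A.tl (gm p (g⁻¹).1 y) := by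
        have h8 : gm p (g⁻¹).1 (gm p g.1 (x - x')) = x - x' := by
          rw [← gm_mul]
          have h9 : (g⁻¹).1 * g.1 = 1 := by
            rw [← Matrix.SpecialLinearGroup.coe_mul, inv_mul_cancel]; rfl
          rw [h9]
          exact Matrix.one_mulVec _
        rw [← h8, hy, gm_tl A]
      have h8 : x - x' = 0 := by
        have hx1 := (mem_lev_std A hm W 0 x).1 hx
        have hx2 := (mem_lev_std A hm Ui 0 x').1 hx'
        refine A.vec_ext _ _ fun a => ?_
        rcases Nat.eq_zero_or_pos a with rfl | ha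
        · rw [h7, A.vco_tl_zero, map_zero]
        · rw [map_sub, hx1.2 a ha, hx2.2 a ha, sub_self, map_zero]
      have h9 : gm p g.1 x = cst R ι (A.vco 0 (gm p g.1 x)) := by
        rw [← hxx', sub_eq_zero.1 h8]
      rw [Submodule.mem_bot]
      refine (li_ker A hm U _ _).2 ?_
      rw [h9]
      exact hc0
    have h6 : finrank (ZMod p) U + finrank (ZMod p) T ≤ r := by
      have h7 : ty (A.up T) = finrank (ZMod p) U + finrank (ZMod p) T := by
        obtain ⟨nu, N, g', _, _, _, h6, _⟩ := li_normal A hm T ⊤ le_top h5 (top_sup_eq _)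
        rw [(h6 T le_rfl).2, ty_std A (by omega), ld_Wup T h5]
      rw [h4, ty_std A (by omega)] at h7
      rw [← h7]
      exact hcr W hW
    have h7 : ¬ T ⊔ JJ U = ⊤ := by
      intro h8
      have h9 := Submodule.finrank_sup_add_finrank_inf_eq T (JJ U)
      rw [h8, h5, finrank_top, finrank_bot, hfin, hfJ] at h9
      omega
    refine ⟨⟨Or.inl ⟨h5, by omega⟩, fun h8 => ?_, fun h8 => ?_⟩, ?_⟩
    · exact h7 (by rw [eq_top_iff.2 h8]; exact top_sup_eq _)
    · apply hne W hW hWne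
      rw [← h4, eq_bot_iff.2 h8, ld_up_bot A hm]
    · rw [show A.lv T = A.up T from if_neg h7, h4]
  set TT : Submodule (ZMod p) (ι → ZMod p) → Submodule (ZMod p) (EE U) := fun W =>
    if W ≤ Ui then li_im A U ((A.std W).map (gm p g.1)) else
      li_im A U (A.lev ((A.std W).map (gm p g.1)) 0) with hTT
  have hTT2 : ∀ W ∈ c, W ≠ Ui → TT W ∈ QF (JJ U) (r - finrank (ZMod p) U) True ⊤ ⊥ ∧
      A.lv (TT W) = (A.std W).map (gm p g.1) := by
    intro W hW hWne
    by_cases h : W ≤ Ui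
    · rw [hTT]
      simp only [if_pos h]
      exact low W hW hWne h
    · have h' : Ui ≤ W := by
        rcases hc hW hUi hWne with h1 | h1
        · exact absurd h1 h
        · exact h1
      rw [hTT]
      simp only [if_neg h]
      exact upp W hW hWne h'
  refine ⟨(c.erase Ui).image TT, ⟨?_, ?_⟩, ?_⟩
  · intro T hT
    obtain ⟨W, hW, rfl⟩ := Finset.mem_image.1 hT
    exact (hTT2 W (Finset.mem_of_mem_erase hW) (Finset.ne_of_mem_erase hW)).1
  · have mono : ∀ W W', W ≤ W' → W ≤ Ui → W' ≤ Ui → TT W ≤ TT W' := by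
      intro W W' h h1 h2
      rw [hTT]
      simp only [if_pos h1, if_pos h2]
      exact li_im_mono A U ((map_gm_le_iff g _ _).2 ((std_le_iff A (by omega) _ _).2 h))
    have mono2 : ∀ W W', W ≤ W' → ¬ W ≤ Ui → ¬ W' ≤ Ui → TT W ≤ TT W' := by
      intro W W' h h1 h2
      rw [hTT]
      simp only [if_neg h1, if_neg h2]
      exact li_im_mono A U (lev_mono_left A
        ((map_gm_le_iff g _ _).2 ((std_le_iff A (by omega) _ _).2 h)) 0)
    have cross : ∀ W W', W ≤ Ui → ¬ W' ≤ Ui → TT W' ≤ TT W := by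
      intro W W' h1 h2
      rw [hTT]
      simp only [if_pos h1, if_neg h2]
      refine li_im_mono A U ?_
      rw [lev_map]
      exact Submodule.map_mono (hcst' _ _)
    rintro _ h1 _ h2 _
    obtain ⟨W, hW, rfl⟩ := Finset.mem_image.1 (Finset.mem_coe.1 h1)
    obtain ⟨W', hW', rfl⟩ := Finset.mem_image.1 (Finset.mem_coe.1 h2)
    by_cases a : W ≤ Ui <;> by_cases b : W' ≤ Ui
    · rcases eq_or_ne W W' with rfl | hne'
      · exact Or.inl le_rfl
      rcases hc (Finset.mem_of_mem_erase hW) (Finset.mem_of_mem_erase hW') hne' with h | h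
      · exact Or.inl (mono _ _ h a b)
      · exact Or.inr (mono _ _ h b a)
    · exact Or.inr (cross _ _ a b)
    · exact Or.inl (cross _ _ b a)
    · rcases eq_or_ne W W' with rfl | hne'
      · exact Or.inl le_rfl
      rcases hc (Finset.mem_of_mem_erase hW) (Finset.mem_of_mem_erase hW') hne' with h | h
      · exact Or.inl (mono2 _ _ h a b)
      · exact Or.inr (mono2 _ _ h b a)
  · rw [Finset.image_image]
    have h1 : (c.erase Ui).image (A.lv ∘ TT) =
        (c.erase Ui).image (fun W => (A.std W).map (gm p g.1)) := by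
      refine Finset.image_congr fun W hW => ?_
      exact (hTT2 W (Finset.mem_of_mem_erase hW) (Finset.ne_of_mem_erase hW)).2
    rw [h1, Finset.image_erase]
    · show τ = Finset.erase _ ((A.std Ui).map (gm p g.1))
      rw [← heq, hUiS']
      have hdis' := Finset.disjoint_singleton_left.1 hdis
      ext S
      rw [Finset.mem_erase, Finset.mem_union, Finset.mem_singleton]
      constructor
      · intro hS
        exact ⟨fun h => hdis' (h ▸ hS), Or.inr hS⟩
      · rintro ⟨h2, h3 | h3⟩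
        · exact absurd h3 h2
        · exact h3
    · intro W W' h
      exact std_injective A (by omega) (map_gm_injective g h)

theorem link_iso (A : TR p m R) (hm : 3 ≤ m) (r : ℕ) (hr : r < Fintype.card ι)
    (U : Submodule (ZMod p) (ι → ZMod p)) (hU : finrank (ZMod p) U ≤ r) :
    CxIso (OC (QF (JJ U) (r - finrank (ZMod p) U) True ⊤ ⊥)) (Lk (A.XX ι r) {A.std U}) A.lv := by
  have hv : ∀ T : Submodule (ZMod p) (EE U),
      {T} ∈ OC (QF (JJ U) (r - finrank (ZMod p) U) True ⊤ ⊥) →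
      T ∈ QF (JJ U) (r - finrank (ZMod p) U) True ⊤ ⊥ := fun T hT =>
    hT.1 T (Finset.mem_singleton_self T)
  refine ⟨fun T T' hT hT' h => li_inj A hm r hr U hU T T' (hv T hT) (hv T' hT') h, ?_,
    fun τ hτ => li_face_chain A hm r hr U hU τ hτ⟩
  intro σ hσ
  refine ⟨li_chain_face A hm r hr U hU σ, fun h => ?_⟩
  obtain ⟨σ', hσ', h1⟩ := li_face_chain A hm r hr U hU _ h
  have h2 : σ = σ' := by
    ext T
    constructor
    · intro hT
      have h3 := (Finset.ext_iff.1 h1 (A.lv T)).1 (Finset.mem_image_of_mem _ hT)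
      obtain ⟨T', hT', h4⟩ := Finset.mem_image.1 h3
      rw [← li_inj A hm r hr U hU T' T (hσ'.1 T' hT') (hv T (hσ T hT)) h4]
      exact hT'
    · intro hT
      have h3 := (Finset.ext_iff.1 h1 (A.lv T)).2 (Finset.mem_image_of_mem _ hT)
      obtain ⟨T', hT', h4⟩ := Finset.mem_image.1 h3
      rw [← li_inj A hm r hr U hU T' T (hv T' (hσ T' hT')) (hσ'.1 T hT) h4]
      exact hT'
  rw [h2]
  exact hσ'

end P067X
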