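import Vale.Agent.P067X.LinkIso

/-!
# P067, module LINKLEV: levels of the neighbours of a standard vertex

PROOF.  Direct induction on the level, with coefficient vectors: `lev (dn T) (e+1) = dn T + t lev (dn T) e`, and `T ⊔ J = ⊤` gives for
every `v_0` an element of `dn T` with constant coefficient `v_0`; `lev (up T) e ≤ lev (std U) (e+1)` by `T ⊓ J = ⊥`.
-/

namespace P067X

open Classical Module

variable {p m : ℕ} [Fact p.Prime] {R : Type} [CommRing R] [Algebra (ZMod p) R]
  {ι : Type} [Fintype ι] [DecidableEq ι]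

omit [Fintype ι] [DecidableEq ι] in
private theorem ll_PT_add {U : Submodule (ZMod p) (ι → ZMod p)} {T : Submodule (ZMod p) (EE U)}
    {x y x' y' : ι → ZMod p} (h : PT T x y) (h' : PT T x' y') : PT T (x + x') (y + y') := by
  obtain ⟨h1, h2⟩ := h
  obtain ⟨h3, h4⟩ := h'
  exact ⟨U.add_mem h1 h3, T.add_mem h2 h4⟩

omit [Fintype ι] [DecidableEq ι] in
private theorem ll_PT_zero {U : Submodule (ZMod p) (ι → ZMod p)} {T : Submodule (ZMod p) (EE U)}
    {u : ι → ZMod p} (hu : u ∈ U) : PT T u 0 := by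
  refine ⟨U.zero_mem, ?_⟩
  have h1 : (Submodule.Quotient.mk u : (ι → ZMod p) ⧸ U) = 0 :=
    (Submodule.Quotient.mk_eq_zero U).2 hu
  rw [h1]
  exact T.zero_mem

omit [Fintype ι] [DecidableEq ι] in
private theorem ll_PT_mod {U : Submodule (ZMod p) (ι → ZMod p)} {T : Submodule (ZMod p) (EE U)}
    {x y u : ι → ZMod p} (hu : u ∈ U) : PT T (x + u) y ↔ PT T x y := by
  constructor
  · intro h
    have h1 := ll_PT_add h (ll_PT_zero (T := T) (U.neg_mem hu))
    rwa [add_neg_cancel_right, add_zero] at h1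
  · intro h
    have h1 := ll_PT_add h (ll_PT_zero (T := T) hu)
    rwa [add_zero] at h1

omit [DecidableEq ι] in
/-- division by `t` with shifted coefficients -/
private theorem ll_div (A : TR p m R) (v : ι → R) (hv : A.vco 0 v = 0) :
    ∃ w : ι → R, v = A.tl w ∧ ∀ a, A.vco a w = A.vco (a + 1) v := by
  obtain ⟨w, hw⟩ := A.vsurj (fun a => A.vco (a + 1) v)
  have h2 : ∀ a, A.vco a w = A.vco (a + 1) v := by
    intro a
    by_cases h : a < m
    · exact hw a h
    · rw [A.vco_ge a w (by omega), A.vco_ge (a + 1) v (by omega)]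
  refine ⟨w, ?_, h2⟩
  apply A.vec_ext
  intro a
  cases a with
  | zero => rw [hv, A.vco_tl_zero]
  | succ a =>
    rw [A.vco_tl]
    split_ifs with h
    · exact (h2 a).symm
    · exact A.vco_ge _ _ (by omega)

omit [DecidableEq ι] in
private theorem ll_mem_dn (A : TR p m R) (U : Submodule (ZMod p) (ι → ZMod p))
    (T : Submodule (ZMod p) (EE U)) (v : ι → R) :
    v ∈ A.dn T ↔ v ∈ A.std U ∧ PT T (A.vco 0 v) (A.vco 1 v) := Iff.rfl

omit [DecidableEq ι] in
private theorem ll_dn_le (A : TR p m R) (U : Submodule (ZMod p) (ι → ZMod p))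
    (T : Submodule (ZMod p) (EE U)) : A.dn T ≤ A.std U := fun _ hv => hv.1

theorem lev_dn (A : TR p m R) (hm : 3 ≤ m) (U : Submodule (ZMod p) (ι → ZMod p))
    (T : Submodule (ZMod p) (EE U)) (hT : T ⊔ JJ U = ⊤) (e : ℕ) (he : e < m)
    (v : ι → R) (hv : v ∈ A.lev (A.std U) e) :
    v ∈ A.lev (A.dn T) e ↔ PT T (A.pco e v) (A.vco e v) := by
  induction e generalizing v with
  | zero =>
    rw [mem_lev_std A hm] at hv
    obtain ⟨hv0, hv1⟩ := hv
    have hpco : A.pco 0 v = 0 := rfl
    rw [hpco]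
    have htv : A.vco 1 (A.tl v) = A.vco 0 v := by rw [A.vco_tl, if_pos (by omega)]
    have hvs : v ∈ A.std U := (mem_std A U v).2 ⟨by rw [hv1 1 (by omega)]; exact U.zero_mem,
      fun a ha => hv1 a (by omega)⟩
    have htvs : A.tl v ∈ A.std U := by
      rw [mem_std, htv]
      refine ⟨hv0, fun a ha => ?_⟩
      obtain ⟨b, rfl⟩ : ∃ b, a = b + 1 := ⟨a - 1, by omega⟩
      rw [A.vco_tl]
      split_ifs
      · exact hv1 b (by omega)
      · rfl
    show v ∈ A.dn T ∧ A.tl v ∈ A.dn T ↔ _
    rw [ll_mem_dn, ll_mem_dn, A.vco_tl_zero, htv, hv1 1 (by omega)]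
    constructor
    · rintro ⟨-, -, h⟩
      exact h
    · intro h
      exact ⟨⟨hvs, ll_PT_zero hv0⟩, htvs, h⟩
  | succ e ih =>
    have hv' := (mem_lev_std A hm U (e + 1) v).1 hv
    obtain ⟨hv0, hv1⟩ := hv'
    have hpco : A.pco (e + 1) v = A.vco e v := by
      unfold TR.pco
      rw [if_neg (by omega)]
      rfl
    rw [hpco]
    by_cases he0 : e = 0
    · subst he0
      rw [show (0 + 1 : ℕ) = 1 from rfl] at *
      rw [lev_one] at hv ⊢
      rw [ll_mem_dn]
      exact ⟨fun h => h.2, fun h => ⟨hv, h⟩⟩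
    · have he1 : 1 ≤ e := by omega
      show v ∈ A.dn T ⊔ (A.lev (A.dn T) e).map A.tl ↔ _
      constructor
      · intro h
        obtain ⟨d, hd, y, hy, rfl⟩ := Submodule.mem_sup.1 h
        obtain ⟨w, hw, rfl⟩ := Submodule.mem_map.1 hy
        have hws : w ∈ A.lev (A.std U) e := lev_mono_left A (ll_dn_le A U T) e hw
        have h1 := (ih (by omega) w hws).1 hw
        obtain ⟨hds, hdT⟩ := hd
        have hd2 := ((mem_std A U d).1 hds).2
        have hd1 := ((mem_std A U d).1 hds).1
        have e1 : A.vco (e + 1) (d + A.tl w) = A.vco e w := by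
          rw [map_add, hd2 (e + 1) (by omega), zero_add, A.vco_tl, if_pos he]
        obtain ⟨b, rfl⟩ : ∃ b, e = b + 1 := ⟨e - 1, by omega⟩
        have e2 : A.vco (b + 1) (d + A.tl w) = A.vco b w + A.vco (b + 1) d := by
          rw [map_add, A.vco_tl, if_pos (by omega), add_comm]
        have e3 : A.pco (b + 1) w = A.vco b w := by
          unfold TR.pco
          rw [if_neg (by omega)]
          rfl
        rw [e3] at h1
        rw [e1, e2]
        have hU : A.vco (b + 1) d ∈ U := by
          by_cases hb : b = 0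
          · subst hb
            exact hd1
          · rw [hd2 (b + 1) (by omega)]
            exact U.zero_mem
        exact (ll_PT_mod hU).2 h1
      · intro h
        -- an element of `dn T` with the same constant coefficient
        obtain ⟨y, hyU, hy⟩ : ∃ y : ι → ZMod p, y ∈ U ∧ PT T (A.vco 0 v) y := by
          have h1 : ((Submodule.Quotient.mk (A.vco 0 v) : (ι → ZMod p) ⧸ U), (0 : ↥U)) ∈
              T ⊔ JJ U := by
            rw [hT]; trivial
          obtain ⟨x1, hx1, x2, hx2, hx⟩ := Submodule.mem_sup.1 h1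
          have hx2' : x2.1 = 0 := hx2.1
          have e1 : x1.1 = (Submodule.Quotient.mk (A.vco 0 v) : (ι → ZMod p) ⧸ U) := by
            have := congrArg Prod.fst hx
            simpa [hx2'] using this
          refine ⟨(x1.2 : ι → ZMod p), x1.2.2, x1.2.2, ?_⟩
          rw [← e1]
          exact hx1
        obtain ⟨d, hd⟩ := A.vsurj (fun a => if a = 0 then A.vco 0 v else if a = 1 then y else 0)
        have hd0 : A.vco 0 d = A.vco 0 v := by rw [hd 0 (by omega)]; simp
        have hd1 : A.vco 1 d = y := by rw [hd 1 (by omega)]; simp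
        have hd2 : ∀ a, 2 ≤ a → A.vco a d = 0 := by
          intro a ha
          by_cases ham : a < m
          · rw [hd a ham, if_neg (by omega), if_neg (by omega)]
          · exact A.vco_ge a d (by omega)
        have hds : d ∈ A.dn T := by
          rw [ll_mem_dn, mem_std, hd0, hd1]
          exact ⟨⟨hyU, hd2⟩, hy⟩
        obtain ⟨w, hw, hwc⟩ := ll_div A (v - d) (by rw [map_sub, hd0, sub_self])
        have hwa : ∀ a, 1 ≤ a → A.vco a w = A.vco (a + 1) v := by
          intro a ha
          rw [hwc, map_sub, hd2 (a + 1) (by omega), sub_zero]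
        have hwU : w ∈ A.lev (A.std U) e := by
          rw [mem_lev_std A hm, hwa e he1]
          exact ⟨hv0, fun a ha => by rw [hwa a (by omega)]; exact hv1 _ (by omega)⟩
        have hwT : w ∈ A.lev (A.dn T) e := by
          rw [ih (by omega) w hwU, hwa e he1]
          obtain ⟨b, rfl⟩ : ∃ b, e = b + 1 := ⟨e - 1, by omega⟩
          have e3 : A.pco (b + 1) w = A.vco b w := by
            unfold TR.pco
            rw [if_neg (by omega)]
            rfl
          rw [e3, hwc, map_sub]
          by_cases hb : b = 0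
          · subst hb
            rw [show (0 + 1 : ℕ) = 1 from rfl] at *
            rw [hd1, sub_eq_add_neg]
            exact (ll_PT_mod (U.neg_mem hyU)).2 h
          · rw [hd2 (b + 1) (by omega), sub_zero]
            exact h
        have hvd : v = d + A.tl w := by rw [← hw]; abel
        rw [hvd]
        exact Submodule.add_mem_sup hds (Submodule.mem_map_of_mem hwT)

/-- the coefficients of the elements of `up T` -/
private theorem ll_up (A : TR p m R) (hm : 3 ≤ m) (U : Submodule (ZMod p) (ι → ZMod p))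
    (T : Submodule (ZMod p) (EE U)) (u : ι → R) (hu : u ∈ A.up T) :
    ∃ d s : ι → ZMod p, ∃ x : ι → ZMod p, s ∈ U ∧ PT T d x ∧ A.vco 1 u = s + d ∧ A.vco 2 u = x ∧
      ∀ a, 3 ≤ a → A.vco a u = 0 := by
  obtain ⟨s, hs, y, hy, rfl⟩ := Submodule.mem_sup.1 hu
  obtain ⟨d, hd, rfl⟩ := Submodule.mem_map.1 hy
  obtain ⟨hs1, hs2⟩ := (mem_std A U s).1 hs
  obtain ⟨hd1, hdT⟩ := hd
  obtain ⟨hd1, hd2⟩ := (mem_std A U d).1 hd1
  refine ⟨A.vco 0 d, A.vco 1 s, A.vco 1 d, hs1, hdT, ?_, ?_, ?_⟩
  · rw [map_add, A.vco_tl, if_pos (by omega)]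
  · rw [map_add, A.vco_tl, if_pos (by omega), hs2 2 le_rfl, zero_add]
  · intro a ha
    obtain ⟨b, rfl⟩ : ∃ b, a = b + 1 := ⟨a - 1, by omega⟩
    rw [map_add, hs2 _ (by omega), zero_add, A.vco_tl]
    split_ifs
    · exact hd2 b (by omega)
    · rfl

private theorem ll_up_le (A : TR p m R) (hm : 3 ≤ m) (U : Submodule (ZMod p) (ι → ZMod p))
    (T : Submodule (ZMod p) (EE U)) (hT : T ⊓ JJ U = ⊥) (e : ℕ) (v : ι → R)
    (hv : v ∈ A.lev (A.up T) e) : v ∈ A.lev (A.std U) (e + 1) := by
  have hup : A.up T ≤ A.lev (A.std U) 2 := by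
    show A.std U ⊔ (A.dn T).map A.tl ≤ A.std U ⊔ (A.lev (A.std U) 1).map A.tl
    rw [lev_one]
    exact sup_le_sup_left (Submodule.map_mono (ll_dn_le A U T)) _
  induction e generalizing v with
  | zero =>
    obtain ⟨h1, h2⟩ := hv
    have h2' : A.tl v ∈ A.up T := h2
    obtain ⟨d, s, x, hs, hdx, e1, e2, e3⟩ := ll_up A hm U T v h1
    obtain ⟨d', s', x', hs', hdx', e1', e2', e3'⟩ := ll_up A hm U T _ h2'
    rw [A.vco_tl, if_pos (by omega)] at e1' e2'
    rw [mem_lev_std A hm]
    -- `v_1 ∈ U`, so `d ∈ U`, so `x = 0`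
    obtain ⟨hx', -⟩ := hdx'
    have hv1 : A.vco 1 v ∈ U := by rw [e2']; exact hx'
    have hd : d ∈ U := by
      have : d = A.vco 1 v - s := by rw [e1]; abel
      rw [this]
      exact U.sub_mem hv1 hs
    obtain ⟨hx, hxT⟩ := hdx
    have hx0 : x = 0 := by
      have h3 : (Submodule.Quotient.mk d : (ι → ZMod p) ⧸ U) = 0 :=
        (Submodule.Quotient.mk_eq_zero U).2 hd
      rw [h3] at hxT
      have h4 : ((0 : (ι → ZMod p) ⧸ U), (⟨x, hx⟩ : ↥U)) ∈ T ⊓ JJ U :=
        ⟨hxT, ⟨rfl, trivial⟩⟩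
      rw [hT] at h4
      have h5 := congrArg Prod.snd ((Submodule.mem_bot _).1 h4)
      exact congrArg Subtype.val h5
    refine ⟨hv1, fun a ha => ?_⟩
    by_cases ha2 : a = 2
    · rw [ha2, e2, hx0]
    · exact e3 a (by omega)
  | succ e ih =>
    have h1 : v ∈ A.up T ⊔ (A.lev (A.up T) e).map A.tl := hv
    obtain ⟨u, hu, y, hy, rfl⟩ := Submodule.mem_sup.1 h1
    obtain ⟨w, hw, rfl⟩ := Submodule.mem_map.1 hy
    refine Submodule.add_mem _ (lev_mono A _ (by omega) (hup hu)) ?_
    show A.tl w ∈ A.std U ⊔ (A.lev (A.std U) (e + 1)).map A.tl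
    exact Submodule.mem_sup_right (Submodule.mem_map_of_mem (ih w hw))

theorem lev_up (A : TR p m R) (hm : 3 ≤ m) (U : Submodule (ZMod p) (ι → ZMod p))
    (T : Submodule (ZMod p) (EE U)) (hT : T ⊓ JJ U = ⊥) (e : ℕ) (he0 : 1 ≤ e) (he : e < m)
    (v : ι → R) (hv : v ∈ A.lev (A.std U) e) :
    v ∈ A.lev (A.up T) (e - 1) ↔ PT T (A.pco e v) (A.vco e v) := by
  induction e, he0 using Nat.le_induction generalizing v with
  | base =>
    have hpco : A.pco 1 v = A.vco 0 v := rfl
    rw [hpco]
    rw [lev_one] at hv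
    have h0 : A.lev (A.up T) (1 - 1) = A.lev (A.up T) 0 := rfl
    rw [h0]
    show v ∈ A.up T ∧ A.tl v ∈ A.up T ↔ _
    have hvu : v ∈ A.up T := Submodule.mem_sup_left hv
    constructor
    · rintro ⟨-, h⟩
      obtain ⟨d, s, x, hs, hdx, e1, e2, e3⟩ := ll_up A hm U T _ h
      rw [A.vco_tl, if_pos (by omega)] at e1 e2
      rw [e1, e2, add_comm]
      exact (ll_PT_mod hs).2 hdx
    · intro h
      exact ⟨hvu, Submodule.mem_sup_right (Submodule.mem_map_of_mem ⟨hv, h⟩)⟩
  | succ e he1 ih =>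
    have hv' := (mem_lev_std A hm U (e + 1) v).1 hv
    obtain ⟨hv0, hv1⟩ := hv'
    have hpco : ∀ w : ι → R, A.pco (e + 1) w = A.vco e w := by
      intro w
      unfold TR.pco
      rw [if_neg (by omega)]
      rfl
    have hpco' : ∀ w : ι → R, A.pco e w = A.vco (e - 1) w := by
      intro w
      unfold TR.pco
      rw [if_neg (by omega)]
    rw [hpco]
    obtain ⟨b, rfl⟩ : ∃ b, e = b + 1 := ⟨e - 1, by omega⟩
    rw [show b + 1 + 1 - 1 = b + 1 from rfl]
    rw [show b + 1 - 1 = b from rfl] at ih hpco'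
    show v ∈ A.up T ⊔ (A.lev (A.up T) b).map A.tl ↔ _
    constructor
    · intro h
      obtain ⟨u, hu, y, hy, rfl⟩ := Submodule.mem_sup.1 h
      obtain ⟨w, hw, rfl⟩ := Submodule.mem_map.1 hy
      have hws := ll_up_le A hm U T hT b w hw
      have h1 := (ih (by omega) w hws).1 hw
      rw [hpco'] at h1
      have e1 : A.vco (b + 1 + 1) (u + A.tl w) = A.vco (b + 1 + 1) u + A.vco (b + 1) w := by
        rw [map_add, A.vco_tl, if_pos he]
      have e2 : A.vco (b + 1) (u + A.tl w) = A.vco (b + 1) u + A.vco b w := by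
        rw [map_add, A.vco_tl, if_pos (by omega)]
      rw [e1, e2]
      obtain ⟨d, s, x, hs, hdx, f1, f2, f3⟩ := ll_up A hm U T u hu
      refine ll_PT_add ?_ h1
      by_cases hb0 : b = 0
      · subst hb0
        have g1 : A.vco (0 + 1) u = s + d := f1
        have g2 : A.vco (0 + 1 + 1) u = x := f2
        rw [g1, g2, add_comm]
        exact (ll_PT_mod hs).2 hdx
      · rw [f3 (b + 1 + 1) (by omega)]
        apply ll_PT_zero
        by_cases hb1 : b = 1
        · subst hb1
          have g2 : A.vco (1 + 1) u = x := f2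
          rw [g2]
          exact hdx.1
        · rw [f3 (b + 1) (by omega)]
          exact U.zero_mem
    · intro h
      obtain ⟨s, hs⟩ := A.vsurj (fun a => if a = 0 then A.vco 0 v else 0)
      have hs0 : A.vco 0 s = A.vco 0 v := by rw [hs 0 (by omega)]; simp
      have hs2 : ∀ a, 1 ≤ a → A.vco a s = 0 := by
        intro a ha
        by_cases ham : a < m
        · rw [hs a ham, if_neg (by omega)]
        · exact A.vco_ge a s (by omega)
      have hss : s ∈ A.std U := by
        rw [mem_std, hs2 1 le_rfl]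
        exact ⟨U.zero_mem, fun a ha => hs2 a (by omega)⟩
      obtain ⟨w, hw, hwc⟩ := ll_div A (v - s) (by rw [map_sub, hs0, sub_self])
      have hwa : ∀ a, A.vco a w = A.vco (a + 1) v := by
        intro a
        rw [hwc, map_sub, hs2 (a + 1) (by omega), sub_zero]
      have hwU : w ∈ A.lev (A.std U) (b + 1) := by
        rw [mem_lev_std A hm, hwa]
        exact ⟨hv0, fun a ha => by rw [hwa]; exact hv1 _ (by omega)⟩
      have hwT : w ∈ A.lev (A.up T) b := by
        rw [ih (by omega) w hwU, hpco', hwa, hwa]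
        exact h
      have hvd : v = s + A.tl w := by rw [← hw]; abel
      rw [hvd]
      exact Submodule.add_mem_sup (Submodule.mem_sup_left hss) (Submodule.mem_map_of_mem hwT)

end P067X
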