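import Vale.Agent.P067X.ChainLib

/-!
# P067: the operators `x * c`, the part of `c` containing `x`, push-forward of chains
(helper file of HOMOTOPY)
-/

namespace P067X

open Classical

variable {V W : Type*}

theorem hm_ext {M : Type*} [AddCommGroup M] [Module (ZMod 2) M] (A B : Ch V →ₗ[ZMod 2] M)
    (h : ∀ σ, A (Finsupp.single σ 1) = B (Finsupp.single σ 1)) : A = B :=
  Finsupp.lhom_ext' fun σ => LinearMap.ext_ring (h σ)

theorem hm_self (c : Ch V) : c + c = 0 := by
  ext σ
  simp only [Finsupp.add_apply, Finsupp.zero_apply]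
  exact CharTwo.add_self_eq_zero _

/-- `x * c` -/
noncomputable def mulx (x : V) : Ch V →ₗ[ZMod 2] Ch V :=
  Finsupp.linearCombination (ZMod 2)
    (fun σ => if x ∈ σ then (0 : Ch V) else Finsupp.single (insert x σ) 1)

/-- the faces which contain `x`, with `x` removed -/
noncomputable def lkx (x : V) : Ch V →ₗ[ZMod 2] Ch V :=
  Finsupp.linearCombination (ZMod 2)
    (fun σ => if x ∈ σ then Finsupp.single (σ.erase x) 1 else (0 : Ch V))

/-- the faces which do not contain `x` -/
noncomputable def nox (x : V) : Ch V →ₗ[ZMod 2] Ch V :=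
  Finsupp.linearCombination (ZMod 2)
    (fun σ => if x ∈ σ then (0 : Ch V) else Finsupp.single σ 1)

/-- push-forward -/
noncomputable def psh (ψ : V → W) : Ch V →ₗ[ZMod 2] Ch W :=
  Finsupp.linearCombination (ZMod 2)
    (fun σ => if (σ.image ψ).card = σ.card then Finsupp.single (σ.image ψ) 1 else (0 : Ch W))

theorem mulx_single (x : V) (σ : Finset V) : mulx x (Finsupp.single σ 1) =
    if x ∈ σ then (0 : Ch V) else Finsupp.single (insert x σ) 1 := by
  rw [mulx, Finsupp.linearCombination_single, one_smul]

theorem lkx_single (x : V) (σ : Finset V) : lkx x (Finsupp.single σ 1) =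
    if x ∈ σ then Finsupp.single (σ.erase x) 1 else (0 : Ch V) := by
  rw [lkx, Finsupp.linearCombination_single, one_smul]

theorem nox_single (x : V) (σ : Finset V) : nox x (Finsupp.single σ 1) =
    if x ∈ σ then (0 : Ch V) else Finsupp.single σ 1 := by
  rw [nox, Finsupp.linearCombination_single, one_smul]

theorem psh_single (ψ : V → W) (σ : Finset V) : psh ψ (Finsupp.single σ 1) =
    if (σ.image ψ).card = σ.card then Finsupp.single (σ.image ψ) 1 else (0 : Ch W) := by
  rw [psh, Finsupp.linearCombination_single, one_smul]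

theorem bd_mulx (x : V) (c : Ch V) : bd (mulx x c) = c + mulx x (bd c) := by
  have key : bd ∘ₗ mulx x = LinearMap.id + mulx x ∘ₗ bd := by
    refine hm_ext _ _ fun σ => ?_
    simp only [LinearMap.comp_apply, LinearMap.add_apply, LinearMap.id_apply, mulx_single,
      bd_single]
    by_cases hx : x ∈ σ
    · rw [if_pos hx, map_zero, bdf, map_sum, Finset.sum_eq_single_of_mem x hx]
      · rw [mulx_single, if_neg (Finset.notMem_erase x σ), Finset.insert_erase hx, hm_self]
      · intro y hy hyx
        rw [mulx_single, if_pos (Finset.mem_erase.mpr ⟨Ne.symm hyx, hx⟩)]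
    · rw [if_neg hx, bd_single, bdf, bdf, Finset.sum_insert hx, Finset.erase_insert hx, map_sum]
      congr 1
      refine Finset.sum_congr rfl fun y hy => ?_
      have hxy : x ≠ y := fun h => hx (h ▸ hy)
      rw [mulx_single, if_neg (fun h => hx (Finset.mem_of_mem_erase h)),
        Finset.erase_insert_of_ne hxy]
  exact LinearMap.congr_fun key c

theorem nox_add (x : V) (c : Ch V) : c = nox x c + mulx x (lkx x c) := by
  have key : LinearMap.id = nox x + mulx x ∘ₗ lkx x := by
    refine hm_ext _ _ fun σ => ?_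
    simp only [LinearMap.comp_apply, LinearMap.add_apply, LinearMap.id_apply, nox_single,
      lkx_single]
    by_cases hx : x ∈ σ
    · rw [if_pos hx, if_pos hx, mulx_single, if_neg (Finset.notMem_erase x σ),
        Finset.insert_erase hx, zero_add]
    · rw [if_neg hx, if_neg hx, map_zero, add_zero]
  exact LinearMap.congr_fun key c

theorem bd_lkx (x : V) (c : Ch V) : bd (lkx x c) = lkx x (bd c) := by
  have key : bd ∘ₗ lkx x = lkx x ∘ₗ bd := by
    refine hm_ext _ _ fun σ => ?_
    simp only [LinearMap.comp_apply, lkx_single, bd_single]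
    by_cases hx : x ∈ σ
    · rw [if_pos hx, bd_single, bdf, bdf, map_sum]
      have h1 : ∀ y ∈ σ, lkx x (Finsupp.single (σ.erase y) (1 : ZMod 2)) =
          if y = x then (0 : Ch V) else Finsupp.single ((σ.erase x).erase y) 1 := by
        intro y hy
        rw [lkx_single]
        by_cases hyx : y = x
        · rw [if_pos hyx, hyx, if_neg (Finset.notMem_erase x σ)]
        · rw [if_neg hyx, if_pos (Finset.mem_erase.mpr ⟨Ne.symm hyx, hx⟩),
            Finset.erase_right_comm]
      rw [Finset.sum_congr rfl h1, ← Finset.insert_erase hx,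
        Finset.sum_insert (Finset.notMem_erase x σ), if_pos rfl, zero_add,
        Finset.erase_insert (Finset.notMem_erase x σ)]
      refine Finset.sum_congr rfl fun y hy => ?_
      rw [if_neg (Finset.ne_of_mem_erase hy)]
    · rw [if_neg hx, map_zero, bdf, map_sum]
      symm
      refine Finset.sum_eq_zero fun y _ => ?_
      rw [lkx_single, if_neg (fun h => hx (Finset.mem_of_mem_erase h))]
  exact LinearMap.congr_fun key c

theorem psh_mulx (ψ : V → W) (x : V) (c : Ch V) :
    psh ψ (mulx x c) = mulx (ψ x) (psh ψ c) := by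
  have key : psh ψ ∘ₗ mulx x = mulx (ψ x) ∘ₗ psh ψ := by
    refine hm_ext _ _ fun σ => ?_
    simp only [LinearMap.comp_apply, mulx_single, psh_single]
    by_cases hx : x ∈ σ
    · rw [if_pos hx, map_zero]
      by_cases hc : (σ.image ψ).card = σ.card
      · rw [if_pos hc, mulx_single, if_pos (Finset.mem_image_of_mem ψ hx)]
      · rw [if_neg hc, map_zero]
    · rw [if_neg hx, psh_single, Finset.image_insert, Finset.card_insert_of_notMem hx]
      by_cases hc : (σ.image ψ).card = σ.card
      · rw [if_pos hc, mulx_single]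
        by_cases hm : ψ x ∈ σ.image ψ
        · rw [if_pos hm, if_neg]
          rw [Finset.insert_eq_of_mem hm]
          omega
        · rw [if_neg hm, if_pos]
          rw [Finset.card_insert_of_notMem hm, hc]
      · rw [if_neg hc, map_zero, if_neg]
        have h1 := Finset.card_image_le (s := σ) (f := ψ)
        have h2 := Finset.card_insert_le (ψ x) (σ.image ψ)
        omega
  exact LinearMap.congr_fun key c

theorem bd_psh (ψ : V → W) (c : Ch V) : bd (psh ψ c) = psh ψ (bd c) := by
  have key : bd ∘ₗ psh ψ = psh ψ ∘ₗ bd := by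
    refine hm_ext _ _ fun σ => ?_
    simp only [LinearMap.comp_apply]
    induction σ using Finset.induction_on with
    | empty =>
      rw [psh_single, Finset.image_empty, if_pos (by simp), bd_single, bd_single, bdf, bdf,
        Finset.sum_empty, Finset.sum_empty, map_zero]
    | insert x σ hx ih =>
      have h1 : (Finsupp.single (insert x σ) 1 : Ch V) = mulx x (Finsupp.single σ 1) := by
        rw [mulx_single, if_neg hx]
      rw [h1, psh_mulx, bd_mulx, bd_mulx, map_add, psh_mulx, ih]
  exact LinearMap.congr_fun key c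

theorem hm_supp (g : Finset V → Ch W) (c : Ch V) (ρ : Finset W)
    (hρ : ρ ∈ (Finsupp.linearCombination (ZMod 2) g c).support) :
    ∃ σ ∈ c.support, ρ ∈ (g σ).support := by
  by_contra hcon
  push Not at hcon
  rw [Finsupp.mem_support_iff, Finsupp.linearCombination_apply, Finsupp.sum,
    Finsupp.finsetSum_apply] at hρ
  apply hρ
  refine Finset.sum_eq_zero fun σ hσ => ?_
  have := hcon σ hσ
  rw [Finsupp.notMem_support_iff] at this
  rw [Finsupp.smul_apply, this, smul_zero]

theorem hm_card (g : Finset V → Ch W) (hg : ∀ σ, (g σ).support.card ≤ 1) (c : Ch V) :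
    (Finsupp.linearCombination (ZMod 2) g c).support.card ≤ c.support.card := by
  have h1 : (Finsupp.linearCombination (ZMod 2) g c).support ⊆
      c.support.biUnion fun σ => (g σ).support := by
    intro ρ hρ
    obtain ⟨σ, h1, h2⟩ := hm_supp g c ρ hρ
    exact Finset.mem_biUnion.mpr ⟨σ, h1, h2⟩
  refine (Finset.card_le_card h1).trans ?_
  refine Finset.card_biUnion_le.trans ?_
  refine (Finset.sum_le_sum fun σ _ => hg σ).trans ?_
  simp

theorem hm_card_single (σ : Finset V) : (Finsupp.single σ (1 : ZMod 2)).support.card ≤ 1 := by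
  refine (Finset.card_le_card Finsupp.support_single_subset).trans ?_
  simp

theorem mem_mulx {x : V} {c : Ch V} {ρ : Finset V} (h : ρ ∈ (mulx x c).support) :
    ∃ σ ∈ c.support, x ∉ σ ∧ ρ = insert x σ := by
  obtain ⟨σ, h1, h2⟩ := hm_supp _ _ _ h
  refine ⟨σ, h1, ?_⟩
  by_cases hx : x ∈ σ
  · rw [if_pos hx] at h2
    simp at h2
  · rw [if_neg hx] at h2
    exact ⟨hx, Finset.mem_singleton.mp (Finsupp.support_single_subset h2)⟩

theorem card_mulx (x : V) (c : Ch V) : (mulx x c).support.card ≤ c.support.card := by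
  refine hm_card _ (fun σ => ?_) c
  split_ifs
  · simp
  · exact hm_card_single _

theorem mem_psh {ψ : V → W} {c : Ch V} {ρ : Finset W} (h : ρ ∈ (psh ψ c).support) :
    ∃ σ ∈ c.support, ρ = σ.image ψ ∧ ρ.card = σ.card := by
  obtain ⟨σ, h1, h2⟩ := hm_supp _ _ _ h
  refine ⟨σ, h1, ?_⟩
  by_cases hx : (σ.image ψ).card = σ.card
  · rw [if_pos hx] at h2
    have := Finset.mem_singleton.mp (Finsupp.support_single_subset h2)
    exact ⟨this, this ▸ hx⟩
  · rw [if_neg hx] at h2
    simp at h2

theorem card_psh (ψ : V → W) (c : Ch V) : (psh ψ c).support.card ≤ c.support.card := by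
  refine hm_card _ (fun σ => ?_) c
  split_ifs
  · exact hm_card_single _
  · simp

theorem mem_lkx {x : V} {c : Ch V} {ρ : Finset V} (h : ρ ∈ (lkx x c).support) :
    x ∉ ρ ∧ insert x ρ ∈ c.support := by
  obtain ⟨σ, h1, h2⟩ := hm_supp _ _ _ h
  by_cases hx : x ∈ σ
  · rw [if_pos hx] at h2
    have := Finset.mem_singleton.mp (Finsupp.support_single_subset h2)
    subst this
    exact ⟨Finset.notMem_erase x σ, by rwa [Finset.insert_erase hx]⟩
  · rw [if_neg hx] at h2
    simp at h2

theorem card_lkx (x : V) (c : Ch V) :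
    (lkx x c).support.card ≤ (c.support.filter fun σ => x ∈ σ).card := by
  refine Finset.card_le_card_of_injOn (fun ρ => insert x ρ) ?_ ?_
  · intro ρ hρ
    have h := mem_lkx hρ
    exact Finset.mem_coe.mpr (Finset.mem_filter.mpr ⟨h.2, Finset.mem_insert_self x ρ⟩)
  · intro ρ hρ ρ' hρ' h
    have h1 := (mem_lkx hρ).1
    have h2 := (mem_lkx hρ').1
    simp only at h
    rw [← Finset.erase_insert h1, h, Finset.erase_insert h2]

end P067X
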