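import Vale.Agent.P067X.LinkLev
import Vale.Agent.P067X.AcycQF

/-!
# P067, module PRESF: acyclicity of the present links (F)

PROOF.  `acyc_QF k` gives `p₀`.  By `SL` (`XX_map`, `lev_map`, `Lk`, `Full` are equivariant: `CxIso` with `S ↦ S.map (gm p g.1)`) we may assume
`S = std U`, `j = finrank U`; `CxIso (OC (QF J (r-j) True Γ H₀)) (Full (Lk ..) ..) A.lv` by `link_iso`, `CxIso.full`, `Full_OC`
and `lv_lower`, `lv_upper`.
(F) `H₀` = kernel of the functional `γ(x,u) = λ(t^a x) + λ(t^(a+1) u)` on `E = (F^ι/U) × U` (well defined since `λ(t^a u) = λ(t^(a-1) (t u)) = 0` for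
`u ∈ U`, `t u ∈ S`, `a ≥ 1`); for `T` lower `λ(t^a dn T) = γ(T)`, for `T` upper `λ(t^(a-1) up T) = γ(T)`; `Γ = ⊤`.  (Here `t^a` means `A.tl^a`.)
`Good k`: if `r - j ≥ k + 1` the first case, otherwise `j ≥ k + 1`.
-/

namespace P067X

open Classical Module

section presf

variable {p m : ℕ} [Fact p.Prime] {R : Type} [CommRing R] [Algebra (ZMod p) R]
  {ι : Type} [Fintype ι] [DecidableEq ι]

/-- the functional `γ` on `E` -/
private noncomputable def pf_gam (A : TR p m R) (U : Submodule (ZMod p) (ι → ZMod p))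
    (lam : (ι → R) →ₗ[ZMod p] ZMod p) (a : ℕ)
    (h : ∀ x ∈ U, lam ((A.tl ^ a) (cst R ι x)) = 0) : EE U →ₗ[ZMod p] ZMod p :=
  (U.liftQ (lam ∘ₗ (A.tl ^ a : (ι → R) →ₗ[ZMod p] (ι → R)) ∘ₗ cst R ι)
    (fun x hx => LinearMap.mem_ker.2 (h x hx))).coprod
    (lam ∘ₗ (A.tl ^ (a + 1) : (ι → R) →ₗ[ZMod p] (ι → R)) ∘ₗ cst R ι ∘ₗ U.subtype)

omit [DecidableEq ι] in
private theorem pf_gam_apply (A : TR p m R) (U : Submodule (ZMod p) (ι → ZMod p))
    (lam : (ι → R) →ₗ[ZMod p] ZMod p) (a : ℕ)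
    (h : ∀ x ∈ U, lam ((A.tl ^ a) (cst R ι x)) = 0) (x : ι → ZMod p) (u : ↥U) :
    pf_gam A U lam a h ((Submodule.Quotient.mk x : (ι → ZMod p) ⧸ U), u) =
      lam ((A.tl ^ a) (cst R ι x + A.tl (cst R ι (u : ι → ZMod p)))) := by
  have h1 : (A.tl ^ (a + 1)) (cst R ι (u : ι → ZMod p)) =
      (A.tl ^ a) (A.tl (cst R ι (u : ι → ZMod p))) := by
    rw [pow_succ]
    rfl
  rw [map_add, map_add, ← h1]
  rfl

omit [DecidableEq ι] in
private theorem pf_iff (A : TR p m R) (hm : 3 ≤ m) (U : Submodule (ZMod p) (ι → ZMod p))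
    (lam : (ι → R) →ₗ[ZMod p] ZMod p) (a : ℕ)
    (h : ∀ x ∈ U, lam ((A.tl ^ a) (cst R ι x)) = 0) (T : Submodule (ZMod p) (EE U)) :
    (∃ v ∈ A.dn T, lam ((A.tl ^ a) v) ≠ 0) ↔ ¬ T ≤ LinearMap.ker (pf_gam A U lam a h) := by
  constructor
  · rintro ⟨v, ⟨hv, h1, h2⟩, hne⟩ hle
    have h3 := hle h2
    rw [LinearMap.mem_ker, pf_gam_apply] at h3
    apply hne
    have h4 := A.eq_of_deg_one (by omega) v hv.2
    rw [← h4] at h3
    exact h3
  · intro hle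
    rw [SetLike.not_le_iff_exists] at hle
    obtain ⟨⟨x', u⟩, hq, hne⟩ := hle
    obtain ⟨x, rfl⟩ := Submodule.Quotient.mk_surjective U x'
    rw [LinearMap.mem_ker, pf_gam_apply] at hne
    refine ⟨cst R ι x + A.tl (cst R ι (u : ι → ZMod p)), ?_, hne⟩
    have h0 : A.vco 0 (cst R ι x + A.tl (cst R ι (u : ι → ZMod p))) = x := by
      rw [map_add, A.vco_cst, if_pos rfl, A.vco_tl_zero, add_zero]
    have h1 : A.vco 1 (cst R ι x + A.tl (cst R ι (u : ι → ZMod p))) = (u : ι → ZMod p) := by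
      rw [map_add, A.vco_cst, if_neg (by omega), zero_add, A.vco_tl, if_pos (by omega),
        A.vco_cst, if_pos rfl]
    refine ⟨⟨?_, fun b hb => ?_⟩, ?_⟩
    · rw [h1]
      exact u.2
    · obtain ⟨b, rfl⟩ : ∃ c, b = c + 1 := ⟨b - 1, by omega⟩
      rw [map_add, A.vco_cst, if_neg (by omega), zero_add, A.vco_tl]
      split_ifs
      · rw [A.vco_cst, if_neg (by omega)]
      · rfl
    · rw [h0, h1]
      exact ⟨u.2, hq⟩

/-- the isomorphism given by an element of `SL` -/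
private theorem pf_iso_gm (A : TR p m R) (r : ℕ) (g : Matrix.SpecialLinearGroup ι R) :
    CxIso (A.XX ι r) (A.XX ι r) (fun S => S.map (gm p g.1)) where
  inj x y _ _ h := map_gm_injective g h
  mem σ _ := (XX_map A r g σ).symm
  surj τ hτ := by
    have h1 : (τ.image (fun S => S.map (gm p (g⁻¹).1))).image (fun S => S.map (gm p g.1)) = τ := by
      rw [Finset.image_image]
      have : ((fun S => Submodule.map (gm p g.1) S) ∘ fun S => Submodule.map (gm p (g⁻¹).1) S) =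
          (id : Submodule (ZMod p) (ι → R) → _) := by
        funext S
        exact map_gm_inv' g S
      rw [this, Finset.image_id]
    exact ⟨τ.image (fun S => S.map (gm p (g⁻¹).1)), (XX_map A r g⁻¹ τ).2 hτ, h1.symm⟩

private theorem pf_tl_pow (A : TR p m R) (g : Matrix.SpecialLinearGroup ι R) (a : ℕ)
    (v : ι → R) : (A.tl ^ a) (gm p g.1 v) = gm p g.1 ((A.tl ^ a) v) := by
  induction a generalizing v with
  | zero => rfl
  | succ a ih =>
    have h1 : ∀ w : ι → R, (A.tl ^ (a + 1)) w = (A.tl ^ a) (A.tl w) := by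
      intro w
      rw [pow_succ]
      rfl
    rw [h1, h1, ← gm_tl, ih]

end presf

/-- `λ(t^b S) = 0` for `b < a`, `λ(t^a S) ≠ 0`, `a ≥ 1`: the present link (lower `S'` with `λ(t^a S') ≠ 0`, upper `S'` with
`λ(t^(a-1) S') ≠ 0`) is acyclic -/
theorem presF (k : ℕ) : ∃ p₀ : ℕ, ∀ (p : ℕ) [Fact p.Prime], p₀ ≤ p → ∀ (m : ℕ), 3 ≤ m →
    ∀ (R : Type) [CommRing R] [Algebra (ZMod p) R] (A : TR p m R)
      (ι : Type) [Fintype ι] [DecidableEq ι] (r : ℕ), 2 * k + 2 ≤ r →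
      r + k + 2 ≤ Fintype.card ι →
      ∀ (S : Submodule (ZMod p) (ι → R)) (lam : (ι → R) →ₗ[ZMod p] ZMod p) (a : ℕ),
        {S} ∈ A.XX ι r → 1 ≤ a → (∀ b < a, ∀ v ∈ S, lam ((A.tl ^ b) v) = 0) →
        (∃ v ∈ S, lam ((A.tl ^ a) v) ≠ 0) →
        ∀ j ≤ k, Acyc (Full (Lk (A.XX ι r) {S}) (fun S' =>
          (S' < S ∧ ∃ v ∈ S', lam ((A.tl ^ a) v) ≠ 0) ∨
            (S < S' ∧ ∃ v ∈ S', lam ((A.tl ^ (a - 1)) v) ≠ 0))) j := by
  obtain ⟨p₀, hp₀⟩ := acyc_QF k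
  refine ⟨p₀, ?_⟩
  intro p _ hp m hm R _ _ A ι _ _ r hr hrn S lam₀ a hS ha hlow hne j hj
  obtain ⟨g, U, hU, rfl⟩ := (mem_XX_single A r S).1 hS
  -- the transported functional
  set lam : (ι → R) →ₗ[ZMod p] ZMod p := lam₀ ∘ₗ gm p g.1 with hlam
  have hlamv : ∀ (b : ℕ) (v : ι → R), lam₀ ((A.tl ^ b) (gm p g.1 v)) = lam ((A.tl ^ b) v) := by
    intro b v
    rw [pf_tl_pow]
    rfl
  have hlow' : ∀ b < a, ∀ v ∈ A.std U, lam ((A.tl ^ b) v) = 0 := by
    intro b hb v hv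
    rw [← hlamv]
    exact hlow b hb _ (Submodule.mem_map_of_mem hv)
  have hne' : ∃ v ∈ A.std U, lam ((A.tl ^ a) v) ≠ 0 := by
    obtain ⟨v, hv, hv2⟩ := hne
    obtain ⟨w, hw, rfl⟩ := Submodule.mem_map.1 hv
    exact ⟨w, hw, by rwa [← hlamv]⟩
  -- `γ`
  have hpow : ∀ (b : ℕ) (w : ι → R), (A.tl ^ (b + 1)) w = (A.tl ^ b) (A.tl w) := by
    intro b w
    rw [pow_succ]
    rfl
  have ha1 : a = (a - 1) + 1 := by omega
  have hcst : ∀ x ∈ U, lam ((A.tl ^ a) (cst R ι x)) = 0 := by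
    intro x hx
    rw [ha1, hpow]
    apply hlow' (a - 1) (by omega)
    rw [mem_std]
    refine ⟨?_, fun b hb => ?_⟩
    · rw [A.vco_tl, if_pos (by omega), A.vco_cst, if_pos rfl]
      exact hx
    · obtain ⟨b, rfl⟩ : ∃ c, b = c + 1 := ⟨b - 1, by omega⟩
      rw [A.vco_tl]
      split_ifs
      · rw [A.vco_cst, if_neg (by omega)]
      · rfl
  set H₀ : Submodule (ZMod p) (EE U) := LinearMap.ker (pf_gam A U lam a hcst) with hH₀
  have hiff := pf_iff A hm U lam a hcst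
  have hH₀ne : H₀ ≠ ⊤ := by
    have h1 : (∃ v ∈ A.dn (⊤ : Submodule (ZMod p) (EE U)), lam ((A.tl ^ a) v) ≠ 0) := by
      obtain ⟨v, hv, hv2⟩ := hne'
      exact ⟨v, ⟨hv, hv.1, trivial⟩, hv2⟩
    intro h2
    exact (hiff ⊤).1 h1 (h2 ▸ le_rfl)
  -- dimensions
  have hEE := finrank_EE U
  have hJJ := finrank_JJ U
  have hgood : Good k (JJ U) (r - finrank (ZMod p) U) True := by
    unfold Good
    rw [hEE, hJJ]
    by_cases h1 : k + 1 ≤ r - finrank (ZMod p) U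
    · left
      exact ⟨h1, by omega, by omega⟩
    · right
      refine ⟨trivial, by omega, ?_, by omega⟩
      intro h2
      have h3 : finrank (ZMod p) (JJ U) = finrank (ZMod p) (EE U) := by
        rw [h2]
        exact finrank_top _ _
      rw [hEE, hJJ] at h3
      omega
  have hac := hp₀ p hp (EE U) (JJ U) ⊤ H₀ (r - finrank (ZMod p) U) True
    (by
      intro h2
      apply hH₀ne
      rw [eq_top_iff, h2]
      exact bot_le) hH₀ne (Or.inl hgood) j hj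
  -- the isomorphism
  have hXX := isCx_XX (R := R) (ι := ι) A r
  have hstd : {A.std U} ∈ A.XX ι r := by
    rw [mem_XX_single]
    exact ⟨1, U, hU, (map_gm_one _).symm⟩
  have i1 := link_iso A hm r (by omega) U hU
  have i2 := (pf_iso_gm A r g).link hXX hstd
  rw [Finset.image_singleton] at i2
  have i3 := i1.comp i2
  have hOC := isCx_OC (QF (JJ U) (r - finrank (ZMod p) U) True ⊤ ⊥)
  have i4 := i3.full hOC (P := fun T => ¬ T ≤ H₀) (P' := fun S' =>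
          (S' < (A.std U).map (gm p g.1) ∧ ∃ v ∈ S', lam₀ ((A.tl ^ a) v) ≠ 0) ∨
            ((A.std U).map (gm p g.1) < S' ∧ ∃ v ∈ S', lam₀ ((A.tl ^ (a - 1)) v) ≠ 0)) (by
    intro T hT
    have hTQ : T ∈ QF (JJ U) (r - finrank (ZMod p) U) True ⊤ ⊥ := hT.1 T (Finset.mem_singleton_self T)
    have hlt : ∀ S₁ S₂ : Submodule (ZMod p) (ι → R), S₁.map (gm p g.1) < S₂.map (gm p g.1) ↔
        S₁ < S₂ := by
      intro S₁ S₂
      rw [lt_iff_le_not_ge, lt_iff_le_not_ge, map_gm_le_iff, map_gm_le_iff]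
    have hex : ∀ (S₁ : Submodule (ZMod p) (ι → R)) (b : ℕ),
        (∃ v ∈ S₁.map (gm p g.1), lam₀ ((A.tl ^ b) v) ≠ 0) ↔
          ∃ v ∈ S₁, lam ((A.tl ^ b) v) ≠ 0 := by
      intro S₁ b
      constructor
      · rintro ⟨v, hv, hv2⟩
        obtain ⟨w, hw, rfl⟩ := Submodule.mem_map.1 hv
        exact ⟨w, hw, by rwa [← hlamv]⟩
      · rintro ⟨w, hw, hw2⟩
        exact ⟨_, Submodule.mem_map_of_mem hw, by rwa [hlamv]⟩
    show ¬ T ≤ H₀ ↔ ((A.lv T).map (gm p g.1) < (A.std U).map (gm p g.1) ∧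
        ∃ v ∈ (A.lv T).map (gm p g.1), lam₀ ((A.tl ^ a) v) ≠ 0) ∨
      ((A.std U).map (gm p g.1) < (A.lv T).map (gm p g.1) ∧
        ∃ v ∈ (A.lv T).map (gm p g.1), lam₀ ((A.tl ^ (a - 1)) v) ≠ 0)
    rw [hlt, hlt, hex, hex, ← hiff T]
    by_cases hJ : T ⊔ JJ U = ⊤
    · obtain ⟨e1, e2, -, -, -⟩ := lv_lower A hm r (by omega) U hU T hTQ hJ
      constructor
      · intro h
        left
        exact ⟨e2, by rw [e1]; exact h⟩
      · rintro (⟨-, h⟩ | ⟨h, -⟩)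
        · rwa [e1] at h
        · exact absurd (e2.trans h) (lt_irrefl _)
    · obtain ⟨e1, e2, -, -, -⟩ := lv_upper A hm r (by omega) U hU T hTQ hJ
      have hup : (∃ v ∈ A.lv T, lam ((A.tl ^ (a - 1)) v) ≠ 0) ↔
          ∃ v ∈ A.dn T, lam ((A.tl ^ a) v) ≠ 0 := by
        rw [e1]
        constructor
        · rintro ⟨v, hv, hv2⟩
          obtain ⟨s, hs, y, hy, rfl⟩ := Submodule.mem_sup.1 hv
          obtain ⟨w, hw, rfl⟩ := Submodule.mem_map.1 hy
          refine ⟨w, hw, ?_⟩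
          rw [map_add, map_add, hlow' (a - 1) (by omega) s hs, zero_add, ← hpow,
            Nat.sub_add_cancel ha] at hv2
          exact hv2
        · rintro ⟨w, hw, hw2⟩
          refine ⟨A.tl w, Submodule.mem_sup_right (Submodule.mem_map_of_mem hw), ?_⟩
          rw [← hpow, Nat.sub_add_cancel ha]
          exact hw2
      constructor
      · intro h
        right
        exact ⟨e2, hup.2 h⟩
      · rintro (⟨h, -⟩ | ⟨-, h⟩)
        · exact absurd (e2.trans h) (lt_irrefl _)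
        · exact hup.1 h)
  have hfo : Full (OC (QF (JJ U) (r - finrank (ZMod p) U) True ⊤ ⊥)) (fun T => ¬ T ≤ H₀) =
      OC (QF (JJ U) (r - finrank (ZMod p) U) True ⊤ H₀) := by
    ext σ
    constructor
    · rintro ⟨⟨h1, h2⟩, h3⟩
      exact ⟨fun x hx => ⟨(h1 x hx).1, (h1 x hx).2.1, h3 x hx⟩, h2⟩
    · rintro ⟨h1, h2⟩
      exact ⟨⟨fun x hx => ⟨(h1 x hx).1, (h1 x hx).2.1, fun h4 => (h1 x hx).2.2 (h4.trans bot_le)⟩,
        h2⟩, fun x hx => (h1 x hx).2.2⟩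
  rw [hfo] at i4
  exact (i4.acyc (isCx_OC _)).1 hac

end P067X
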