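import Vale.Agent.P067X.LinkLev
import Vale.Agent.P067X.AcycQF

/-!
# P067, module PRESV: acyclicity of the present links (V)

PROOF.  `acyc_QF k` gives `p₀`.  By `SL` (`XX_map`, `lev_map`, `Lk`, `Full` are equivariant: `CxIso` with `S ↦ S.map (gm p g.1)`) we may assume
`S = std U`, `j = finrank U`; `CxIso (OC (QF J (r-j) True Γ H₀)) (Full (Lk ..) ..) A.lv` by `link_iso`, `CxIso.full`, `Full_OC`
and `lv_lower`, `lv_upper`.
(V) `Γ` = the span of the `(w_{e-1} mod U, w_e)`, `w ∈ W₀` (`pco`, `vco`, `w ∈ lev (std U) e`), `Γ ≠ ⊥` since `¬ W₀ ≤ lev S (e-1)` or (`e = 0`) `W₀ ≠ ⊥`;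
`¬ Γ ≤ T` iff not present condition by LINKLEV; `H₀ = ⊥`.
(F) `H₀` = kernel of the functional `γ(x,u) = λ(t^a x) + λ(t^(a+1) u)` on `E = (F^ι/U) × U` (well defined since `λ(t^a u) = λ(t^(a-1) (t u)) = 0` for
`u ∈ U`, `t u ∈ S`, `a ≥ 1`); for `T` lower `λ(t^a dn T) = γ(T)`, for `T` upper `λ(t^(a-1) up T) = γ(T)`; `Γ = ⊤`.  (Here `t^a` means `A.tl^a`.)
`Good k`: if `r - j ≥ k + 1` the first case, otherwise `j ≥ k + 1`.
-/

namespace P067X

open Classical Module

/-- the action of `SL` on the complex -/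
theorem pv_iso {p m : ℕ} [Fact p.Prime] {R : Type} [CommRing R] [Algebra (ZMod p) R]
    {ι : Type} [Fintype ι] [DecidableEq ι] (A : TR p m R) (r : ℕ)
    (g : Matrix.SpecialLinearGroup ι R) :
    CxIso (A.XX ι r) (A.XX ι r) (fun S => S.map (gm p g.1)) where
  inj := fun _ _ _ _ h => map_gm_injective g h
  mem := fun σ _ => (XX_map A r g σ).symm
  surj := by
    intro τ hτ
    refine ⟨τ.image (fun S => S.map (gm p (g⁻¹).1)), (XX_map A r g⁻¹ τ).2 hτ, ?_⟩
    rw [Finset.image_image]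
    have h1 : (fun S : Submodule (ZMod p) (ι → R) => S.map (gm p g.1)) ∘
        (fun S => S.map (gm p (g⁻¹).1)) = id := by
      funext S
      exact map_gm_inv' g S
    rw [h1, Finset.image_id]

/-- the dimension conditions for the present links -/
theorem pv_good {p : ℕ} [Fact p.Prime] {ι : Type} [Fintype ι] {k r : ℕ} (hr : 2 * k + 2 ≤ r)
    (hn : r + k + 2 ≤ Fintype.card ι) (U : Submodule (ZMod p) (ι → ZMod p))
    (hU : finrank (ZMod p) U ≤ r) : Good k (JJ U) (r - finrank (ZMod p) U) True := by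
  unfold Good
  rw [finrank_JJ, finrank_EE]
  by_cases h : k + 1 ≤ r - finrank (ZMod p) U
  · left
    omega
  · right
    refine ⟨trivial, by omega, ?_, by omega⟩
    intro htop
    have h1 := finrank_JJ U
    rw [htop, finrank_top, finrank_EE] at h1
    omega

/-- `W₀ ≤ lev S e`, `e` minimal: the present link (lower `S'` with `¬ W₀ ≤ lev S' e`, upper `S'` with `¬ W₀ ≤ lev S' (e-1)`) is acyclic -/
theorem presV (k : ℕ) : ∃ p₀ : ℕ, ∀ (p : ℕ) [Fact p.Prime], p₀ ≤ p → ∀ (m : ℕ), 3 ≤ m →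
    ∀ (R : Type) [CommRing R] [Algebra (ZMod p) R] (A : TR p m R)
      (ι : Type) [Fintype ι] [DecidableEq ι] (r : ℕ), 2 * k + 2 ≤ r →
      r + k + 2 ≤ Fintype.card ι →
      ∀ (S W₀ : Submodule (ZMod p) (ι → R)) (e : ℕ), {S} ∈ A.XX ι r → e < m → W₀ ≠ ⊥ →
        W₀ ≤ A.lev S e → (1 ≤ e → ¬ W₀ ≤ A.lev S (e - 1)) →
        ∀ j ≤ k, Acyc (Full (Lk (A.XX ι r) {S}) (fun S' =>
          (S' < S ∧ ¬ W₀ ≤ A.lev S' e) ∨ (S < S' ∧ (1 ≤ e → ¬ W₀ ≤ A.lev S' (e - 1))))) j := by
  obtain ⟨p₀, hp₀⟩ := acyc_QF k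
  refine ⟨p₀, ?_⟩
  intro p _ hp m hm R _ _ A ι _ _ r hr hn
  -- the standard vertex
  have hstd : ∀ (U : Submodule (ZMod p) (ι → ZMod p)) (W₀ : Submodule (ZMod p) (ι → R)) (e : ℕ),
      finrank (ZMod p) U ≤ r → e < m → W₀ ≠ ⊥ →
        W₀ ≤ A.lev (A.std U) e → (1 ≤ e → ¬ W₀ ≤ A.lev (A.std U) (e - 1)) →
        ∀ j ≤ k, Acyc (Full (Lk (A.XX ι r) {A.std U}) (fun S' =>
          (S' < A.std U ∧ ¬ W₀ ≤ A.lev S' e) ∨
            (A.std U < S' ∧ (1 ≤ e → ¬ W₀ ≤ A.lev S' (e - 1))))) j := by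
    intro U W₀ e hU he hW0 hWe hWe1 j hj
    have hrn : r < Fintype.card ι := by omega
    -- the subspace `Γ`
    let G : Set (EE U) := {x | ∃ w ∈ W₀, x.1 = Submodule.Quotient.mk (A.pco e w) ∧
      (x.2 : ι → ZMod p) = A.vco e w}
    let Γ : Submodule (ZMod p) (EE U) := Submodule.span (ZMod p) G
    have hwU : ∀ w ∈ W₀, A.vco e w ∈ U := fun w hw =>
      ((mem_lev_std A hm U e w).1 (hWe hw)).1
    have hΓ : ∀ T : Submodule (ZMod p) (EE U), Γ ≤ T ↔
        ∀ w ∈ W₀, PT T (A.pco e w) (A.vco e w) := by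
      intro T
      rw [Submodule.span_le]
      constructor
      · intro h w hw
        exact ⟨hwU w hw, h ⟨w, hw, rfl, rfl⟩⟩
      · rintro h ⟨x, y⟩ ⟨w, hw, h1, h2⟩
        obtain ⟨h3, h4⟩ := h w hw
        dsimp only at h1 h2
        have h5 : y = ⟨A.vco e w, h3⟩ := Subtype.ext h2
        rw [h1, h5]
        exact h4
    have hΓ0 : Γ ≠ ⊥ := by
      intro h0
      have h1 := (hΓ ⊥).1 h0.le
      have h2 : ∀ w ∈ W₀, A.pco e w ∈ U ∧ A.vco e w = 0 := by
        intro w hw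
        obtain ⟨h3, h4⟩ := h1 w hw
        rw [Submodule.mem_bot, Prod.mk_eq_zero] at h4
        exact ⟨(Submodule.Quotient.mk_eq_zero U).1 h4.1, congrArg Subtype.val h4.2⟩
      rcases Nat.eq_zero_or_pos e with rfl | hpos
      · apply hW0
        rw [eq_bot_iff]
        intro w hw
        have h3 := (mem_lev_std A hm U 0 w).1 (hWe hw)
        rw [Submodule.mem_bot]
        funext i
        refine A.ext _ _ fun a => ?_
        have h4 : A.vco a w = 0 := by
          rcases Nat.eq_zero_or_pos a with rfl | ha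
          · exact (h2 w hw).2
          · exact h3.2 a ha
        have h5 := congrFun h4 i
        rw [Pi.zero_apply, map_zero]
        exact h5
      · apply hWe1 hpos
        intro w hw
        rw [mem_lev_std A hm U (e - 1) w]
        have h3 := (mem_lev_std A hm U e w).1 (hWe hw)
        have h4 := h2 w hw
        unfold TR.pco at h4
        rw [if_neg (by omega)] at h4
        refine ⟨h4.1, fun a ha => ?_⟩
        rcases Nat.lt_or_ge e a with h5 | h5
        · exact h3.2 a h5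
        · obtain rfl : a = e := by omega
          exact h4.2
    -- the complex
    have hiso := (link_iso A hm r hrn U hU).full (isCx_OC _) (P := fun T => ¬ Γ ≤ T)
      (P' := fun S' => (S' < A.std U ∧ ¬ W₀ ≤ A.lev S' e) ∨
            (A.std U < S' ∧ (1 ≤ e → ¬ W₀ ≤ A.lev S' (e - 1)))) (by
      intro T hT
      have hTQ : T ∈ QF (JJ U) (r - finrank (ZMod p) U) True ⊤ ⊥ :=
        hT.1 T (Finset.mem_singleton_self T)
      by_cases hTJ : T ⊔ JJ U = ⊤
      · obtain ⟨h1, h2, -⟩ := lv_lower A hm r hrn U hU T hTQ hTJ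
        have h3 : W₀ ≤ A.lev (A.lv T) e ↔ Γ ≤ T := by
          rw [hΓ, h1]
          exact ⟨fun h w hw => (lev_dn A hm U T hTJ e he w (hWe hw)).1 (h hw),
            fun h w hw => (lev_dn A hm U T hTJ e he w (hWe hw)).2 (h w hw)⟩
        rw [h3]
        constructor
        · intro h
          exact Or.inl ⟨h2, h⟩
        · rintro (h | h)
          · exact h.2
          · exact absurd (h.1.trans h2) (lt_irrefl _)
      · obtain ⟨h1, h2, h4, -⟩ := lv_upper A hm r hrn U hU T hTQ hTJ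
        constructor
        · intro h
          refine Or.inr ⟨h2, fun he1 hle => h ?_⟩
          rw [hΓ]
          intro w hw
          rw [h1] at hle
          exact (lev_up A hm U T h4 e he1 he w (hWe hw)).1 (hle hw)
        · rintro (h | h)
          · exact absurd (h.1.trans h2) (lt_irrefl _)
          · intro hle
            rcases Nat.eq_zero_or_pos e with rfl | hpos
            · apply hΓ0
              rw [eq_bot_iff, ← h4]
              refine le_inf hle ?_
              rw [hΓ]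
              intro w hw
              refine ⟨hwU w hw, ?_⟩
              unfold TR.pco
              rw [if_pos rfl]
              exact ⟨Submodule.mem_bot _ |>.2 rfl, trivial⟩
            · apply h.2 hpos
              intro w hw
              rw [h1]
              exact (lev_up A hm U T h4 e hpos he w (hWe hw)).2 ((hΓ T).1 hle w hw))
    have hK : IsCx (Full (OC (QF (JJ U) (r - finrank (ZMod p) U) True ⊤ ⊥))
        (fun T => ¬ Γ ≤ T)) := isCx_Full (isCx_OC _) _
    rw [← hiso.acyc hK, Full_OC]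
    have hQ : {T | T ∈ QF (JJ U) (r - finrank (ZMod p) U) True ⊤ ⊥ ∧ ¬ Γ ≤ T} =
        QF (JJ U) (r - finrank (ZMod p) U) True Γ ⊥ := by
      ext T
      constructor
      · rintro ⟨⟨h1, h2, h3⟩, h4⟩
        exact ⟨h1, h4, h3⟩
      · rintro ⟨h1, h4, h3⟩
        exact ⟨⟨h1, fun h => h4 (le_top.trans h), h3⟩, h4⟩
    rw [hQ]
    have hbt : (⊥ : Submodule (ZMod p) (EE U)) ≠ ⊤ := by
      intro h
      have h1 : finrank (ZMod p) (⊤ : Submodule (ZMod p) (EE U)) = 0 := by
        rw [← h]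
        exact finrank_bot _ _
      rw [finrank_top, finrank_EE] at h1
      omega
    exact hp₀ p hp (EE U) (JJ U) Γ ⊥ _ True hΓ0 hbt (Or.inl (pv_good hr hn U hU)) j hj
  -- the general case
  intro S W₀ e hS he hW0 hWe hWe1 j hj
  obtain ⟨g, U, hU, rfl⟩ := (mem_XX_single A r S).1 hS
  have hiso := pv_iso A r g
  have hUX : {A.std U} ∈ A.XX ι r := (mem_XX_single A r _).2
    ⟨1, U, hU, (map_gm_one _).symm⟩
  have hl := hiso.link (isCx_XX A r) hUX
  rw [Finset.image_singleton] at hl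
  have hLc : IsCx (Lk (A.XX ι r) {A.std U}) := isCx_Lk (isCx_XX A r) hUX
  have hlev : ∀ (T : Submodule (ZMod p) (ι → R)) (a : ℕ),
      W₀.map (gm p (g⁻¹).1) ≤ A.lev T a ↔ W₀ ≤ A.lev (T.map (gm p g.1)) a := by
    intro T a
    rw [lev_map, ← map_gm_le_iff g (W₀.map (gm p (g⁻¹).1)), map_gm_inv']
  have hf := hl.full hLc
    (P := fun S' => (S' < A.std U ∧ ¬ W₀.map (gm p (g⁻¹).1) ≤ A.lev S' e) ∨
            (A.std U < S' ∧ (1 ≤ e → ¬ W₀.map (gm p (g⁻¹).1) ≤ A.lev S' (e - 1))))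
    (P' := fun S' => (S' < (A.std U).map (gm p g.1) ∧ ¬ W₀ ≤ A.lev S' e) ∨
            ((A.std U).map (gm p g.1) < S' ∧ (1 ≤ e → ¬ W₀ ≤ A.lev S' (e - 1)))) (by
      intro T _
      have h1 : T.map (gm p g.1) < (A.std U).map (gm p g.1) ↔ T < A.std U := by
        rw [lt_iff_le_not_ge, lt_iff_le_not_ge, map_gm_le_iff, map_gm_le_iff]
      have h2 : (A.std U).map (gm p g.1) < T.map (gm p g.1) ↔ A.std U < T := by
        rw [lt_iff_le_not_ge, lt_iff_le_not_ge, map_gm_le_iff, map_gm_le_iff]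
      rw [hlev, hlev, h1, h2])
  rw [← hf.acyc (isCx_Full hLc _)]
  refine hstd U (W₀.map (gm p (g⁻¹).1)) e hU he ?_ ((hlev _ _).2 hWe)
    (fun he1 h => hWe1 he1 ((hlev _ _).1 h)) j hj
  intro h0
  apply hW0
  rw [← map_gm_inv' g W₀, h0, Submodule.map_bot]

end P067X
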