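import Vale.Agent.P067X.ChainLib

/-!
# P067, module REMOVE: remove all vertices of a kind from a cycle

PROOF.  For a vertex `x` with `P x` let `z_x` be the sum of the faces `σ.erase x`, `x ∈ σ ∈ supp z`.  `z_x` is a cycle
of the link of `x` (the `x`-part of `bd z = 0`), it has no vertex with `P` (every face has at most one), so
`z_x = bd c_x`.  `bd (x * c_x) = c_x + x * bd c_x = c_x + x * z_x`.  Put `e = ∑_x x * c_x`.
-/

namespace P067X

open Classical

section aux

variable {V : Type*}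

theorem rm_add_self (c : Ch V) : c + c = 0 := by
  ext σ
  simp only [Finsupp.add_apply, Finsupp.zero_apply]
  exact CharTwo.add_self_eq_zero _

theorem rm_key (a b c z : Ch V) (h : z = a + b) : z + (c + b) = a + c := by
  have h3 : a + b + (c + b) = a + c + (b + b) := by abel
  rw [h, h3, rm_add_self, add_zero]

/-- the link part at `x` -/
noncomputable def rmL (x : V) : Ch V →ₗ[ZMod 2] Ch V :=
  Finsupp.linearCombination (ZMod 2) fun σ =>
    if x ∈ σ then Finsupp.single (σ.erase x) (1 : ZMod 2) else 0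

/-- the cone with apex `x` -/
noncomputable def rmJ (x : V) : Ch V →ₗ[ZMod 2] Ch V :=
  Finsupp.linearCombination (ZMod 2) fun σ => Finsupp.single (insert x σ) (1 : ZMod 2)

/-- the part without vertices of the kind `P` -/
noncomputable def rmN (P : V → Prop) : Ch V →ₗ[ZMod 2] Ch V :=
  Finsupp.linearCombination (ZMod 2) fun σ =>
    if ∃ x ∈ σ, P x then 0 else Finsupp.single σ (1 : ZMod 2)

theorem rmL_single (x : V) (σ : Finset V) : rmL x (Finsupp.single σ 1) =
    if x ∈ σ then Finsupp.single (σ.erase x) (1 : ZMod 2) else 0 := by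
  rw [rmL, Finsupp.linearCombination_single, one_smul]

theorem rmJ_single (x : V) (σ : Finset V) : rmJ x (Finsupp.single σ 1) =
    Finsupp.single (insert x σ) (1 : ZMod 2) := by
  rw [rmJ, Finsupp.linearCombination_single, one_smul]

theorem rmN_single (P : V → Prop) (σ : Finset V) : rmN P (Finsupp.single σ 1) =
    if ∃ x ∈ σ, P x then 0 else Finsupp.single σ (1 : ZMod 2) := by
  rw [rmN, Finsupp.linearCombination_single, one_smul]

theorem rmL_bd (x : V) (z : Ch V) : bd (rmL x z) = rmL x (bd z) := by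
  have := cl_lin_congr (f := bd ∘ₗ rmL x) (g := rmL x ∘ₗ bd) z ?_
  · exact this
  · intro σ _
    rw [LinearMap.comp_apply, LinearMap.comp_apply, rmL_single, bd_single, bdf, map_sum]
    simp_rw [rmL_single]
    by_cases hx : x ∈ σ
    · rw [if_pos hx, bd_single, bdf, ← Finset.add_sum_erase _ _ hx, if_neg (by simp), zero_add]
      refine Finset.sum_congr rfl fun y hy => ?_
      rw [if_pos (Finset.mem_erase.mpr ⟨(Finset.mem_erase.mp hy).1.symm, hx⟩),
        Finset.erase_right_comm]
    · rw [if_neg hx, map_zero]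
      symm
      refine Finset.sum_eq_zero fun y _ => ?_
      rw [if_neg]
      exact fun h => hx (Finset.mem_of_mem_erase h)

theorem rmJ_bd (x : V) (c : Ch V) (hc : ∀ σ ∈ c.support, x ∉ σ) :
    bd (rmJ x c) = c + rmJ x (bd c) := by
  have := cl_lin_congr (f := bd ∘ₗ rmJ x) (g := LinearMap.id + rmJ x ∘ₗ bd) c ?_
  · exact this
  · intro σ hσ
    have hx := hc σ hσ
    rw [LinearMap.comp_apply, LinearMap.add_apply, LinearMap.comp_apply, LinearMap.id_apply,
      rmJ_single, bd_single, bd_single, bdf, bdf, Finset.sum_insert hx, map_sum,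
      Finset.erase_insert hx]
    congr 1
    refine Finset.sum_congr rfl fun y hy => ?_
    rw [rmJ_single, Finset.erase_insert_of_ne]
    rintro rfl
    exact hx hy

end aux

theorem remove_all {V : Type*} (K : Set (Finset V)) (hK : IsCx K) (P A : V → Prop) (k M N : ℕ)
    (hone : ∀ σ ∈ K, ∀ x ∈ σ, ∀ y ∈ σ, P x → P y → x = y)
    (hfill : ∀ x : V, {x} ∈ K → P x → A x → ∀ y : Ch V, InK (Lk K {x}) k y → bd y = 0 →
      (∀ σ ∈ y.support, ∀ v ∈ σ, A v ∧ ¬ P v) → y.support.card ≤ M →
      ∃ c : Ch V, InK (Lk K {x}) (k + 1) c ∧ bd c = y ∧ c.support.card ≤ N ∧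
        ∀ σ ∈ c.support, ∀ v ∈ σ, A v ∧ ¬ P v)
    (z : Ch V) (hz : InK K (k + 1) z) (hb : bd z = 0) (hM : z.support.card ≤ M)
    (hA : ∀ σ ∈ z.support, ∀ v ∈ σ, A v) :
    ∃ z' e : Ch V, InK K (k + 1) z' ∧ InK K (k + 2) e ∧ z = z' + bd e ∧ bd z' = 0 ∧
      z'.support.card ≤ M + (k + 1) * M * N ∧ e.support.card ≤ (k + 1) * M * N ∧
      ∀ σ ∈ z'.support, ∀ v ∈ σ, A v ∧ ¬ P v := by
  set X : Finset V := z.support.biUnion (fun σ => σ.filter P) with hX
  have hXmem : ∀ x, x ∈ X ↔ ∃ σ ∈ z.support, x ∈ σ ∧ P x := by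
    intro x
    simp only [hX, Finset.mem_biUnion, Finset.mem_filter]
  have hXcard : X.card ≤ M := by
    refine le_trans (Finset.card_biUnion_le_card_mul _ _ 1 fun σ hσ => ?_) (by simpa using hM)
    refine Finset.card_le_one.mpr fun a ha b hb => ?_
    rw [Finset.mem_filter] at ha hb
    exact hone σ (hz σ hσ).1 a ha.1 b hb.1 ha.2 hb.2
  -- fillings of the link parts
  have hex : ∀ x, ∃ c : Ch V, x ∈ X → (InK (Lk K {x}) (k + 1) c ∧ bd c = rmL x z ∧
      c.support.card ≤ N ∧ ∀ σ ∈ c.support, ∀ v ∈ σ, A v ∧ ¬ P v) := by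
    intro x
    by_cases hx : x ∈ X
    · obtain ⟨σ, hσ, hxσ, hPx⟩ := (hXmem x).mp hx
      have h1 : ({x} : Finset V) ∈ K :=
        hK.2 σ (hz σ hσ).1 _ (Finset.singleton_subset_iff.mpr hxσ)
      have hsup : ∀ τ ∈ (rmL x z).support, ∃ σ ∈ z.support, x ∈ σ ∧ τ = σ.erase x := by
        refine cl_sup_lin _ _ fun σ hσ τ hτ => ?_
        rw [rmL_single] at hτ
        by_cases hxσ : x ∈ σ
        · rw [if_pos hxσ] at hτ
          exact ⟨σ, hσ, hxσ, cl_supp_single hτ⟩
        · rw [if_neg hxσ] at hτ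
          simp at hτ
      have g1 : InK (Lk K {x}) k (rmL x z) := by
        intro τ hτ
        obtain ⟨σ, hσ, hxσ, rfl⟩ := hsup τ hτ
        refine ⟨⟨by simp, ?_⟩, ?_⟩
        · have : {x} ∪ σ.erase x = σ := by
            rw [← Finset.insert_eq, Finset.insert_erase hxσ]
          rw [this]
          exact (hz σ hσ).1
        · have := (hz σ hσ).2
          rw [Finset.card_erase_of_mem hxσ]
          omega
      have g2 : bd (rmL x z) = 0 := by rw [rmL_bd, hb, map_zero]
      have g3 : ∀ σ ∈ (rmL x z).support, ∀ v ∈ σ, A v ∧ ¬ P v := by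
        intro τ hτ v hv
        obtain ⟨σ, hσ, hxσ, rfl⟩ := hsup τ hτ
        obtain ⟨hvx, hvσ⟩ := Finset.mem_erase.mp hv
        exact ⟨hA σ hσ v hvσ, fun hPv => hvx (hone σ (hz σ hσ).1 v hvσ x hxσ hPv hPx)⟩
      have g4 : (rmL x z).support.card ≤ M := by
        refine le_trans (cl_card_lin _ z 1 fun τ _ => ?_) (by simpa using hM)
        rw [rmL_single]
        split_ifs
        · exact cl_card_single _
        · simp
      obtain ⟨c, h⟩ := hfill x h1 hPx (hA σ hσ x hxσ) (rmL x z) g1 g2 g3 g4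
      exact ⟨c, fun _ => h⟩
    · exact ⟨0, fun h => absurd h hx⟩
  choose c hc using hex
  set e : Ch V := ∑ x ∈ X, rmJ x (c x) with he
  have hxc : ∀ x ∈ X, ∀ τ ∈ (c x).support, x ∉ τ := by
    intro x hx τ hτ
    have h1 := ((hc x hx).1 τ hτ).1.1
    exact Finset.disjoint_singleton_left.mp h1
  have heK : InK K (k + 2) e := by
    refine cl_sup_sum _ _ fun x hx => cl_sup_lin _ _ fun τ hτ ρ hρ => ?_
    rw [rmJ_single] at hρ
    rw [cl_supp_single hρ]
    obtain ⟨⟨h1, h2⟩, h3⟩ := (hc x hx).1 τ hτ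
    refine ⟨?_, ?_⟩
    · rw [Finset.insert_eq]; exact h2
    · rw [Finset.card_insert_of_notMem (hxc x hx τ hτ), h3]
  have hecard : e.support.card ≤ (k + 1) * M * N := by
    have h1 : e.support.card ≤ X.card * N := by
      refine cl_card_sum _ _ N fun x hx => ?_
      refine le_trans (cl_card_lin _ _ 1 fun τ _ => ?_) ?_
      · rw [rmJ_single]; exact cl_card_single _
      · rw [mul_one]; exact (hc x hx).2.2.1
    calc e.support.card ≤ X.card * N := h1
      _ ≤ M * N := Nat.mul_le_mul_right _ hXcard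
      _ = 1 * M * N := by ring
      _ ≤ (k + 1) * M * N := by gcongr; omega
  have hdec : z = rmN P z + ∑ x ∈ X, rmJ x (rmL x z) := by
    have := cl_lin_congr (f := LinearMap.id) (g := rmN P + ∑ x ∈ X, rmJ x ∘ₗ rmL x) z ?_
    · simpa [LinearMap.add_apply, LinearMap.sum_apply] using this
    · intro σ hσ
      rw [LinearMap.id_apply, LinearMap.add_apply, LinearMap.sum_apply]
      simp_rw [LinearMap.comp_apply]
      rw [rmN_single]
      simp_rw [rmL_single]
      by_cases hP : ∃ x ∈ σ, P x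
      · rw [if_pos hP, zero_add]
        obtain ⟨x, hx, hPx⟩ := hP
        have hxX : x ∈ X := (hXmem x).mpr ⟨σ, hσ, hx, hPx⟩
        rw [Finset.sum_eq_single_of_mem x hxX]
        · rw [if_pos hx, rmJ_single, Finset.insert_erase hx]
        · intro y hy hyx
          rw [if_neg, map_zero]
          intro hyσ
          obtain ⟨_, _, _, hPy⟩ := (hXmem y).mp hy
          exact hyx (hone σ (hz σ hσ).1 y hyσ x hx hPy hPx)
      · rw [if_neg hP, Finset.sum_eq_zero, add_zero]
        intro x hx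
        obtain ⟨_, _, _, hPx⟩ := (hXmem x).mp hx
        rw [if_neg (fun h => hP ⟨x, h, hPx⟩), map_zero]
  have hbe : bd e = ∑ x ∈ X, c x + ∑ x ∈ X, rmJ x (rmL x z) := by
    rw [he, map_sum, ← Finset.sum_add_distrib]
    refine Finset.sum_congr rfl fun x hx => ?_
    rw [rmJ_bd x (c x) (hxc x hx), (hc x hx).2.1]
  have hz' : z + bd e = rmN P z + ∑ x ∈ X, c x := by
    rw [hbe]
    exact rm_key _ _ _ _ hdec
  refine ⟨z + bd e, e, InK.add hz (InK.bd hK heK), heK, ?_, ?_, ?_, hecard, ?_⟩
  · rw [add_assoc, rm_add_self, add_zero]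
  · rw [map_add, hb, bd_bd, add_zero]
  · rw [hz']
    refine le_trans (cl_card_add _ _) (Nat.add_le_add ?_ ?_)
    · refine le_trans (cl_card_lin _ z 1 fun τ _ => ?_) (by simpa using hM)
      rw [rmN_single]
      split_ifs
      · simp
      · exact cl_card_single _
    · calc _ ≤ X.card * N := cl_card_sum _ _ N fun x hx => (hc x hx).2.2.1
        _ ≤ M * N := Nat.mul_le_mul_right _ hXcard
        _ = 1 * M * N := by ring
        _ ≤ (k + 1) * M * N := by gcongr; omega
  · rw [hz']
    refine cl_sup_add (cl_sup_lin _ _ fun σ hσ τ hτ => ?_)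
      (cl_sup_sum _ _ fun x hx => (hc x hx).2.2.2)
    rw [rmN_single] at hτ
    split_ifs at hτ with hP
    · simp at hτ
    · rw [cl_supp_single hτ]
      intro v hv
      exact ⟨hA σ hσ v hv, fun hPv => hP ⟨v, hv, hPv⟩⟩

end P067X
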