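import Vale.Agent.P067X.CxBasic
import Vale.Agent.P067X.AcycQF

/-!
# P067, module ROW: the poset of the subspaces `V` with `σ ∈ X^V` is acyclic; the double complex for `XX`

PROOF.  `row_acyc`: `σ = ∅`: `E = R^ι`, `J = t R^ι`, `s = k + 2`, `b = False`, `Γ = ⊤`, `H₀ = ⊥`: `acyc_QF`, `Good k` by the first case
(`dim E = n m`, `dim J = n (m-1)`).  `σ` nonempty, with smallest vertex `S₁` and largest vertex `S_l`: `V ≤ S₁`, `V ⊓ KK S_l = ⊥` (`KK_adj`),
and `V ⊓ t R^ι = ⊥` follows (`S₁ ⊓ t R^ι ≤ KK S_l`): the poset is isomorphic to `QF (comap (KK S_l)) (k+2) False ⊤ ⊥` in `E = ↥S₁`,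
`dim S₁ ≥ n`, codimension of `KK S_l ⊓ S₁` in `S₁` at least `n - r` (`S₁ = g(F^n + t U₁)`, `KK S_l = g(U_l + t U_l)`).
`gen_XX`: `gen_lemma` with `X V = XV V`.
-/

namespace P067X

open Classical Module

/-- the index poset of the double complex -/
def PP {p m : ℕ} [Fact p.Prime] {R : Type} [CommRing R] [Algebra (ZMod p) R] (A : TR p m R)
    (ι : Type) [Fintype ι] (k : ℕ) : Set (Submodule (ZMod p) (ι → R)) :=
  {V | V ⊓ LinearMap.range A.tl = ⊥ ∧ 1 ≤ finrank (ZMod p) V ∧ finrank (ZMod p) V ≤ k + 2}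

/-- the abstract form: subspaces of the range of an injective map, of bounded dimension, which meet `K` trivially -/
theorem row_core (k : ℕ) : ∃ p₀ : ℕ, ∀ (p : ℕ) [Fact p.Prime], p₀ ≤ p →
    ∀ (E W : Type) [AddCommGroup E] [Module (ZMod p) E] [FiniteDimensional (ZMod p) E]
      [AddCommGroup W] [Module (ZMod p) W] (f : E →ₗ[ZMod p] W), Function.Injective f →
      ∀ K : Submodule (ZMod p) W, k + 2 + finrank (ZMod p) (K.comap f) ≤ finrank (ZMod p) E →
      2 * k + 4 ≤ finrank (ZMod p) E → ∀ j ≤ k,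
        Acyc (OC {V : Submodule (ZMod p) W | V ≤ LinearMap.range f ∧ V ⊓ K = ⊥ ∧
          1 ≤ finrank (ZMod p) V ∧ finrank (ZMod p) V ≤ k + 2}) j := by
  obtain ⟨p₀, B, h⟩ := uniform_QF k
  refine ⟨p₀, ?_⟩
  intro p _ hp E W _ _ _ _ _ f hf K hK hE
  have hnt : Nontrivial E := by
    refine Module.nontrivial_of_finrank_pos (R := ZMod p) (by omega)
  have hG : Good k (K.comap f) (k + 2) False := Or.inl ⟨by omega, by omega, by omega⟩
  have hfill := h p hp E (K.comap f) ⊤ ⊥ (k + 2) False top_ne_bot bot_ne_top (Or.inl hG)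
  have hle : ∀ x y : Submodule (ZMod p) E, x.map f ≤ y.map f ↔ x ≤ y := fun x y =>
    Submodule.map_le_map_iff_of_injective hf x y
  have hfr : ∀ T : Submodule (ZMod p) E, finrank (ZMod p) (T.map f) = finrank (ZMod p) T := by
    intro T
    exact (LinearEquiv.finrank_eq (Submodule.equivMapOfInjective f hf T)).symm
  have hinf : ∀ T : Submodule (ZMod p) E, T.map f ⊓ K = (T ⊓ K.comap f).map f := by
    intro T
    ext v
    simp only [Submodule.mem_inf, Submodule.mem_map, Submodule.mem_comap]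
    constructor
    · rintro ⟨⟨x, hx, rfl⟩, h2⟩
      exact ⟨x, ⟨hx, h2⟩, rfl⟩
    · rintro ⟨x, ⟨hx, h2⟩, rfl⟩
      exact ⟨⟨x, hx, rfl⟩, h2⟩
  refine acyc_of_fill (isCx_OC _) B k ?_
  intro j hj
  refine tr_fill (fun T : Submodule (ZMod p) E => T.map f) ?_ ?_ hle (hfill j hj)
  · rintro T ⟨h1, h2, h3⟩
    rcases h1 with ⟨h4, h5⟩ | ⟨h4, -⟩
    · refine ⟨LinearMap.map_le_range, ?_, ?_, ?_⟩
      · rw [hinf, h4, Submodule.map_bot]
      · rw [hfr]
        by_contra h6
        have h7 : finrank (ZMod p) T = 0 := by omega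
        rw [Submodule.finrank_eq_zero] at h7
        exact h3 (by rw [h7])
      · rw [hfr]
        exact h5
    · exact h4.elim
  · rintro V ⟨h1, h2, h3, h4⟩
    have h5 : (V.comap f).map f = V := by
      rw [Submodule.map_comap_eq, inf_eq_right]
      exact h1
    refine ⟨V.comap f, ⟨Or.inl ⟨?_, ?_⟩, ?_, ?_⟩, h5⟩
    · have h6 := hinf (V.comap f)
      rw [h5, h2] at h6
      rw [eq_bot_iff, ← hle, ← h6, Submodule.map_bot]
    · rw [← hfr, h5]
      exact h4
    · intro h6
      have h7 : V.comap f = ⊤ := top_le_iff.1 h6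
      have h8 := hfr (V.comap f)
      rw [h5, h7, finrank_top] at h8
      omega
    · intro h6
      have h7 : V.comap f = ⊥ := le_bot_iff.1 h6
      have h8 := hfr (V.comap f)
      rw [h5, h7, finrank_bot] at h8
      omega

section aux

variable {p m : ℕ} [Fact p.Prime] {R : Type} [CommRing R] [Algebra (ZMod p) R]
  {ι : Type} [Fintype ι]

/-- codimension from a surjection -/
theorem row_codim {E Q : Type} [AddCommGroup E] [Module (ZMod p) E]
    [FiniteDimensional (ZMod p) E] [AddCommGroup Q] [Module (ZMod p) Q]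
    (φ : E →ₗ[ZMod p] Q) (hφ : Function.Surjective φ) (J : Submodule (ZMod p) E)
    (hJ : J ≤ LinearMap.ker φ) :
    finrank (ZMod p) J + finrank (ZMod p) Q ≤ finrank (ZMod p) E := by
  have h1 := LinearMap.finrank_range_add_finrank_ker φ
  rw [LinearMap.range_eq_top.2 hφ, finrank_top] at h1
  have h2 := Submodule.finrank_mono hJ
  omega

theorem row_finite (A : TR p m R) : Module.Finite (ZMod p) (ι → R) := by
  have := A.finiteR
  exact Module.Finite.of_finite

end aux

theorem row_acyc (k : ℕ) : ∃ p₀ : ℕ, ∀ (p : ℕ) [Fact p.Prime], p₀ ≤ p → ∀ (m : ℕ), 3 ≤ m →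
    ∀ (R : Type) [CommRing R] [Algebra (ZMod p) R] (A : TR p m R)
      (ι : Type) [Fintype ι] [DecidableEq ι] (r : ℕ), r + 2 * k + 4 ≤ Fintype.card ι →
      ∀ σ ∈ A.XX ι r, ∀ j ≤ k,
        Acyc (OC {V | V ∈ PP A ι k ∧ ∀ S ∈ σ, V ≤ S ∧ V ⊓ A.KK S = ⊥}) j := by
  obtain ⟨p₀, h⟩ := row_core k
  refine ⟨p₀, ?_⟩
  intro p _ hp m hm R _ _ A ι _ _ r hr σ hσ j hj
  have hfin : Module.Finite (ZMod p) (ι → R) := row_finite A
  obtain ⟨g, c, hc, hcr, rfl⟩ := hσ
  rcases Finset.eq_empty_or_nonempty c with hc0 | hne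
  · -- the empty face
    subst hc0
    have hcod := row_codim (A.vco 0 : (ι → R) →ₗ[ZMod p] (ι → ZMod p)) (by
      intro x
      exact ⟨cst R ι x, by rw [A.vco_cst, if_pos rfl]⟩) (LinearMap.range A.tl) (by
      rintro v ⟨w, rfl⟩
      rw [LinearMap.mem_ker]
      exact A.vco_tl_zero w)
    rw [Module.finrank_fintype_fun_eq_card] at hcod
    have h1 := h p hp (ι → R) (ι → R) LinearMap.id Function.injective_id (LinearMap.range A.tl)
      (by rw [Submodule.comap_id]; omega) (by omega) j hj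
    have h2 : {V : Submodule (ZMod p) (ι → R) | V ∈ PP A ι k ∧
        ∀ S ∈ (∅ : Finset (Submodule (ZMod p) (ι → ZMod p))).image
          (fun U => (A.std U).map (gm p g.1)), V ≤ S ∧ V ⊓ A.KK S = ⊥} =
        {V : Submodule (ZMod p) (ι → R) | V ≤ LinearMap.range (LinearMap.id :
          (ι → R) →ₗ[ZMod p] (ι → R)) ∧ V ⊓ LinearMap.range A.tl = ⊥ ∧
          1 ≤ finrank (ZMod p) V ∧ finrank (ZMod p) V ≤ k + 2} := by
      ext V
      constructor
      · rintro ⟨⟨h3, h4, h5⟩, -⟩
        exact ⟨by rw [LinearMap.range_id]; exact le_top, h3, h4, h5⟩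
      · rintro ⟨-, h3, h4, h5⟩
        refine ⟨⟨h3, h4, h5⟩, ?_⟩
        intro S hS
        simp at hS
    rw [h2]
    exact h1
  · -- nonempty faces
    obtain ⟨U₁, hU₁, hmin⟩ := c.exists_minimal hne
    obtain ⟨U₂, hU₂, hmax⟩ := c.exists_maximal hne
    have hmin' : ∀ U ∈ c, U₁ ≤ U := by
      intro U hU
      rcases eq_or_ne U₁ U with h1 | h1
      · exact h1.le
      rcases hc hU₁ hU h1 with h2 | h2
      · exact h2
      · exact hmin hU h2
    have hmax' : ∀ U ∈ c, U ≤ U₂ := by
      intro U hU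
      rcases eq_or_ne U U₂ with h1 | h1
      · exact h1.le
      rcases hc hU hU₂ h1 with h2 | h2
      · exact h2
      · exact hmax hU h2
    have hgi := gm_injective (p := p) g
    set f : ↥(A.std U₁) →ₗ[ZMod p] (ι → R) := (gm p g.1).comp (A.std U₁).subtype with hf
    have hfi : Function.Injective f := by
      intro x y hxy
      exact Subtype.ext (hgi hxy)
    have hrange : LinearMap.range f = (A.std U₁).map (gm p g.1) := by
      rw [hf, LinearMap.range_comp, Submodule.range_subtype]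
    set K : Submodule (ZMod p) (ι → R) := A.KK ((A.std U₂).map (gm p g.1)) with hK
    have hKmem : ∀ x : ι → R, gm p g.1 x ∈ K ↔ x ∈ A.KK (A.std U₂) := by
      intro x
      rw [hK, KK_map]
      constructor
      · rintro ⟨y, hy, hxy⟩
        have := hgi hxy
        rw [← this]
        exact hy
      · intro hx
        exact ⟨x, hx, rfl⟩
    -- codimension
    let φ : ↥(A.std U₁) →ₗ[ZMod p] ((ι → ZMod p) ⧸ U₂) :=
      U₂.mkQ.comp ((A.vco 0).comp (A.std U₁).subtype)
    have hcod := row_codim φ (by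
      intro y
      obtain ⟨x, rfl⟩ := U₂.mkQ_surjective y
      have hx : cst R ι x ∈ A.std U₁ := by
        rw [mem_std]
        refine ⟨?_, ?_⟩
        · rw [A.vco_cst, if_neg (by norm_num)]
          exact U₁.zero_mem
        · intro a ha
          rw [A.vco_cst, if_neg (by omega)]
      refine ⟨⟨cst R ι x, hx⟩, ?_⟩
      change U₂.mkQ (A.vco 0 (cst R ι x)) = _
      rw [A.vco_cst, if_pos rfl]) (K.comap f) (by
      intro x hx
      rw [LinearMap.mem_ker]
      change U₂.mkQ (A.vco 0 (x : ι → R)) = 0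
      rw [Submodule.mkQ_apply, Submodule.Quotient.mk_eq_zero]
      have h1 : (x : ι → R) ∈ A.KK (A.std U₂) := (hKmem _).1 hx
      exact ((mem_KK_std A hm U₂ _).1 h1).1)
    have hq := Submodule.finrank_quotient_add_finrank U₂
    rw [Module.finrank_fintype_fun_eq_card] at hq
    have hr2 := hcr U₂ hU₂
    have h1 := h p hp (↥(A.std U₁)) (ι → R) f hfi K (by omega) (by omega) j hj
    have h2 : {V : Submodule (ZMod p) (ι → R) | V ∈ PP A ι k ∧
        ∀ S ∈ c.image (fun U => (A.std U).map (gm p g.1)), V ≤ S ∧ V ⊓ A.KK S = ⊥} =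
        {V : Submodule (ZMod p) (ι → R) | V ≤ LinearMap.range f ∧ V ⊓ K = ⊥ ∧
          1 ≤ finrank (ZMod p) V ∧ finrank (ZMod p) V ≤ k + 2} := by
      ext V
      constructor
      · rintro ⟨⟨h3, h4, h5⟩, h6⟩
        refine ⟨?_, (h6 _ (Finset.mem_image_of_mem _ hU₂)).2, h4, h5⟩
        rw [hrange]
        exact (h6 _ (Finset.mem_image_of_mem _ hU₁)).1
      · rintro ⟨h3, h6, h4, h5⟩
        rw [hrange] at h3
        refine ⟨⟨?_, h4, h5⟩, ?_⟩
        · rw [eq_bot_iff]
          rintro v ⟨hv1, w, hw⟩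
          have h7 : v ∈ K := by
            obtain ⟨x, hx, rfl⟩ := h3 hv1
            rw [hKmem, mem_KK_std A hm]
            have hx' := (mem_std A U₁ x).1 hx
            -- `x` is divisible by `t`
            have h8 : A.vco 0 x = 0 := by
              have h11 : g.1 * (g⁻¹).1 = 1 := by
                rw [← Matrix.SpecialLinearGroup.coe_mul, mul_inv_cancel,
                  Matrix.SpecialLinearGroup.coe_one]
              have h10 : gm p g.1 (gm p (g⁻¹).1 w) = w := by
                rw [← gm_mul, h11]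
                exact Matrix.one_mulVec w
              have h9 : x = A.tl (gm p (g⁻¹).1 w) := by
                apply hgi
                rw [gm_tl, h10]
                exact hw.symm
              rw [h9]
              exact A.vco_tl_zero _
            refine ⟨?_, hmin' U₂ hU₂ hx'.1, hx'.2⟩
            rw [h8]
            exact U₂.zero_mem
          rw [← h6]
          exact ⟨hv1, h7⟩
        · intro S hS
          rw [Finset.mem_image] at hS
          obtain ⟨U, hU, rfl⟩ := hS
          refine ⟨h3.trans (Submodule.map_mono ((std_le_iff A (by omega) _ _).2 (hmin' U hU))), ?_⟩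
          rw [eq_bot_iff, ← h6]
          refine inf_le_inf le_rfl (KK_adj A (Submodule.map_mono
            ((std_le_iff A (by omega) _ _).2 (hmax' U hU))))
    rw [h2]
    exact h1

end P067X
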