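import Vale.Agent.P067X.CxBasic
import Vale.Agent.P067X.Iso
import Vale.Agent.P067X.StrDefs

/-!
# P067, auxiliary file for TRANSV, TRANSP: (a matrix in `SL`) ∘ (reindexing) is an isomorphism of the structures
-/

namespace P067X

open Classical Module

variable {p m : ℕ} [Fact p.Prime] {R : Type} [CommRing R] [Algebra (ZMod p) R]

namespace StrAux

section
variable {ι₁ ι₂ : Type} [Fintype ι₁] [DecidableEq ι₁] [Fintype ι₂] [DecidableEq ι₂]

/-- reindexing of matrices -/
def rx (e : ι₁ ≃ ι₂) (M : Matrix.SpecialLinearGroup ι₁ R) : Matrix.SpecialLinearGroup ι₂ R :=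
  ⟨M.1.submatrix e.symm e.symm, by rw [Matrix.det_submatrix_equiv_self]; exact M.2⟩

/-- reindexing of vectors -/
def rv (S : Type) [CommRing S] (e : ι₁ ≃ ι₂) : (ι₁ → S) ≃ₗ[S] (ι₂ → S) :=
  LinearEquiv.funCongrLeft S S e.symm

omit [Fintype ι₁] [DecidableEq ι₁] [Fintype ι₂] [DecidableEq ι₂] in
theorem rv_apply (S : Type) [CommRing S] (e : ι₁ ≃ ι₂) (v : ι₁ → S) (j : ι₂) :
    rv S e v j = v (e.symm j) := rfl

omit [DecidableEq ι₁] [DecidableEq ι₂] in
theorem rx_mulVec (e : ι₁ ≃ ι₂) (M : Matrix ι₁ ι₁ R) (v : ι₁ → R) :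
    (M.submatrix e.symm e.symm).mulVec (rv R e v) = rv R e (M.mulVec v) := by
  rw [Matrix.submatrix_mulVec_equiv]
  have h : rv R e v ∘ e.symm.symm = v := by
    funext i
    simp [rv_apply]
  rw [h]
  rfl

omit [DecidableEq ι₁] [DecidableEq ι₂] in
theorem mem_std_rv (A : TR p m R) (e : ι₁ ≃ ι₂) (U : Submodule (ZMod p) (ι₁ → ZMod p))
    (v : ι₁ → R) :
    rv R e v ∈ A.std (U.map (rv (ZMod p) e).toLinearMap) ↔ v ∈ A.std U := by
  have h1 : ∀ a, A.vco a (rv R e v) = rv (ZMod p) e (A.vco a v) := fun a => rfl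
  rw [mem_std, mem_std, h1]
  have h2 : rv (ZMod p) e (A.vco 1 v) ∈ U.map (rv (ZMod p) e).toLinearMap ↔ A.vco 1 v ∈ U := by
    constructor
    · rintro ⟨x, hx, hxe⟩
      rw [← (rv (ZMod p) e).injective hxe]
      exact hx
    · intro h
      exact ⟨_, h, rfl⟩
  rw [h2]
  refine and_congr_right fun _ => ?_
  refine forall_congr' fun a => forall_congr' fun _ => ?_
  rw [h1]
  exact LinearEquiv.map_eq_zero_iff _

/-- the image of `g₁ std U` -/
theorem map_std (A : TR p m R) (e : ι₁ ≃ ι₂) (g : Matrix.SpecialLinearGroup ι₂ R)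
    (Φ : (ι₁ → R) ≃ₗ[R] (ι₂ → R)) (hΦ : ∀ v, Φ v = g.1.mulVec (rv R e v))
    (g₁ : Matrix.SpecialLinearGroup ι₁ R) (U : Submodule (ZMod p) (ι₁ → ZMod p)) :
    ((A.std U).map (gm p g₁.1)).map (Φ.restrictScalars (ZMod p)).toLinearMap =
      (A.std (U.map (rv (ZMod p) e).toLinearMap)).map (gm p (g * rx e g₁).1) := by
  have key : ∀ v, Φ (g₁.1.mulVec v) = (g * rx e g₁).1.mulVec (rv R e v) := by
    intro v
    rw [hΦ, Matrix.SpecialLinearGroup.coe_mul, ← Matrix.mulVec_mulVec]
    congr 1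
    exact (rx_mulVec e g₁.1 v).symm
  ext x
  constructor
  · rintro ⟨_, ⟨v, hv, rfl⟩, rfl⟩
    exact ⟨rv R e v, (mem_std_rv A e U v).2 hv, (key v).symm⟩
  · rintro ⟨w, hw, rfl⟩
    obtain ⟨v, rfl⟩ := (rv R e).surjective w
    exact ⟨_, ⟨v, (mem_std_rv A e U v).1 hw, rfl⟩, key v⟩

theorem face (A : TR p m R) (e : ι₁ ≃ ι₂) (g : Matrix.SpecialLinearGroup ι₂ R)
    (Φ : (ι₁ → R) ≃ₗ[R] (ι₂ → R)) (hΦ : ∀ v, Φ v = g.1.mulVec (rv R e v))
    (g₁ : Matrix.SpecialLinearGroup ι₁ R)
    (c : Finset (Submodule (ZMod p) (ι₁ → ZMod p))) :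
    (c.image (fun U => (A.std U).map (gm p g₁.1))).image
        (fun S => S.map (Φ.restrictScalars (ZMod p)).toLinearMap) =
      (c.image (fun U => U.map (rv (ZMod p) e).toLinearMap)).image
        (fun U => (A.std U).map (gm p (g * rx e g₁).1)) := by
  rw [Finset.image_image, Finset.image_image]
  refine Finset.image_congr fun U _ => ?_
  exact map_std A e g Φ hΦ g₁ U

theorem chain_map {F E E' : Type*} [Field F] [AddCommGroup E] [Module F E] [AddCommGroup E']
    [Module F E'] (f : E ≃ₗ[F] E') (c : Finset (Submodule F E)) (r : ℕ)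
    (h1 : IsChain (· ≤ ·) (c : Set (Submodule F E))) (h2 : ∀ U ∈ c, finrank F U ≤ r) :
    IsChain (· ≤ ·) ((c.image (fun U => U.map f.toLinearMap) : Finset (Submodule F E')) :
      Set (Submodule F E')) ∧
      ∀ U ∈ (c.image (fun U => U.map f.toLinearMap) : Finset (Submodule F E')),
        finrank F U ≤ r := by
  constructor
  · intro x hx y hy _
    obtain ⟨U, hU, rfl⟩ := Finset.mem_image.1 (Finset.mem_coe.1 hx)
    obtain ⟨W, hW, rfl⟩ := Finset.mem_image.1 (Finset.mem_coe.1 hy)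
    rcases h1.total hU hW with h | h
    · exact Or.inl (Submodule.map_mono h)
    · exact Or.inr (Submodule.map_mono h)
  · intro x hx
    obtain ⟨U, hU, rfl⟩ := Finset.mem_image.1 hx
    rw [LinearEquiv.finrank_map_eq f U]
    exact h2 U hU

/-- `Φ = g ∘ reindexing` is an isomorphism of the structures -/
theorem str_of (A : TR p m R) (e : ι₁ ≃ ι₂) (g : Matrix.SpecialLinearGroup ι₂ R)
    (Φ : (ι₁ → R) ≃ₗ[R] (ι₂ → R)) (hΦ : ∀ v, Φ v = g.1.mulVec (rv R e v)) : Str A Φ := by
  have hinj : Function.Injective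
      (fun S : Submodule (ZMod p) (ι₁ → R) => S.map (Φ.restrictScalars (ZMod p)).toLinearMap) :=
    Submodule.map_injective_of_injective (Φ.restrictScalars (ZMod p)).injective
  refine ⟨fun r => ?_, fun S => ?_⟩
  · have hfwd : ∀ σ ∈ A.XX ι₁ r,
        σ.image (fun S => S.map (Φ.restrictScalars (ZMod p)).toLinearMap) ∈ A.XX ι₂ r := by
      rintro σ ⟨g₁, c, h1, h2, rfl⟩
      obtain ⟨h3, h4⟩ := chain_map (rv (ZMod p) e) c r h1 h2
      exact ⟨g * rx e g₁, _, h3, h4, face A e g Φ hΦ g₁ c⟩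
    have hbwd : ∀ τ ∈ A.XX ι₂ r, ∃ σ ∈ A.XX ι₁ r,
        τ = σ.image (fun S => S.map (Φ.restrictScalars (ZMod p)).toLinearMap) := by
      rintro τ ⟨h, c, h1, h2, rfl⟩
      obtain ⟨h3, h4⟩ := chain_map (rv (ZMod p) e).symm c r h1 h2
      refine ⟨_, ⟨rx e.symm (g⁻¹ * h), _, h3, h4, rfl⟩, ?_⟩
      rw [face A e g Φ hΦ]
      have e1 : g * rx e (rx e.symm (g⁻¹ * h)) = h := by
        have e2 : rx e (rx e.symm (g⁻¹ * h)) = g⁻¹ * h := by
          apply Subtype.ext
          show ((g⁻¹ * h).1.submatrix e.symm.symm e.symm.symm).submatrix e.symm e.symm = _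
          rw [Matrix.submatrix_submatrix]
          simp
        rw [e2, mul_inv_cancel_left]
      rw [e1]
      have e3 : (c.image (fun U => U.map (rv (ZMod p) e).symm.toLinearMap)).image
          (fun U : Submodule (ZMod p) (ι₁ → ZMod p) => U.map (rv (ZMod p) e).toLinearMap)
          = c := by
        rw [Finset.image_image]
        conv_rhs => rw [← Finset.image_id (s := c)]
        refine Finset.image_congr fun U _ => ?_
        show (U.map (rv (ZMod p) e).symm.toLinearMap).map (rv (ZMod p) e).toLinearMap = U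
        rw [← Submodule.map_comp]
        have e4 : (rv (ZMod p) e).toLinearMap ∘ₗ (rv (ZMod p) e).symm.toLinearMap =
            LinearMap.id := by
          refine LinearMap.ext fun x => ?_
          simp
        rw [e4, Submodule.map_id]
      rw [e3]
    refine ⟨fun x y _ _ h => hinj h, fun σ _ => ⟨hfwd σ, fun h => ?_⟩, hbwd⟩
    obtain ⟨σ', h1, h2⟩ := hbwd _ h
    rw [Finset.image_injective hinj h2]
    exact h1
  · have htl : ∀ v, A.tl (Φ v) = Φ (A.tl v) := by
      intro v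
      have h1 : A.tl v = A.t • v := rfl
      have h2 : A.tl (Φ v) = A.t • Φ v := rfl
      rw [h1, h2, map_smul]
    have hmem : ∀ (S : Submodule (ZMod p) (ι₁ → R)) (v : ι₁ → R),
        Φ v ∈ S.map (Φ.restrictScalars (ZMod p)).toLinearMap ↔ v ∈ S := by
      intro S v
      constructor
      · rintro ⟨w, hw, hwv⟩
        rw [← Φ.injective hwv]
        exact hw
      · intro h
        exact ⟨v, h, rfl⟩
    have hlev : A.lev (S.map (Φ.restrictScalars (ZMod p)).toLinearMap) 0 =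
        (A.lev S 0).map (Φ.restrictScalars (ZMod p)).toLinearMap := by
      ext x
      obtain ⟨v, rfl⟩ := Φ.surjective x
      rw [hmem]
      rw [TR.lev, TR.lev, Submodule.mem_inf, Submodule.mem_inf, Submodule.mem_comap,
        Submodule.mem_comap, htl, hmem, hmem]
    unfold TR.KK
    rw [hlev, Submodule.map_sup, ← Submodule.map_comp, ← Submodule.map_comp]
    congr 2
    exact LinearMap.ext fun v => htl v

end

end StrAux

end P067X
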