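import Vale.Agent.P067X.Transport
import Vale.Agent.P067X.Generic
import Vale.Agent.P067X.Remove
import Vale.Agent.P067X.Homotopy

/-!
# P067, module TB: the buildings `{T | ¬ Γ ≤ T, ¬ T ≤ H₀}`

PROOF.  Induction on `k`.  `k = 0`: the line `F x`, `x ∉ H₀`, `x ∉ F γ₀` (`0 ≠ γ₀ ∈ Γ`) is a vertex (`fill_zero`).
Step: remove the hyperplanes `H` (`remove_all` with `P H = (finrank H + 1 = finrank E)`, `A = True`; the link of `H`
is the part below `H` (`Lk_OC`, nothing is above `H`), apply `fill_below` (`J = ⊤`) and the induction hypothesis).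
Then all `T` in the new cycle have `finrank T + 2 ≤ finrank E`, and `T ≤ T ⊔ l ≥ l` (`homotopy_up`) for
`l = F x`, `x` generic (`exists_generic`): `x ∉ H₀`, `x ∉ F γ₀`, `x ∉ T ⊔ F γ_T` for the `T` in the
cycle, where `γ_T ∈ Γ`, `γ_T ∉ T` (then `γ_T ∉ T ⊔ F x`).
-/

namespace P067X

open Classical Module

section tb_aux

variable {F E : Type*} [Field F] [AddCommGroup E] [Module F E]

theorem tb_mem (Γ H₀ T : Submodule F E) :
    T ∈ QF (⊤ : Submodule F E) 0 True Γ H₀ ↔ ¬ Γ ≤ T ∧ ¬ T ≤ H₀ := by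
  unfold QF
  simp

/-- exchange: `γ ∈ T ⊔ F x`, `γ ∉ T` gives `x ∈ T ⊔ F γ` -/
theorem tb_exchange (T : Submodule F E) (x γ : E) (h : γ ∈ T ⊔ F ∙ x) (hγ : γ ∉ T) :
    x ∈ T ⊔ F ∙ γ := by
  rw [Submodule.mem_sup] at h
  obtain ⟨t, ht, y, hy, hty⟩ := h
  rw [Submodule.mem_span_singleton] at hy
  obtain ⟨c, rfl⟩ := hy
  have hc : c ≠ 0 := by
    rintro rfl
    apply hγ
    rw [← hty]
    simpa using ht
  have hx : x = c⁻¹ • (γ - t) := by
    rw [← hty, add_sub_cancel_left, smul_smul, inv_mul_cancel₀ hc, one_smul]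
  rw [hx]
  refine Submodule.smul_mem _ _ (Submodule.sub_mem _ ?_ ?_)
  · exact Submodule.mem_sup_right (Submodule.mem_span_singleton_self γ)
  · exact Submodule.mem_sup_left ht

theorem tb_line (Γ H₀ : Submodule F E) (x γ : E) (hγ : γ ∈ Γ) (hγ0 : γ ≠ 0) (hx : x ∉ H₀)
    (hxγ : x ∉ (F ∙ γ : Submodule F E)) :
    (F ∙ x : Submodule F E) ∈ QF (⊤ : Submodule F E) 0 True Γ H₀ := by
  rw [tb_mem]
  refine ⟨fun h => ?_, fun h => hx (h (Submodule.mem_span_singleton_self x))⟩
  have h1 : γ ∈ (⊥ : Submodule F E) ⊔ F ∙ x := by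
    rw [bot_sup_eq]
    exact h hγ
  have h2 := tb_exchange ⊥ x γ h1 (by simpa using hγ0)
  rw [bot_sup_eq] at h2
  exact hxγ h2

theorem tb_span_ne_top [FiniteDimensional F E] (T : Submodule F E) (γ : E)
    (h : finrank F T + 2 ≤ finrank F E) : T ⊔ F ∙ γ ≠ ⊤ := by
  intro h1
  have h2 : finrank F (T ⊔ F ∙ γ : Submodule F E) ≤ finrank F T + finrank F (F ∙ γ) :=
    Submodule.finrank_add_le_finrank_add_finrank T (F ∙ γ)
  have h3 : finrank F (F ∙ γ : Submodule F E) ≤ 1 := by
    have := finrank_span_le_card (R := F) ({γ} : Set E)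
    simpa using this
  rw [h1, finrank_top] at h2
  omega

end tb_aux

theorem fill_TB (k M : ℕ) : ∃ p₀ M' : ℕ, ∀ (p : ℕ) [Fact p.Prime], p₀ ≤ p →
    ∀ (E : Type) [AddCommGroup E] [Module (ZMod p) E] [FiniteDimensional (ZMod p) E]
      (Γ H₀ : Submodule (ZMod p) E), Γ ≠ ⊥ → H₀ ≠ ⊤ → k + 2 ≤ finrank (ZMod p) E →
      Fill (OC (QF (⊤ : Submodule (ZMod p) E) 0 True Γ H₀)) k M M' := by
  induction k generalizing M with
  | zero =>
    refine ⟨2, 1, ?_⟩
    intro p _ hp E _ _ _ Γ H₀ hΓ hH₀ hE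
    obtain ⟨γ, hγ, hγ0⟩ := Submodule.exists_mem_ne_zero_of_ne_bot hΓ
    have hne : (ZMod p ∙ γ : Submodule (ZMod p) E) ≠ ⊤ := by
      have := tb_span_ne_top (⊥ : Submodule (ZMod p) E) γ (by
        rw [finrank_bot]; omega)
      rwa [bot_sup_eq] at this
    obtain ⟨x, hx0, hx⟩ := exists_generic p E {H₀, (ZMod p ∙ γ : Submodule (ZMod p) E)}
      (le_trans Finset.card_le_two hp) (by
        intro T hT
        rw [Finset.mem_insert, Finset.mem_singleton] at hT
        rcases hT with rfl | rfl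
        exacts [hH₀, hne])
    have hl := tb_line Γ H₀ x γ hγ hγ0 (hx H₀ (by simp)) (hx _ (by simp))
    refine fill_zero (ZMod p ∙ x : Submodule (ZMod p) E) ?_ M
    refine ⟨?_, ?_⟩
    · intro y hy
      rw [Finset.mem_singleton] at hy
      rw [hy]
      exact hl
    · rw [Finset.coe_singleton]
      exact IsChain.singleton
  | succ k ih =>
    obtain ⟨p₁, N, hN⟩ := ih M
    set M₂ : ℕ := M + (k + 1) * M * N with hM₂
    refine ⟨max p₁ (2 + M₂ * (k + 1)), ((2 * (k + 1) + 2) * M₂ + 1) + (k + 1) * M * N, ?_⟩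
    intro p _ hp E _ _ _ Γ H₀ hΓ hH₀ hE z hz hbz hzM
    have hp1 : p₁ ≤ p := le_trans (le_max_left _ _) hp
    have hp2 : 2 + M₂ * (k + 1) ≤ p := le_trans (le_max_right _ _) hp
    have hrem := remove_all (OC (QF (⊤ : Submodule (ZMod p) E) 0 True Γ H₀))
      (isCx_OC _) (fun H => finrank (ZMod p) H + 1 = finrank (ZMod p) E) (fun _ => True) k M N
      (by
        intro σ hσ x hx y hy hPx hPy
        by_contra hxy
        rcases hσ.2 (Finset.mem_coe.mpr hx) (Finset.mem_coe.mpr hy) hxy with h | h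
        · exact hxy (Submodule.eq_of_le_of_finrank_eq h (by omega))
        · exact hxy (Submodule.eq_of_le_of_finrank_eq h (by omega)).symm)
      (by
        intro H hH hPH _ y hy hby hyA hyM
        have hHQ : H ∈ QF (⊤ : Submodule (ZMod p) E) 0 True Γ H₀ :=
          hH.1 H (Finset.mem_singleton_self H)
        have hHQ' := (tb_mem Γ H₀ H).mp hHQ
        have hset : {T | T ∈ QF (⊤ : Submodule (ZMod p) E) 0 True Γ H₀ ∧ (T < H ∨ H < T)} =
            {T | T ∈ QF (⊤ : Submodule (ZMod p) E) 0 True Γ H₀ ∧ T < H} := by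
          ext T
          simp only [Set.mem_ofPred_eq]
          constructor
          · rintro ⟨h1, h2 | h2⟩
            · exact ⟨h1, h2⟩
            · exfalso
              have h3 := Submodule.finrank_lt_finrank_of_lt h2
              have h4 : T = ⊤ := Submodule.eq_top_of_finrank_eq (by
                have := Submodule.finrank_le T
                omega)
              exact ((tb_mem Γ H₀ T).mp h1).1 (h4 ▸ le_top)
          · rintro ⟨h1, h2⟩
            exact ⟨h1, Or.inl h2⟩
        have hlk := Lk_OC (QF (⊤ : Submodule (ZMod p) E) 0 True Γ H₀) H hHQ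
        rw [hset] at hlk
        have hnt : (⊤ : Submodule (ZMod p) H) ≠ ⊥ := by
          intro h
          have h1 : finrank (ZMod p) (⊤ : Submodule (ZMod p) H) = 0 := by
            rw [h, finrank_bot]
          rw [finrank_top] at h1
          omega
        have hcm : H₀.comap H.subtype ≠ ⊤ := by
          intro h
          rw [Submodule.comap_subtype_eq_top] at h
          exact hHQ'.2 h
        have hF := hN p hp1 H ⊤ (H₀.comap H.subtype) hnt hcm (by omega)
        have hF2 := fill_below (F := ZMod p) (E := E) ⊤ H Γ H₀ 0 True (fun _ => by simp)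
          hHQ'.1 (k := k) (M := M) (M' := N) (by
            rw [Submodule.comap_top]
            exact hF)
        rw [hlk] at hy ⊢
        obtain ⟨c, hc1, hc2, hc3⟩ := hF2 y hy hby hyM
        refine ⟨c, hc1, hc2, hc3, ?_⟩
        intro σ hσ v hv
        refine ⟨trivial, ?_⟩
        have h1 := (hc1 σ hσ).1.1 v hv
        have h2 := Submodule.finrank_lt_finrank_of_lt h1.2
        omega)
      z hz hbz hzM (fun _ _ _ _ => trivial)
    obtain ⟨z', e, hz', he, hzz, hbz', hz'M, heM, hz'P⟩ := hrem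
    -- the subspaces in `z'`
    set W : Finset (Submodule (ZMod p) E) := z'.support.biUnion id with hW
    have hWmem : ∀ σ ∈ z'.support, ∀ T ∈ σ, T ∈ W := by
      intro σ hσ T hT
      rw [hW, Finset.mem_biUnion]
      exact ⟨σ, hσ, hT⟩
    have hWQ : ∀ T ∈ W, T ∈ QF (⊤ : Submodule (ZMod p) E) 0 True Γ H₀ ∧
        finrank (ZMod p) T + 2 ≤ finrank (ZMod p) E := by
      intro T hT
      rw [hW, Finset.mem_biUnion] at hT
      obtain ⟨σ, hσ, hTσ⟩ := hT
      have h1 := (hz' σ hσ).1.1 T hTσ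
      refine ⟨h1, ?_⟩
      have h2 := (hz'P σ hσ T hTσ).2
      have h3 : T ≠ ⊤ := by
        rintro rfl
        exact ((tb_mem Γ H₀ _).mp h1).1 le_top
      have h4 : finrank (ZMod p) T < finrank (ZMod p) E :=
        Submodule.finrank_lt h3
      omega
    have hWcard : W.card ≤ M₂ * (k + 1) := by
      have h1 : W.card ≤ ∑ σ ∈ z'.support, (id σ : Finset (Submodule (ZMod p) E)).card :=
        Finset.card_biUnion_le
      have h2 : ∑ σ ∈ z'.support, (id σ : Finset (Submodule (ZMod p) E)).card =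
          z'.support.card * (k + 1) := by
        rw [Finset.sum_congr rfl (fun σ hσ => by
          show (id σ).card = k + 1
          exact (hz' σ hσ).2), Finset.sum_const, smul_eq_mul]
      rw [h2] at h1
      exact le_trans h1 (Nat.mul_le_mul_right _ hz'M)
    -- vectors in `Γ` outside `T`
    have hγT : ∀ T ∈ W, ∃ γ ∈ Γ, γ ∉ T := by
      intro T hT
      have h1 := ((tb_mem Γ H₀ T).mp (hWQ T hT).1).1
      exact SetLike.not_le_iff_exists.mp h1
    choose! g hg using hγT
    obtain ⟨γ, hγ, hγ0⟩ := Submodule.exists_mem_ne_zero_of_ne_bot hΓ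
    have hne : (ZMod p ∙ γ : Submodule (ZMod p) E) ≠ ⊤ := by
      have := tb_span_ne_top (⊥ : Submodule (ZMod p) E) γ (by
        rw [finrank_bot]; omega)
      rwa [bot_sup_eq] at this
    obtain ⟨x, hx0, hx⟩ := exists_generic p E
      (insert H₀ (insert (ZMod p ∙ γ : Submodule (ZMod p) E)
        (W.image (fun T => T ⊔ ZMod p ∙ g T)))) (by
        refine le_trans (Finset.card_insert_le _ _) ?_
        have h1 := Finset.card_insert_le (ZMod p ∙ γ : Submodule (ZMod p) E)
          (W.image (fun T => T ⊔ ZMod p ∙ g T))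
        have h2 : (W.image (fun T => T ⊔ ZMod p ∙ g T)).card ≤ W.card := Finset.card_image_le
        omega) (by
        intro T hT
        rw [Finset.mem_insert, Finset.mem_insert, Finset.mem_image] at hT
        rcases hT with rfl | rfl | ⟨T', hT', rfl⟩
        · exact hH₀
        · exact hne
        · exact tb_span_ne_top T' (g T') (hWQ T' hT').2)
    have hxH : x ∉ H₀ := hx H₀ (Finset.mem_insert_self _ _)
    have hxγ : x ∉ (ZMod p ∙ γ : Submodule (ZMod p) E) :=
      hx _ (Finset.mem_insert_of_mem (Finset.mem_insert_self _ _))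
    have hxT : ∀ T ∈ W, x ∉ T ⊔ ZMod p ∙ g T := fun T hT =>
      hx _ (Finset.mem_insert_of_mem (Finset.mem_insert_of_mem (Finset.mem_image_of_mem _ hT)))
    obtain ⟨c, hc1, hc2, hc3⟩ := homotopy_up (QF (⊤ : Submodule (ZMod p) E) 0 True Γ H₀)
      (fun T => T ⊔ ZMod p ∙ x) (ZMod p ∙ x) (tb_line Γ H₀ x γ hγ hγ0 hxH hxγ) (k + 1) z' hz'
      hbz' (fun _ _ _ _ _ _ _ _ h => sup_le_sup_right h _) (by
        intro σ hσ T hT
        have hTW := hWmem σ hσ T hT
        refine ⟨le_sup_left, ?_, le_sup_right⟩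
        rw [tb_mem]
        refine ⟨fun h => ?_, fun h => ?_⟩
        · exact hxT T hTW (tb_exchange T x (g T) (h (hg T hTW).1) (hg T hTW).2)
        · exact hxH (h (Submodule.mem_sup_right (Submodule.mem_span_singleton_self x))))
    refine ⟨c + e, hc1.add he, ?_, ?_⟩
    · rw [map_add, hc2]
      exact hzz.symm
    · refine le_trans (Finset.card_le_card Finsupp.support_add)
        (le_trans (Finset.card_union_le _ _) ?_)
      refine Nat.add_le_add (le_trans hc3 ?_) heM
      exact Nat.add_le_add_right (Nat.mul_le_mul_left _ hz'M) 1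

end P067X
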