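import Vale.Agent.P067X.XDefs
import Mathlib.RingTheory.Polynomial.Basic

/-!
# P067, module TRINST: the ring `F[t]/t^m` exists
-/

namespace P067X

open Polynomial

/-- the ideal generated by `X ^ m` -/
noncomputable abbrev trI (p m : ℕ) : Ideal (ZMod p)[X] := Ideal.span {(X : (ZMod p)[X]) ^ m}

theorem trI_coeff (p m a : ℕ) (ha : a < m) (f : (ZMod p)[X]) (hf : f ∈ trI p m) :
    f.coeff a = 0 := by
  rw [Ideal.mem_span_singleton, Polynomial.X_pow_dvd_iff] at hf
  exact hf a ha

theorem trI_le (p m a : ℕ) (ha : a < m) :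
    (trI p m).toAddSubgroup ≤ (Polynomial.lcoeff (ZMod p) a).toAddMonoidHom.ker := by
  intro f hf
  rw [AddMonoidHom.mem_ker]
  exact trI_coeff p m a ha f hf

/-- the coefficients -/
noncomputable def trCo (p m a : ℕ) : ((ZMod p)[X] ⧸ trI p m) →+ ZMod p :=
  if h : a < m then
    QuotientAddGroup.lift (trI p m).toAddSubgroup (Polynomial.lcoeff (ZMod p) a).toAddMonoidHom
      (trI_le p m a h)
  else 0

theorem trCo_mk (p m a : ℕ) (ha : a < m) (f : (ZMod p)[X]) :
    trCo p m a (Ideal.Quotient.mk (trI p m) f) = f.coeff a := by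
  have h : trCo p m a = QuotientAddGroup.lift (trI p m).toAddSubgroup
      (Polynomial.lcoeff (ZMod p) a).toAddMonoidHom (trI_le p m a ha) := dif_pos ha
  rw [h]
  rfl

theorem trCo_ge (p m a : ℕ) (ha : m ≤ a) (x : (ZMod p)[X] ⧸ trI p m) :
    trCo p m a x = 0 := by
  have h : trCo p m a = 0 := dif_neg (not_lt.mpr ha)
  rw [h]
  rfl

theorem exists_TR (p m : ℕ) [Fact p.Prime] (hm : 1 ≤ m) :
    ∃ (R : Type) (_ : CommRing R) (_ : Algebra (ZMod p) R), Nonempty (TR p m R) := by
  refine ⟨(ZMod p)[X] ⧸ trI p m, inferInstance, inferInstance, ⟨?_⟩⟩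
  refine
    { t := Ideal.Quotient.mk (trI p m) X
      co := fun a => (trCo p m a).toZModLinearMap p
      ext := ?_
      co_ge := fun a x ha => trCo_ge p m a ha x
      co_one := ?_
      co_t := ?_
      co_t_zero := ?_
      surj := ?_ }
  · intro x y h
    obtain ⟨f, rfl⟩ := Ideal.Quotient.mk_surjective x
    obtain ⟨g, rfl⟩ := Ideal.Quotient.mk_surjective y
    rw [Ideal.Quotient.eq, Ideal.mem_span_singleton, Polynomial.X_pow_dvd_iff]
    intro d hd
    have h1 := h d
    simp only [AddMonoidHom.coe_toZModLinearMap, trCo_mk p m d hd] at h1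
    rw [Polynomial.coeff_sub, h1, sub_self]
  · intro a
    show trCo p m a (1 : (ZMod p)[X] ⧸ trI p m) = _
    rcases lt_or_ge a m with h | h
    · have := trCo_mk p m a h 1
      rw [map_one] at this
      rw [this, Polynomial.coeff_one]
    · rw [trCo_ge p m a h, if_neg (by omega)]
  · intro a x
    show trCo p m (a+1) (Ideal.Quotient.mk (trI p m) X * x) = if a + 1 < m then trCo p m a x else 0
    obtain ⟨f, rfl⟩ := Ideal.Quotient.mk_surjective x
    split_ifs with h
    · rw [← map_mul, trCo_mk p m _ h, trCo_mk p m a (by omega), Polynomial.coeff_X_mul]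
    · exact trCo_ge p m _ (by omega) _
  · intro x
    show trCo p m 0 (Ideal.Quotient.mk (trI p m) X * x) = 0
    obtain ⟨f, rfl⟩ := Ideal.Quotient.mk_surjective x
    rw [← map_mul, trCo_mk p m _ (by omega)]
    simp
  · intro f
    refine ⟨Ideal.Quotient.mk (trI p m) (∑ i ∈ Finset.range m, Polynomial.monomial i (f i)), ?_⟩
    intro a ha
    show trCo p m a _ = _
    rw [trCo_mk p m a ha, Polynomial.finsetSum_coeff]
    simp only [Polynomial.coeff_monomial]
    rw [Finset.sum_ite_eq' (Finset.range m) a f]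
    simp [ha]

end P067X
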