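import Vale.Agent.P067X.StrLem

/-!
# P067, auxiliary file for TRANSV, TRANSP: matrices with prescribed columns
-/

namespace P067X

open Classical Module

variable {p m : ℕ} [Fact p.Prime] {R : Type} [CommRing R] [Algebra (ZMod p) R]

namespace StrAux

section
variable {ι κ : Type} [Fintype ι] [DecidableEq ι] [Fintype κ]

/-- the reduction -/
def red (A : TR p m R) : R →+* ZMod p where
  toFun := A.co 0
  map_one' := by rw [A.co_one]; simp
  map_mul' := A.co_zero_mul
  map_zero' := map_zero _
  map_add' := map_add _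

omit [DecidableEq ι] in
theorem ext_li (w : κ → ι → ZMod p) (hw : LinearIndependent (ZMod p) w) (b : ℕ)
    (hb : Fintype.card κ + b = Fintype.card ι) :
    ∃ w' : Fin b → ι → ZMod p, LinearIndependent (ZMod p) (Sum.elim w w') := by
  obtain ⟨C, hC⟩ := (Submodule.span (ZMod p) (Set.range w)).exists_isCompl
  have h1 : finrank (ZMod p) (Submodule.span (ZMod p) (Set.range w)) = Fintype.card κ :=
    finrank_span_eq_card hw
  have h2 := Submodule.finrank_add_eq_of_isCompl hC
  rw [h1, Module.finrank_fintype_fun_eq_card] at h2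
  have h3 : finrank (ZMod p) C = b := by omega
  let bC := Module.finBasisOfFinrankEq (ZMod p) C h3
  refine ⟨fun j => (bC j : ι → ZMod p), ?_⟩
  refine LinearIndependent.sum_type hw ?_ ?_
  · exact bC.linearIndependent.map' C.subtype (Submodule.ker_subtype C)
  · refine hC.disjoint.mono_right ?_
    rw [Submodule.span_le]
    rintro _ ⟨j, rfl⟩
    exact (bC j).2

/-- the matrix with given columns -/
def cols (e : κ ≃ ι) (col : κ → ι → R) : Matrix ι ι R := fun i j => col (e.symm j) i

omit [Fintype κ] in
theorem cols_det (A : TR p m R) (e : κ ≃ ι) (col : κ → ι → R)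
    (h : LinearIndependent (ZMod p) (fun k => A.vco 0 (col k))) : IsUnit (cols e col).det := by
  rw [A.isUnit_iff]
  have h1 : A.co 0 (cols e col).det = red A (cols e col).det := rfl
  rw [h1, RingHom.map_det]
  have h2 : LinearIndependent (ZMod p) (fun j => A.vco 0 (col (e.symm j))) :=
    h.comp e.symm e.symm.injective
  have h3 : IsUnit ((red A).mapMatrix (cols e col)).transpose := by
    rw [← Matrix.linearIndependent_rows_iff_isUnit]
    exact h2
  have h4 := (Matrix.isUnit_iff_isUnit_det _).1 h3
  rw [Matrix.det_transpose] at h4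
  exact h4.ne_zero

omit [Fintype κ] in
theorem cols_mulVec (e : κ ≃ ι) [DecidableEq κ] (col : κ → ι → R) (k : κ) :
    (cols e col).mulVec (Pi.single (e k) 1) = col k := by
  rw [Matrix.mulVec_single_one]
  funext i
  show col (e.symm (e k)) i = _
  rw [e.symm_apply_apply]

/-- a matrix in `SL` with given columns, one of them scaled -/
theorem sl_of_cols (A : TR p m R) (e : κ ≃ ι) (col : κ → ι → R) (k₀ : κ)
    (h : LinearIndependent (ZMod p) (fun k => A.vco 0 (col k))) :
    ∃ g : Matrix.SpecialLinearGroup ι R, ∀ k, k ≠ k₀ →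
      g.1.mulVec (Pi.single (e k) 1) = col k := by
  obtain ⟨u, hu⟩ := cols_det A e col h
  let M' : Matrix ι ι R := (cols e col).updateCol (e k₀)
    ((↑u⁻¹ : R) • fun i => cols e col i (e k₀))
  have hdet : M'.det = 1 := by
    show ((cols e col).updateCol (e k₀) ((↑u⁻¹ : R) • fun i => cols e col i (e k₀))).det = 1
    rw [Matrix.det_updateCol_smul, Matrix.updateCol_eq_self, ← hu, Units.inv_mul]
  refine ⟨⟨M', hdet⟩, fun k hk => ?_⟩
  show M'.mulVec _ = _
  rw [Matrix.mulVec_single_one]
  funext i
  have h1 : e k ≠ e k₀ := fun h => hk (e.injective h)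
  show M' i (e k) = _
  show (cols e col).updateCol (e k₀) _ i (e k) = _
  rw [Matrix.updateCol_ne h1]
  show col (e.symm (e k)) i = _
  rw [e.symm_apply_apply]

theorem rv_single {ι₁ ι₂ : Type} [DecidableEq ι₁] [DecidableEq ι₂] (e : ι₁ ≃ ι₂) (k : ι₁)
    (x : R) : rv R e (Pi.single k x) = Pi.single (e k) x := by
  funext j
  rw [rv_apply]
  by_cases h : e.symm j = k
  · have h2 : j = e k := by rw [← h, e.apply_symm_apply]
    rw [h, h2, Pi.single_eq_same, Pi.single_eq_same]
  · have h2 : j ≠ e k := fun h3 => h (by rw [h3, e.symm_apply_apply])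
    rw [Pi.single_eq_of_ne h, Pi.single_eq_of_ne h2]

/-- the linear equivalence -/
noncomputable def eqv {ι₁ : Type} (e : ι₁ ≃ ι) (g : Matrix.SpecialLinearGroup ι R) :
    (ι₁ → R) ≃ₗ[R] (ι → R) :=
  (rv R e).trans (Matrix.SpecialLinearGroup.toLin' g)

theorem eqv_apply {ι₁ : Type} (e : ι₁ ≃ ι) (g : Matrix.SpecialLinearGroup ι R) (v : ι₁ → R) :
    eqv e g v = g.1.mulVec (rv R e v) := rfl

theorem eqv_single {ι₁ : Type} [DecidableEq ι₁] (e : ι₁ ≃ ι)
    (g : Matrix.SpecialLinearGroup ι R) (k : ι₁) :
    eqv e g (Pi.single k 1) = g.1.mulVec (Pi.single (e k) 1) := by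
  rw [eqv_apply, rv_single]

/-- `VV` is spanned by the first unit vectors -/
theorem VV_span {κ ι : Type} [Fintype κ] [DecidableEq κ] [DecidableEq ι] :
    VV (p := p) R κ ι = Submodule.span (ZMod p)
      (Set.range fun k : κ => (Pi.single (Sum.inl k) 1 : κ ⊕ ι → R)) := by
  apply le_antisymm
  · rintro v ⟨h1, h2⟩
    choose c hc using h1
    have h3 : v = ∑ k : κ, c k • (Pi.single (Sum.inl k) 1 : κ ⊕ ι → R) := by
      funext x
      rw [Finset.sum_apply]
      rcases x with k | i
      · rw [Finset.sum_eq_single k]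
        · rw [Pi.smul_apply, Pi.single_eq_same, hc, Algebra.smul_def, mul_one]
        · intro k' _ hk
          rw [Pi.smul_apply, Pi.single_eq_of_ne (fun h => hk (Sum.inl_injective h).symm),
            smul_zero]
        · intro h
          exact absurd (Finset.mem_univ k) h
      · rw [h2 i]
        symm
        refine Finset.sum_eq_zero fun k _ => ?_
        rw [Pi.smul_apply, Pi.single_eq_of_ne (by simp), smul_zero]
    rw [h3]
    exact Submodule.sum_mem _ fun k _ => Submodule.smul_mem _ _
      (Submodule.subset_span ⟨k, rfl⟩)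
  · rw [Submodule.span_le]
    rintro _ ⟨k, rfl⟩
    refine ⟨fun k' => ?_, fun i => Pi.single_eq_of_ne (by simp) _⟩
    show ∃ c : ZMod p, (Pi.single (Sum.inl k) 1 : κ ⊕ ι → R) (Sum.inl k') =
      algebraMap (ZMod p) R c
    by_cases h : k' = k
    · exact ⟨1, by rw [h, Pi.single_eq_same, map_one]⟩
    · exact ⟨0, by
        rw [Pi.single_eq_of_ne (fun h' => h (Sum.inl_injective h')), map_zero]⟩

end

end StrAux

end P067X
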