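import Vale.Agent.P067X.CxBasic
import Vale.Agent.P067X.Iso
import Vale.Agent.P067X.StrDefs
import Vale.Agent.P067X.TrCols

/-!
# P067, module TRANSP: transitivity of `SL` on pairs `(v, ξ)`

PROOF.  `Φ` = (a matrix `g ∈ SL_ι(R)`) ∘ (reindexing along a bijection of index types).  For a constant-coefficient-independent family
(`V ⊓ t R^ι = ⊥`): lift the reductions to a basis; a square matrix over `R` whose reduction is invertible is invertible (`TR.isUnit_iff` for
the determinant), and one of the remaining columns can be scaled to get determinant `1`.  For the pair: take `v` as the first column, and a basis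
of `ker ξ` (free, since `R^ι = R v ⊕ ker ξ`; or: start from any `g ∈ SL` with `g e = v`, then `ξ ∘ g = (1, η)` and multiply on the right by the
transvection `e_j ↦ e_j - η_j e`).
-/

namespace P067X

open Classical Module

variable {p m : ℕ} [Fact p.Prime] {R : Type} [CommRing R] [Algebra (ZMod p) R]
  {ι : Type} [Fintype ι] [DecidableEq ι]

open StrAux in
theorem trans_pair (A : TR p m R) (hm : 3 ≤ m) (v : ι → R) (ξ : (ι → R) →ₗ[R] R)
    (h : ξ v = 1) (b : ℕ) (hb : 1 + b = Fintype.card ι) (hb0 : 0 < b) :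
    ∃ Φ : (Unit ⊕ Fin b → R) ≃ₗ[R] (ι → R), Str A Φ ∧
      Φ (Pi.single (Sum.inl ()) 1) = v ∧ (∀ w, ξ (Φ w) = xi0 R (Fin b) w) ∧
      (VV R Unit (Fin b)).map (Φ.restrictScalars (ZMod p)).toLinearMap =
        Submodule.span (ZMod p) {v} := by
  have hv0 : A.vco 0 v ≠ 0 := by
    intro h0
    obtain ⟨w, hw⟩ := A.exists_tl _ h0
    have h1 : v = A.t • w := hw
    have h2 : A.co 0 (ξ v) = 0 := by
      rw [h1, map_smul, smul_eq_mul, A.co_t_zero]
    rw [h, A.co_one, if_pos rfl] at h2
    exact one_ne_zero h2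
  have hli : LinearIndependent (ZMod p) (fun _ : Unit => A.vco 0 v) :=
    LinearIndependent.of_subsingleton () hv0
  obtain ⟨w', hw'⟩ := ext_li (fun _ : Unit => A.vco 0 v) hli b (by
    rw [Fintype.card_unit]; exact hb)
  let col : Unit ⊕ Fin b → ι → R := Sum.elim (fun _ => v) (fun j => cst R ι (w' j))
  have hcol : LinearIndependent (ZMod p) (fun k => A.vco 0 (col k)) := by
    have h1 : (fun k => A.vco 0 (col k)) = Sum.elim (fun _ : Unit => A.vco 0 v) w' := by
      funext k
      rcases k with i | j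
      · rfl
      · show A.vco 0 (cst R ι (w' j)) = w' j
        rw [A.vco_cst, if_pos rfl]
    rw [h1]
    exact hw'
  let e : Unit ⊕ Fin b ≃ ι := Fintype.equivOfCardEq (by
    rw [Fintype.card_sum, Fintype.card_fin, Fintype.card_unit]; exact hb)
  obtain ⟨g, hg⟩ := sl_of_cols A e col (Sum.inr ⟨0, hb0⟩) hcol
  obtain ⟨i₀, hi₀⟩ : ∃ i₀, i₀ = e (Sum.inl ()) := ⟨_, rfl⟩
  have hgv : g.1.mulVec (Pi.single i₀ 1) = v := by
    rw [hi₀]
    exact hg (Sum.inl ()) (by simp)
  -- the transvection
  let η : ι → R := fun k => if k = i₀ then 0 else -ξ (g.1.mulVec (Pi.single k 1))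
  let T : Matrix ι ι R := 1 + Matrix.replicateCol Unit (Pi.single i₀ 1 : ι → R) *
    Matrix.replicateRow Unit η
  have hT : T.det = 1 := by
    rw [Matrix.det_one_add_replicateCol_mul_replicateRow, dotProduct_single]
    simp [η]
  have hTk : ∀ k, T.mulVec (Pi.single k 1) = Pi.single k 1 + η k • Pi.single i₀ 1 := by
    intro k
    rw [Matrix.mulVec_single_one]
    funext i
    show ((1 : Matrix ι ι R) + Matrix.replicateCol Unit (Pi.single i₀ 1 : ι → R) *
      Matrix.replicateRow Unit η) i k = _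
    rw [Matrix.add_apply, Matrix.mul_apply]
    simp [Matrix.one_apply, Pi.single_apply, mul_comm]
  let g' : Matrix.SpecialLinearGroup ι R := g * ⟨T, hT⟩
  have hg' : ∀ k, g'.1.mulVec (Pi.single k 1) = g.1.mulVec (Pi.single k 1) + η k • v := by
    intro k
    show (g.1 * T).mulVec (Pi.single k 1) = _
    rw [← Matrix.mulVec_mulVec, hTk, Matrix.mulVec_add, Matrix.mulVec_smul, hgv]
  have hg0 : g'.1.mulVec (Pi.single i₀ 1) = v := by
    rw [hg', hgv]
    simp [η]
  have hval : ∀ k, ξ (g'.1.mulVec (Pi.single k 1)) = if k = i₀ then 1 else 0 := by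
    intro k
    split_ifs with hk
    · rw [hk, hg0, h]
    · rw [hg', map_add, map_smul, h, smul_eq_mul, mul_one]
      simp [η, hk]
  refine ⟨eqv e g', str_of A e g' _ (fun v => rfl), ?_, ?_, ?_⟩
  · rw [eqv_single, ← hi₀, hg0]
  · have h1 : ξ ∘ₗ (eqv e g').toLinearMap = xi0 R (Fin b) := by
      refine LinearMap.pi_ext' fun k => LinearMap.ext_ring ?_
      show ξ (eqv e g' (Pi.single k 1)) = (Pi.single k 1 : Unit ⊕ Fin b → R) (Sum.inl ())
      rw [eqv_single, hval]
      rcases k with u | j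
      · rw [if_pos (by rw [hi₀]), Pi.single_eq_same]
      · rw [if_neg, Pi.single_eq_of_ne (by simp)]
        rw [hi₀]
        intro h2
        exact absurd (e.injective h2) (by simp)
    intro w
    exact LinearMap.congr_fun h1 w
  · rw [VV_span, Submodule.map_span, ← Set.range_comp]
    congr 1
    ext x
    simp only [Set.mem_range, Set.mem_singleton_iff, Function.comp_apply]
    constructor
    · rintro ⟨_, rfl⟩
      show eqv e g' (Pi.single (Sum.inl ()) 1) = v
      rw [eqv_single, ← hi₀, hg0]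
    · rintro rfl
      refine ⟨(), ?_⟩
      show eqv e g' (Pi.single (Sum.inl ()) 1) = _
      rw [eqv_single, ← hi₀, hg0]

open StrAux in
/-- two vectors with independent constant coefficients have a common functional -/
theorem exists_xi (A : TR p m R) (v v' : ι → R)
    (h : LinearIndependent (ZMod p) ![A.vco 0 v, A.vco 0 v']) :
    ∃ ξ : (ι → R) →ₗ[R] R, ξ v = 1 ∧ ξ v' = 1 := by
  have hcard : 2 ≤ Fintype.card ι := by
    have h1 := h.fintype_card_le_finrank
    rw [Fintype.card_fin, Module.finrank_fintype_fun_eq_card] at h1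
    exact h1
  obtain ⟨b, hb⟩ := Nat.exists_eq_add_of_le hcard
  obtain ⟨w', hw'⟩ := ext_li ![A.vco 0 v, A.vco 0 v'] h b (by
    rw [Fintype.card_fin]; exact hb.symm)
  let col : Fin 2 ⊕ Fin b → ι → R := Sum.elim ![v, v'] (fun j => cst R ι (w' j))
  have hcol : LinearIndependent (ZMod p) (fun k => A.vco 0 (col k)) := by
    have h1 : (fun k => A.vco 0 (col k)) = Sum.elim ![A.vco 0 v, A.vco 0 v'] w' := by
      funext k
      rcases k with i | j
      · fin_cases i
        · rfl
        · rfl
      · show A.vco 0 (cst R ι (w' j)) = w' j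
        rw [A.vco_cst, if_pos rfl]
    rw [h1]
    exact hw'
  let e : Fin 2 ⊕ Fin b ≃ ι := Fintype.equivOfCardEq (by
    rw [Fintype.card_sum, Fintype.card_fin, Fintype.card_fin]; exact hb.symm)
  have hdet := cols_det A e col hcol
  let M := cols e col
  have hinv : ∀ k, (M⁻¹).mulVec (col k) = Pi.single (e k) 1 := by
    intro k
    rw [← cols_mulVec e col k, Matrix.mulVec_mulVec, Matrix.nonsing_inv_mul _ hdet,
      Matrix.one_mulVec]
  let ξ : (ι → R) →ₗ[R] R :=
    ((LinearMap.proj (e (Sum.inl 0)) : (ι → R) →ₗ[R] R) +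
      (LinearMap.proj (e (Sum.inl 1)) : (ι → R) →ₗ[R] R)) ∘ₗ Matrix.mulVecLin M⁻¹
  have hξ : ∀ w, ξ w = (M⁻¹).mulVec w (e (Sum.inl 0)) + (M⁻¹).mulVec w (e (Sum.inl 1)) :=
    fun w => rfl
  have hne : (e (Sum.inl 0) : ι) ≠ e (Sum.inl 1) := by
    intro h1
    have := e.injective h1
    simp at this
  refine ⟨ξ, ?_, ?_⟩
  · have h1 := hinv (Sum.inl 0)
    have h2 : col (Sum.inl 0) = v := rfl
    rw [h2] at h1
    rw [hξ, h1, Pi.single_eq_same, Pi.single_eq_of_ne hne.symm, add_zero]
  · have h1 := hinv (Sum.inl 1)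
    have h2 : col (Sum.inl 1) = v' := rfl
    rw [h2] at h1
    rw [hξ, h1, Pi.single_eq_same, Pi.single_eq_of_ne hne, zero_add]

end P067X
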