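import Vale.Agent.P067X.CxBasic
import Vale.Agent.P067X.Iso
import Vale.Agent.P067X.StrDefs
import Vale.Agent.P067X.TrCols

/-!
# P067, module TRANSV: transitivity of `SL` on subspaces `V`

PROOF.  `Φ` = (a matrix `g ∈ SL_ι(R)`) ∘ (reindexing along a bijection of index types).  For a constant-coefficient-independent family
(`V ⊓ t R^ι = ⊥`): lift the reductions to a basis; a square matrix over `R` whose reduction is invertible is invertible (`TR.isUnit_iff` for
the determinant), and one of the remaining columns can be scaled to get determinant `1`.  For the pair: take `v` as the first column, and a basis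
of `ker ξ` (free, since `R^ι = R v ⊕ ker ξ`; or: start from any `g ∈ SL` with `g e = v`, then `ξ ∘ g = (1, η)` and multiply on the right by the
transvection `e_j ↦ e_j - η_j e`).
-/

namespace P067X

open Classical Module

variable {p m : ℕ} [Fact p.Prime] {R : Type} [CommRing R] [Algebra (ZMod p) R]
  {ι : Type} [Fintype ι] [DecidableEq ι]

open StrAux in
theorem trans_V (A : TR p m R) (hm : 3 ≤ m) (V : Submodule (ZMod p) (ι → R))
    (hV : V ⊓ LinearMap.range A.tl = ⊥) (a b : ℕ) (ha : finrank (ZMod p) V = a)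
    (hb : a + b = Fintype.card ι) (hb0 : 0 < b) :
    ∃ Φ : (Fin a ⊕ Fin b → R) ≃ₗ[R] (ι → R), Str A Φ ∧
      (VV R (Fin a) (Fin b)).map (Φ.restrictScalars (ZMod p)).toLinearMap = V := by
  have hfin : Finite R := A.finiteR
  let bV := Module.finBasisOfFinrankEq (ZMod p) V ha
  let v : Fin a → ι → R := fun i => (bV i : ι → R)
  have hker : LinearMap.ker ((A.vco 0).comp V.subtype) = ⊥ := by
    rw [LinearMap.ker_eq_bot']
    intro x hx
    have h1 : A.vco 0 (x : ι → R) = 0 := hx
    obtain ⟨w, hw⟩ := A.exists_tl _ h1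
    have h2 : (x : ι → R) ∈ V ⊓ LinearMap.range A.tl := ⟨x.2, ⟨w, hw.symm⟩⟩
    rw [hV] at h2
    exact Subtype.ext ((Submodule.mem_bot _).1 h2)
  have hli : LinearIndependent (ZMod p) (fun i => A.vco 0 (v i)) := by
    have h1 := bV.linearIndependent.map' ((A.vco 0).comp V.subtype) hker
    exact h1
  obtain ⟨w', hw'⟩ := ext_li (fun i => A.vco 0 (v i)) hli b (by rw [Fintype.card_fin]; exact hb)
  let col : Fin a ⊕ Fin b → ι → R := Sum.elim v (fun j => cst R ι (w' j))
  have hcol : LinearIndependent (ZMod p) (fun k => A.vco 0 (col k)) := by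
    have h1 : (fun k => A.vco 0 (col k)) = Sum.elim (fun i => A.vco 0 (v i)) w' := by
      funext k
      rcases k with i | j
      · rfl
      · show A.vco 0 (cst R ι (w' j)) = w' j
        rw [A.vco_cst, if_pos rfl]
    rw [h1]
    exact hw'
  let e : Fin a ⊕ Fin b ≃ ι := Fintype.equivOfCardEq (by
    rw [Fintype.card_sum, Fintype.card_fin, Fintype.card_fin]; exact hb)
  obtain ⟨g, hg⟩ := sl_of_cols A e col (Sum.inr ⟨0, hb0⟩) hcol
  refine ⟨eqv e g, str_of A e g _ (fun v => rfl), ?_⟩
  rw [VV_span, Submodule.map_span, ← Set.range_comp]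
  have h1 : (⇑((eqv e g).restrictScalars (ZMod p)).toLinearMap ∘
      fun k : Fin a => (Pi.single (Sum.inl k) 1 : Fin a ⊕ Fin b → R)) = V.subtype ∘ bV := by
    funext i
    show eqv e g (Pi.single (Sum.inl i) 1) = v i
    rw [eqv_single]
    exact hg (Sum.inl i) (by simp)
  rw [h1, Set.range_comp, ← Submodule.map_span, bV.span_eq, Submodule.map_top,
    Submodule.range_subtype]

end P067X
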