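import Vale.Agent.P067X.ChainLib

/-!
# P067, module TRANSPORT: intervals of the family `QF` are members of the family again

PROOF.  Order isomorphisms `{T | T < H} ≃ {T' ≠ ⊤ in H}` (`Submodule.map H.subtype`) and
`{T' | T < T'} ≃ {S ≠ ⊥ in E ⧸ T}` (`Submodule.comap T.mkQ`), then `Fill.map`.  Modular law:
for `T ≤ H`, `H ⊔ J = ⊤`: `T ⊔ J = ⊤ ↔ T ⊔ (J ⊓ H) = H`; for `T ≤ T'`, `T ⊓ J = ⊥`:
`T'/T ⊓ (J ⊔ T)/T = ⊥ ↔ T' ⊓ J = ⊥`.
-/

namespace P067X

open Classical Module

theorem Lk_OC {α : Type*} [PartialOrder α] (P : Set α) (x : α) (hx : x ∈ P) :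
    Lk (OC P) {x} = OC {y | y ∈ P ∧ (y < x ∨ x < y)} := by
  ext t
  constructor
  · rintro ⟨hd, hmem, hch⟩
    rw [Finset.disjoint_singleton_left] at hd
    refine ⟨fun y hy => ⟨hmem y (Finset.mem_union_right _ hy), ?_⟩, ?_⟩
    · have hne : y ≠ x := fun h => hd (h ▸ hy)
      rcases hch (Finset.mem_coe.2 (Finset.mem_union_right _ hy))
        (Finset.mem_coe.2 (Finset.mem_union_left _ (Finset.mem_singleton_self x))) hne with h | h
      · exact Or.inl (lt_of_le_of_ne h hne)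
      · exact Or.inr (lt_of_le_of_ne h hne.symm)
    · refine hch.mono ?_
      intro y hy
      exact Finset.mem_coe.2 (Finset.mem_union_right _ (Finset.mem_coe.1 hy))
  · rintro ⟨hmem, hch⟩
    refine ⟨?_, ?_, ?_⟩
    · rw [Finset.disjoint_singleton_left]
      intro h
      rcases (hmem x h).2 with h1 | h1 <;> exact lt_irrefl _ h1
    · intro y hy
      rcases Finset.mem_union.1 hy with h | h
      · rw [Finset.mem_singleton] at h
        rw [h]
        exact hx
      · exact (hmem y h).1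
    · intro y hy z hz hne
      rw [Finset.mem_coe, Finset.mem_union, Finset.mem_singleton] at hy hz
      rcases hy with hy | hy
      · rcases hz with hz | hz
        · exact absurd (hy.trans hz.symm) hne
        · rcases (hmem z hz).2 with h1 | h1
          · right; rw [hy]; exact h1.le
          · left; rw [hy]; exact h1.le
      · rcases hz with hz | hz
        · rcases (hmem y hy).2 with h1 | h1
          · left; rw [hz]; exact h1.le
          · right; rw [hz]; exact h1.le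
        · exact hch (Finset.mem_coe.2 hy) (Finset.mem_coe.2 hz) hne

theorem Full_OC {α : Type*} [PartialOrder α] (P : Set α) (A : α → Prop) :
    Full (OC P) A = OC {y | y ∈ P ∧ A y} := by
  ext t
  constructor
  · rintro ⟨⟨h1, h2⟩, h3⟩
    exact ⟨fun y hy => ⟨h1 y hy, h3 y hy⟩, h2⟩
  · rintro ⟨h1, h2⟩
    exact ⟨⟨fun y hy => (h1 y hy).1, h2⟩, fun y hy => (h1 y hy).2⟩

/-- transport along an order isomorphism of subsets -/
theorem tr_fill {α β : Type*} [PartialOrder α] [PartialOrder β] {P : Set α} {Q : Set β}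
    (φ : α → β) (h1 : ∀ x ∈ P, φ x ∈ Q) (h2 : ∀ y ∈ Q, ∃ x ∈ P, φ x = y)
    (h3 : ∀ x y : α, φ x ≤ φ y ↔ x ≤ y) {k M M' : ℕ} (h : Fill (OC P) k M M') :
    Fill (OC Q) k M M' := by
  refine Fill.map φ ?_ ?_ ?_ (isCx_OC P) h
  · rintro σ ⟨hσ, hch⟩
    refine ⟨?_, ?_⟩
    · intro y hy
      rw [Finset.mem_image] at hy
      obtain ⟨x, hx, rfl⟩ := hy
      exact h1 x (hσ x hx)
    · intro y hy z hz hne
      rw [Finset.mem_coe, Finset.mem_image] at hy hz
      obtain ⟨x, hx, rfl⟩ := hy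
      obtain ⟨x', hx', rfl⟩ := hz
      have hne' : x ≠ x' := fun he => hne (by rw [he])
      rcases hch (Finset.mem_coe.2 hx) (Finset.mem_coe.2 hx') hne' with h4 | h4
      · exact Or.inl ((h3 x x').2 h4)
      · exact Or.inr ((h3 x' x).2 h4)
  · intro x y _ _ hxy
    exact le_antisymm ((h3 x y).1 hxy.le) ((h3 y x).1 hxy.ge)
  · rintro τ ⟨hτ, hch⟩
    rcases Finset.eq_empty_or_nonempty τ with he | ⟨y0, hy0⟩
    · exact ⟨∅, (isCx_OC P).1, by rw [he, Finset.image_empty]⟩
    have hne : Nonempty α := by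
      obtain ⟨x, -⟩ := h2 y0 (hτ y0 hy0)
      exact ⟨x⟩
    choose! ψ hψ1 hψ2 using h2
    refine ⟨τ.image ψ, ⟨?_, ?_⟩, ?_⟩
    · intro x hx
      rw [Finset.mem_image] at hx
      obtain ⟨y, hy, rfl⟩ := hx
      exact hψ1 y (hτ y hy)
    · intro x hx x' hx' hne
      rw [Finset.mem_coe, Finset.mem_image] at hx hx'
      obtain ⟨y, hy, rfl⟩ := hx
      obtain ⟨y', hy', rfl⟩ := hx'
      have hne' : y ≠ y' := fun he => hne (by rw [he])
      rcases hch (Finset.mem_coe.2 hy) (Finset.mem_coe.2 hy') hne' with h4 | h4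
      · left
        change ψ y ≤ ψ y'
        rw [← h3, hψ2 y (hτ y hy), hψ2 y' (hτ y' hy')]
        exact h4
      · right
        change ψ y' ≤ ψ y
        rw [← h3, hψ2 y (hτ y hy), hψ2 y' (hτ y' hy')]
        exact h4
    · rw [Finset.image_image]
      ext y
      rw [Finset.mem_image]
      constructor
      · intro hy
        exact ⟨y, hy, hψ2 y (hτ y hy)⟩
      · rintro ⟨y', hy', rfl⟩
        rw [Function.comp_apply, hψ2 y' (hτ y' hy')]
        exact hy'

variable {F E : Type} [Field F] [AddCommGroup E] [Module F E] [FiniteDimensional F E]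

omit [FiniteDimensional F E] in
theorem tr_below_fwd (J H Γ H₀ : Submodule F E) (s : ℕ) (b : Prop) (hJ : b → H ⊔ J = ⊤)
    (hΓ : ¬ Γ ≤ H) {T' : Submodule F H}
    (hT' : T' ∈ QF (J.comap H.subtype) s b ⊤ (H₀.comap H.subtype)) :
    T'.map H.subtype ∈ {T | T ∈ QF J s b Γ H₀ ∧ T < H} := by
  obtain ⟨h1, h2, h3⟩ := hT'
  have hle : T'.map H.subtype ≤ H := Submodule.map_subtype_le H T'
  refine ⟨⟨?_, ?_, ?_⟩, ?_⟩
  · rcases h1 with ⟨h4, h5⟩ | ⟨h4, h5⟩
    · left
      refine ⟨?_, ?_⟩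
      · rw [eq_bot_iff]
        rintro x ⟨⟨y, hy, rfl⟩, hxJ⟩
        have h6 : y ∈ T' ⊓ J.comap H.subtype := ⟨hy, hxJ⟩
        rw [h4, Submodule.mem_bot] at h6
        rw [h6]
        simp
      · rw [Submodule.finrank_map_subtype_eq]
        exact h5
    · right
      refine ⟨h4, ?_⟩
      rw [eq_top_iff, ← hJ h4]
      refine sup_le ?_ le_sup_right
      intro x hx
      have h6 : (⟨x, hx⟩ : H) ∈ T' ⊔ J.comap H.subtype := by
        rw [h5]
        trivial
      obtain ⟨y, hy, z, hz, hyz⟩ := Submodule.mem_sup.1 h6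
      refine Submodule.mem_sup.2 ⟨H.subtype y, ⟨y, hy, rfl⟩, H.subtype z, hz, ?_⟩
      rw [← map_add, hyz]
      rfl
  · intro h4
    exact hΓ (h4.trans hle)
  · intro h4
    exact h3 (Submodule.map_le_iff_le_comap.1 h4)
  · refine lt_of_le_of_ne hle fun he => h2 ?_
    intro x _
    have h4 : (x : E) ∈ T'.map H.subtype := by
      rw [he]
      exact x.2
    obtain ⟨y, hy, hyx⟩ := h4
    have h5 : y = x := Subtype.ext hyx
    rw [← h5]
    exact hy

omit [FiniteDimensional F E] in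
theorem tr_below_bwd (J H Γ H₀ : Submodule F E) (s : ℕ) (b : Prop) {T : Submodule F E}
    (hT : T ∈ {T | T ∈ QF J s b Γ H₀ ∧ T < H}) :
    T.comap H.subtype ∈ QF (J.comap H.subtype) s b ⊤ (H₀.comap H.subtype) ∧
      (T.comap H.subtype).map H.subtype = T := by
  obtain ⟨⟨h1, h2, h3⟩, h4⟩ := hT
  have hmap : (T.comap H.subtype).map H.subtype = T := by
    rw [Submodule.map_comap_subtype, inf_eq_right.2 h4.le]
  refine ⟨⟨?_, ?_, ?_⟩, hmap⟩
  · rcases h1 with ⟨h5, h6⟩ | ⟨h5, h6⟩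
    · left
      refine ⟨?_, ?_⟩
      · rw [eq_bot_iff]
        rintro x ⟨hx1, hx2⟩
        have h7 : (x : E) ∈ T ⊓ J := ⟨hx1, hx2⟩
        rw [h5, Submodule.mem_bot] at h7
        rw [Submodule.mem_bot]
        exact Subtype.ext h7
      · rw [← Submodule.finrank_map_subtype_eq H (T.comap H.subtype), hmap]
        exact h6
    · right
      refine ⟨h5, ?_⟩
      rw [eq_top_iff]
      intro x _
      have h7 : (x : E) ∈ T ⊔ J := by
        rw [h6]
        trivial
      obtain ⟨t, ht, j, hj, htj⟩ := Submodule.mem_sup.1 h7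
      have hj' : j ∈ H := by
        have : j = x - t := by rw [← htj]; abel
        rw [this]
        exact H.sub_mem x.2 (h4.le ht)
      refine Submodule.mem_sup.2 ⟨⟨t, h4.le ht⟩, ht, ⟨j, hj'⟩, hj, ?_⟩
      exact Subtype.ext htj
  · intro h5
    have h6 : T.comap H.subtype = ⊤ := eq_top_iff.2 h5
    rw [h6, Submodule.map_subtype_top] at hmap
    exact h4.ne hmap.symm
  · intro h5
    apply h3
    rw [← hmap]
    exact Submodule.map_le_iff_le_comap.2 h5

theorem fill_below (J H Γ H₀ : Submodule F E) (s : ℕ) (b : Prop) (hJ : b → H ⊔ J = ⊤)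
    (hΓ : ¬ Γ ≤ H) {k M M' : ℕ}
    (h : Fill (OC (QF (J.comap H.subtype) s b ⊤ (H₀.comap H.subtype))) k M M') :
    Fill (OC {T | T ∈ QF J s b Γ H₀ ∧ T < H}) k M M' := by
  refine tr_fill (Submodule.map H.subtype) ?_ ?_ ?_ h
  · intro T' hT'
    exact tr_below_fwd J H Γ H₀ s b hJ hΓ hT'
  · intro T hT
    obtain ⟨h1, h2⟩ := tr_below_bwd J H Γ H₀ s b hT
    exact ⟨_, h1, h2⟩
  · intro x y
    exact Submodule.map_le_map_iff_of_injective H.injective_subtype x y

omit [FiniteDimensional F E] in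
theorem tr_comap_le (T : Submodule F E) (S S' : Submodule F (E ⧸ T)) :
    S.comap T.mkQ ≤ S'.comap T.mkQ ↔ S ≤ S' :=
  Submodule.comap_le_comap_iff_of_surjective T.mkQ_surjective

omit [FiniteDimensional F E] in
theorem tr_lt (T : Submodule F E) {S : Submodule F (E ⧸ T)} (hS : ¬ S ≤ ⊥) :
    T < S.comap T.mkQ := by
  have h1 : (⊥ : Submodule F (E ⧸ T)).comap T.mkQ = T := by
    rw [Submodule.comap_bot, Submodule.ker_mkQ]
  refine lt_of_le_of_ne ?_ ?_
  · conv_lhs => rw [← h1]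
    exact Submodule.comap_mono bot_le
  · intro h2
    apply hS
    rw [← tr_comap_le, h1, ← h2]

omit [FiniteDimensional F E] in
theorem tr_comap_map {T T' : Submodule F E} (h : T ≤ T') :
    (T'.map T.mkQ).comap T.mkQ = T' := by
  rw [Submodule.comap_map_mkQ, sup_eq_right.2 h]

omit [FiniteDimensional F E] in
theorem tr_not_bot {T T' : Submodule F E} (h : T < T') : ¬ T'.map T.mkQ ≤ ⊥ := by
  intro h1
  rw [Submodule.map_le_iff_le_comap, Submodule.comap_bot, Submodule.ker_mkQ] at h1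
  exact h.not_ge h1

omit [FiniteDimensional F E] in
theorem tr_gamma {T T' Γ : Submodule F E} (h : T ≤ T') (h1 : ¬ Γ ≤ T') :
    ¬ Γ.map T.mkQ ≤ T'.map T.mkQ := by
  intro h2
  rw [Submodule.map_le_iff_le_comap, tr_comap_map h] at h2
  exact h1 h2

theorem tr_finrank (T : Submodule F E) (S : Submodule F (E ⧸ T)) :
    finrank F (S.comap T.mkQ) = finrank F S + finrank F T := by
  have h1 : T ≤ S.comap T.mkQ := by
    intro x hx
    rw [Submodule.mem_comap, Submodule.mkQ_apply, (Submodule.Quotient.mk_eq_zero T).2 hx]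
    exact S.zero_mem
  have h2 : (S.comap T.mkQ).map T.mkQ = S := Submodule.map_comap_eq_of_surjective T.mkQ_surjective S
  have h3 := LinearMap.finrank_range_add_finrank_ker (T.mkQ.comp (S.comap T.mkQ).subtype)
  have h4 : LinearMap.range (T.mkQ.comp (S.comap T.mkQ).subtype) = S := by
    rw [LinearMap.range_comp, Submodule.range_subtype, h2]
  have h5 : LinearMap.ker (T.mkQ.comp (S.comap T.mkQ).subtype) =
      T.comap (S.comap T.mkQ).subtype := by
    rw [LinearMap.ker_comp, Submodule.ker_mkQ]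
  rw [h4, h5] at h3
  have h6 : finrank F (T.comap (S.comap T.mkQ).subtype) = finrank F T := by
    rw [← Submodule.finrank_map_subtype_eq (S.comap T.mkQ) (T.comap (S.comap T.mkQ).subtype),
      Submodule.map_comap_subtype, inf_eq_right.2 h1]
  rw [h6] at h3
  exact h3.symm

theorem fill_above (J T Γ H₀ : Submodule F E) (s : ℕ) (b : Prop) (hT : T ⊓ J = ⊥)
    (hd : finrank F T ≤ s) (hH : ¬ T ≤ H₀) {k M M' : ℕ}
    (h : Fill (OC (QF (J.map T.mkQ) (s - finrank F T) b (Γ.map T.mkQ) ⊥)) k M M') :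
    Fill (OC {T' | T' ∈ QF J s b Γ H₀ ∧ T < T'}) k M M' := by
  refine tr_fill (Submodule.comap T.mkQ) ?_ ?_ (tr_comap_le T) h
  · rintro S ⟨h1, h2, h3⟩
    have hlt := tr_lt T h3
    refine ⟨⟨?_, ?_, ?_⟩, hlt⟩
    · rcases h1 with ⟨h4, h5⟩ | ⟨h4, h5⟩
      · left
        refine ⟨?_, ?_⟩
        · rw [eq_bot_iff]
          rintro x ⟨hx1, hx2⟩
          have h6 : T.mkQ x ∈ S ⊓ J.map T.mkQ := ⟨hx1, ⟨x, hx2, rfl⟩⟩
          rw [h4, Submodule.mem_bot, Submodule.mkQ_apply, Submodule.Quotient.mk_eq_zero] at h6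
          rw [← hT]
          exact ⟨h6, hx2⟩
        · rw [tr_finrank]
          omega
      · right
        refine ⟨h4, ?_⟩
        rw [eq_top_iff]
        intro x _
        have h6 : T.mkQ x ∈ S ⊔ J.map T.mkQ := by
          rw [h5]
          trivial
        obtain ⟨y, hy, z, ⟨j, hj, rfl⟩, hyz⟩ := Submodule.mem_sup.1 h6
        refine Submodule.mem_sup.2 ⟨x - j, ?_, j, hj, by abel⟩
        rw [Submodule.mem_comap, map_sub, ← hyz, add_sub_cancel_right]
        exact hy
    · intro h4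
      exact h2 (Submodule.map_le_iff_le_comap.2 h4)
    · intro h4
      exact hH (hlt.le.trans h4)
  · rintro T' ⟨⟨h1, h2, h3⟩, hlt⟩
    refine ⟨T'.map T.mkQ, ⟨?_, tr_gamma hlt.le h2, tr_not_bot hlt⟩, tr_comap_map hlt.le⟩
    rcases h1 with ⟨h4, h5⟩ | ⟨h4, h5⟩
    · left
      refine ⟨?_, ?_⟩
      · rw [eq_bot_iff]
        rintro y ⟨⟨t, ht, rfl⟩, ⟨j, hj, hjt⟩⟩
        have h6 : j - t ∈ T := by
          rw [← Submodule.Quotient.mk_eq_zero, ← Submodule.mkQ_apply, map_sub, hjt, sub_self]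
        have h7 : j ∈ T' := by
          have : j = (j - t) + t := by abel
          rw [this]
          exact T'.add_mem (hlt.le h6) ht
        have h8 : j ∈ T' ⊓ J := ⟨h7, hj⟩
        rw [h4, Submodule.mem_bot] at h8
        rw [Submodule.mem_bot, ← hjt, h8, map_zero]
      · have h6 := tr_finrank T (T'.map T.mkQ)
        rw [tr_comap_map hlt.le] at h6
        omega
    · right
      refine ⟨h4, ?_⟩
      rw [← Submodule.map_sup, h5, Submodule.map_top, Submodule.range_mkQ]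

theorem fill_above_top (J T Γ H₀ : Submodule F E) (s : ℕ) (hT : T ⊔ J = ⊤)
    (hH : ¬ T ≤ H₀) {k M M' : ℕ}
    (h : Fill (OC (QF ⊤ 0 True (Γ.map T.mkQ) ⊥)) k M M') :
    Fill (OC {T' | T' ∈ QF J s True Γ H₀ ∧ T < T'}) k M M' := by
  refine tr_fill (Submodule.comap T.mkQ) ?_ ?_ (tr_comap_le T) h
  · rintro S ⟨_, h2, h3⟩
    have hlt := tr_lt T h3
    refine ⟨⟨Or.inr ⟨trivial, ?_⟩, ?_, ?_⟩, hlt⟩
    · rw [eq_top_iff, ← hT]
      exact sup_le_sup_right hlt.le J
    · intro h4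
      exact h2 (Submodule.map_le_iff_le_comap.2 h4)
    · intro h4
      exact hH (hlt.le.trans h4)
  · rintro T' ⟨⟨_, h2, _⟩, hlt⟩
    exact ⟨T'.map T.mkQ, ⟨Or.inr ⟨trivial, sup_top_eq _⟩, tr_gamma hlt.le h2, tr_not_bot hlt⟩,
      tr_comap_map hlt.le⟩

end P067X
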