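import Vale.Agent.P067X.TransP
import Vale.Agent.P067X.RelV
import Vale.Agent.P067X.FibV

/-!
# P067, module TRIVXV: acyclicity of `X^V`; the kernels `N_v` do not depend on `v`; transvections act trivially

PROOF.
`colV`: `trans_V` (transport to `V = F^κ`), `avg_acyc` with `fibV`, `relV` and `Acyc (XX (Fin b) r) q`.
`cobdy_pair`: `trans_pair` transports to `v = e`, `ξ = xi0`: `Cobdy (X^e) k f ↔ Cobdy (section) k f` by `avg_section` (`fibV`, `relV`, and
restriction to the subcomplex), `↔ Cobdy (X^ξ) k f` by `avg_section` (`fibF`, `relF`); the sections agree (`lift_zero`).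
`cobdy_indep`: `v, v'` with independent constant coefficients have a common `ξ` (`exists_xi`); otherwise use a third vector
(`|ι| ≥ 2`, so there is one independent of both when `v_0, v'_0` are proportional).
`triv_XV`: for a transvection `x ↦ x + φ(x) v`, `φ(v) = 0`: transport by `trans_pair` (any `ξ` with `ξ v = 1`) to `v = e`, then it is
`liftV q S ↦ liftV (q + q₀) S`: `avg_translate`.
-/

namespace P067X

open Classical Module

section aux

variable {p m : ℕ} [Fact p.Prime] {R : Type} [CommRing R] [Algebra (ZMod p) R]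

theorem tx_full
    (A : TR p m R) {ι₁ ι₂ : Type} [Fintype ι₁] [DecidableEq ι₁] [Fintype ι₂] [DecidableEq ι₂]
    (Φ : (ι₁ → R) ≃ₗ[R] (ι₂ → R)) (hΦ : Str A Φ) (r : ℕ) (W : Submodule (ZMod p) (ι₁ → R))
    (V : Submodule (ZMod p) (ι₂ → R))
    (hW : W.map (Φ.restrictScalars (ZMod p)).toLinearMap = V) :
    CxIso (A.XV ι₁ r W) (A.XV ι₂ r V)
      (fun S => S.map (Φ.restrictScalars (ZMod p)).toLinearMap) := by
  refine CxIso.full (hΦ.iso r) (isCx_XX A r) ?_
  intro S _
  have hinj : Function.Injective (Φ.restrictScalars (ZMod p)).toLinearMap :=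
    (Φ.restrictScalars (ZMod p)).injective
  show (W ≤ S ∧ W ⊓ A.KK S = ⊥) ↔
    (V ≤ S.map (Φ.restrictScalars (ZMod p)).toLinearMap ∧
      V ⊓ A.KK (S.map (Φ.restrictScalars (ZMod p)).toLinearMap) = ⊥)
  rw [hΦ.kk, ← hW, Submodule.map_le_map_iff_of_injective hinj, ← Submodule.map_inf _ hinj]
  exact and_congr_right fun _ => ⟨fun h => by rw [h, Submodule.map_bot],
    fun h => Submodule.map_injective_of_injective hinj (h.trans (Submodule.map_bot _).symm)⟩

theorem tx_transvection {ι : Type} [Fintype ι] [DecidableEq ι] (i j : ι) (c : R) (w : ι → R) :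
    gm p (Matrix.transvection i j c) w = w + (c * w j) • (Pi.single i 1 : ι → R) := by
  show (Matrix.transvection i j c).mulVec w = _
  rw [Matrix.transvection, Matrix.add_mulVec, Matrix.one_mulVec]
  congr 1
  funext l
  rw [Matrix.single_mulVec]
  by_cases h : l = i
  · subst h
    simp
  · simp [h]

/-- a functional on `R^(1 ⊕ b)` which vanishes on the first basis vector -/
theorem tx_functional {b : ℕ} (φ : (Unit ⊕ Fin b → R) →ₗ[R] R)
    (h : φ (Pi.single (Sum.inl ()) 1) = 0) (w : Unit ⊕ Fin b → R) :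
    φ w = Matrix.mulVec (fun (_ : Unit) (l : Fin b) => φ (Pi.single (Sum.inr l) 1))
      (fun l => w (Sum.inr l)) () := by
  have h1 : w = ∑ x, w x • (Pi.single x 1 : Unit ⊕ Fin b → R) := by
    funext y
    rw [Finset.sum_apply]
    simp [Pi.single_apply]
  conv_lhs => rw [h1]
  rw [map_sum, Fintype.sum_sum_type, Fintype.sum_unique]
  simp only [map_smul, smul_eq_mul]
  have h2 : φ (Pi.single (Sum.inl default) 1) = 0 := h
  rw [h2, mul_zero, zero_add]
  simp only [Matrix.mulVec, dotProduct]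
  exact Finset.sum_congr rfl fun l _ => mul_comm _ _

/-- the transvection on `R^(1 ⊕ b)` -/
def txT {b : ℕ} (q₀ : Matrix Unit (Fin b) R) (w : Unit ⊕ Fin b → R) : Unit ⊕ Fin b → R :=
  w + (q₀.mulVec (fun l => w (Sum.inr l)) ()) • (Pi.single (Sum.inl ()) 1 : Unit ⊕ Fin b → R)

theorem txT_inr {b : ℕ} (q₀ : Matrix Unit (Fin b) R) (w : Unit ⊕ Fin b → R) (l : Fin b) :
    txT q₀ w (Sum.inr l) = w (Sum.inr l) := by
  simp [txT]

theorem txT_inl {b : ℕ} (q₀ : Matrix Unit (Fin b) R) (w : Unit ⊕ Fin b → R) (l : Unit) :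
    txT q₀ w (Sum.inl l) = w (Sum.inl l) + q₀.mulVec (fun l => w (Sum.inr l)) l := by
  cases l
  simp [txT]

theorem txT_mem {b : ℕ} (q q₀ : Matrix Unit (Fin b) R) (S : Submodule (ZMod p) (Fin b → R))
    (w : Unit ⊕ Fin b → R) (hw : w ∈ liftV q S) : txT q₀ w ∈ liftV (q + q₀) S := by
  obtain ⟨h1, h2⟩ := hw
  refine ⟨?_, fun l => ?_⟩
  · simp only [txT_inr]
    exact h1
  · obtain ⟨c, hc⟩ := h2 l
    refine ⟨c, ?_⟩
    simp only [txT_inr, txT_inl]
    rw [Matrix.add_mulVec, Pi.add_apply, ← hc]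
    ring

theorem txT_neg {b : ℕ} (q₀ : Matrix Unit (Fin b) R) (w : Unit ⊕ Fin b → R) :
    txT q₀ (txT (-q₀) w) = w := by
  funext x
  rcases x with l | l
  · rw [txT_inl, txT_inl]
    simp only [txT_inr]
    rw [Matrix.neg_mulVec, Pi.neg_apply]
    ring
  · rw [txT_inr, txT_inr]

theorem txT_map {b : ℕ} (q q₀ : Matrix Unit (Fin b) R) (S : Submodule (ZMod p) (Fin b → R))
    (T : (Unit ⊕ Fin b → R) →ₗ[ZMod p] (Unit ⊕ Fin b → R)) (hT : ∀ w, T w = txT q₀ w) :
    (liftV q S).map T = liftV (q + q₀) S := by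
  apply le_antisymm
  · rintro _ ⟨w, hw, rfl⟩
    rw [hT]
    exact txT_mem q q₀ S w hw
  · intro w hw
    refine ⟨txT (-q₀) w, ?_, ?_⟩
    · have := txT_mem (q + q₀) (-q₀) S w hw
      rwa [add_neg_cancel_right] at this
    · rw [hT, txT_neg]

end aux

/-- elementary transvections act trivially on the cohomology of `X^v` -/
theorem triv_XV (k : ℕ) : ∃ p₀ : ℕ, ∀ (p : ℕ) [Fact p.Prime], p₀ ≤ p → ∀ (m : ℕ), 3 ≤ m →
    ∀ (R : Type) [CommRing R] [Algebra (ZMod p) R] (A : TR p m R)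
      (ι : Type) [Fintype ι] [DecidableEq ι] (r : ℕ), 2 * k + 2 ≤ r →
      r + k + 3 ≤ Fintype.card ι →
      ∀ (i j : ι), i ≠ j → ∀ (c : R), ∀ f, Cocyc (A.XX ι r) k f →
        Cobdy (A.XV ι r (Submodule.span (ZMod p) {Pi.single i 1})) k
          (fun τ => f τ + f (τ.image (fun S => S.map (gm p (Matrix.transvection i j c))))) := by
  obtain ⟨pV, hV⟩ := relV k
  refine ⟨pV + 3, ?_⟩
  intro p _ hp m hm R _ _ A ι _ _ r hr hrι i j hij c f hf
  obtain ⟨b, hb⟩ : ∃ b, 1 + b = Fintype.card ι := ⟨Fintype.card ι - 1, by omega⟩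
  have hb0 : 0 < b := by omega
  have : Nonempty (Fin b) := ⟨⟨0, hb0⟩⟩
  obtain ⟨Φ, hΦ, hΦe, -, hmap⟩ := trans_pair A hm (Pi.single i 1 : ι → R)
    (LinearMap.proj i) (by simp) b hb hb0
  have : Finite R := A.finiteR
  have : Fintype R := Fintype.ofFinite R
  have hfV := fibV A hm Unit (Fin b) r
  have hcx : IsCx (A.XX (Unit ⊕ Fin b) r) := isCx_XX A r
  have hisoV := tx_full A Φ hΦ r _ _ hmap
  rw [hisoV.cobdy (isCx_Full hcx _)]
  have hf' := ((hΦ.iso r).cocyc hcx f).1 hf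
  have hsubV : A.XV (Unit ⊕ Fin b) r (VV R Unit (Fin b)) ⊆ A.XX (Unit ⊕ Fin b) r :=
    fun σ hσ => hσ.1
  have hf'' : Cocyc (A.XV (Unit ⊕ Fin b) r (VV R Unit (Fin b))) k
      (fun σ => f (σ.image (fun S => S.map (Φ.restrictScalars (ZMod p)).toLinearMap))) :=
    fun ρ hρ hc => hf' ρ (hsubV hρ) hc
  set Φl : (Unit ⊕ Fin b → R) →ₗ[ZMod p] (ι → R) :=
    (Φ.restrictScalars (ZMod p)).toLinearMap with hΦl
  set T : (Unit ⊕ Fin b → R) →ₗ[ZMod p] (Unit ⊕ Fin b → R) :=
    (Φ.symm.restrictScalars (ZMod p)).toLinearMap ∘ₗ gm p (Matrix.transvection i j c) ∘ₗ Φl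
    with hT
  have hTΦ : Φl ∘ₗ T = gm p (Matrix.transvection i j c) ∘ₗ Φl := by
    refine LinearMap.ext fun w => ?_
    show Φ (Φ.symm _) = _
    rw [LinearEquiv.apply_symm_apply]
  -- the functional
  set φ : (Unit ⊕ Fin b → R) →ₗ[R] R := c • ((LinearMap.proj j) ∘ₗ Φ.toLinearMap) with hφ
  have hφa : ∀ w, φ w = c * (Φ w) j := fun w => rfl
  have hφe : φ (Pi.single (Sum.inl ()) 1) = 0 := by
    rw [hφa, hΦe, Pi.single_eq_of_ne (Ne.symm hij), mul_zero]
  set q₀ : Matrix Unit (Fin b) R := fun _ l => φ (Pi.single (Sum.inr l) 1) with hq₀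
  have hTw : ∀ w, T w = txT q₀ w := by
    intro w
    show Φ.symm (gm p (Matrix.transvection i j c) (Φ w)) = _
    rw [tx_transvection, map_add, map_smul, LinearEquiv.symm_apply_apply, ← hΦe,
      LinearEquiv.symm_apply_apply, ← hφa, tx_functional φ hφe w]
    rfl
  have : Fintype (Matrix Unit (Fin b) R) := Fintype.ofFinite _
  have key := avg_translate p (by omega) hfV k (fun η hη =>
    hV p (by omega) m hm R A Unit (Fin b) r hr (by simp only [Fintype.card_fin]; omega)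
      η hη k le_rfl) q₀ (fun S => S.map T)
    (fun q S _ => txT_map q q₀ S T hTw) _ hf''
  obtain ⟨g, hg⟩ := key
  refine ⟨g, fun σ hσ hc => ?_⟩
  rw [← hg σ hσ hc]
  simp only [Finset.image_image]
  congr 2
  refine Finset.image_congr fun S _ => ?_
  simp only [Function.comp_apply]
  rw [← Submodule.map_comp, ← Submodule.map_comp, hTΦ]

end P067X
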