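import Vale.Agent.P067X.ActTriv
import Vale.Agent.P067X.InvCob
import Vale.Agent.P067X.ColV

/-!
# P067, module VANISH: the cohomology of `XX` vanishes

PROOF.
`act_trivial`: let `f` be a cocycle on faces with `k` vertices, `g` a transvection; `f + g^* f` is a coboundary on `X^{e_i}` (`triv_XV`), hence on all `X^v` (`cobdy_indep`),
hence on all `X^V`, `V ∈ PP` (`V` contains a `v` with `v_0 ≠ 0`, `X^V ⊆ X^v`), hence on `XX` (`gen_XX`).  Products: `sl_gen_cong`.
`inv_cobdy`: for a cocycle `F` invariant under the congruence group: `ψ(σ) = 0` if `σ` has a vertex of type `0`, and otherwise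
`ψ(σ) = F(insert S₀ σ)` for any vertex `S₀` of type `0` with `insert S₀ σ` a face; this does not depend on `S₀`: two faces `ρ, ρ'` with the same
vertices of type `≠ 0` and both with a vertex of type `0` differ by an element of the congruence group (`TR.cong_decomp`, `std_map_const`: a face is `γ {std W_i}`,
`γ ∈ cong`, `W_i = {vco 0 v : v ∈ lev S_i 0}`).  Then `F = cob ψ`.
`vanish`: induction on `k`; `k = 0`: `XX` has a vertex.  `k ≥ 1`: `colV` (with the induction hypothesis) gives the hypothesis of `act_trivial`; for a cocycle `f`: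
`f ∼ |G| f ∼ ∑_{g ∈ G} g^* f = F`, `G` the congruence group, `F` is invariant, so `F` is a coboundary.
(`n - (k+2) ≥ r + k²+...`: with `n ≥ r + (k+3)²`, `n - (k+2) ≥ r + (k+2)²`.)
-/

namespace P067X

open Classical Module

section vanishaux

variable {p m : ℕ} [Fact p.Prime] {R : Type} [CommRing R] [Algebra (ZMod p) R]
  {ι : Type} [Fintype ι] [DecidableEq ι]

private theorem van_cob_sum {V : Type*} {α : Type*} (s : Finset α)
    (f : α → Finset V → ZMod 2) (ρ : Finset V) :
    cob (fun σ => ∑ a ∈ s, f a σ) ρ = ∑ a ∈ s, cob (f a) ρ := by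
  unfold cob
  exact Finset.sum_comm

private theorem van_cobdy_sum {V : Type*} {α : Type*} (K : Set (Finset V)) (k : ℕ) (s : Finset α)
    (f : α → Finset V → ZMod 2) (h : ∀ a ∈ s, Cobdy K k (f a)) :
    Cobdy K k (fun σ => ∑ a ∈ s, f a σ) := by
  have hex : ∀ a, ∃ g : Finset V → ZMod 2, a ∈ s → ∀ σ ∈ K, σ.card = k → f a σ = cob g σ := by
    intro a
    by_cases ha : a ∈ s
    · obtain ⟨g, hg⟩ := h a ha
      exact ⟨g, fun _ => hg⟩
    · exact ⟨0, fun h => absurd h ha⟩
  choose g hg using hex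
  refine ⟨fun σ => ∑ a ∈ s, g a σ, fun σ hσ hc => ?_⟩
  rw [van_cob_sum]
  exact Finset.sum_congr rfl fun a ha => hg a ha σ hσ hc

private theorem van_cob_image (g : Matrix.SpecialLinearGroup ι R)
    (f : Finset (Submodule (ZMod p) (ι → R)) → ZMod 2)
    (ρ : Finset (Submodule (ZMod p) (ι → R))) :
    cob (fun σ => f (σ.image (fun S => S.map (gm p g.1)))) ρ =
      cob f (ρ.image (fun S => S.map (gm p g.1))) := by
  have hinj := map_gm_injective (p := p) g
  unfold cob
  rw [Finset.sum_image (fun x _ y _ h => hinj h)]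
  refine Finset.sum_congr rfl fun x _ => ?_
  show f ((ρ.erase x).image (fun S => S.map (gm p g.1))) = _
  rw [Finset.image_erase hinj]
  rfl

private theorem van_step (A : TR p m R) (hm : 3 ≤ m) (hp : p ≠ 2) (r k : ℕ)
    (hact : ∀ g ∈ A.cong ι, ∀ f, Cocyc (A.XX ι r) k f →
        Cobdy (A.XX ι r) k (fun τ => f τ + f (τ.image (fun S => S.map (gm p g.1))))) :
    Acyc (A.XX ι r) k := by
  intro f hf
  have : Finite R := A.finiteR
  have : Finite (Matrix ι ι R) := by unfold Matrix; infer_instance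
  have : Finite (Matrix.SpecialLinearGroup ι R) := Subtype.finite
  have hGfin : (A.cong ι).Finite := Set.toFinite _
  set G : Finset (Matrix.SpecialLinearGroup ι R) := hGfin.toFinset with hG
  have hmemG : ∀ g, g ∈ G ↔ g ∈ A.cong ι := fun g => hGfin.mem_toFinset
  have hodd : Odd G.card := by
    have h1 := card_cong_odd (ι := ι) A hp
    rw [Nat.card_eq_card_finite_toFinset hGfin] at h1
    exact h1
  set F : Finset (Submodule (ZMod p) (ι → R)) → ZMod 2 :=
    fun τ => ∑ g ∈ G, f (τ.image (fun S => S.map (gm p g.1))) with hF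
  have hFc : Cocyc (A.XX ι r) k F := by
    intro ρ hρ hc
    rw [hF, van_cob_sum]
    refine Finset.sum_eq_zero fun g _ => ?_
    rw [van_cob_image]
    refine hf _ ((XX_map A r g ρ).2 hρ) ?_
    rw [Finset.card_image_of_injective _ (map_gm_injective (p := p) g), hc]
  have hFi : ∀ g ∈ A.cong ι, ∀ σ ∈ A.XX ι r, F (σ.image (fun S => S.map (gm p g.1))) = F σ := by
    intro h hh σ _
    simp only [hF]
    have e1 : ∀ g : Matrix.SpecialLinearGroup ι R,
        (σ.image (fun S => S.map (gm p h.1))).image (fun S => S.map (gm p g.1)) =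
          σ.image (fun S => S.map (gm p (g * h).1)) := by
      intro g
      rw [Finset.image_image]
      refine Finset.image_congr fun S _ => ?_
      show (S.map (gm p h.1)).map (gm p g.1) = S.map (gm p (g * h).1)
      rw [Matrix.SpecialLinearGroup.coe_mul, map_gm_mul]
    refine Finset.sum_bij' (fun g _ => g * h) (fun g _ => g * h⁻¹) ?_ ?_ ?_ ?_ ?_
    · intro g hg
      exact (hmemG _).2 (A.cong_mul ((hmemG _).1 hg) hh)
    · intro g hg
      exact (hmemG _).2 (A.cong_mul ((hmemG _).1 hg) (A.cong_inv hh))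
    · intro g _
      simp
    · intro g _
      simp
    · intro g _
      rw [e1]
  have h1 := inv_cobdy hm A r k F hFc hFi
  have h2 : Cobdy (A.XX ι r) k
      (fun τ => ∑ g ∈ G, (f τ + f (τ.image (fun S => S.map (gm p g.1))))) :=
    van_cobdy_sum _ _ _ _ fun g hg => hact g ((hmemG g).1 hg) f hf
  obtain ⟨a, ha⟩ := h1
  obtain ⟨b, hb⟩ := h2
  refine ⟨fun σ => a σ + b σ, fun σ hσ hc => ?_⟩
  have hb' : (∑ g ∈ G, (f σ + f (σ.image (fun S => S.map (gm p g.1))))) = cob b σ :=
    hb σ hσ hc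
  rw [cob_add, ← ha σ hσ hc, ← hb', Finset.sum_add_distrib, Finset.sum_const]
  have e2 : G.card • f σ = f σ := by
    obtain ⟨n, hn⟩ := hodd
    rw [hn, add_smul, mul_comm, mul_smul, one_smul]
    have : ∀ x : ZMod 2, 2 • x = 0 := by decide
    rw [this, smul_zero, zero_add]
  rw [e2]
  show f σ = F σ + (f σ + F σ)
  have : ∀ x y : ZMod 2, x = y + (x + y) := by decide
  exact this _ _

private theorem van_zero (A : TR p m R) (r : ℕ) : Acyc (A.XX ι r) 0 := by
  intro f hf
  refine ⟨0, fun σ hσ hc => ?_⟩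
  have h0 : σ = ∅ := Finset.card_eq_zero.1 hc
  subst h0
  have h1 : ({A.std ⊥} : Finset (Submodule (ZMod p) (ι → R))) ∈ A.XX ι r := by
    refine (mem_XX_single A r _).2 ⟨1, ⊥, by simp, ?_⟩
    exact (map_gm_one _).symm
  have h2 := hf _ h1 (Finset.card_singleton _)
  simp only [cob, Finset.sum_singleton, Finset.erase_singleton] at h2
  rw [h2]
  simp [cob]

end vanishaux

theorem vanish (k : ℕ) : ∃ p₀ : ℕ, ∀ (p : ℕ) [Fact p.Prime], p₀ ≤ p → ∀ (m : ℕ), 3 ≤ m →
    ∀ (R : Type) [CommRing R] [Algebra (ZMod p) R] (A : TR p m R)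
      (ι : Type) [Fintype ι] [DecidableEq ι] (r : ℕ), 2 * k + 4 ≤ r →
      r + (k + 3) ^ 2 ≤ Fintype.card ι → ∀ q ≤ k, Acyc (A.XX ι r) q := by
  induction k with
  | zero =>
    refine ⟨0, ?_⟩
    intro p _ _ m hm R _ _ A ι _ _ r _ _ q hq
    obtain rfl : q = 0 := by omega
    exact van_zero A r
  | succ k ih =>
    obtain ⟨p₁, h₁⟩ := ih
    obtain ⟨p₂, h₂⟩ := colV (k + 1)
    obtain ⟨p₃, h₃⟩ := act_trivial (k + 1)
    refine ⟨p₁ + p₂ + p₃ + 3, ?_⟩
    intro p _ hp m hm R _ _ A ι _ _ r hr hι q hq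
    have hsq : (k + 1 + 3) ^ 2 = (k + 3) ^ 2 + 2 * k + 7 := by ring
    have hsq2 : (k + 3) ^ 2 = k ^ 2 + 6 * k + 9 := by ring
    rcases Nat.lt_or_ge q (k + 1) with hq1 | hq1
    · exact h₁ p (by omega) m hm R A ι r (by omega) (by omega) q (by omega)
    · obtain rfl : q = k + 1 := by omega
      refine van_step A hm (by omega) r (k + 1) ?_
      refine h₃ p (by omega) m hm R A ι r (by omega) (by omega) ?_
      rintro V ⟨hV1, hV2, hV3⟩ j hj
      obtain ⟨b, hb⟩ : ∃ b, finrank (ZMod p) V + b = Fintype.card ι :=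
        ⟨Fintype.card ι - finrank (ZMod p) V, by omega⟩
      refine h₂ p (by omega) m hm R A ι r (by omega) V b hV1 hb (by omega) j (by omega) ?_
      exact h₁ p (by omega) m hm R A (Fin b) r (by omega) (by rw [Fintype.card_fin]; omega) j
        (by omega)

end P067X
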