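import Vale.Agent.P067X.Family

/-!
# P067: truncated polynomial rings, the complex `XX`, levels, the links

`TR p m R`: `R` is (isomorphic to) `F[t]/t^m`, `F = ZMod p`, with the coefficient functions `co a`.
-/

namespace P067X

open Classical Module

/-- `R = F[t]/t^m` with its coefficient functions -/
structure TR (p m : ℕ) [Fact p.Prime] (R : Type) [CommRing R] [Algebra (ZMod p) R] where
  /-- the variable -/
  t : R
  /-- the coefficients -/
  co : ℕ → R →ₗ[ZMod p] ZMod p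
  ext : ∀ x y : R, (∀ a, co a x = co a y) → x = y
  co_ge : ∀ a x, m ≤ a → co a x = 0
  co_one : ∀ a, co a 1 = if a = 0 then 1 else 0
  co_t : ∀ a x, co (a + 1) (t * x) = if a + 1 < m then co a x else 0
  co_t_zero : ∀ x, co 0 (t * x) = 0
  surj : ∀ f : ℕ → ZMod p, ∃ x, ∀ a, a < m → co a x = f a

variable {p m : ℕ} [Fact p.Prime] {R : Type} [CommRing R] [Algebra (ZMod p) R]
  {ι : Type} [Fintype ι]

/-- coefficient vectors -/
def TR.vco (A : TR p m R) (a : ℕ) : (ι → R) →ₗ[ZMod p] (ι → ZMod p) where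
  toFun v i := A.co a (v i)
  map_add' v w := by
    funext i
    simp
  map_smul' c v := by
    funext i
    simp

/-- multiplication by `t` -/
def TR.tl (A : TR p m R) : (ι → R) →ₗ[ZMod p] (ι → R) where
  toFun v i := A.t * v i
  map_add' v w := by
    funext i
    simp [mul_add]
  map_smul' c v := by
    funext i
    simp

/-- the constant vectors -/
def cst (R : Type) [CommRing R] [Algebra (ZMod p) R] (ι : Type) :
    (ι → ZMod p) →ₗ[ZMod p] (ι → R) where
  toFun x i := algebraMap (ZMod p) R (x i)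
  map_add' v w := by
    funext i
    simp
  map_smul' c v := by
    funext i
    simp [Algebra.smul_def]

/-- the action of a matrix, as an `F`-linear map -/
def gm (p : ℕ) [Fact p.Prime] {R : Type} [CommRing R] [Algebra (ZMod p) R] {ι κ : Type}
    [Fintype ι] (M : Matrix κ ι R) : (ι → R) →ₗ[ZMod p] (κ → R) where
  toFun v := M.mulVec v
  map_add' v w := Matrix.mulVec_add M v w
  map_smul' c v := by
    simp [Matrix.mulVec_smul]

/-- the standard vertices `F^ι + t U` -/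
def TR.std (A : TR p m R) (U : Submodule (ZMod p) (ι → ZMod p)) :
    Submodule (ZMod p) (ι → R) where
  carrier := {v | A.vco 1 v ∈ U ∧ ∀ a, 2 ≤ a → A.vco a v = 0}
  add_mem' := by
    rintro v w ⟨h1, h2⟩ ⟨h3, h4⟩
    refine ⟨?_, fun a ha => ?_⟩
    · rw [map_add]; exact U.add_mem h1 h3
    · rw [map_add, h2 a ha, h4 a ha, add_zero]
  zero_mem' := by
    refine ⟨?_, fun a ha => ?_⟩
    · rw [map_zero]; exact U.zero_mem
    · rw [map_zero]
  smul_mem' := by
    rintro c v ⟨h1, h2⟩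
    refine ⟨?_, fun a ha => ?_⟩
    · rw [map_smul]; exact U.smul_mem c h1
    · rw [map_smul, h2 a ha, smul_zero]

/-- the complex `X(ι, r)`: faces `{g (F^ι + t U) : U ∈ c}`, `g ∈ SL_ι(R)`, `c` a flag of subspaces of dimension `≤ r`
(the zero subspace is allowed) -/
def TR.XX (A : TR p m R) (ι : Type) [Fintype ι] [DecidableEq ι] (r : ℕ) :
    Set (Finset (Submodule (ZMod p) (ι → R))) :=
  {σ | ∃ g : Matrix.SpecialLinearGroup ι R, ∃ c : Finset (Submodule (ZMod p) (ι → ZMod p)),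
    IsChain (· ≤ ·) (c : Set (Submodule (ZMod p) (ι → ZMod p))) ∧
    (∀ U ∈ c, finrank (ZMod p) U ≤ r) ∧
    σ = c.image (fun U => (A.std U).map (gm p g.1))}

/-- the type of a vertex -/
noncomputable def ty (S : Submodule (ZMod p) (ι → R)) : ℕ :=
  finrank (ZMod p) S - Fintype.card ι

/-- the levels: `lev S 0 = {x ∈ S | t x ∈ S}`, `lev S (e+1) = S + t lev S e` (so `lev S 1 = S`) -/
def TR.lev (A : TR p m R) (S : Submodule (ZMod p) (ι → R)) : ℕ → Submodule (ZMod p) (ι → R)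
  | 0 => S ⊓ S.comap A.tl
  | e + 1 => S ⊔ (A.lev S e).map A.tl

/-- `K(S) = U' + t U'`, `U' = lev S 0` -/
def TR.KK (A : TR p m R) (S : Submodule (ZMod p) (ι → R)) : Submodule (ZMod p) (ι → R) :=
  A.lev S 0 ⊔ (A.lev S 0).map A.tl

/-- isomorphism of complexes -/
structure CxIso {V W : Type*} (K : Set (Finset V)) (L : Set (Finset W)) (φ : V → W) : Prop where
  inj : ∀ x y, {x} ∈ K → {y} ∈ K → φ x = φ y → x = y
  mem : ∀ σ : Finset V, (∀ x ∈ σ, {x} ∈ K) → (σ ∈ K ↔ σ.image φ ∈ L)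
  surj : ∀ τ ∈ L, ∃ σ ∈ K, τ = σ.image φ

/-! ## the link of a standard vertex -/

/-- the space `(F^ι / U) × U` -/
abbrev EE (U : Submodule (ZMod p) (ι → ZMod p)) : Type := ((ι → ZMod p) ⧸ U) × ↥U

/-- the subspace `0 × U` -/
def JJ (U : Submodule (ZMod p) (ι → ZMod p)) : Submodule (ZMod p) (EE U) :=
  Submodule.prod ⊥ ⊤

/-- `(x mod U, y) ∈ T` (and `y ∈ U`) -/
def PT {U : Submodule (ZMod p) (ι → ZMod p)} (T : Submodule (ZMod p) (EE U))
    (x y : ι → ZMod p) : Prop :=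
  ∃ h : y ∈ U, ((Submodule.Quotient.mk x : (ι → ZMod p) ⧸ U), (⟨y, h⟩ : ↥U)) ∈ T

/-- `{v ∈ std U | (v_0, v_1) ∈ T}` -/
def TR.dn (A : TR p m R) {U : Submodule (ZMod p) (ι → ZMod p)}
    (T : Submodule (ZMod p) (EE U)) : Submodule (ZMod p) (ι → R) where
  carrier := {v | v ∈ A.std U ∧ PT T (A.vco 0 v) (A.vco 1 v)}
  add_mem' := by
    rintro v w ⟨h1, h2, h3⟩ ⟨h4, h5, h6⟩
    refine ⟨(A.std U).add_mem h1 h4, ?_⟩
    rw [map_add, map_add]
    exact ⟨U.add_mem h2 h5, T.add_mem h3 h6⟩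
  zero_mem' := by
    refine ⟨(A.std U).zero_mem, ?_⟩
    rw [map_zero, map_zero]
    exact ⟨U.zero_mem, T.zero_mem⟩
  smul_mem' := by
    rintro c v ⟨h1, h2, h3⟩
    refine ⟨(A.std U).smul_mem c h1, ?_⟩
    rw [map_smul, map_smul]
    exact ⟨U.smul_mem c h2, T.smul_mem c h3⟩

/-- `std U + t dn T` -/
def TR.up (A : TR p m R) {U : Submodule (ZMod p) (ι → ZMod p)}
    (T : Submodule (ZMod p) (EE U)) : Submodule (ZMod p) (ι → R) :=
  A.std U ⊔ (A.dn T).map A.tl

/-- the vertex of the link of `std U` given by `T` -/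
noncomputable def TR.lv (A : TR p m R) {U : Submodule (ZMod p) (ι → ZMod p)}
    (T : Submodule (ZMod p) (EE U)) : Submodule (ZMod p) (ι → R) :=
  if T ⊔ JJ U = ⊤ then A.dn T else A.up T

/-- the coefficient `e - 1` (zero for `e = 0`) -/
def TR.pco (A : TR p m R) (e : ℕ) (v : ι → R) : ι → ZMod p :=
  if e = 0 then 0 else A.vco (e - 1) v

/-! ## the subcomplexes of vectors and of functionals -/

/-- the subcomplex `X^V`: `V ≤ S`, `V ∩ K(S) = 0` -/
def TR.XV (A : TR p m R) (ι : Type) [Fintype ι] [DecidableEq ι] (r : ℕ)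
    (V : Submodule (ZMod p) (ι → R)) :
    Set (Finset (Submodule (ZMod p) (ι → R))) :=
  Full (A.XX ι r) (fun S => V ≤ S ∧ V ⊓ A.KK S = ⊥)

/-- the subcomplex `X^ξ`: `ξ(S) ≤ F` -/
def TR.XF (A : TR p m R) (ι : Type) [Fintype ι] [DecidableEq ι] (r : ℕ)
    (ξ : (ι → R) →ₗ[R] R) :
    Set (Finset (Submodule (ZMod p) (ι → R))) :=
  Full (A.XX ι r) (fun S => ∀ v ∈ S, ∃ c : ZMod p, ξ v = algebraMap (ZMod p) R c)

/-- the standard `V = F^κ` in `R^(κ ⊕ ι)` -/
def VV (R : Type) [CommRing R] [Algebra (ZMod p) R] (κ ι : Type) :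
    Submodule (ZMod p) (κ ⊕ ι → R) where
  carrier := {v | (∀ i : κ, ∃ c : ZMod p, v (Sum.inl i) = algebraMap (ZMod p) R c) ∧
    ∀ i : ι, v (Sum.inr i) = 0}
  add_mem' := by
    rintro v w ⟨h1, h2⟩ ⟨h3, h4⟩
    refine ⟨fun i => ?_, fun i => ?_⟩
    · obtain ⟨a, ha⟩ := h1 i
      obtain ⟨b, hb⟩ := h3 i
      exact ⟨a + b, by rw [Pi.add_apply, ha, hb, map_add]⟩
    · rw [Pi.add_apply, h2 i, h4 i, add_zero]
  zero_mem' := ⟨fun i => ⟨0, by simp⟩, fun i => rfl⟩
  smul_mem' := by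
    rintro c v ⟨h1, h2⟩
    refine ⟨fun i => ?_, fun i => ?_⟩
    · obtain ⟨a, ha⟩ := h1 i
      exact ⟨c * a, by rw [Pi.smul_apply, ha, map_mul, Algebra.smul_def]⟩
    · rw [Pi.smul_apply, h2 i, smul_zero]

/-- `(1+q)(F^κ + S)`: the vectors `v` with `v_ι ∈ S`, `v_κ - q v_ι` constant -/
def liftV {κ ι : Type} [Fintype ι] (q : Matrix κ ι R) (S : Submodule (ZMod p) (ι → R)) :
    Submodule (ZMod p) (κ ⊕ ι → R) where
  carrier := {v | (fun i => v (Sum.inr i)) ∈ S ∧ ∀ i : κ, ∃ c : ZMod p,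
    v (Sum.inl i) - q.mulVec (fun j => v (Sum.inr j)) i = algebraMap (ZMod p) R c}
  add_mem' := by
    rintro v w ⟨h1, h2⟩ ⟨h3, h4⟩
    refine ⟨S.add_mem h1 h3, fun i => ?_⟩
    obtain ⟨a, ha⟩ := h2 i
    obtain ⟨b, hb⟩ := h4 i
    refine ⟨a + b, ?_⟩
    have : q.mulVec (fun j => (v + w) (Sum.inr j)) =
        q.mulVec (fun j => v (Sum.inr j)) + q.mulVec (fun j => w (Sum.inr j)) := by
      rw [← Matrix.mulVec_add]; rfl
    rw [this, map_add, ← ha, ← hb, Pi.add_apply, Pi.add_apply]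
    ring
  zero_mem' := by
    refine ⟨S.zero_mem, fun i => ⟨0, ?_⟩⟩
    have : q.mulVec (fun j => (0 : κ ⊕ ι → R) (Sum.inr j)) = 0 := Matrix.mulVec_zero q
    rw [this]
    simp
  smul_mem' := by
    rintro c v ⟨h1, h2⟩
    refine ⟨S.smul_mem c h1, fun i => ?_⟩
    obtain ⟨a, ha⟩ := h2 i
    refine ⟨c * a, ?_⟩
    have : q.mulVec (fun j => (c • v) (Sum.inr j)) =
        c • q.mulVec (fun j => v (Sum.inr j)) := by
      rw [← Matrix.mulVec_smul]; rfl
    rw [this, map_mul, ← ha, Pi.smul_apply, Pi.smul_apply, Algebra.smul_def, Algebra.smul_def]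
    ring

/-- the maps `q` with `q(S) ≤ F^κ` -/
def QSV {κ ι : Type} [Fintype ι] (S : Submodule (ZMod p) (ι → R)) :
    Submodule (ZMod p) (Matrix κ ι R) where
  carrier := {q | ∀ v ∈ S, ∀ i : κ, ∃ c : ZMod p, q.mulVec v i = algebraMap (ZMod p) R c}
  add_mem' := by
    rintro q q' h1 h2 v hv i
    obtain ⟨a, ha⟩ := h1 v hv i
    obtain ⟨b, hb⟩ := h2 v hv i
    exact ⟨a + b, by rw [Matrix.add_mulVec, Pi.add_apply, ha, hb, map_add]⟩
  zero_mem' := by
    intro v hv i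
    exact ⟨0, by simp⟩
  smul_mem' := by
    rintro c q h1 v hv i
    obtain ⟨a, ha⟩ := h1 v hv i
    exact ⟨c * a, by rw [Matrix.smul_mulVec, Pi.smul_apply, ha, map_mul, Algebra.smul_def]⟩

/-- `F (e + u) + S`: the vectors `v` with `v_0 = c` constant and `v_ι - c u ∈ S` -/
def liftF {ι : Type} (u : ι → R) (S : Submodule (ZMod p) (ι → R)) :
    Submodule (ZMod p) (Unit ⊕ ι → R) where
  carrier := {v | ∃ c : ZMod p, v (Sum.inl ()) = algebraMap (ZMod p) R c ∧
    (fun i => v (Sum.inr i) - c • u i) ∈ S}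
  add_mem' := by
    rintro v w ⟨c, h1, h2⟩ ⟨c', h3, h4⟩
    refine ⟨c + c', by rw [Pi.add_apply, h1, h3, map_add], ?_⟩
    have h5 : (fun i => (v + w) (Sum.inr i) - (c + c') • u i) =
        (fun i => v (Sum.inr i) - c • u i) + (fun i => w (Sum.inr i) - c' • u i) := by
      funext i
      simp only [Pi.add_apply, add_smul]
      ring
    rw [h5]
    exact S.add_mem h2 h4
  zero_mem' := by
    refine ⟨0, by simp, ?_⟩
    have h5 : (fun i => (0 : Unit ⊕ ι → R) (Sum.inr i) - (0 : ZMod p) • u i) = 0 := by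
      funext i
      simp
    rw [h5]
    exact S.zero_mem
  smul_mem' := by
    rintro a v ⟨c, h1, h2⟩
    refine ⟨a * c, by rw [Pi.smul_apply, h1, map_mul, Algebra.smul_def], ?_⟩
    have h5 : (fun i => (a • v) (Sum.inr i) - (a * c) • u i) =
        a • (fun i => v (Sum.inr i) - c • u i) := by
      funext i
      simp only [Pi.smul_apply, smul_sub, mul_smul]
    rw [h5]
    exact S.smul_mem a h2

end P067X
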